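import Crest.Agent.R332.Defs

/-!
# R332 piece A1: scalar integral representations of `x^ν` and `x^(1+ν)`, `0 < ν < 1`

* `kap ν = ∫₀^∞ τ^(2ν-1) (1 - τ/√(τ²+1)) dτ > 0` (integrand positive; `~ τ^(2ν-1)` at 0 and
  `1 - τ/√(τ²+1) = 1/(√(τ²+1)(√(τ²+1)+τ)) ≤ 1/(2τ²)` so `≤ τ^(2ν-3)/2` at ∞).
* `scal1`: substitution `τ = √x σ` (for `x = 0` everything is 0).
* `scal2`: substitution `τ = √y σ`, and for `y = 1` the antiderivative
  `σ^(2ν) (√(σ²+1) - σ)² / 2` of `(1+ν) σ^(2ν-1) (√(σ²+1)-σ)² - σ^(2ν-1) (1 - σ/√(σ²+1))`.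
-/

set_option autoImplicit false
open MeasureTheory Set

namespace Crest.Agent.R332

namespace A1_aux

/-- the integrand for `x = 1` -/
noncomputable def g1 (ν : ℝ) (τ : ℝ) : ℝ := τ ^ (2 * ν - 1) * (1 - τ / √(τ ^ 2 + 1))

noncomputable def g2 (ν : ℝ) (τ : ℝ) : ℝ := τ ^ (2 * ν - 1) * (√(τ ^ 2 + 1) - τ) ^ 2

theorem sq_pos' (τ : ℝ) : 0 < √(τ ^ 2 + 1) := Real.sqrt_pos.mpr (by positivity)

theorem sq_sq (τ : ℝ) : √(τ ^ 2 + 1) ^ 2 = τ ^ 2 + 1 := Real.sq_sqrt (by positivity)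

theorem lt_sq (τ : ℝ) : τ < √(τ ^ 2 + 1) := by
  apply Real.lt_sqrt_of_sq_lt
  linarith

theorem w_pos (τ : ℝ) : 0 < 1 - τ / √(τ ^ 2 + 1) := by
  have h := sq_pos' τ
  have : τ / √(τ ^ 2 + 1) < 1 := by
    rw [div_lt_one h]
    exact lt_sq τ
  linarith

theorem w_le_one {τ : ℝ} (hτ : 0 ≤ τ) : 1 - τ / √(τ ^ 2 + 1) ≤ 1 := by
  have h := sq_pos' τ
  have : 0 ≤ τ / √(τ ^ 2 + 1) := by positivity
  linarith

theorem w_le {τ : ℝ} (hτ : 0 < τ) : 1 - τ / √(τ ^ 2 + 1) ≤ τ ^ (-2 : ℝ) := by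
  have h := sq_pos' τ
  have h2 := sq_sq τ
  have h3 := lt_sq τ
  have e : τ ^ (-2 : ℝ) = 1 / τ ^ 2 := by
    rw [Real.rpow_neg hτ.le, Real.rpow_two, one_div]
  rw [e]
  have : 1 - τ / √(τ ^ 2 + 1) = (√(τ ^ 2 + 1) - τ) / √(τ ^ 2 + 1) := by
    field_simp
  rw [this, div_le_div_iff₀ h (by positivity)]
  set s := √(τ ^ 2 + 1)
  have h4 : (s - τ) * (s + τ) = 1 := by nlinarith
  have h5 : (s - τ) * τ ≤ 1 := by nlinarith
  have h6 : 0 < s - τ := by linarith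
  nlinarith [mul_le_mul_of_nonneg_right h5 hτ.le]

theorem v_nonneg (τ : ℝ) : 0 ≤ (√(τ ^ 2 + 1) - τ) ^ 2 := sq_nonneg _

theorem v_le_w {τ : ℝ} (hτ : 0 ≤ τ) : (√(τ ^ 2 + 1) - τ) ^ 2 ≤ 1 - τ / √(τ ^ 2 + 1) := by
  have h := sq_pos' τ
  have h2 := sq_sq τ
  have h3 := lt_sq τ
  have : 1 - τ / √(τ ^ 2 + 1) = (√(τ ^ 2 + 1) - τ) / √(τ ^ 2 + 1) := by
    field_simp
  rw [this, le_div_iff₀ h]
  set s := √(τ ^ 2 + 1)
  have h4 : (s - τ) * (s + τ) = 1 := by nlinarith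
  have h6 : 0 < s - τ := by linarith
  have h7 : (s - τ) * s ≤ 1 := by nlinarith
  nlinarith [mul_le_mul_of_nonneg_left h7 h6.le]

theorem cont_w : Continuous (fun τ : ℝ => 1 - τ / √(τ ^ 2 + 1)) := by
  refine continuous_const.sub (continuous_id.div (by fun_prop) ?_)
  intro x
  exact (sq_pos' x).ne'

theorem meas_rpow (s : ℝ) : Measurable (fun τ : ℝ => τ ^ s) := by fun_prop

/-- dominating function -/
theorem dom {ν : ℝ} (h0 : 0 < ν) (h1 : ν < 1) {w : ℝ → ℝ} (hw : Measurable w)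
    (hw0 : ∀ τ, 0 ≤ τ → 0 ≤ w τ) (hw1 : ∀ τ, 0 ≤ τ → w τ ≤ 1)
    (hw2 : ∀ τ, 0 < τ → w τ ≤ τ ^ (-2 : ℝ)) :
    IntegrableOn (fun τ : ℝ => τ ^ (2 * ν - 1) * w τ) (Ioi 0) := by
  have hu : Ioi (0:ℝ) = Ioc 0 1 ∪ Ioi 1 := (Ioc_union_Ioi_eq_Ioi zero_le_one).symm
  rw [hu]
  refine IntegrableOn.union ?_ ?_
  · have hI : IntegrableOn (fun τ : ℝ => τ ^ (2 * ν - 1)) (Ioc 0 1) := by
      rw [← intervalIntegrable_iff_integrableOn_Ioc_of_le zero_le_one]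
      exact intervalIntegral.intervalIntegrable_rpow' (by linarith)
    refine Integrable.mono' hI ((meas_rpow _).mul hw).aestronglyMeasurable ?_
    refine (ae_restrict_mem measurableSet_Ioc).mono ?_
    intro τ hτ
    have hp : 0 ≤ τ ^ (2 * ν - 1) := Real.rpow_nonneg hτ.1.le _
    rw [Real.norm_of_nonneg (mul_nonneg hp (hw0 τ hτ.1.le))]
    calc _ ≤ τ ^ (2 * ν - 1) * 1 := mul_le_mul_of_nonneg_left (hw1 τ hτ.1.le) hp
      _ = _ := mul_one _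
  · have hI : IntegrableOn (fun τ : ℝ => τ ^ (2 * ν - 3)) (Ioi 1) :=
      integrableOn_Ioi_rpow_of_lt (by linarith) one_pos
    refine Integrable.mono' hI ((meas_rpow _).mul hw).aestronglyMeasurable ?_
    refine (ae_restrict_mem measurableSet_Ioi).mono ?_
    intro τ hτ
    have hτ0 : 0 < τ := lt_trans one_pos hτ
    have hp : 0 ≤ τ ^ (2 * ν - 1) := Real.rpow_nonneg hτ0.le _
    rw [Real.norm_of_nonneg (mul_nonneg hp (hw0 τ hτ0.le))]
    calc _ ≤ τ ^ (2 * ν - 1) * τ ^ (-2 : ℝ) := mul_le_mul_of_nonneg_left (hw2 τ hτ0) hp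
      _ = _ := by
        rw [← Real.rpow_add hτ0]
        congr 1
        ring

theorem int_g1 {ν : ℝ} (h0 : 0 < ν) (h1 : ν < 1) : IntegrableOn (g1 ν) (Ioi 0) :=
  dom h0 h1 cont_w.measurable (fun τ _ => (w_pos τ).le) (fun _ h => w_le_one h)
    (fun _ h => w_le h)

theorem int_g2 {ν : ℝ} (h0 : 0 < ν) (h1 : ν < 1) : IntegrableOn (g2 ν) (Ioi 0) :=
  dom h0 h1 (by fun_prop) (fun τ _ => v_nonneg τ)
    (fun τ h => (v_le_w h).trans (w_le_one h))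
    (fun τ h => (v_le_w h.le).trans (w_le h))

theorem kap_eq (ν : ℝ) : kap ν = ∫ τ in Ioi (0:ℝ), g1 ν τ := rfl

/-- the antiderivative -/
noncomputable def FF (ν : ℝ) (τ : ℝ) : ℝ := τ ^ (2 * ν) * ((√(τ ^ 2 + 1) - τ) ^ 2 / 2)

theorem hasDeriv_FF (ν : ℝ) {τ : ℝ} (hτ : 0 < τ) :
    HasDerivAt (FF ν) ((1 + ν) * g2 ν τ - g1 ν τ) τ := by
  have h := sq_pos' τ
  have h2 := sq_sq τ
  have d1 : HasDerivAt (fun t : ℝ => t ^ (2 * ν)) (2 * ν * τ ^ (2 * ν - 1)) τ :=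
    Real.hasDerivAt_rpow_const (Or.inl hτ.ne')
  have d2 : HasDerivAt (fun t : ℝ => √(t ^ 2 + 1)) (τ / √(τ ^ 2 + 1)) τ := by
    have a : HasDerivAt (fun t : ℝ => t ^ 2 + 1) (2 * τ) τ := by
      simpa using (hasDerivAt_pow 2 τ).add_const 1
    have b := a.sqrt (by positivity : τ ^ 2 + 1 ≠ 0)
    convert b using 1
    field_simp
  have d3 : HasDerivAt (fun t : ℝ => (√(t ^ 2 + 1) - t) ^ 2 / 2)
      ((√(τ ^ 2 + 1) - τ) * (τ / √(τ ^ 2 + 1) - 1)) τ := by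
    have a0 : HasDerivAt (fun t : ℝ => √(t ^ 2 + 1) - t) (τ / √(τ ^ 2 + 1) - 1) τ :=
      d2.sub (hasDerivAt_id τ)
    have a : HasDerivAt (fun t : ℝ => (√(t ^ 2 + 1) - t) ^ 2 / 2) _ τ :=
      (a0.pow 2).div_const 2
    refine a.congr_deriv ?_
    simp
    ring
  have d4 := d1.mul d3
  refine d4.congr_deriv ?_
  unfold g1 g2
  have e : τ ^ (2 * ν) = τ ^ (2 * ν - 1) * τ := by
    rw [← Real.rpow_add_one hτ.ne']
    congr 1
    ring
  rw [e]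
  set s := √(τ ^ 2 + 1)
  set q := τ ^ (2 * ν - 1)
  field_simp
  have h2' : s ^ 2 = τ ^ 2 + 1 := h2
  have h3 : s ^ 3 = s * (τ ^ 2 + 1) := by rw [← h2']; ring
  ring_nf
  rw [h3, h2']
  ring

theorem tendsto_FF {ν : ℝ} (h1 : ν < 1) :
    Filter.Tendsto (FF ν) Filter.atTop (nhds 0) := by
  have hT : Filter.Tendsto (fun τ : ℝ => τ ^ (2 * ν - 2)) Filter.atTop (nhds 0) := by
    have := tendsto_rpow_neg_atTop (y := 2 - 2 * ν) (by linarith)
    simpa [neg_sub] using this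
  refine squeeze_zero' (g := fun τ : ℝ => τ ^ (2 * ν - 2)) ?_ ?_ hT
  · filter_upwards [Filter.eventually_gt_atTop 0] with τ hτ
    have := Real.rpow_nonneg hτ.le (2 * ν)
    unfold FF
    positivity
  · filter_upwards [Filter.eventually_gt_atTop 0] with τ hτ
    have hp := Real.rpow_nonneg hτ.le (2 * ν)
    have hv : (√(τ ^ 2 + 1) - τ) ^ 2 ≤ τ ^ (-2 : ℝ) := (v_le_w hτ.le).trans (w_le hτ)
    have hv0 := v_nonneg τ
    unfold FF
    calc _ ≤ τ ^ (2 * ν) * τ ^ (-2 : ℝ) := mul_le_mul_of_nonneg_left (by linarith) hp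
      _ = _ := by
        rw [← Real.rpow_add hτ]
        congr 1

theorem int_rel {ν : ℝ} (h0 : 0 < ν) (h1 : ν < 1) :
    ∫ τ in Ioi (0:ℝ), g2 ν τ = kap ν / (1 + ν) := by
  have hi : IntegrableOn (fun τ => (1 + ν) * g2 ν τ - g1 ν τ) (Ioi 0) :=
    ((int_g2 h0 h1).const_mul _).sub (int_g1 h0 h1)
  have hc : ContinuousWithinAt (FF ν) (Ici 0) 0 := by
    apply ContinuousAt.continuousWithinAt
    unfold FF
    refine ContinuousAt.mul ?_ (by fun_prop)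
    exact Real.continuousAt_rpow_const _ _ (Or.inr (by linarith))
  have key := integral_Ioi_of_hasDerivAt_of_tendsto hc
    (fun τ hτ => hasDeriv_FF ν hτ) hi (tendsto_FF h1)
  have hF0 : FF ν 0 = 0 := by
    unfold FF
    rw [Real.zero_rpow (by linarith), zero_mul]
  rw [hF0, sub_zero, integral_sub ((int_g2 h0 h1).const_mul _) (int_g1 h0 h1),
    integral_const_mul, ← kap_eq] at key
  rw [eq_div_iff (by linarith)]
  linarith

/-- scaling -/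
theorem scale {a : ℝ} (ha : 0 < a) {g h : ℝ → ℝ} {c : ℝ} (_hc : c ≠ 0)
    (hg : IntegrableOn g (Ioi 0))
    (hh : ∀ σ, 0 < σ → h (a * σ) = c * g σ) :
    IntegrableOn h (Ioi 0) ∧ ∫ τ in Ioi (0:ℝ), h τ = a * c * ∫ τ in Ioi (0:ℝ), g τ := by
  have e : EqOn (fun σ => h (a * σ)) (fun σ => c * g σ) (Ioi 0) := fun σ hσ => hh σ hσ
  constructor
  · have h1 : IntegrableOn (fun σ => h (a * σ)) (Ioi 0) :=
      (integrableOn_congr_fun e measurableSet_Ioi).mpr (hg.const_mul c)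
    have := (integrableOn_Ioi_comp_mul_left_iff h 0 ha).mp h1
    simpa using this
  · have h2 : ∫ σ in Ioi (0:ℝ), h (a * σ) = c * ∫ σ in Ioi (0:ℝ), g σ := by
      rw [setIntegral_congr_fun measurableSet_Ioi e, integral_const_mul]
    have h3 := integral_comp_mul_left_Ioi h 0 ha
    rw [h2, mul_zero, smul_eq_mul] at h3
    rw [mul_assoc, h3]
    field_simp

end A1_aux

open A1_aux

theorem kap_pos {ν : ℝ} (h0 : 0 < ν) (h1 : ν < 1) : 0 < kap ν := by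
  rw [kap_eq]
  rw [setIntegral_pos_iff_support_of_nonneg_ae _ (int_g1 h0 h1)]
  · have : Ioi (0:ℝ) ⊆ Function.support (g1 ν) ∩ Ioi 0 := by
      intro τ hτ
      refine ⟨?_, hτ⟩
      have : 0 < τ ^ (2 * ν - 1) := Real.rpow_pos_of_pos hτ _
      exact (mul_pos this (w_pos τ)).ne'
    refine lt_of_lt_of_le ?_ (measure_mono this)
    simp
  · refine (ae_restrict_mem measurableSet_Ioi).mono ?_
    intro τ hτ
    have : 0 < τ ^ (2 * ν - 1) := Real.rpow_pos_of_pos hτ _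
    exact (mul_pos this (w_pos τ)).le

theorem scal1 {ν : ℝ} (h0 : 0 < ν) (h1 : ν < 1) {x : ℝ} (hx : 0 ≤ x) :
    IntegrableOn (fun τ : ℝ => τ ^ (2 * ν - 1) * (1 - τ / √(τ ^ 2 + x))) (Ioi 0) ∧
    ∫ τ in Ioi (0:ℝ), τ ^ (2 * ν - 1) * (1 - τ / √(τ ^ 2 + x)) = kap ν * x ^ ν := by
  rcases hx.eq_or_lt with rfl | hx
  · have e : EqOn (fun τ : ℝ => τ ^ (2 * ν - 1) * (1 - τ / √(τ ^ 2 + 0))) (fun _ => 0)
        (Ioi 0) := by
      intro τ hτ
      have hτ' : (0:ℝ) < τ := hτ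
      simp only [add_zero]
      rw [Real.sqrt_sq hτ'.le, div_self hτ'.ne', sub_self, mul_zero]
    constructor
    · exact (integrableOn_congr_fun e measurableSet_Ioi).mpr integrableOn_zero
    · rw [setIntegral_congr_fun measurableSet_Ioi e, integral_zero, Real.zero_rpow h0.ne',
        mul_zero]
  · have ha : 0 < √x := Real.sqrt_pos.mpr hx
    have key := scale ha (c := √x ^ (2 * ν - 1)) (Real.rpow_pos_of_pos ha _).ne'
      (int_g1 h0 h1) (h := fun τ : ℝ => τ ^ (2 * ν - 1) * (1 - τ / √(τ ^ 2 + x))) (by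
        intro σ hσ
        have e1 : (√x * σ) ^ 2 + x = x * (σ ^ 2 + 1) := by
          rw [mul_pow, Real.sq_sqrt hx.le]
          ring
        unfold g1
        rw [e1, Real.sqrt_mul hx.le, Real.mul_rpow ha.le hσ.le, mul_div_mul_left _ _ ha.ne']
        ring)
    refine ⟨key.1, ?_⟩
    rw [key.2, ← kap_eq]
    have e2 : √x * √x ^ (2 * ν - 1) = x ^ ν := by
      rw [Real.sqrt_eq_rpow, ← Real.rpow_mul hx.le, ← Real.rpow_add hx]
      congr 1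
      ring
    rw [e2, mul_comm]

theorem scal2 {ν : ℝ} (h0 : 0 < ν) (h1 : ν < 1) {y : ℝ} (hy : 0 ≤ y) :
    IntegrableOn (fun τ : ℝ => τ ^ (2 * ν - 1) * (√(τ ^ 2 + y) - τ) ^ 2) (Ioi 0) ∧
    ∫ τ in Ioi (0:ℝ), τ ^ (2 * ν - 1) * (√(τ ^ 2 + y) - τ) ^ 2 =
      kap ν * y ^ (1 + ν) / (1 + ν) := by
  rcases hy.eq_or_lt with rfl | hy
  · have e : EqOn (fun τ : ℝ => τ ^ (2 * ν - 1) * (√(τ ^ 2 + 0) - τ) ^ 2) (fun _ => 0)
        (Ioi 0) := by
      intro τ hτ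
      have hτ' : (0:ℝ) < τ := hτ
      simp only [add_zero]
      rw [Real.sqrt_sq hτ'.le, sub_self]
      simp
    constructor
    · exact (integrableOn_congr_fun e measurableSet_Ioi).mpr integrableOn_zero
    · rw [setIntegral_congr_fun measurableSet_Ioi e, integral_zero,
        Real.zero_rpow (by linarith), mul_zero, zero_div]
  · have ha : 0 < √y := Real.sqrt_pos.mpr hy
    have key := scale ha (c := √y ^ (2 * ν - 1) * y)
      (mul_pos (Real.rpow_pos_of_pos ha _) hy).ne'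
      (int_g2 h0 h1) (h := fun τ : ℝ => τ ^ (2 * ν - 1) * (√(τ ^ 2 + y) - τ) ^ 2) (by
        intro σ hσ
        have e1 : (√y * σ) ^ 2 + y = y * (σ ^ 2 + 1) := by
          rw [mul_pow, Real.sq_sqrt hy.le]
          ring
        unfold g2
        rw [e1, Real.sqrt_mul hy.le, Real.mul_rpow ha.le hσ.le, ← mul_sub, mul_pow,
          Real.sq_sqrt hy.le]
        ring)
    refine ⟨key.1, ?_⟩
    rw [key.2, int_rel h0 h1]
    have e2 : √y * (√y ^ (2 * ν - 1) * y) = y ^ (1 + ν) := by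
      rw [Real.sqrt_eq_rpow, ← Real.rpow_mul hy.le, ← mul_assoc, ← Real.rpow_add hy,
        ← Real.rpow_add_one hy.ne']
      congr 1
      ring
    rw [e2]
    ring

end Crest.Agent.R332
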