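import Crest.Agent.R332.Defs

/-!
# R332 piece A2: the sharp constant as a Beta integral

`sharpConst (ν+1/2) = (ν/(1+ν))^ν Γ(ν+3/2) / (√π Γ(ν+2))` and
`∫_{-κ}^{κ} (κ²-s²)^ν ds = κ^(2ν+1) √π Γ(ν+1)/Γ(ν+3/2)` (Beta integral), so the product below
telescopes to `κ^(2ν+1)`.

`soliton_int`: `soliton r a c x = (r+1) a² / cosh(r a (x-c))²`, `r = 1/ν`; substitution
`s = a tanh(r a (x-c))`, `ds = r (a² - s²) dx`, `soliton = (r+1)(a²-s²)`:
`∫ soliton^(1+ν) dx = ((1+ν)/ν)^(1+ν) ν ∫_{-a}^{a} (a²-s²)^ν ds`, then `beta_sharp`.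
-/

set_option autoImplicit false
open MeasureTheory Set
open Crest.MathPhysics.LiebThirring

namespace Crest.Agent.R332

namespace A2_aux

lemma beta01 {ν : ℝ} (h0 : 0 < ν) :
    ∫ t in (0:ℝ)..1, (t * (1 - t)) ^ ν = Real.Gamma (ν + 1) ^ 2 / Real.Gamma (2 * ν + 2) := by
  have h1 := ProbabilityTheory.beta_eq_betaIntegralReal (ν + 1) (ν + 1) (by linarith) (by linarith)
  have h2 : Complex.betaIntegral ((ν + 1 : ℝ) : ℂ) ((ν + 1 : ℝ) : ℂ) =
      ((∫ t in (0:ℝ)..1, (t * (1 - t)) ^ ν : ℝ) : ℂ) := by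
    rw [Complex.betaIntegral, ← intervalIntegral.integral_ofReal]
    refine intervalIntegral.integral_congr fun x hx => ?_
    rw [uIcc_of_le zero_le_one] at hx
    have hx0 := hx.1
    have hx1 : (0:ℝ) ≤ 1 - x := by linarith [hx.2]
    rw [Real.mul_rpow hx0 hx1, Complex.ofReal_mul, Complex.ofReal_cpow hx0,
      Complex.ofReal_cpow hx1]
    push_cast
    ring_nf
  rw [h2, Complex.ofReal_re] at h1
  rw [← h1, ProbabilityTheory.beta]
  ring_nf

lemma betaK {ν : ℝ} (h0 : 0 < ν) {κ : ℝ} (hκ : 0 < κ) :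
    ∫ s in (-κ)..κ, (κ ^ 2 - s ^ 2) ^ ν =
      κ ^ (2 * ν + 1) * (√Real.pi * Real.Gamma (ν + 1) / Real.Gamma (ν + 3 / 2)) := by
  have h1 := intervalIntegral.mul_integral_comp_mul_sub (a := 0) (b := 1)
    (f := fun s => (κ ^ 2 - s ^ 2) ^ ν) (2 * κ) κ
  have e1 : 2 * κ * 0 - κ = -κ := by ring
  have e2 : 2 * κ * 1 - κ = κ := by ring
  rw [e1, e2] at h1
  rw [← h1]
  have h2 : ∫ x in (0:ℝ)..1, (κ ^ 2 - (2 * κ * x - κ) ^ 2) ^ ν =
      (2 * κ) ^ (2 * ν) * ∫ t in (0:ℝ)..1, (t * (1 - t)) ^ ν := by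
    rw [← intervalIntegral.integral_const_mul]
    refine intervalIntegral.integral_congr fun x hx => ?_
    rw [uIcc_of_le zero_le_one] at hx
    have hx0 := hx.1
    have hx1 : (0:ℝ) ≤ 1 - x := by linarith [hx.2]
    have : κ ^ 2 - (2 * κ * x - κ) ^ 2 = (2 * κ) ^ 2 * (x * (1 - x)) := by ring
    rw [this, Real.mul_rpow (by positivity) (by positivity), ← Real.rpow_natCast (2 * κ) 2,
      ← Real.rpow_mul (by positivity)]
    norm_num
  have h2κ : (0:ℝ) < 2 * κ := by positivity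
  have hG := Real.Gamma_mul_Gamma_add_half (ν + 1)
  have e3 : 2 * (ν + 1) = 2 * ν + 2 := by ring
  have e4 : ν + 1 + 1 / 2 = ν + 3 / 2 := by ring
  rw [e3, e4] at hG
  have g1 : 0 < Real.Gamma (ν + 1) := Real.Gamma_pos_of_pos (by linarith)
  have g2 : 0 < Real.Gamma (2 * ν + 2) := Real.Gamma_pos_of_pos (by linarith)
  have g3 : 0 < Real.Gamma (ν + 3 / 2) := Real.Gamma_pos_of_pos (by linarith)
  have gp : 0 < √Real.pi := Real.sqrt_pos.mpr Real.pi_pos
  rw [h2, beta01 h0]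
  have e5 : 2 * κ * ((2 * κ) ^ (2 * ν) * (Real.Gamma (ν + 1) ^ 2 / Real.Gamma (2 * ν + 2))) =
      (2 * κ) ^ (2 * ν + 1) * (Real.Gamma (ν + 1) ^ 2 / Real.Gamma (2 * ν + 2)) := by
    rw [Real.rpow_add h2κ, Real.rpow_one]; ring
  rw [e5, Real.mul_rpow (by norm_num) hκ.le]
  have e6 : (2:ℝ) ^ (1 - (2 * ν + 2)) = ((2:ℝ) ^ (2 * ν + 1))⁻¹ := by
    rw [← Real.rpow_neg (by norm_num)]; ring_nf
  rw [e6] at hG
  have g4 : (0:ℝ) < 2 ^ (2 * ν + 1) := by positivity
  have hG' : (2:ℝ) ^ (2 * ν + 1) * (Real.Gamma (ν + 1) * Real.Gamma (ν + 3 / 2)) =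
      Real.Gamma (2 * ν + 2) * √Real.pi := by
    rw [hG]; field_simp
  rw [mul_assoc, mul_left_comm]
  congr 1
  rw [← mul_div_assoc, div_eq_div_iff g2.ne' g3.ne']
  calc 2 ^ (2 * ν + 1) * Real.Gamma (ν + 1) ^ 2 * Real.Gamma (ν + 3 / 2)
      = (2 ^ (2 * ν + 1) * (Real.Gamma (ν + 1) * Real.Gamma (ν + 3 / 2))) *
        Real.Gamma (ν + 1) := by ring
    _ = _ := by rw [hG']; ring

end A2_aux

theorem sharpConst_pos {ν : ℝ} (h0 : 0 < ν) : 0 < sharpConst (ν + 1 / 2) := by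
  unfold sharpConst
  have h1 : 0 < Real.Gamma (ν + 1 / 2 + 1) := Real.Gamma_pos_of_pos (by linarith)
  have h2 : 0 < Real.Gamma (ν + 1 / 2 + 3 / 2) := Real.Gamma_pos_of_pos (by linarith)
  have h3 : (0:ℝ) < (ν + 1 / 2 - 1 / 2) / (ν + 1 / 2 + 1 / 2) := by
    apply div_pos <;> linarith
  have h4 : 0 < √Real.pi := Real.sqrt_pos.mpr Real.pi_pos
  positivity

theorem beta_sharp {ν : ℝ} (h0 : 0 < ν) (h1 : ν < 1) {κ : ℝ} (hκ : 0 ≤ κ) :
    sharpConst (ν + 1 / 2) * ((1 + ν) ^ (1 + ν) / ν ^ ν) *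
      ∫ s in (-κ)..κ, (κ ^ 2 - s ^ 2) ^ ν = κ ^ (2 * ν + 1) := by
  rcases hκ.eq_or_lt with rfl | hκ
  · rw [neg_zero, intervalIntegral.integral_same, mul_zero, Real.zero_rpow (by linarith)]
  rw [A2_aux.betaK h0 hκ]
  unfold sharpConst
  have e1 : ν + 1 / 2 - 1 / 2 = ν := by ring
  have e2 : ν + 1 / 2 + 1 / 2 = 1 + ν := by ring
  have e3 : ν + 1 / 2 + 1 = ν + 3 / 2 := by ring
  have e4 : ν + 1 / 2 + 3 / 2 = (ν + 1) + 1 := by ring
  have g1 : 0 < Real.Gamma (ν + 1) := Real.Gamma_pos_of_pos (by linarith)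
  have g3 : 0 < Real.Gamma (ν + 3 / 2) := Real.Gamma_pos_of_pos (by linarith)
  have gp : 0 < √Real.pi := Real.sqrt_pos.mpr Real.pi_pos
  have hp : (0:ℝ) < 1 + ν := by linarith
  rw [e1, e2, e3, e4, Real.Gamma_add_one (by linarith : ν + 1 ≠ 0),
    Real.div_rpow h0.le hp.le, Real.rpow_add hp, Real.rpow_one]
  have q1 : (0:ℝ) < (1 + ν) ^ ν := by positivity
  have q2 : (0:ℝ) < ν ^ ν := by positivity
  have q3 : (ν + 1) ≠ 0 := by linarith
  field_simp
  ring

theorem soliton_int {ν : ℝ} (h0 : 0 < ν) (h1 : ν < 1) {a : ℝ} (ha : 0 ≤ a) (c : ℝ) :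
    Integrable (fun x => (soliton ν⁻¹ a c x) ^ (1 + ν)) ∧
    sharpConst (ν + 1 / 2) * ∫ x, (soliton ν⁻¹ a c x) ^ (1 + ν) = a ^ (2 * ν + 1) := by
  rcases ha.eq_or_lt with rfl | ha
  · have : (fun x => (soliton ν⁻¹ 0 c x) ^ (1 + ν)) = fun _ => (0:ℝ) := by
      funext x
      have : soliton ν⁻¹ 0 c x = 0 := by simp [soliton]
      rw [this, Real.zero_rpow (by linarith)]
    rw [this]
    refine ⟨integrable_zero _ _ _, ?_⟩
    rw [Real.zero_rpow (by linarith)]
    simp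
  -- the substitution
  set r : ℝ := ν⁻¹ with hr
  have hr0 : 0 < r := by positivity
  set f : ℝ → ℝ := fun x => a * Real.tanh (r * a * (x - c)) with hf
  have hcosh : ∀ y, 0 < Real.cosh y := Real.cosh_pos
  have hd : ∀ x, HasDerivAt f (r * (a ^ 2 - (f x) ^ 2)) x := by
    intro x
    have h1 : HasDerivAt (fun x => r * a * (x - c)) (r * a) x := by
      simpa using ((hasDerivAt_id x).sub_const c).const_mul (r * a)
    have h2 : HasDerivAt (fun x => Real.sinh (r * a * (x - c)) / Real.cosh (r * a * (x - c)))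
        ((Real.cosh (r * a * (x - c)) * (r * a) * Real.cosh (r * a * (x - c)) -
          Real.sinh (r * a * (x - c)) * (Real.sinh (r * a * (x - c)) * (r * a))) /
          Real.cosh (r * a * (x - c)) ^ 2) x :=
      (h1.sinh).div (h1.cosh) (hcosh _).ne'
    have h3 := h2.const_mul a
    have hfe : f = fun y => a * (Real.sinh (r * a * (y - c)) / Real.cosh (r * a * (y - c))) := by
      funext y; simp only [hf, Real.tanh_eq_sinh_div_cosh]
    rw [← hfe] at h3
    refine h3.congr_deriv ?_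
    simp only [hf, Real.tanh_eq_sinh_div_cosh]
    have := (hcosh (r * a * (x - c))).ne'
    field_simp
  have hinj : Function.Injective f := by
    intro x y hxy
    have h2 : Real.tanh (r * a * (x - c)) = Real.tanh (r * a * (y - c)) := by
      have := mul_left_cancel₀ ha.ne' hxy
      exact this
    have h3 := Real.tanh_injective h2
    have h4 : x - c = y - c := mul_left_cancel₀ (by positivity) h3
    linarith
  have himg : f '' univ = Ioo (-a) a := by
    ext s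
    simp only [image_univ, mem_range, mem_Ioo]
    constructor
    · rintro ⟨x, rfl⟩
      have h1 := Real.neg_one_lt_tanh (r * a * (x - c))
      have h2 := Real.tanh_lt_one (r * a * (x - c))
      constructor
      · nlinarith
      · nlinarith
    · rintro ⟨h1, h2⟩
      have hs : s / a ∈ Ioo (-1 : ℝ) 1 := by
        constructor
        · rw [lt_div_iff₀ ha]; linarith
        · rw [div_lt_iff₀ ha]; linarith
      refine ⟨Real.artanh (s / a) / (r * a) + c, ?_⟩
      simp only [hf]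
      have : r * a * (Real.artanh (s / a) / (r * a) + c - c) = Real.artanh (s / a) := by
        field_simp; ring
      rw [this, Real.tanh_artanh hs]
      field_simp
  have hfs : ∀ x, 0 < a ^ 2 - (f x) ^ 2 := by
    intro x
    have h1 : f x ∈ Ioo (-a) a := by rw [← himg]; exact ⟨x, mem_univ _, rfl⟩
    nlinarith [h1.1, h1.2]
  have hsol : ∀ x, soliton r a c x = (r + 1) * (a ^ 2 - (f x) ^ 2) := by
    intro x
    simp only [soliton, hf, Real.tanh_eq_sinh_div_cosh]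
    have h2 := Real.cosh_sq (r * a * (x - c))
    have := (hcosh (r * a * (x - c))).ne'
    field_simp
    rw [h2]
    ring
  set K : ℝ := (r + 1) ^ (1 + ν) / r with hK
  set g : ℝ → ℝ := fun s => K * (a ^ 2 - s ^ 2) ^ ν with hg
  have key : ∀ x, |r * (a ^ 2 - (f x) ^ 2)| • g (f x) = (soliton r a c x) ^ (1 + ν) := by
    intro x
    have hx := hfs x
    rw [hsol x, abs_of_pos (by positivity), Real.mul_rpow (by positivity) hx.le,
      Real.rpow_add hx, Real.rpow_one, hg, hK]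
    simp only [smul_eq_mul]
    field_simp
  have hgc : Continuous g := by
    refine continuous_const.mul (Continuous.rpow_const (by fun_prop) fun x => Or.inr h0.le)
  have hgi : IntegrableOn g (Ioo (-a) a) :=
    (hgc.integrableOn_Icc (a := -a) (b := a)).mono_set Ioo_subset_Icc_self
  have hI := (integrableOn_image_iff_integrableOn_abs_deriv_smul MeasurableSet.univ
    (fun x _ => (hd x).hasDerivWithinAt) hinj.injOn g)
  rw [himg] at hI
  have hI2 := hI.mp hgi
  rw [integrableOn_univ] at hI2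
  have hE := (integral_image_eq_integral_abs_deriv_smul MeasurableSet.univ
    (fun x _ => (hd x).hasDerivWithinAt) hinj.injOn g)
  rw [himg, setIntegral_univ] at hE
  simp only [key] at hI2 hE
  refine ⟨hI2, ?_⟩
  rw [← hE]
  have hII : ∫ x in Ioo (-a) a, g x = K * ∫ s in (-a)..a, (a ^ 2 - s ^ 2) ^ ν := by
    rw [intervalIntegral.integral_of_le (by linarith), ← integral_Ioc_eq_integral_Ioo,
      ← integral_const_mul]
  rw [hII, ← beta_sharp h0 h1 ha.le]
  have hKe : K = (1 + ν) ^ (1 + ν) / ν ^ ν := by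
    have : r + 1 = (1 + ν) / ν := by rw [hr]; field_simp
    rw [hK, this, Real.div_rpow (by positivity) h0.le, Real.rpow_add h0, Real.rpow_one, hr]
    field_simp
  rw [hKe]
  ring

end Crest.Agent.R332
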