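import Crest.Agent.R332.Defs

/-!
# R332 piece A3: circle averages

`(1/2π) ∫₀^{2π} dφ / (1 + g sin φ) = (1-g²)^(-1/2)` for `|g| < 1`, via the continuous
antiderivative `(φ + 2 arctan (c cos φ / (1 + c sin φ))) / r`, `r = √(1-g²)`, `c = g/(1+r)`.
-/

set_option autoImplicit false
open MeasureTheory Set

namespace Crest.Agent.R332

namespace A3_aux

theorem hasDerivAt_prim {g r c : ℝ} (hr : 0 < r) (hr2 : r ^ 2 = 1 - g ^ 2)
    (hc : c * (1 + r) = g) (hc1 : |c| < 1) (hg : |g| < 1) (φ : ℝ) :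
    HasDerivAt (fun φ => (φ + 2 * Real.arctan (c * Real.cos φ / (1 + c * Real.sin φ))) / r)
      (1 + g * Real.sin φ)⁻¹ φ := by
  have hs := Real.abs_sin_le_one φ
  have hcs : |c * Real.sin φ| < 1 := by
    rw [abs_mul]
    calc |c| * |Real.sin φ| ≤ |c| * 1 := by gcongr
      _ < 1 := by linarith
  have hgs : |g * Real.sin φ| < 1 := by
    rw [abs_mul]
    calc |g| * |Real.sin φ| ≤ |g| * 1 := by gcongr
      _ < 1 := by linarith
  have hD : 0 < 1 + c * Real.sin φ := by linarith [(abs_lt.mp hcs).1]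
  have hG : 0 < 1 + g * Real.sin φ := by linarith [(abs_lt.mp hgs).1]
  have hu : HasDerivAt (fun φ => c * Real.cos φ / (1 + c * Real.sin φ))
      (((c * -Real.sin φ) * (1 + c * Real.sin φ) - (c * Real.cos φ) * (c * Real.cos φ))
        / (1 + c * Real.sin φ) ^ 2) φ :=
    ((Real.hasDerivAt_cos φ).const_mul c).div (((Real.hasDerivAt_sin φ).const_mul c).const_add 1)
      hD.ne'
  have h := (((hasDerivAt_id φ).add (hu.arctan.const_mul 2))).div_const r
  refine HasDerivAt.congr_deriv h ?_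
  have hsc := Real.sin_sq_add_cos_sq φ
  have hq : 0 < 1 + (c * Real.cos φ / (1 + c * Real.sin φ)) ^ 2 := by positivity
  set s := Real.sin φ
  set k := Real.cos φ
  have h1 : (1 + c * s) ^ 2 + (c * k) ^ 2 = (1 + c ^ 2) * (1 + g * s) := by
    have hg2 : (1 + c ^ 2) * g = 2 * c := by
      have h1r : (1 + r) ^ 2 + g ^ 2 = 2 * (1 + r) := by nlinarith
      have : (1 + r) ≠ 0 := by linarith
      have e : (1 + r) * ((1 + c ^ 2) * g - 2 * c) = 0 := by
        have : (1 + r) * ((1 + c ^ 2) * g - 2 * c) * (1 + r) = 0 := by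
          have hc' : c ^ 2 * (1 + r) ^ 2 = g ^ 2 := by rw [← mul_pow, hc]
          have : (1 + r) * ((1 + c ^ 2) * g - 2 * c) * (1 + r)
              = g * ((1 + r) ^ 2 + c ^ 2 * (1 + r) ^ 2) - 2 * (1 + r) * (c * (1 + r)) := by ring
          rw [this, hc', hc, h1r]; ring
        rcases mul_eq_zero.mp this with h | h
        · exact h
        · exact absurd h (by linarith)
      rcases mul_eq_zero.mp e with h | h
      · exact absurd h this
      · linarith
    linear_combination (c ^ 2) * hsc - s * hg2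
  have h2 : (1 - c ^ 2) = r * (1 + c ^ 2) := by
    have h1r : (1 + r) ^ 2 + g ^ 2 = 2 * (1 + r) := by nlinarith
    have hc' : c ^ 2 * (1 + r) ^ 2 = g ^ 2 := by rw [← mul_pow, hc]
    have h3 : (1 + r) ^ 2 * ((1 - c ^ 2) - r * (1 + c ^ 2)) = 0 := by
      have : (1 + r) ^ 2 * ((1 - c ^ 2) - r * (1 + c ^ 2))
        = (1 + r) ^ 2 - c ^ 2 * (1 + r) ^ 2 - r * ((1 + r) ^ 2 + c ^ 2 * (1 + r) ^ 2) := by ring
      rw [this, hc', h1r]
      nlinarith
    rcases mul_eq_zero.mp h3 with h | h
    · exact absurd h (by positivity)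
    · linarith
  have hc2 : 0 < 1 + c ^ 2 := by positivity
  have h3 : 1 + (c * k / (1 + c * s)) ^ 2 = (1 + c ^ 2) * (1 + g * s) / (1 + c * s) ^ 2 := by
    rw [← h1]; field_simp
  rw [h3]
  field_simp
  linear_combination h2 - (c ^ 2) * hsc - h1

end A3_aux

theorem avg_inv {g : ℝ} (hg : |g| < 1) :
    avg (fun φ => (1 + g * Real.sin φ)⁻¹) = (√(1 - g ^ 2))⁻¹ := by
  have hg2 : g ^ 2 < 1 := (sq_lt_one_iff_abs_lt_one g).mpr hg
  set r := √(1 - g ^ 2) with hr
  have hr0 : 0 < r := Real.sqrt_pos.mpr (by linarith)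
  have hr2 : r ^ 2 = 1 - g ^ 2 := Real.sq_sqrt (by linarith)
  set c := g / (1 + r) with hc
  have hc1 : c * (1 + r) = g := by rw [hc]; field_simp
  have hc2 : |c| < 1 := by
    rw [hc, abs_div, abs_of_pos (by linarith : 0 < 1 + r), div_lt_one (by linarith)]
    linarith
  have hpos : ∀ φ, (1 + g * Real.sin φ) ≠ 0 := by
    intro φ
    have hgs : |g * Real.sin φ| < 1 := by
      rw [abs_mul]
      calc |g| * |Real.sin φ| ≤ |g| * 1 := by gcongr; exact Real.abs_sin_le_one φ
        _ < 1 := by linarith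
    linarith [(abs_lt.mp hgs).1]
  have hcont : Continuous (fun φ => (1 + g * Real.sin φ)⁻¹) :=
    (continuous_const.add (continuous_const.mul Real.continuous_sin)).inv₀ hpos
  have key := intervalIntegral.integral_eq_sub_of_hasDerivAt (a := 0) (b := 2 * Real.pi)
    (fun φ _ => A3_aux.hasDerivAt_prim hr0 hr2 hc1 hc2 hg φ) (hcont.intervalIntegrable _ _)
  rw [avg, key]
  simp only [Real.cos_two_pi, Real.sin_two_pi, Real.cos_zero, Real.sin_zero]
  have hpi := Real.pi_pos
  field_simp
  ring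

theorem avg_cos_sq : avg (fun φ => Real.cos φ ^ 2) = 1 / 2 := by
  have hpi := Real.pi_pos
  rw [avg, integral_cos_sq]
  simp only [Real.cos_two_pi, Real.sin_two_pi, Real.cos_zero, Real.sin_zero]
  field_simp
  ring

theorem avg_const (c : ℝ) : avg (fun _ => c) = c := by
  have hpi := Real.pi_pos
  rw [avg, intervalIntegral.integral_const, smul_eq_mul]
  field_simp
  ring

theorem avg_mono {f g : ℝ → ℝ} (hf : Continuous f) (hg : Continuous g) (h : ∀ x, f x ≤ g x) :
    avg f ≤ avg g := by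
  have hpi := Real.pi_pos
  rw [avg, avg]
  refine mul_le_mul_of_nonneg_left ?_ (by positivity)
  exact intervalIntegral.integral_mono (by positivity) (hf.intervalIntegrable _ _)
    (hg.intervalIntegrable _ _) h

theorem avg_add {f g : ℝ → ℝ} (hf : Continuous f) (hg : Continuous g) :
    avg (fun x => f x + g x) = avg f + avg g := by
  rw [avg, avg, avg, intervalIntegral.integral_add (hf.intervalIntegrable _ _)
    (hg.intervalIntegrable _ _)]
  ring

theorem avg_mul_left (c : ℝ) (f : ℝ → ℝ) : avg (fun x => c * f x) = c * avg f := by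
  rw [avg, avg, intervalIntegral.integral_const_mul]
  ring

/-- the average of a derivative of a `2π`-periodic `C¹` function vanishes -/
theorem avg_deriv {f f' : ℝ → ℝ} (hf : ∀ x, HasDerivAt f (f' x) x) (hc : Continuous f')
    (hp : f (2 * Real.pi) = f 0) : avg f' = 0 := by
  rw [avg, intervalIntegral.integral_eq_sub_of_hasDerivAt (fun x _ => hf x)
    (hc.intervalIntegrable _ _), hp, sub_self, mul_zero]

end Crest.Agent.R332
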