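import Crest.Agent.R332.Defs

/-!
# R332 piece API: elementary facts on `rtr`, `hs2`, `dg`, `mpow`, `tracePow`
-/

set_option autoImplicit false
open MeasureTheory Set Matrix
open scoped ComplexOrder
open Crest.MathPhysics.LiebThirring

namespace Crest.Agent.R332

variable {n m k : ℕ}

theorem tracePow_eq (A : Matrix (Fin n) (Fin n) ℂ) (p : ℝ) : tracePow A p = rtr (mpow A p) := rfl

theorem rtr_add (A B : Matrix (Fin n) (Fin n) ℂ) : rtr (A + B) = rtr A + rtr B := by
  unfold rtr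
  rw [Matrix.trace_add, Complex.add_re]

theorem rtr_sub (A B : Matrix (Fin n) (Fin n) ℂ) : rtr (A - B) = rtr A - rtr B := by
  unfold rtr
  rw [Matrix.trace_sub, Complex.sub_re]

theorem rtr_smul (c : ℝ) (A : Matrix (Fin n) (Fin n) ℂ) : rtr ((c : ℂ) • A) = c * rtr A := by
  unfold rtr
  rw [Matrix.trace_smul, smul_eq_mul, Complex.re_ofReal_mul]

theorem rtr_mul_comm (A : Matrix (Fin n) (Fin m) ℂ) (B : Matrix (Fin m) (Fin n) ℂ) :
    rtr (A * B) = rtr (B * A) := by
  unfold rtr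
  rw [Matrix.trace_mul_comm]

theorem rtr_conjTranspose (A : Matrix (Fin n) (Fin n) ℂ) : rtr Aᴴ = rtr A := by
  unfold rtr
  rw [Matrix.trace_conjTranspose]
  simp

theorem rtr_dg (a : Fin n → ℝ) : rtr (dg a) = ∑ i, a i := by
  unfold rtr dg
  rw [Matrix.trace_diagonal]
  simp

theorem hs2_eq_rtr (A : Matrix (Fin n) (Fin m) ℂ) : hs2 A = rtr (Aᴴ * A) := by
  unfold hs2 rtr Matrix.trace
  simp only [Matrix.diag_apply, Matrix.mul_apply, Matrix.conjTranspose_apply, Complex.re_sum]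
  rw [Finset.sum_comm]
  refine Finset.sum_congr rfl fun i _ => Finset.sum_congr rfl fun j _ => ?_
  rw [← Complex.normSq_eq_norm_sq]
  simp [Complex.normSq_apply]

theorem hs2_eq_rtr' (A : Matrix (Fin n) (Fin m) ℂ) : hs2 A = rtr (A * Aᴴ) := by
  rw [rtr_mul_comm, hs2_eq_rtr]

theorem hs2_nonneg (A : Matrix (Fin n) (Fin m) ℂ) : 0 ≤ hs2 A :=
  Finset.sum_nonneg fun _ _ => Finset.sum_nonneg fun _ _ => by positivity

theorem hs2_eq_zero {A : Matrix (Fin n) (Fin m) ℂ} (h : hs2 A = 0) : A = 0 := by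
  unfold hs2 at h
  rw [Finset.sum_eq_zero_iff_of_nonneg
    (fun _ _ => Finset.sum_nonneg fun _ _ => by positivity)] at h
  ext i j
  have h1 := h i (Finset.mem_univ i)
  rw [Finset.sum_eq_zero_iff_of_nonneg (fun _ _ => by positivity)] at h1
  have h2 := h1 j (Finset.mem_univ j)
  simpa using h2

/-- `‖A+B‖² ≤ 2‖A‖² + 2‖B‖²` -/
theorem hs2_add_le (A B : Matrix (Fin n) (Fin m) ℂ) : hs2 (A + B) ≤ 2 * hs2 A + 2 * hs2 B := by
  unfold hs2
  rw [Finset.mul_sum, Finset.mul_sum, ← Finset.sum_add_distrib]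
  refine Finset.sum_le_sum fun i _ => ?_
  rw [Finset.mul_sum, Finset.mul_sum, ← Finset.sum_add_distrib]
  refine Finset.sum_le_sum fun j _ => ?_
  rw [Matrix.add_apply]
  have h1 := norm_add_le (A i j) (B i j)
  have h2 := norm_nonneg (A i j + B i j)
  have h3 : ‖A i j + B i j‖ ^ 2 ≤ (‖A i j‖ + ‖B i j‖) ^ 2 := by gcongr
  nlinarith [sq_nonneg (‖A i j‖ - ‖B i j‖)]

/-- Cauchy-Schwarz: `‖AB‖² ≤ ‖A‖²‖B‖²` -/
theorem hs2_mul_le (A : Matrix (Fin n) (Fin m) ℂ) (B : Matrix (Fin m) (Fin k) ℂ) :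
    hs2 (A * B) ≤ hs2 A * hs2 B := by
  have hB : hs2 B = ∑ j, ∑ l, ‖B l j‖ ^ 2 := by
    unfold hs2; rw [Finset.sum_comm]
  rw [hB]
  unfold hs2
  rw [Finset.sum_mul_sum]
  refine Finset.sum_le_sum fun i _ => Finset.sum_le_sum fun j _ => ?_
  rw [Matrix.mul_apply]
  have h1 : ‖∑ l, A i l * B l j‖ ≤ ∑ l, ‖A i l‖ * ‖B l j‖ := by
    refine (norm_sum_le _ _).trans (Finset.sum_le_sum fun l _ => ?_)
    rw [norm_mul]
  have h2 : (∑ l, ‖A i l‖ * ‖B l j‖) ^ 2 ≤ (∑ l, ‖A i l‖ ^ 2) * ∑ l, ‖B l j‖ ^ 2 :=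
    Finset.sum_mul_sq_le_sq_mul_sq _ _ _
  refine le_trans ?_ h2
  gcongr

theorem rtr_nonneg {A : Matrix (Fin n) (Fin n) ℂ} (h : A.PosSemidef) : 0 ≤ rtr A := by
  have := h.trace_nonneg
  exact (Complex.le_def.1 this).1

/-- unitary diagonalisation of a Hermitian matrix, in the notation `dg` -/
theorem exists_diag {A : Matrix (Fin n) (Fin n) ℂ} (hA : A.IsHermitian) :
    ∃ (u : Matrix (Fin n) (Fin n) ℂ) (a : Fin n → ℝ), uᴴ * u = 1 ∧ u * uᴴ = 1 ∧
      A = u * dg a * uᴴ := by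
  refine ⟨hA.eigenvectorUnitary, hA.eigenvalues, ?_, ?_, ?_⟩
  · exact Unitary.coe_star_mul_self hA.eigenvectorUnitary
  · exact Unitary.coe_mul_star_self hA.eigenvectorUnitary
  · exact hA.spectral_theorem

/-- the eigenvalues in such a diagonalisation inherit semidefiniteness / definiteness -/
theorem diag_nonneg {A u : Matrix (Fin n) (Fin n) ℂ} {a : Fin n → ℝ} (hu : uᴴ * u = 1)
    (hA : A = u * dg a * uᴴ) (hpsd : A.PosSemidef) : ∀ i, 0 ≤ a i := by
  have h1 : uᴴ * A * u = dg a := by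
    rw [hA]
    calc uᴴ * (u * dg a * uᴴ) * u = (uᴴ * u) * dg a * (uᴴ * u) := by simp only [Matrix.mul_assoc]
      _ = dg a := by rw [hu, Matrix.one_mul, Matrix.mul_one]
  have h2 := hpsd.conjTranspose_mul_mul_same u
  rw [h1] at h2
  intro i
  have h3 := (Matrix.posSemidef_diagonal_iff.1 h2) i
  simpa using (Complex.le_def.1 h3).1

theorem diag_pos {A u : Matrix (Fin n) (Fin n) ℂ} {a : Fin n → ℝ} (hu : uᴴ * u = 1)
    (hA : A = u * dg a * uᴴ) (hpsd : A.PosDef) : ∀ i, 0 < a i := by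
  have h1 : uᴴ * A * u = dg a := by
    rw [hA]
    calc uᴴ * (u * dg a * uᴴ) * u = (uᴴ * u) * dg a * (uᴴ * u) := by simp only [Matrix.mul_assoc]
      _ = dg a := by rw [hu, Matrix.one_mul, Matrix.mul_one]
  have hinj : Function.Injective u.mulVec := by
    intro x y hxy
    have := congrArg (uᴴ.mulVec) hxy
    simpa [Matrix.mulVec_mulVec, hu] using this
  have h2 := hpsd.conjTranspose_mul_mul_same hinj
  rw [h1] at h2
  intro i
  have h3 := (Matrix.posDef_diagonal_iff.1 h2) i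
  simpa using (Complex.lt_def.1 h3).1

theorem dg_posSemidef {a : Fin n → ℝ} (ha : ∀ i, 0 ≤ a i) : (dg a).PosSemidef := by
  refine Matrix.posSemidef_diagonal_iff.2 fun i => ?_
  exact_mod_cast ha i

theorem dg_posDef {a : Fin n → ℝ} (ha : ∀ i, 0 < a i) : (dg a).PosDef := by
  refine Matrix.posDef_diagonal_iff.2 fun i => ?_
  exact_mod_cast ha i

/-- conjugation of a positive semidefinite real diagonal matrix -/
theorem conj_dg_posSemidef {u : Matrix (Fin n) (Fin n) ℂ} {a : Fin n → ℝ} (ha : ∀ i, 0 ≤ a i) :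
    (u * dg a * uᴴ).PosSemidef := (dg_posSemidef ha).mul_mul_conjTranspose_same u

theorem conj_dg_posDef {u : Matrix (Fin n) (Fin n) ℂ} {a : Fin n → ℝ} (hu : u * uᴴ = 1)
    (ha : ∀ i, 0 < a i) : (u * dg a * uᴴ).PosDef := by
  refine (dg_posDef ha).mul_mul_conjTranspose_same ?_
  intro x y hxy
  have := congrArg (fun z => Matrix.vecMul z uᴴ) hxy
  simpa [Matrix.vecMul_vecMul, hu] using this

theorem dg_mul (a b : Fin n → ℝ) : dg a * dg b = dg (fun i => a i * b i) := by
  unfold dg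
  rw [Matrix.diagonal_mul_diagonal]
  congr 1
  funext i
  push_cast
  rfl

theorem dg_isHermitian (a : Fin n → ℝ) : (dg a).IsHermitian := by
  unfold dg Matrix.IsHermitian
  rw [Matrix.diagonal_conjTranspose]
  congr 1
  funext i
  simp

theorem conj_dg_mul {u : Matrix (Fin n) (Fin n) ℂ} (hu : uᴴ * u = 1) (a b : Fin n → ℝ) :
    (u * dg a * uᴴ) * (u * dg b * uᴴ) = u * dg (fun i => a i * b i) * uᴴ := by
  rw [← dg_mul]
  calc (u * dg a * uᴴ) * (u * dg b * uᴴ) = u * dg a * (uᴴ * u) * dg b * uᴴ := by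
        simp only [Matrix.mul_assoc]
    _ = _ := by rw [hu, Matrix.mul_one, Matrix.mul_assoc u]

/-- `tr(AB) ≥ 0` for `A, B ≥ 0` -/
theorem rtr_mul_nonneg {A B : Matrix (Fin n) (Fin n) ℂ} (hA : A.PosSemidef)
    (hB : B.PosSemidef) : 0 ≤ rtr (A * B) := by
  obtain ⟨u, a, hu, hu', hA'⟩ := exists_diag hA.isHermitian
  have ha := diag_nonneg hu hA' hA
  have h1 : A = (u * dg (fun i => √(a i))) * (u * dg (fun i => √(a i)))ᴴ := by
    rw [Matrix.conjTranspose_mul, (dg_isHermitian _).eq, ← Matrix.mul_assoc,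
      Matrix.mul_assoc u, dg_mul, hA']
    congr 3
    funext i
    rw [Real.mul_self_sqrt (ha i)]
  rw [h1, Matrix.mul_assoc, rtr_mul_comm]
  exact rtr_nonneg (hB.conjTranspose_mul_mul_same _)

/-- functional calculus in a diagonalisation: for ANY real function `f` -/
theorem cfc_diag {u : Matrix (Fin n) (Fin n) ℂ} {a : Fin n → ℝ} (hu : uᴴ * u = 1)
    (hu' : u * uᴴ = 1) (f : ℝ → ℝ) :
    cfc f (u * dg a * uᴴ) = u * dg (fun i => f (a i)) * uᴴ := by
  classical
  set A := u * dg a * uᴴ with hA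
  have hAs : IsSelfAdjoint A := by
    show Aᴴ = A
    rw [hA, Matrix.conjTranspose_mul, Matrix.conjTranspose_mul, Matrix.conjTranspose_conjTranspose,
      (dg_isHermitian a).eq, Matrix.mul_assoc]
  have hfin : (spectrum ℝ A).Finite := Matrix.finite_real_spectrum
  let s : Finset ℝ := hfin.toFinset ∪ Finset.univ.image a
  let q : Polynomial ℝ := Lagrange.interpolate s id f
  have hq : ∀ x ∈ s, q.eval x = f x := fun x hx =>
    Lagrange.eval_interpolate_at_node (v := id) f (Set.injOn_id _) hx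
  have h1 : cfc f A = cfc (fun x => q.eval x) A := by
    refine cfc_congr fun x hx => ?_
    exact (hq x (Finset.mem_union_left _ (hfin.mem_toFinset.2 hx))).symm
  rw [h1, cfc_polynomial q A hAs]
  -- conjugation is an algebra homomorphism
  let φ : (Fin n → ℝ) →ₐ[ℝ] Matrix (Fin n) (Fin n) ℂ :=
    { toFun := fun b => u * dg b * uᴴ
      map_one' := by
        have : dg (1 : Fin n → ℝ) = 1 := by unfold dg; simp
        rw [this, Matrix.mul_one, hu']
      map_mul' := fun b c => by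
        rw [conj_dg_mul hu]
        rfl
      map_zero' := by
        have : dg (0 : Fin n → ℝ) = 0 := by unfold dg; simp
        rw [this, Matrix.mul_zero, Matrix.zero_mul]
      map_add' := fun b c => by
        have : dg (b + c) = dg b + dg c := by unfold dg; simp [Matrix.diagonal_add]
        rw [this, Matrix.mul_add, Matrix.add_mul]
      commutes' := fun r => by
        have : dg (algebraMap ℝ (Fin n → ℝ) r) = (r : ℂ) • (1 : Matrix (Fin n) (Fin n) ℂ) := by
          unfold dg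
          ext i j
          by_cases h : i = j <;> simp [Matrix.diagonal_apply, Matrix.one_apply, h]
        rw [this, Matrix.mul_smul, Matrix.smul_mul, Matrix.mul_one, hu']
        rw [Algebra.algebraMap_eq_smul_one]
        ext i j
        simp }
  have h2 : A = φ a := rfl
  rw [h2, Polynomial.aeval_algHom_apply]
  show u * dg (Polynomial.aeval a q) * uᴴ = _
  congr 3
  funext i
  have h3 : (Polynomial.aeval a q) i = Polynomial.aeval (a i) q := by
    have := Polynomial.aeval_algHom_apply (Pi.evalAlgHom ℝ (fun _ : Fin n => ℝ) i) a q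
    exact this.symm
  rw [h3]
  have h4 := hq (a i) (Finset.mem_union_right _ (Finset.mem_image_of_mem a (Finset.mem_univ i)))
  rw [← h4]
  exact Polynomial.coe_aeval_eq_eval (a i) ▸ rfl

theorem mpow_diag {u : Matrix (Fin n) (Fin n) ℂ} {a : Fin n → ℝ} (hu : uᴴ * u = 1)
    (hu' : u * uᴴ = 1) (s : ℝ) :
    mpow (u * dg a * uᴴ) s = u * dg (fun i => (a i) ^ s) * uᴴ := cfc_diag hu hu' _

theorem mpow_dg (a : Fin n → ℝ) (s : ℝ) : mpow (dg a) s = dg (fun i => (a i) ^ s) := by
  have := mpow_diag (n := n) (u := 1) (a := a) (by simp) (by simp) s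
  simpa using this

theorem rtr_conj {u : Matrix (Fin n) (Fin n) ℂ} (hu : uᴴ * u = 1) (A : Matrix (Fin n) (Fin n) ℂ) :
    rtr (u * A * uᴴ) = rtr A := by
  rw [rtr_mul_comm, ← Matrix.mul_assoc, hu, Matrix.one_mul]

theorem tracePow_diag {u : Matrix (Fin n) (Fin n) ℂ} {a : Fin n → ℝ} (hu : uᴴ * u = 1)
    (hu' : u * uᴴ = 1) (s : ℝ) : tracePow (u * dg a * uᴴ) s = ∑ i, (a i) ^ s := by
  rw [tracePow_eq, mpow_diag hu hu', rtr_conj hu, rtr_dg]

/-- unitary invariance -/
theorem mpow_conj {u : Matrix (Fin n) (Fin n) ℂ} (hu : uᴴ * u = 1) (hu' : u * uᴴ = 1)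
    {A : Matrix (Fin n) (Fin n) ℂ} (hA : A.IsHermitian) (s : ℝ) :
    mpow (u * A * uᴴ) s = u * mpow A s * uᴴ := by
  obtain ⟨w, a, hw, hw', hA'⟩ := exists_diag hA
  have h1 : u * A * uᴴ = (u * w) * dg a * (u * w)ᴴ := by
    rw [hA', Matrix.conjTranspose_mul]
    simp only [Matrix.mul_assoc]
  have e1 : (u * w)ᴴ * (u * w) = 1 := by
    rw [Matrix.conjTranspose_mul, Matrix.mul_assoc, ← Matrix.mul_assoc uᴴ, hu, Matrix.one_mul, hw]
  have e2 : (u * w) * (u * w)ᴴ = 1 := by
    rw [Matrix.conjTranspose_mul, Matrix.mul_assoc, ← Matrix.mul_assoc w, hw', Matrix.one_mul, hu']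
  rw [h1, mpow_diag e1 e2, hA', mpow_diag hw hw', Matrix.conjTranspose_mul]
  simp only [Matrix.mul_assoc]

theorem mpow_posSemidef {A : Matrix (Fin n) (Fin n) ℂ} (hA : A.PosSemidef) (s : ℝ) :
    (mpow A s).PosSemidef := by
  obtain ⟨u, a, hu, hu', hA'⟩ := exists_diag hA.isHermitian
  have ha := diag_nonneg hu hA' hA
  rw [hA', mpow_diag hu hu']
  exact conj_dg_posSemidef fun i => Real.rpow_nonneg (ha i) s

theorem mpow_posDef {A : Matrix (Fin n) (Fin n) ℂ} (hA : A.PosDef) (s : ℝ) :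
    (mpow A s).PosDef := by
  obtain ⟨u, a, hu, hu', hA'⟩ := exists_diag hA.isHermitian
  have ha := diag_pos hu hA' hA
  rw [hA', mpow_diag hu hu']
  exact conj_dg_posDef hu' fun i => Real.rpow_pos_of_pos (ha i) s

theorem mpow_one {A : Matrix (Fin n) (Fin n) ℂ} (hA : A.PosSemidef) : mpow A 1 = A := by
  obtain ⟨u, a, hu, hu', hA'⟩ := exists_diag hA.isHermitian
  rw [hA', mpow_diag hu hu']
  simp only [Real.rpow_one]

theorem mpow_half_mul {A : Matrix (Fin n) (Fin n) ℂ} (hA : A.PosSemidef) :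
    mpow A (1 / 2) * mpow A (1 / 2) = A := by
  obtain ⟨u, a, hu, hu', hA'⟩ := exists_diag hA.isHermitian
  have ha := diag_nonneg hu hA' hA
  rw [hA', mpow_diag hu hu', conj_dg_mul hu]
  congr 3
  funext i
  rw [← Real.sqrt_eq_rpow, Real.mul_self_sqrt (ha i)]

/-- `A^s A^t = A^(s+t)`, `A` positive definite -/
theorem mpow_mul {A : Matrix (Fin n) (Fin n) ℂ} (hA : A.PosDef) (s t : ℝ) :
    mpow A s * mpow A t = mpow A (s + t) := by
  obtain ⟨u, a, hu, hu', hA'⟩ := exists_diag hA.isHermitian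
  have ha := diag_pos hu hA' hA
  rw [hA', mpow_diag hu hu', mpow_diag hu hu', mpow_diag hu hu', conj_dg_mul hu]
  congr 3
  funext i
  rw [Real.rpow_add (ha i)]

/-- `A^s A^t = A^(s+t)` for `A ≥ 0` and `s, t > 0` -/
theorem mpow_mul' {A : Matrix (Fin n) (Fin n) ℂ} (hA : A.PosSemidef) {s t : ℝ} (hs : 0 < s)
    (ht : 0 < t) : mpow A s * mpow A t = mpow A (s + t) := by
  obtain ⟨u, a, hu, hu', hA'⟩ := exists_diag hA.isHermitian
  have ha := diag_nonneg hu hA' hA
  rw [hA', mpow_diag hu hu', mpow_diag hu hu', mpow_diag hu hu', conj_dg_mul hu]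
  congr 3
  funext i
  rw [Real.rpow_add_of_nonneg (ha i) hs.le ht.le]

/-- `(A^s)^t = A^(st)` for `A ≥ 0` -/
theorem mpow_mpow {A : Matrix (Fin n) (Fin n) ℂ} (hA : A.PosSemidef) (s t : ℝ) :
    mpow (mpow A s) t = mpow A (s * t) := by
  obtain ⟨u, a, hu, hu', hA'⟩ := exists_diag hA.isHermitian
  have ha := diag_nonneg hu hA' hA
  rw [hA', mpow_diag hu hu', mpow_diag hu hu', mpow_diag hu hu']
  congr 3
  funext i
  rw [Real.rpow_mul (ha i)]

theorem smul_conj_dg (c : ℝ) (u : Matrix (Fin n) (Fin n) ℂ) (a : Fin n → ℝ) :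
    (c : ℂ) • (u * dg a * uᴴ) = u * dg (fun i => c * a i) * uᴴ := by
  have : dg (fun i => c * a i) = (c : ℂ) • dg a := by
    unfold dg
    ext i j
    by_cases h : i = j <;> simp [Matrix.diagonal_apply, h]
  rw [this, Matrix.mul_smul, Matrix.smul_mul]

theorem mpow_smul {A : Matrix (Fin n) (Fin n) ℂ} (hA : A.PosSemidef) {c : ℝ} (hc : 0 ≤ c)
    (s : ℝ) : mpow ((c : ℂ) • A) s = ((c ^ s : ℝ) : ℂ) • mpow A s := by
  obtain ⟨u, a, hu, hu', hA'⟩ := exists_diag hA.isHermitian
  have ha := diag_nonneg hu hA' hA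
  rw [hA', smul_conj_dg, mpow_diag hu hu', mpow_diag hu hu', smul_conj_dg]
  congr 3
  funext i
  rw [Real.mul_rpow hc (ha i)]

theorem tracePow_nonneg {A : Matrix (Fin n) (Fin n) ℂ} (hA : A.PosSemidef) (s : ℝ) :
    0 ≤ tracePow A s := rtr_nonneg (mpow_posSemidef hA s)

theorem tracePow_smul {A : Matrix (Fin n) (Fin n) ℂ} (hA : A.PosSemidef) {c : ℝ} (hc : 0 ≤ c)
    (s : ℝ) : tracePow ((c : ℂ) • A) s = c ^ s * tracePow A s := by
  rw [tracePow_eq, mpow_smul hA hc, rtr_smul, tracePow_eq]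

open scoped Matrix.Norms.L2Operator in
/-- continuity of the functional calculus for a continuous function -/
theorem continuousOn_cfc_of_nhds {f : ℝ → ℝ} {s : Set ℝ} (hs : IsOpen s) (hf : ContinuousOn f s)
    {t : Set (Matrix (Fin n) (Fin n) ℂ)} (ht : ∀ A ∈ t, A.IsHermitian ∧ spectrum ℝ A ⊆ s) :
    ContinuousOn (fun A : Matrix (Fin n) (Fin n) ℂ => cfc f A) t := by
  refine ContinuousOn.cfc_of_mem_nhdsSet (s := s) f (a := fun A => A) ?_ continuousOn_id
    (fun A hA => (ht A hA).1) hf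
  rw [hs.mem_nhdsSet]
  exact Set.iUnion₂_subset fun A hA => (ht A hA).2

theorem spectrum_subset {u : Matrix (Fin n) (Fin n) ℂ} {a : Fin n → ℝ} (hu : uᴴ * u = 1)
    (hu' : u * uᴴ = 1) : spectrum ℝ (u * dg a * uᴴ) ⊆ Set.range a := by
  intro x hx
  by_contra hne
  rw [spectrum.mem_iff] at hx
  apply hx
  have hne' : ∀ i, x - a i ≠ 0 := fun i h => hne ⟨i, by linarith⟩
  have h1 : algebraMap ℝ (Matrix (Fin n) (Fin n) ℂ) x = u * dg (fun _ => x) * uᴴ := by
    have : dg (fun _ : Fin n => x) = (x : ℂ) • (1 : Matrix (Fin n) (Fin n) ℂ) := by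
      unfold dg
      ext i j
      by_cases h : i = j <;> simp [h]
    rw [this, Matrix.mul_smul, Matrix.smul_mul, Matrix.mul_one, hu',
      Algebra.algebraMap_eq_smul_one]
    ext i j
    simp
  have h2 : algebraMap ℝ (Matrix (Fin n) (Fin n) ℂ) x - u * dg a * uᴴ =
      u * dg (fun i => x - a i) * uᴴ := by
    rw [h1, ← Matrix.sub_mul, ← Matrix.mul_sub]
    congr 2
    unfold dg
    rw [Matrix.diagonal_sub]
    congr 1
    funext i
    push_cast
    rfl
  rw [h2]
  refine ⟨⟨u * dg (fun i => x - a i) * uᴴ, u * dg (fun i => (x - a i)⁻¹) * uᴴ, ?_, ?_⟩, rfl⟩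
  · rw [conj_dg_mul hu]
    have : dg (fun i => (x - a i) * (x - a i)⁻¹) = 1 := by
      unfold dg
      simp only [mul_inv_cancel₀ (hne' _), Complex.ofReal_one]
      exact Matrix.diagonal_one
    rw [this, Matrix.mul_one, hu']
  · rw [conj_dg_mul hu]
    have : dg (fun i => (x - a i)⁻¹ * (x - a i)) = 1 := by
      unfold dg
      simp only [inv_mul_cancel₀ (hne' _), Complex.ofReal_one]
      exact Matrix.diagonal_one
    rw [this, Matrix.mul_one, hu']

/-- continuity of `A ↦ A^s` on positive semidefinite matrices, `s > 0`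
(Mathlib: `ContinuousOn.cfc` etc., with the scoped `L2Operator` norm instances) -/
theorem continuousOn_mpow {s : ℝ} (hs : 0 < s) :
    ContinuousOn (fun A : Matrix (Fin n) (Fin n) ℂ => mpow A s) {A | A.PosSemidef} := by
  unfold mpow
  exact continuousOn_cfc_of_nhds isOpen_univ
    (Real.continuous_rpow_const hs.le).continuousOn
    (fun A hA => ⟨Matrix.PosSemidef.isHermitian hA, Set.subset_univ _⟩)

/-- continuity of `A ↦ A^s` on positive definite matrices, `s` any real -/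
theorem continuousOn_mpow_posDef (s : ℝ) :
    ContinuousOn (fun A : Matrix (Fin n) (Fin n) ℂ => mpow A s) {A | A.PosDef} := by
  unfold mpow
  refine continuousOn_cfc_of_nhds (s := Set.Ioi 0) isOpen_Ioi ?_ fun A hA => ?_
  · intro x hx
    exact (Real.continuousAt_rpow_const x s (Or.inl (ne_of_gt hx))).continuousWithinAt
  · have hA' : A.PosDef := hA
    obtain ⟨u, a, hu, hu', hAd⟩ := exists_diag hA'.isHermitian
    have ha := diag_pos hu hAd hA'
    refine ⟨hA'.isHermitian, ?_⟩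
    rw [hAd]
    refine (spectrum_subset hu hu').trans ?_
    rintro _ ⟨i, rfl⟩
    exact ha i

theorem continuous_rtr : Continuous (rtr : Matrix (Fin n) (Fin n) ℂ → ℝ) := by
  unfold rtr
  exact Complex.continuous_re.comp continuous_id.matrix_trace

theorem continuous_hs2 : Continuous (hs2 : Matrix (Fin n) (Fin m) ℂ → ℝ) := by
  unfold hs2
  refine continuous_finsetSum _ fun i _ => continuous_finsetSum _ fun j _ => ?_
  exact ((continuous_id.matrix_elem i j).norm).pow 2

theorem Btw.isHermitian {d : Fin n → ℝ} {F : Matrix (Fin n) (Fin n) ℂ} (h : Btw d F) :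
    F.IsHermitian := by
  have h1 := h.2.isHermitian
  have h2 : F = (dg d + F) - dg d := by rw [add_sub_cancel_left]
  rw [h2]
  exact h1.sub (dg_isHermitian d)

theorem isClosed_posSemidef : IsClosed {A : Matrix (Fin n) (Fin n) ℂ | A.PosSemidef} := by
  have : {A : Matrix (Fin n) (Fin n) ℂ | A.PosSemidef} =
      {A | Aᴴ = A} ∩ ⋂ x : Fin n → ℂ, {A | 0 ≤ star x ⬝ᵥ (A *ᵥ x)} := by
    ext A
    simp only [Set.mem_inter_iff, Set.mem_iInter, Set.mem_ofPred_eq]
    exact Matrix.posSemidef_iff_dotProduct_mulVec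
  rw [this]
  refine IsClosed.inter (isClosed_eq continuous_id.matrix_conjTranspose continuous_id) ?_
  refine isClosed_iInter fun x => ?_
  refine isClosed_le continuous_const ?_
  exact continuous_const.dotProduct (continuous_id.matrix_mulVec continuous_const)

theorem continuousOn_tracePow {s : ℝ} (hs : 0 < s) :
    ContinuousOn (fun A : Matrix (Fin n) (Fin n) ℂ => tracePow A s) {A | A.PosSemidef} :=
  continuous_rtr.comp_continuousOn (continuousOn_mpow hs)

/-- `Btw` is unitarily covariant only for commuting `u`; but it is convex and closed. -/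
theorem isClosed_btw (d : Fin n → ℝ) : IsClosed {F : Matrix (Fin n) (Fin n) ℂ | Btw d F} := by
  have h1 : IsClosed ((fun F : Matrix (Fin n) (Fin n) ℂ => dg d - F) ⁻¹' {A | A.PosSemidef}) :=
    isClosed_posSemidef.preimage (continuous_const.sub continuous_id)
  have h2 : IsClosed ((fun F : Matrix (Fin n) (Fin n) ℂ => dg d + F) ⁻¹' {A | A.PosSemidef}) :=
    isClosed_posSemidef.preimage (continuous_const.add continuous_id)
  exact h1.inter h2

end Crest.Agent.R332
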