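import Crest.Agent.R332.A3
import Crest.Agent.R332.API

/-!
# R332 piece B0: the matrix geometric mean `S` (pure linear algebra + circle average)

Setting: `A = diag a > 0`, `F` Hermitian with `-qA ≤ F ≤ qA`, `0 ≤ q < 1`.
Put `G = A^(-1/2) F A^(-1/2)` (Hermitian, `‖G‖ ≤ q`), diagonalise `G = U diag(g) U*`, `|g_i| ≤ q`,
`s_i = √(1-g_i²) > 0`, and `S := A^(1/2) U diag(s) U* A^(1/2)`, so
`S⁻¹ = A^(-1/2) U diag(1/s) U* A^(-1/2)`.
* `(A + sin φ F)⁻¹ = A^(-1/2) U diag(1/(1+g sin φ)) U* A^(-1/2)`; average with `avg_inv`: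
  `psi a F M = rtr (S⁻¹ M)`.
* `A² - F² = A^(1/2) (A - G A G) A^(1/2)`; with `Â = U* A U` one gets
  `tr(S⁻¹(A²-F²)) = Σ Â_ii (1-g_i²)/s_i = Σ Â_ii s_i = tr S`.
* `tr(A²-F²) - tr S² = Σ_ij |Â_ij|² (1 - g_i g_j - s_i s_j) ≥ 0` (Cauchy-Schwarz).
* `S ≤ A ≤ amax` because `s_i ≤ 1`.
* `S² - (A²-F²) = A^(1/2) U m U* A^(1/2)`, `m_ij = Â_ij (s_i s_j + g_i g_j - 1)` and
  `|s_i s_j + g_i g_j - 1| = ((s_i-s_j)² + (g_i-g_j)²)/2 ≤ |g_i-g_j|/(1-q²)`
  (`|s_i - s_j| ≤ q|g_i-g_j|/√(1-q²)`, `|g_i - g_j| ≤ 2`), while `Â_ij (g_j - g_i)` are the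
  entries of `U*[A,G]U`, `[A,G] = A^(-1/2)[A,F]A^(-1/2)`.
-/

set_option autoImplicit false
open MeasureTheory Set Matrix
open scoped ComplexOrder

namespace Crest.Agent.R332

namespace B0_aux

variable {n : ℕ}

theorem dg_mul_dg (a b : Fin n → ℝ) : dg a * dg b = dg (fun i => a i * b i) := by
  unfold dg
  rw [diagonal_mul_diagonal]
  congr 1
  ext i
  push_cast
  rfl

theorem dg_one : dg (fun _ : Fin n => (1:ℝ)) = 1 := by
  unfold dg
  simp

theorem dg_conj (a : Fin n → ℝ) : (dg a)ᴴ = dg a := by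
  unfold dg
  rw [diagonal_conjTranspose]
  congr 1
  ext i
  simp

theorem dg_sub (a b : Fin n → ℝ) : dg a - dg b = dg (fun i => a i - b i) := by
  unfold dg
  rw [Matrix.diagonal_sub]
  congr 1
  ext i
  push_cast
  rfl

theorem dg_add (a b : Fin n → ℝ) : dg a + dg b = dg (fun i => a i + b i) := by
  unfold dg
  rw [diagonal_add]
  congr 1
  ext i
  push_cast
  rfl

theorem dg_const (c : ℝ) : dg (fun _ : Fin n => c) = (c : ℂ) • (1 : Matrix (Fin n) (Fin n) ℂ) := by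
  unfold dg
  rw [smul_one_eq_diagonal]

theorem dg_mul_apply (a : Fin n → ℝ) (X : Matrix (Fin n) (Fin n) ℂ) (i j : Fin n) :
    (dg a * X) i j = (a i : ℂ) * X i j := by
  unfold dg
  rw [diagonal_mul]

theorem mul_dg_apply (a : Fin n → ℝ) (X : Matrix (Fin n) (Fin n) ℂ) (i j : Fin n) :
    (X * dg a) i j = X i j * (a j : ℂ) := by
  unfold dg
  rw [mul_diagonal]

theorem rtr_dg_mul (d : Fin n → ℝ) (N : Matrix (Fin n) (Fin n) ℂ) :
    rtr (dg d * N) = ∑ i, d i * (N i i).re := by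
  unfold rtr
  rw [Matrix.trace, Complex.re_sum]
  refine Finset.sum_congr rfl fun i _ => ?_
  rw [diag_apply, dg_mul_apply, Complex.re_ofReal_mul]

theorem rtr_quad (p q : Fin n → ℝ) {X : Matrix (Fin n) (Fin n) ℂ} (hX : X.IsHermitian) :
    rtr (dg p * X * dg q * X) = ∑ i, ∑ j, p i * q j * ‖X i j‖ ^ 2 := by
  unfold rtr
  rw [Matrix.trace, Complex.re_sum]
  refine Finset.sum_congr rfl fun i _ => ?_
  rw [diag_apply, Matrix.mul_apply, Complex.re_sum]
  refine Finset.sum_congr rfl fun j _ => ?_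
  rw [mul_dg_apply, dg_mul_apply, ← hX.apply i j]
  have h : star (X j i) = X i j := hX.apply i j
  have h2 : X j i = star (X i j) := (hX.apply j i).symm
  rw [h2, star_star]
  have : (p i : ℂ) * X i j * (q j : ℂ) * star (X i j) = ((p i * q j * ‖X i j‖ ^ 2 : ℝ) : ℂ) := by
    have h3 : X i j * star (X i j) = ((‖X i j‖ ^ 2 : ℝ) : ℂ) := by
      rw [Complex.star_def, Complex.mul_conj, Complex.normSq_eq_norm_sq]
    push_cast at h3 ⊢
    calc (p i : ℂ) * X i j * (q j : ℂ) * star (X i j) = p i * q j * (X i j * star (X i j)) := by ring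
      _ = _ := by rw [h3]
  rw [this, Complex.ofReal_re]

theorem hs2_unitary {u : Matrix (Fin n) (Fin n) ℂ} (hu1 : uᴴ * u = 1)
    (X : Matrix (Fin n) (Fin n) ℂ) : hs2 (u * X * uᴴ) = hs2 X := by
  rw [hs2_eq_rtr, hs2_eq_rtr]
  rw [conjTranspose_mul, conjTranspose_mul, conjTranspose_conjTranspose]
  have : u * (Xᴴ * uᴴ) * (u * X * uᴴ) = u * (Xᴴ * X * uᴴ) := by
    calc u * (Xᴴ * uᴴ) * (u * X * uᴴ) = u * (Xᴴ * (uᴴ * u) * X * uᴴ) := by
          simp only [Matrix.mul_assoc]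
      _ = u * (Xᴴ * X * uᴴ) := by rw [hu1, Matrix.mul_one]
  rw [this, rtr_mul_comm, Matrix.mul_assoc, hu1, Matrix.mul_one]

theorem hs2_unitary' {u : Matrix (Fin n) (Fin n) ℂ} (hu2 : u * uᴴ = 1)
    (X : Matrix (Fin n) (Fin n) ℂ) : hs2 (uᴴ * X * u) = hs2 X := by
  have := hs2_unitary (u := uᴴ) (by simpa using hu2) X
  simpa using this

theorem hs2_dg_le {r : Fin n → ℝ} {c : ℝ} (hc : 0 ≤ c) (hr : ∀ i, (r i) ^ 2 ≤ c)
    (X : Matrix (Fin n) (Fin n) ℂ) : hs2 (dg r * X * dg r) ≤ c ^ 2 * hs2 X := by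
  unfold hs2
  rw [Finset.mul_sum]
  refine Finset.sum_le_sum fun i _ => ?_
  rw [Finset.mul_sum]
  refine Finset.sum_le_sum fun j _ => ?_
  rw [mul_dg_apply, dg_mul_apply, norm_mul, norm_mul, Complex.norm_real, Complex.norm_real]
  have h1 : ‖r i‖ ^ 2 ≤ c := by rw [Real.norm_eq_abs, sq_abs]; exact hr i
  have h2 : ‖r j‖ ^ 2 ≤ c := by rw [Real.norm_eq_abs, sq_abs]; exact hr j
  have h3 : ‖r i‖ ^ 2 * ‖r j‖ ^ 2 ≤ c * c := mul_le_mul h1 h2 (by positivity) hc
  calc (‖r i‖ * ‖X i j‖ * ‖r j‖) ^ 2 = (‖r i‖ ^ 2 * ‖r j‖ ^ 2) * ‖X i j‖ ^ 2 := by ring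
    _ ≤ (c * c) * ‖X i j‖ ^ 2 := mul_le_mul_of_nonneg_right h3 (by positivity)
    _ = c ^ 2 * ‖X i j‖ ^ 2 := by ring

/-- the scalar inequality behind the estimate of `S² - X`. -/
theorem scal_ineq {q g h s t : ℝ} (hq0 : 0 ≤ q) (hq1 : q < 1) (hg : |g| ≤ q) (hh : |h| ≤ q)
    (hs : 0 < s) (ht : 0 < t) (hsg : s ^ 2 = 1 - g ^ 2) (hth : t ^ 2 = 1 - h ^ 2) :
    (s * t + g * h - 1) ^ 2 ≤ (1 / (1 - q ^ 2)) ^ 2 * (g - h) ^ 2 := by
  have hq2 : 0 < 1 - q ^ 2 := by nlinarith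
  have hg2 : g ^ 2 ≤ q ^ 2 := by
    rw [← sq_abs g]; exact pow_le_pow_left₀ (abs_nonneg g) hg 2
  have hh2 : h ^ 2 ≤ q ^ 2 := by
    rw [← sq_abs h]; exact pow_le_pow_left₀ (abs_nonneg h) hh 2
  have hgh : |g - h| ≤ 2 := by
    have := abs_sub g h
    rw [abs_le] at hg hh ⊢
    constructor <;> linarith [hg.1, hg.2, hh.1, hh.2]
  -- 1 - st - gh = ((s-t)^2+(g-h)^2)/2
  have h1 : 1 - s * t - g * h = ((s - t) ^ 2 + (g - h) ^ 2) / 2 := by
    have : (s - t) ^ 2 + (g - h) ^ 2 = (s ^ 2 + g ^ 2) + (t ^ 2 + h ^ 2) - 2 * (s * t + g * h) := by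
      ring
    rw [this, hsg, hth]; ring
  have hst : (s - t) ^ 2 * (s + t) ^ 2 = (g - h) ^ 2 * (g + h) ^ 2 := by
    have : (s - t) * (s + t) = -((g - h) * (g + h)) := by
      have : (s - t) * (s + t) = s ^ 2 - t ^ 2 := by ring
      rw [this, hsg, hth]; ring
    calc (s - t) ^ 2 * (s + t) ^ 2 = ((s - t) * (s + t)) ^ 2 := by ring
      _ = _ := by rw [this]; ring
  have hs2 : 1 - q ^ 2 ≤ s ^ 2 := by linarith
  have ht2 : 1 - q ^ 2 ≤ t ^ 2 := by linarith
  have hst1 : 1 - q ^ 2 ≤ s * t := by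
    have : (1 - q ^ 2) ^ 2 ≤ (s * t) ^ 2 := by
      calc (1 - q ^ 2) ^ 2 = (1 - q ^ 2) * (1 - q ^ 2) := by ring
        _ ≤ s ^ 2 * t ^ 2 := mul_le_mul hs2 ht2 hq2.le (by positivity)
        _ = (s * t) ^ 2 := by ring
    exact le_of_sq_le_sq this (by positivity)
  have hsum : 4 * (1 - q ^ 2) ≤ (s + t) ^ 2 := by nlinarith
  have hgsum : (g + h) ^ 2 ≤ 4 * q ^ 2 := by nlinarith [sq_nonneg (g - h)]
  have h2 : (s - t) ^ 2 * (1 - q ^ 2) ≤ (g - h) ^ 2 * q ^ 2 := by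
    have e1 : (s - t) ^ 2 * (4 * (1 - q ^ 2)) ≤ (s - t) ^ 2 * (s + t) ^ 2 :=
      mul_le_mul_of_nonneg_left hsum (sq_nonneg _)
    have e2 : (g - h) ^ 2 * (g + h) ^ 2 ≤ (g - h) ^ 2 * (4 * q ^ 2) :=
      mul_le_mul_of_nonneg_left hgsum (sq_nonneg _)
    rw [hst] at e1
    linarith
  have h3 : (1 - s * t - g * h) * (1 - q ^ 2) ≤ (g - h) ^ 2 / 2 := by
    rw [h1]
    nlinarith
  have h4 : (g - h) ^ 2 / 2 ≤ |g - h| := by
    rw [← sq_abs (g - h)]
    nlinarith [abs_nonneg (g - h)]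
  have h5 : 0 ≤ 1 - s * t - g * h := by rw [h1]; positivity
  have h6 : (1 - s * t - g * h) ≤ 1 / (1 - q ^ 2) * |g - h| := by
    rw [one_div, inv_mul_eq_div, le_div_iff₀ hq2]
    linarith
  calc (s * t + g * h - 1) ^ 2 = (1 - s * t - g * h) ^ 2 := by ring
    _ ≤ (1 / (1 - q ^ 2) * |g - h|) ^ 2 := pow_le_pow_left₀ h5 h6 2
    _ = (1 / (1 - q ^ 2)) ^ 2 * (g - h) ^ 2 := by rw [mul_pow, sq_abs]

end B0_aux

open B0_aux

set_option maxHeartbeats 1600000 in
theorem geo_mean {n : ℕ} (a : Fin n → ℝ) (F : Matrix (Fin n) (Fin n) ℂ) {q amin amax : ℝ}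
    (hq0 : 0 ≤ q) (hq1 : q < 1) (hmin : 0 < amin) (ha : ∀ i, amin ≤ a i ∧ a i ≤ amax)
    (hF : Btw (fun i => q * a i) F) :
    ∃ S : Matrix (Fin n) (Fin n) ℂ, S.PosDef ∧
      (∀ M : Matrix (Fin n) (Fin n) ℂ, psi a F M = rtr (S⁻¹ * M)) ∧
      psi a F (XX a F) = rtr S ∧
      rtr (S * S) ≤ rtr (XX a F) ∧
      (((amax : ℝ) : ℂ) • (1 : Matrix (Fin n) (Fin n) ℂ) - S).PosSemidef ∧
      hs2 (S * S - XX a F) ≤ (amax / (amin * (1 - q ^ 2))) ^ 2 * hs2 (dg a * F - F * dg a) := by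
  classical
  have hapos : ∀ i, 0 < a i := fun i => lt_of_lt_of_le hmin (ha i).1
  set r : Fin n → ℝ := fun i => √(a i) with hr
  have hr0 : ∀ i, 0 < r i := fun i => Real.sqrt_pos.mpr (hapos i)
  have hrr : ∀ i, r i * r i = a i := fun i => Real.mul_self_sqrt (hapos i).le
  obtain ⟨B, hB⟩ : ∃ B : Matrix (Fin n) (Fin n) ℂ, B = dg r := ⟨_, rfl⟩
  obtain ⟨Bi, hBi⟩ : ∃ Bi : Matrix (Fin n) (Fin n) ℂ, Bi = dg (fun i => (r i)⁻¹) := ⟨_, rfl⟩
  have hBBi : B * Bi = 1 := by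
    rw [hB, hBi, dg_mul_dg, ← dg_one]
    congr 1; ext i; exact mul_inv_cancel₀ (hr0 i).ne'
  have hBiB : Bi * B = 1 := by
    rw [hB, hBi, dg_mul_dg, ← dg_one]
    congr 1; ext i; exact inv_mul_cancel₀ (hr0 i).ne'
  have hBB : B * B = dg a := by
    rw [hB, dg_mul_dg]
    congr 1; ext i; exact hrr i
  have hBh : Bᴴ = B := by rw [hB]; exact dg_conj _
  have hBih : Biᴴ = Bi := by rw [hBi]; exact dg_conj _
  have hFh : F.IsHermitian := hF.isHermitian
  obtain ⟨G, hGdef⟩ : ∃ G : Matrix (Fin n) (Fin n) ℂ, G = Bi * F * Bi := ⟨_, rfl⟩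
  have hGh : G.IsHermitian := by
    rw [Matrix.IsHermitian, hGdef, conjTranspose_mul, conjTranspose_mul, hBih, hFh.eq,
      Matrix.mul_assoc]
  obtain ⟨u, g, hu1, hu2, hG⟩ := exists_diag hGh
  have hFG : F = B * G * B := by
    rw [hGdef]
    calc F = 1 * F * 1 := by rw [Matrix.one_mul, Matrix.mul_one]
      _ = (B * Bi) * F * (Bi * B) := by rw [hBBi, hBiB]
      _ = B * (Bi * F * Bi) * B := by simp only [Matrix.mul_assoc]
  -- |g i| ≤ q
  have hkey1 : Bi * dg (fun i => q * a i) * Bi = dg (fun _ => q) := by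
    rw [hBi, dg_mul_dg, dg_mul_dg]
    congr 1; ext i
    have := hrr i
    have h0 := (hr0 i).ne'
    rw [← hrr i]; field_simp
  have hkey2 : dg (fun _ : Fin n => q) = u * dg (fun _ => q) * uᴴ := by
    rw [dg_const, Matrix.mul_smul, Matrix.smul_mul, Matrix.mul_one, hu2]
  have hgle : ∀ i, g i ≤ q := by
    have h1 : Bi * (dg (fun i => q * a i) - F) * Bi = u * dg (fun i => q - g i) * uᴴ := by
      rw [Matrix.mul_sub, Matrix.sub_mul, hkey1, ← hGdef, hG, hkey2, ← Matrix.sub_mul,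
        ← Matrix.mul_sub, dg_sub]
    have h2 : (Bi * (dg (fun i => q * a i) - F) * Bi).PosSemidef := by
      have := hF.1.conjTranspose_mul_mul_same Bi
      rwa [hBih] at this
    intro i
    have := diag_nonneg hu1 h1 h2 i
    linarith
  have hgge : ∀ i, -q ≤ g i := by
    have h1 : Bi * (dg (fun i => q * a i) + F) * Bi = u * dg (fun i => q + g i) * uᴴ := by
      rw [Matrix.mul_add, Matrix.add_mul, hkey1, ← hGdef, hG, hkey2, ← Matrix.add_mul,
        ← Matrix.mul_add, dg_add]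
    have h2 : (Bi * (dg (fun i => q * a i) + F) * Bi).PosSemidef := by
      have := hF.2.conjTranspose_mul_mul_same Bi
      rwa [hBih] at this
    intro i
    have := diag_nonneg hu1 h1 h2 i
    linarith
  have hgabs : ∀ i, |g i| ≤ q := fun i => abs_le.mpr ⟨hgge i, hgle i⟩
  have hg2 : ∀ i, g i ^ 2 ≤ q ^ 2 := fun i => by
    rw [← sq_abs (g i)]; exact pow_le_pow_left₀ (abs_nonneg _) (hgabs i) 2
  have hq2 : 0 < 1 - q ^ 2 := by nlinarith
  set s : Fin n → ℝ := fun i => √(1 - g i ^ 2) with hs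
  have h1g : ∀ i, 0 < 1 - g i ^ 2 := fun i => by have := hg2 i; linarith
  have hs0 : ∀ i, 0 < s i := fun i => Real.sqrt_pos.mpr (h1g i)
  have hss : ∀ i, s i ^ 2 = 1 - g i ^ 2 := fun i => Real.sq_sqrt (h1g i).le
  -- the family of matrices `B u dg d uᴴ B`
  have hinv : ∀ d : Fin n → ℝ, (∀ i, d i ≠ 0) →
      (B * (u * dg d * uᴴ) * B) * (Bi * (u * dg (fun i => (d i)⁻¹) * uᴴ) * Bi) = 1 := by
    intro d hd
    calc (B * (u * dg d * uᴴ) * B) * (Bi * (u * dg (fun i => (d i)⁻¹) * uᴴ) * Bi)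
        = B * (u * dg d * uᴴ) * (B * Bi) * (u * dg (fun i => (d i)⁻¹) * uᴴ) * Bi := by
          simp only [Matrix.mul_assoc]
      _ = B * (u * dg d * (uᴴ * u) * dg (fun i => (d i)⁻¹) * uᴴ) * Bi := by
          rw [hBBi]; simp only [Matrix.mul_assoc, Matrix.one_mul]
      _ = B * (u * (dg d * dg (fun i => (d i)⁻¹)) * uᴴ) * Bi := by
          rw [hu1]; simp only [Matrix.mul_assoc, Matrix.one_mul]
      _ = 1 := by
          rw [dg_mul_dg]
          have : (fun i => d i * (d i)⁻¹) = fun _ : Fin n => (1:ℝ) := by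
            ext i; exact mul_inv_cancel₀ (hd i)
          rw [this, dg_one, Matrix.mul_one, hu2, Matrix.mul_one, hBBi]
  obtain ⟨S, hS⟩ : ∃ S : Matrix (Fin n) (Fin n) ℂ, S = B * (u * dg s * uᴴ) * B := ⟨_, rfl⟩
  have hSinv : S⁻¹ = Bi * (u * dg (fun i => (s i)⁻¹) * uᴴ) * Bi := by
    apply Matrix.inv_eq_right_inv
    rw [hS]
    exact hinv s fun i => (hs0 i).ne'
  have hRm : ∀ φ : ℝ, Rm a F φ = Bi * (u * dg (fun i => (1 + g i * Real.sin φ)⁻¹) * uᴴ) * Bi := by
    intro φ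
    unfold Rm
    apply Matrix.inv_eq_right_inv
    have h1 : dg a + (Real.sin φ : ℂ) • F = B * (u * dg (fun i => 1 + g i * Real.sin φ) * uᴴ) * B := by
      have h2 : dg (fun i => 1 + g i * Real.sin φ) = 1 + (Real.sin φ : ℂ) • dg g := by
        rw [← dg_one, ← Matrix.one_mul (dg g), ← Matrix.smul_mul, ← dg_const, dg_mul_dg, dg_add]
        congr 1; ext i; ring
      rw [h2, Matrix.mul_add, Matrix.mul_one, Matrix.add_mul, hu2, Matrix.mul_add, Matrix.mul_one,
        Matrix.add_mul, hBB, Matrix.mul_smul, Matrix.smul_mul, ← hG, Matrix.mul_smul,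
        Matrix.smul_mul, ← hFG]
    rw [h1]
    apply hinv
    intro i
    have hsin := Real.abs_sin_le_one φ
    have : |g i * Real.sin φ| < 1 := by
      rw [abs_mul]
      calc |g i| * |Real.sin φ| ≤ q * 1 := mul_le_mul (hgabs i) hsin (abs_nonneg _) hq0
        _ < 1 := by linarith
    rw [abs_lt] at this
    linarith [this.1]
  have hpsi : ∀ M : Matrix (Fin n) (Fin n) ℂ, psi a F M = ∑ i, (s i)⁻¹ * ((uᴴ * Bi * M * Bi * u) i i).re := by
    intro M
    unfold psi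
    have h1 : ∀ φ : ℝ, rtr (Rm a F φ * M) =
        ∑ i, (1 + g i * Real.sin φ)⁻¹ * ((uᴴ * Bi * M * Bi * u) i i).re := by
      intro φ
      rw [hRm, ← rtr_dg_mul]
      calc rtr (Bi * (u * dg (fun i => (1 + g i * Real.sin φ)⁻¹) * uᴴ) * Bi * M)
          = rtr ((Bi * u) * (dg (fun i => (1 + g i * Real.sin φ)⁻¹) * (uᴴ * Bi * M))) := by
            simp only [Matrix.mul_assoc]
        _ = rtr ((dg (fun i => (1 + g i * Real.sin φ)⁻¹) * (uᴴ * Bi * M)) * (Bi * u)) := by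
            rw [rtr_mul_comm]
        _ = _ := by simp only [Matrix.mul_assoc]
    simp only [h1]
    unfold avg
    rw [intervalIntegral.integral_finsetSum]
    · rw [Finset.mul_sum]
      refine Finset.sum_congr rfl fun i _ => ?_
      rw [intervalIntegral.integral_mul_const, ← mul_assoc]
      congr 1
      have h2 := avg_inv (g := g i) (lt_of_le_of_lt (hgabs i) hq1)
      unfold avg at h2
      exact h2
    · intro i _
      apply Continuous.intervalIntegrable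
      refine Continuous.mul ?_ continuous_const
      refine Continuous.inv₀ (by fun_prop) ?_
      intro φ
      have hsin := Real.abs_sin_le_one φ
      have : |g i * Real.sin φ| < 1 := by
        rw [abs_mul]
        calc |g i| * |Real.sin φ| ≤ q * 1 := mul_le_mul (hgabs i) hsin (abs_nonneg _) hq0
          _ < 1 := by linarith
      rw [abs_lt] at this
      linarith [this.1]
  have hpsiS : ∀ M : Matrix (Fin n) (Fin n) ℂ, psi a F M = rtr (S⁻¹ * M) := by
    intro M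
    rw [hpsi, hSinv, ← rtr_dg_mul]
    symm
    calc rtr (Bi * (u * dg (fun i => (s i)⁻¹) * uᴴ) * Bi * M)
        = rtr ((Bi * u) * (dg (fun i => (s i)⁻¹) * (uᴴ * Bi * M))) := by
          simp only [Matrix.mul_assoc]
      _ = rtr ((dg (fun i => (s i)⁻¹) * (uᴴ * Bi * M)) * (Bi * u)) := by
          rw [rtr_mul_comm]
      _ = _ := by simp only [Matrix.mul_assoc]
  -- the transformed `A`
  obtain ⟨Ah, hAh⟩ : ∃ Ah : Matrix (Fin n) (Fin n) ℂ, Ah = uᴴ * dg a * u := ⟨_, rfl⟩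
  have hAhH : Ah.IsHermitian := by
    rw [Matrix.IsHermitian, hAh, conjTranspose_mul, conjTranspose_mul, conjTranspose_conjTranspose,
      dg_conj, Matrix.mul_assoc]
  have hA' : dg a = u * Ah * uᴴ := by
    rw [hAh]
    calc dg a = 1 * dg a * 1 := by rw [Matrix.one_mul, Matrix.mul_one]
      _ = (u * uᴴ) * dg a * (u * uᴴ) := by rw [hu2]
      _ = u * (uᴴ * dg a * u) * uᴴ := by simp only [Matrix.mul_assoc]
  -- `XX = B u (Ah - g Ah g) uᴴ B`
  have hXX : XX a F = B * (u * (Ah - dg g * Ah * dg g) * uᴴ) * B := by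
    have e1 : dg a * dg a = B * (u * Ah * uᴴ) * B := by
      rw [← hA', ← hBB]; simp only [Matrix.mul_assoc]
    have e2 : F * F = B * (u * (dg g * Ah * dg g) * uᴴ) * B := by
      calc F * F = (B * G * B) * (B * G * B) := by rw [← hFG]
        _ = B * G * (B * B) * G * B := by simp only [Matrix.mul_assoc]
        _ = B * (u * dg g * uᴴ) * (u * Ah * uᴴ) * (u * dg g * uᴴ) * B := by
            rw [hBB, ← hA', ← hG]
        _ = B * (u * dg g * (uᴴ * u) * Ah * (uᴴ * u) * dg g * uᴴ) * B := by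
            simp only [Matrix.mul_assoc]
        _ = _ := by rw [hu1]; simp only [Matrix.mul_assoc, Matrix.one_mul]
    unfold XX
    rw [e1, e2, ← Matrix.sub_mul, ← Matrix.mul_sub, ← Matrix.sub_mul, ← Matrix.mul_sub]
  have hSS : S * S = B * (u * (dg s * Ah * dg s) * uᴴ) * B := by
    rw [hS]
    calc (B * (u * dg s * uᴴ) * B) * (B * (u * dg s * uᴴ) * B)
        = B * (u * dg s * uᴴ) * (B * B) * (u * dg s * uᴴ) * B := by simp only [Matrix.mul_assoc]
      _ = B * (u * dg s * uᴴ) * (u * Ah * uᴴ) * (u * dg s * uᴴ) * B := by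
          rw [hBB, ← hA']
      _ = B * (u * dg s * (uᴴ * u) * Ah * (uᴴ * u) * dg s * uᴴ) * B := by
          simp only [Matrix.mul_assoc]
      _ = _ := by rw [hu1]; simp only [Matrix.mul_assoc, Matrix.one_mul]
  have hrtrS : rtr S = ∑ i, s i * (Ah i i).re := by
    rw [hS, ← rtr_dg_mul, hAh, ← hBB]
    calc rtr (B * (u * dg s * uᴴ) * B) = rtr ((B * u) * (dg s * (uᴴ * B))) := by
          simp only [Matrix.mul_assoc]
      _ = rtr ((dg s * (uᴴ * B)) * (B * u)) := by rw [rtr_mul_comm]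
      _ = _ := by simp only [Matrix.mul_assoc]
  have hdiagXX : uᴴ * Bi * XX a F * Bi * u = Ah - dg g * Ah * dg g := by
    rw [hXX]
    calc uᴴ * Bi * (B * (u * (Ah - dg g * Ah * dg g) * uᴴ) * B) * Bi * u
        = uᴴ * (Bi * B) * u * (Ah - dg g * Ah * dg g) * uᴴ * (B * Bi) * u := by
          simp only [Matrix.mul_assoc]
      _ = (uᴴ * u) * (Ah - dg g * Ah * dg g) * (uᴴ * u) := by
          rw [hBiB, hBBi]; simp only [Matrix.mul_assoc, Matrix.mul_one, Matrix.one_mul]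
      _ = _ := by rw [hu1, Matrix.one_mul, Matrix.mul_one]
  have hconj_tr : ∀ X : Matrix (Fin n) (Fin n) ℂ, rtr (B * (u * X * uᴴ) * B) = rtr (X * Ah) := by
    intro X
    calc rtr (B * (u * X * uᴴ) * B) = rtr ((B * u) * (X * (uᴴ * B))) := by
          simp only [Matrix.mul_assoc]
      _ = rtr ((X * (uᴴ * B)) * (B * u)) := by rw [rtr_mul_comm]
      _ = rtr (X * (uᴴ * (B * B) * u)) := by simp only [Matrix.mul_assoc]
      _ = _ := by rw [hBB, ← hAh]
  refine ⟨S, ?_, hpsiS, ?_, ?_, ?_, ?_⟩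
  · -- PosDef
    have h1 : (dg s).PosDef := dg_posDef hs0
    have h2 : S = (uᴴ * B)ᴴ * dg s * (uᴴ * B) := by
      rw [hS, conjTranspose_mul, conjTranspose_conjTranspose, hBh]
      simp only [Matrix.mul_assoc]
    rw [h2]
    refine h1.conjTranspose_mul_mul_same ?_
    have hunit : (Bi * u) * (uᴴ * B) = 1 := by
      calc (Bi * u) * (uᴴ * B) = Bi * (u * uᴴ) * B := by simp only [Matrix.mul_assoc]
        _ = 1 := by rw [hu2, Matrix.mul_one, hBiB]
    intro x y hxy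
    have h3 : (Bi * u) *ᵥ ((uᴴ * B) *ᵥ x) = (Bi * u) *ᵥ ((uᴴ * B) *ᵥ y) := by
      exact congrArg _ hxy
    rw [Matrix.mulVec_mulVec, Matrix.mulVec_mulVec, hunit, Matrix.one_mulVec, Matrix.one_mulVec] at h3
    exact h3
  · -- psi XX = rtr S
    rw [hpsi, hrtrS, hdiagXX]
    refine Finset.sum_congr rfl fun i _ => ?_
    rw [Matrix.sub_apply, mul_dg_apply, dg_mul_apply]
    have : (Ah i i - (g i : ℂ) * Ah i i * (g i : ℂ)) = ((1 - g i ^ 2 : ℝ) : ℂ) * Ah i i := by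
      push_cast; ring
    rw [this, Complex.re_ofReal_mul, ← hss i]
    have := (hs0 i).ne'
    field_simp
  · -- rtr SS ≤ rtr XX
    rw [hSS, hXX, hconj_tr, hconj_tr, Matrix.sub_mul, rtr_sub, rtr_quad _ _ hAhH, rtr_quad _ _ hAhH]
    have h1 : rtr (Ah * Ah) = ∑ i, ∑ j, 1 * 1 * ‖Ah i j‖ ^ 2 := by
      have := rtr_quad (fun _ => 1) (fun _ => 1) hAhH
      rwa [dg_one, Matrix.one_mul, Matrix.mul_one] at this
    rw [h1, ← Finset.sum_sub_distrib]
    refine Finset.sum_le_sum fun i _ => ?_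
    rw [← Finset.sum_sub_distrib]
    refine Finset.sum_le_sum fun j _ => ?_
    have h2 : s i * s j + g i * g j ≤ 1 := by
      nlinarith [sq_nonneg (s i - s j), sq_nonneg (g i - g j), hss i, hss j]
    have h3 : (s i * s j + g i * g j) * ‖Ah i j‖ ^ 2 ≤ 1 * ‖Ah i j‖ ^ 2 :=
      mul_le_mul_of_nonneg_right h2 (by positivity)
    linarith
  · -- S ≤ amax
    have h1 : ((amax : ℝ) : ℂ) • (1 : Matrix (Fin n) (Fin n) ℂ) - S =
        dg (fun i => amax - a i) + (uᴴ * B)ᴴ * dg (fun i => 1 - s i) * (uᴴ * B) := by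
      have h2 : (uᴴ * B)ᴴ * dg (fun i => 1 - s i) * (uᴴ * B) = dg a - S := by
        rw [hS, conjTranspose_mul, conjTranspose_conjTranspose, hBh, ← dg_sub, dg_one, ← hBB]
        calc B * u * (1 - dg s) * (uᴴ * B) = B * (u * uᴴ) * B - B * (u * dg s * uᴴ) * B := by
              rw [Matrix.mul_sub, Matrix.sub_mul, Matrix.mul_one]
              simp only [Matrix.mul_assoc]
          _ = _ := by rw [hu2, Matrix.mul_one]
      rw [h2, ← dg_sub, dg_const]
      abel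
    rw [h1]
    refine Matrix.PosSemidef.add (dg_posSemidef fun i => by linarith [(ha i).2]) ?_
    refine Matrix.PosSemidef.conjTranspose_mul_mul_same (dg_posSemidef fun i => ?_) _
    have : s i ≤ 1 := by
      have h3 := hss i
      nlinarith [hs0 i, sq_nonneg (g i)]
    linarith
  · -- the commutator bound
    rcases Nat.eq_zero_or_pos n with hn | hn
    · subst hn
      simp [hs2]
    have hamax : 0 < amax := lt_of_lt_of_le (hapos ⟨0, hn⟩) (ha ⟨0, hn⟩).2
    rw [hSS, hXX, ← Matrix.sub_mul, ← Matrix.mul_sub, ← Matrix.sub_mul, ← Matrix.mul_sub]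
    have e1 : hs2 (B * (u * (dg s * Ah * dg s - (Ah - dg g * Ah * dg g)) * uᴴ) * B) ≤
        amax ^ 2 * hs2 (dg s * Ah * dg s - (Ah - dg g * Ah * dg g)) := by
      rw [hB]
      refine (hs2_dg_le hamax.le (fun i => ?_) _).trans ?_
      · rw [sq, hrr]; exact (ha i).2
      · rw [hs2_unitary hu1]
    have e2 : hs2 (dg s * Ah * dg s - (Ah - dg g * Ah * dg g)) ≤
        (1 / (1 - q ^ 2)) ^ 2 * hs2 (Ah * dg g - dg g * Ah) := by
      unfold hs2
      rw [Finset.mul_sum]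
      refine Finset.sum_le_sum fun i _ => ?_
      rw [Finset.mul_sum]
      refine Finset.sum_le_sum fun j _ => ?_
      have f1 : (dg s * Ah * dg s - (Ah - dg g * Ah * dg g)) i j =
          ((s i * s j + g i * g j - 1 : ℝ) : ℂ) * Ah i j := by
        simp only [Matrix.sub_apply, mul_dg_apply, dg_mul_apply]
        push_cast; ring
      have f2 : (Ah * dg g - dg g * Ah) i j = ((g j - g i : ℝ) : ℂ) * Ah i j := by
        simp only [Matrix.sub_apply, mul_dg_apply, dg_mul_apply]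
        push_cast; ring
      rw [f1, f2, norm_mul, norm_mul, mul_pow, mul_pow, Complex.norm_real, Complex.norm_real,
        Real.norm_eq_abs, Real.norm_eq_abs, sq_abs, sq_abs, ← mul_assoc]
      refine mul_le_mul_of_nonneg_right ?_ (by positivity)
      have := scal_ineq hq0 hq1 (hgabs i) (hgabs j) (hs0 i) (hs0 j) (hss i) (hss j)
      calc (s i * s j + g i * g j - 1) ^ 2 ≤ (1 / (1 - q ^ 2)) ^ 2 * (g i - g j) ^ 2 := this
        _ = _ := by ring
    have e3 : hs2 (Ah * dg g - dg g * Ah) ≤ (1 / amin) ^ 2 * hs2 (dg a * F - F * dg a) := by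
      have f1 : Ah * dg g - dg g * Ah = uᴴ * (Bi * (dg a * F - F * dg a) * Bi) * u := by
        have f2 : uᴴ * G * u = dg g := by
          rw [hG]
          calc uᴴ * (u * dg g * uᴴ) * u = (uᴴ * u) * dg g * (uᴴ * u) := by
                simp only [Matrix.mul_assoc]
            _ = _ := by rw [hu1, Matrix.one_mul, Matrix.mul_one]
        have f3 : Bi * (dg a * F - F * dg a) * Bi = dg a * G - G * dg a := by
          have c1 : Bi * dg a = dg a * Bi := by
            rw [hBi, dg_mul_dg, dg_mul_dg]; congr 1; ext i; ring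
          rw [hGdef, Matrix.mul_sub, Matrix.sub_mul]
          congr 1
          · rw [← Matrix.mul_assoc, c1]; simp only [Matrix.mul_assoc]
          · calc Bi * (F * dg a) * Bi = Bi * F * (dg a * Bi) := by simp only [Matrix.mul_assoc]
              _ = _ := by rw [← c1]; simp only [Matrix.mul_assoc]
        rw [f3, hA']
        calc Ah * dg g - dg g * Ah = Ah * (uᴴ * G * u) - (uᴴ * G * u) * Ah := by rw [f2]
          _ = (uᴴ * u) * Ah * (uᴴ * G * u) - (uᴴ * G * u) * Ah * (uᴴ * u) := by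
              rw [hu1, Matrix.one_mul, Matrix.mul_one]
          _ = _ := by
              rw [Matrix.mul_sub, Matrix.sub_mul]
              simp only [Matrix.mul_assoc]
      rw [f1, hs2_unitary' hu2, hBi]
      refine hs2_dg_le (by positivity) (fun i => ?_) _
      rw [inv_pow, sq, hrr, one_div]
      exact inv_anti₀ hmin (ha i).1
    calc hs2 (B * (u * (dg s * Ah * dg s - (Ah - dg g * Ah * dg g)) * uᴴ) * B)
        ≤ amax ^ 2 * ((1 / (1 - q ^ 2)) ^ 2 * ((1 / amin) ^ 2 * hs2 (dg a * F - F * dg a))) := by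
          refine e1.trans (mul_le_mul_of_nonneg_left ?_ (by positivity))
          exact e2.trans (mul_le_mul_of_nonneg_left e3 (by positivity))
      _ = _ := by
          field_simp

end Crest.Agent.R332
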