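import Crest.Agent.R332.B0

/-!
# R332 piece B1: consequences of `geo_mean` (short)

With `S` from `geo_mean`: for Hermitian `Q`,
`psi(Q²) - 2 tr Q + psi(X) = tr(S⁻¹Q²) - 2 tr Q + tr S = tr((Q-S) S⁻¹ (Q-S)) ≥ hs2(Q-S)/amax`
(as `S⁻¹ ≥ 1/amax`).
`g_upper`: `2τ tr S ≤ τ² n + tr S²` (because `tr (S-τ)² ≥ 0`) and `tr S² ≤ tr (A²-F²)`.
`psi_lower`: `psi a F M ≥ Σ Re M_ii / a_i` for `M ≥ 0`, since `S ≤ A` gives `S⁻¹ ≥ A⁻¹`; (or
directly: `((A+sF)⁻¹ + (A-sF)⁻¹)/2 ≥ A⁻¹`.) We only need the weaker form with `amax`.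
-/

set_option autoImplicit false
open MeasureTheory Set Matrix
open scoped ComplexOrder

namespace Crest.Agent.R332

namespace B1_aux

open B0_aux

variable {n : ℕ}

theorem smul_one_conj {v : Matrix (Fin n) (Fin n) ℂ} (hv2 : v * vᴴ = 1) (c : ℝ) :
    (c : ℂ) • (1 : Matrix (Fin n) (Fin n) ℂ) = v * dg (fun _ => c) * vᴴ := by
  rw [dg_const, Matrix.mul_smul, Matrix.smul_mul, Matrix.mul_one, hv2]

theorem inv_sub_psd {S : Matrix (Fin n) (Fin n) ℂ} {amax : ℝ} (hS : S.PosDef)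
    (h : (((amax : ℝ) : ℂ) • (1 : Matrix (Fin n) (Fin n) ℂ) - S).PosSemidef) :
    (S⁻¹ - ((amax⁻¹ : ℝ) : ℂ) • (1 : Matrix (Fin n) (Fin n) ℂ)).PosSemidef := by
  obtain ⟨v, σ, hv1, hv2, hSd⟩ := exists_diag hS.1
  have h0 : ∀ i, 0 < σ i := diag_pos hv1 hSd hS
  have h1 : ((amax : ℝ) : ℂ) • (1 : Matrix (Fin n) (Fin n) ℂ) - S =
      v * dg (fun i => amax - σ i) * vᴴ := by
    rw [smul_one_conj hv2, hSd, ← Matrix.sub_mul, ← Matrix.mul_sub, dg_sub]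
  have h2 : ∀ i, 0 ≤ amax - σ i := diag_nonneg hv1 h1 h
  have h3 : S⁻¹ = v * dg (fun i => (σ i)⁻¹) * vᴴ := by
    apply Matrix.inv_eq_right_inv
    rw [hSd]
    calc v * dg σ * vᴴ * (v * dg (fun i => (σ i)⁻¹) * vᴴ)
        = v * dg σ * (vᴴ * v) * dg (fun i => (σ i)⁻¹) * vᴴ := by simp only [Matrix.mul_assoc]
      _ = v * (dg σ * dg (fun i => (σ i)⁻¹)) * vᴴ := by
          rw [hv1]; simp only [Matrix.mul_assoc, Matrix.one_mul]
      _ = 1 := by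
          rw [dg_mul_dg]
          have : (fun i => σ i * (σ i)⁻¹) = fun _ : Fin n => (1:ℝ) := by
            ext i; exact mul_inv_cancel₀ (h0 i).ne'
          rw [this, dg_one, Matrix.mul_one, hv2]
  have h4 : S⁻¹ - ((amax⁻¹ : ℝ) : ℂ) • (1 : Matrix (Fin n) (Fin n) ℂ) =
      (vᴴ)ᴴ * dg (fun i => (σ i)⁻¹ - amax⁻¹) * vᴴ := by
    rw [smul_one_conj hv2, h3, ← Matrix.sub_mul, ← Matrix.mul_sub, dg_sub,
      conjTranspose_conjTranspose]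
  rw [h4]
  refine Matrix.PosSemidef.conjTranspose_mul_mul_same (dg_posSemidef fun i => ?_) _
  have := inv_anti₀ (h0 i) (by linarith [h2 i] : σ i ≤ amax)
  linarith

theorem exists_min_max (a : Fin n → ℝ) (ha : ∀ i, 0 < a i) :
    ∃ amin amax : ℝ, 0 < amin ∧ ∀ i, amin ≤ a i ∧ a i ≤ amax := by
  rcases Nat.eq_zero_or_pos n with hn | hn
  · subst hn
    exact ⟨1, 1, one_pos, fun i => i.elim0⟩
  · have : Nonempty (Fin n) := ⟨⟨0, hn⟩⟩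
    obtain ⟨i0, h0⟩ := Finite.exists_min a
    obtain ⟨i1, h1⟩ := Finite.exists_max a
    exact ⟨a i0, a i1, ha i0, fun i => ⟨h0 i, h1 i⟩⟩

theorem rtr_one : rtr (1 : Matrix (Fin n) (Fin n) ℂ) = n := by
  unfold rtr
  simp

end B1_aux

open B1_aux

theorem young_defect {n : ℕ} (a : Fin n → ℝ) (F : Matrix (Fin n) (Fin n) ℂ) {q amin amax : ℝ}
    (hq0 : 0 ≤ q) (hq1 : q < 1) (hmin : 0 < amin) (ha : ∀ i, amin ≤ a i ∧ a i ≤ amax)
    (hF : Btw (fun i => q * a i) F) :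
    ∃ S : Matrix (Fin n) (Fin n) ℂ, S.PosSemidef ∧
      (((amax : ℝ) : ℂ) • (1 : Matrix (Fin n) (Fin n) ℂ) - S).PosSemidef ∧
      hs2 (S * S - XX a F) ≤
        (amax / (amin * (1 - q ^ 2))) ^ 2 * hs2 (dg a * F - F * dg a) ∧
      ∀ Q : Matrix (Fin n) (Fin n) ℂ, Q.IsHermitian →
        hs2 (Q - S) / amax ≤ psi a F (Q * Q) - 2 * rtr Q + psi a F (XX a F) := by
  obtain ⟨S, hS, hpsi, hXX, -, hmax, hcomm⟩ := geo_mean a F hq0 hq1 hmin ha hF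
  refine ⟨S, hS.posSemidef, hmax, hcomm, ?_⟩
  intro Q hQ
  have hSh : S.IsHermitian := hS.1
  have hunit : IsUnit S.det := by
    have := hS.isUnit
    rwa [Matrix.isUnit_iff_isUnit_det] at this
  have e1 : S * S⁻¹ = 1 := Matrix.mul_nonsing_inv S hunit
  have e2 : S⁻¹ * S = 1 := Matrix.nonsing_inv_mul S hunit
  have hDh : (Q - S)ᴴ = Q - S := by rw [conjTranspose_sub, hQ.eq, hSh.eq]
  have h1 : (Q - S) * S⁻¹ * (Q - S) = Q * S⁻¹ * Q - Q - Q + S := by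
    rw [Matrix.sub_mul Q S, e1, Matrix.sub_mul, Matrix.mul_sub, Matrix.one_mul,
      Matrix.mul_assoc Q S⁻¹ S, e2, Matrix.mul_one]
    abel
  have h2 : psi a F (Q * Q) - 2 * rtr Q + psi a F (XX a F) = rtr ((Q - S) * S⁻¹ * (Q - S)) := by
    rw [h1, hpsi (Q * Q), hXX, rtr_add, rtr_sub, rtr_sub]
    have : rtr (S⁻¹ * (Q * Q)) = rtr (Q * S⁻¹ * Q) := by
      rw [← Matrix.mul_assoc, rtr_mul_comm, Matrix.mul_assoc]
    rw [this]; ring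
  rw [h2]
  have h3 := (inv_sub_psd hS hmax).conjTranspose_mul_mul_same (Q - S)
  have h4 := rtr_nonneg h3
  generalize hD : Q - S = D at *
  rw [hDh, Matrix.mul_sub, Matrix.sub_mul, rtr_sub, Matrix.mul_smul, Matrix.smul_mul, rtr_smul,
    Matrix.mul_one] at h4
  have h5 : hs2 D = rtr (D * D) := by rw [hs2_eq_rtr, hDh]
  rw [h5, div_eq_inv_mul]
  linarith

theorem g_upper {n : ℕ} (a : Fin n → ℝ) (F : Matrix (Fin n) (Fin n) ℂ) {q : ℝ}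
    (hq0 : 0 ≤ q) (hq1 : q < 1) (ha : ∀ i, 0 < a i)
    (hF : Btw (fun i => q * a i) F) {τ : ℝ} (hτ : 0 < τ) :
    0 ≤ psi a F (XX a F) ∧
    psi a F (XX a F) ≤ (τ ^ 2 * n + rtr (XX a F)) / (2 * τ) := by
  obtain ⟨amin, amax, hmin, hmm⟩ := exists_min_max a ha
  obtain ⟨S, hS, -, hXX, htr, -, -⟩ := geo_mean a F hq0 hq1 hmin hmm hF
  rw [hXX]
  refine ⟨rtr_nonneg hS.posSemidef, ?_⟩
  rw [le_div_iff₀ (by positivity)]
  have hSh : S.IsHermitian := hS.1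
  have h1 : 0 ≤ hs2 (S - (τ : ℂ) • (1 : Matrix (Fin n) (Fin n) ℂ)) := hs2_nonneg _
  have h2 : (S - (τ : ℂ) • (1 : Matrix (Fin n) (Fin n) ℂ))ᴴ = S - (τ : ℂ) • 1 := by
    rw [conjTranspose_sub, hSh.eq, conjTranspose_smul, conjTranspose_one]
    simp
  have h3 : hs2 (S - (τ : ℂ) • (1 : Matrix (Fin n) (Fin n) ℂ)) =
      rtr (S * S) - 2 * (rtr S * τ) + τ ^ 2 * n := by
    rw [hs2_eq_rtr, h2, Matrix.mul_sub, Matrix.sub_mul, rtr_sub, rtr_sub, Matrix.smul_mul,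
      rtr_smul, Matrix.one_mul, Matrix.mul_smul, rtr_smul, Matrix.mul_one, rtr_sub, rtr_smul,
      rtr_one]
    ring
  rw [h3] at h1
  linarith

theorem psi_lower {n : ℕ} (a : Fin n → ℝ) (F : Matrix (Fin n) (Fin n) ℂ) {q amax : ℝ}
    (hq0 : 0 ≤ q) (hq1 : q < 1) (ha : ∀ i, 0 < a i ∧ a i ≤ amax)
    (hF : Btw (fun i => q * a i) F) {M : Matrix (Fin n) (Fin n) ℂ} (hM : M.PosSemidef) :
    rtr M / amax ≤ psi a F M := by
  obtain ⟨amin, amax', hmin, hmm⟩ := exists_min_max a (fun i => (ha i).1)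
  obtain ⟨S, hS, hpsi, -, -, hmax, -⟩ := geo_mean a F hq0 hq1 hmin
    (fun i => ⟨(hmm i).1, (ha i).2⟩) hF
  rw [hpsi]
  have h := rtr_mul_nonneg (inv_sub_psd hS hmax) hM
  rw [Matrix.sub_mul, rtr_sub, Matrix.smul_mul, rtr_smul, Matrix.one_mul] at h
  rw [div_eq_inv_mul]
  linarith

end Crest.Agent.R332
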