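import Crest.Agent.R332.A3
import Crest.Agent.R332.API

/-!
# R332 piece B3: the commutator defect (pure algebra + circle average)

`A = diag a > 0`, `-qA ≤ F ≤ qA`, `q < 1`; `R = R_φ = (A + sF)⁻¹`, `s = sin φ` (invertible since
`A + sF ≥ (1-q)A > 0`), `Z = A R F = F R A` (Hermitian). Algebraic identity (use `s F = R⁻¹ - A`,
i.e. `s R F = 1 - R A`, and cyclicity of the trace):
`tr R - tr(R A⁻¹ R (A²-F²)) = s tr(A⁻¹ R F) + cos²φ · tr(A⁻¹ R F F R)`
[indeed `tr R - tr(R A⁻¹ R A²) = s tr(A⁻¹RF) - s² tr(A⁻¹RF²R)`].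
Since `d/dφ R = -cos φ R F R`,
`s tr(A⁻¹RF) = - d/dφ [cos φ tr(A⁻¹ R F)] - cos²φ tr(A⁻¹ R F R F)`, whose total derivative
averages to 0 (`avg_deriv`). So the average equals that of
`cos²φ · (tr(A⁻¹RF²R) - tr(A⁻¹RFRF)) = cos²φ · (tr(A⁻³ Z²) - tr(A⁻² Z A⁻¹ Z))
 = cos²φ · (1/2) Σ_ij |Z_ij|² (α_i - α_j)² (α_i + α_j)`, `α = 1/a`,
`≥ cos²φ · (1/amax) · hs2 [A⁻¹, Z]`. Finally `[A⁻¹,Z] = R F - F R = -R [A,F] R`, so
`hs2 [A,F] ≤ (2 amax)⁴ hs2 [A⁻¹,Z]` because `‖R⁻¹‖ = ‖A + sF‖ ≤ 2 amax`. With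
`avg cos² = 1/2` the constant is `1/(32 amax⁵)`.
-/

set_option autoImplicit false
open MeasureTheory Set Matrix
open scoped ComplexOrder

namespace Crest.Agent.R332
namespace B3_aux

variable {n m : ℕ}

theorem dg_smul (c : ℝ) (a : Fin n → ℝ) : dg (fun i => c * a i) = (c : ℂ) • dg a := by
  ext i j
  by_cases h : i = j
  · subst h; simp [dg]
  · simp [dg, h]

theorem dg_inv {a : Fin n → ℝ} (ha : ∀ i, a i ≠ 0) :
    (dg a)⁻¹ = dg (fun i => (a i)⁻¹) := by
  apply Matrix.inv_eq_right_inv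
  ext i j
  by_cases h : i = j
  · subst h; simp [dg, ha i]
  · simp [dg, h]

theorem dg_mul_inv {a : Fin n → ℝ} (ha : ∀ i, a i ≠ 0) : dg a * (dg a)⁻¹ = 1 := by
  rw [dg_inv ha]
  ext i j
  by_cases h : i = j
  · subst h; simp [dg, ha i]
  · simp [dg, h]

theorem inv_mul_dg {a : Fin n → ℝ} (ha : ∀ i, a i ≠ 0) : (dg a)⁻¹ * dg a = 1 := by
  rw [dg_inv ha]
  ext i j
  by_cases h : i = j
  · subst h; simp [dg, ha i]
  · simp [dg, h]

theorem smul_psd {A : Matrix (Fin n) (Fin n) ℂ} (hA : A.PosSemidef) {c : ℝ} (hc : 0 ≤ c) :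
    ((c : ℂ) • A).PosSemidef := hA.smul (Complex.zero_le_real.mpr hc)

theorem smul_pd {A : Matrix (Fin n) (Fin n) ℂ} (hA : A.PosDef) {c : ℝ} (hc : 0 < c) :
    ((c : ℂ) • A).PosDef := hA.smul (Complex.zero_lt_real.mpr hc)

/-- `dg (q a) + s F ≥ 0` for `|s| ≤ 1`. -/
theorem btw_psd {a : Fin n → ℝ} {F : Matrix (Fin n) (Fin n) ℂ} (hF : Btw a F)
    {s : ℝ} (hs : |s| ≤ 1) : (dg a + (s : ℂ) • F).PosSemidef := by
  have h1 := (abs_le.mp hs).1
  have h2 := (abs_le.mp hs).2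
  have e : dg a + (s : ℂ) • F
      = (((1 + s) / 2 : ℝ) : ℂ) • (dg a + F) + (((1 - s) / 2 : ℝ) : ℂ) • (dg a - F) := by
    push_cast
    module
  rw [e]
  exact (smul_psd hF.2 (by linarith)).add (smul_psd hF.1 (by linarith))

theorem M_posDef {a : Fin n → ℝ} {F : Matrix (Fin n) (Fin n) ℂ} {q : ℝ}
    (hq1 : q < 1) (ha : ∀ i, 0 < a i) (hF : Btw (fun i => q * a i) F)
    {s : ℝ} (hs : |s| ≤ 1) : (dg a + (s : ℂ) • F).PosDef := by
  have e : dg a + (s : ℂ) • F
      = (((1 - q : ℝ)) : ℂ) • (dg a) + (dg (fun i => q * a i) + (s : ℂ) • F) := by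
    rw [dg_smul]
    push_cast
    module
  rw [e]
  exact (smul_pd (dg_posDef ha) (by linarith)).add_posSemidef (btw_psd hF hs)

theorem M_le {a : Fin n → ℝ} {F : Matrix (Fin n) (Fin n) ℂ} {q amax : ℝ}
    (hq1 : q < 1) (ha : ∀ i, 0 < a i ∧ a i ≤ amax) (hF : Btw (fun i => q * a i) F)
    {s : ℝ} (hs : |s| ≤ 1) :
    (((2 * amax : ℝ) : ℂ) • (1 : Matrix (Fin n) (Fin n) ℂ) - (dg a + (s : ℂ) • F)).PosSemidef := by
  have h1 : (dg (fun i => amax - a i)).PosSemidef := dg_posSemidef fun i => by linarith [(ha i).2]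
  have h2 : (dg a).PosSemidef := dg_posSemidef fun i => (ha i).1.le
  have h3 : (dg (fun i => q * a i) + ((-s : ℝ) : ℂ) • F).PosSemidef :=
    btw_psd hF (by rwa [abs_neg])
  have e : ((2 * amax : ℝ) : ℂ) • (1 : Matrix (Fin n) (Fin n) ℂ) - (dg a + (s : ℂ) • F)
      = ((2 : ℝ) : ℂ) • dg (fun i => amax - a i) + (((1 - q : ℝ)) : ℂ) • (dg a)
        + (dg (fun i => q * a i) + ((-s : ℝ) : ℂ) • F) := by
    have e1 : dg (fun i => amax - a i) = (amax : ℂ) • (1 : Matrix (Fin n) (Fin n) ℂ) - dg a := by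
      ext i j
      by_cases h : i = j
      · subst h; simp [dg]
      · simp [dg, h]
    rw [e1, dg_smul]
    push_cast
    module
  rw [e]
  exact ((smul_psd h1 (by norm_num)).add (smul_psd h2 (by linarith))).add h3

/-- `0 ≤ M ≤ c` gives `‖M X‖² ≤ c² ‖X‖²`. -/
theorem hs2_mul_le_of_le {M : Matrix (Fin n) (Fin n) ℂ} {c : ℝ} (hc : 0 < c)
    (hM : M.PosSemidef)
    (hMc : ((c : ℂ) • (1 : Matrix (Fin n) (Fin n) ℂ) - M).PosSemidef)
    (X : Matrix (Fin n) (Fin m) ℂ) : hs2 (M * X) ≤ c ^ 2 * hs2 X := by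
  set N := (c : ℂ) • (1 : Matrix (Fin n) (Fin n) ℂ) - M with hN
  have hMh : Mᴴ = M := hM.isHermitian
  have hNh : Nᴴ = N := hMc.isHermitian
  have hXX : (X * Xᴴ).PosSemidef := Matrix.posSemidef_self_mul_conjTranspose X
  have p1 : (N * N).PosSemidef := by
    have := Matrix.posSemidef_self_mul_conjTranspose N
    rwa [hNh] at this
  have p2 : (M * N * M).PosSemidef := by
    have := hMc.mul_mul_conjTranspose_same M
    rwa [hMh] at this
  have p3 : (N * M * N).PosSemidef := by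
    have := hM.mul_mul_conjTranspose_same N
    rwa [hNh] at this
  have hP : ((c : ℂ) • (N * N) + ((2 : ℝ) : ℂ) • (M * N * M + N * M * N)).PosSemidef :=
    (smul_psd p1 hc.le).add (smul_psd (p2.add p3) (by norm_num))
  have e : (c : ℂ) • (N * N) + ((2 : ℝ) : ℂ) • (M * N * M + N * M * N)
      = ((c ^ 3 : ℝ) : ℂ) • (1 : Matrix (Fin n) (Fin n) ℂ) - ((c : ℝ) : ℂ) • (M * M) := by
    rw [hN]
    push_cast
    simp only [mul_sub, sub_mul, Matrix.smul_mul, Matrix.mul_smul, Matrix.one_mul, Matrix.mul_one,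
      smul_sub, smul_add, smul_smul]
    module
  rw [e] at hP
  have h1 := rtr_mul_nonneg hP hXX
  rw [Matrix.sub_mul, rtr_sub, Matrix.smul_mul, Matrix.smul_mul, rtr_smul, rtr_smul,
    Matrix.one_mul, ← hs2_eq_rtr'] at h1
  have h2 : hs2 (M * X) = rtr (M * M * (X * Xᴴ)) := by
    rw [hs2_eq_rtr', Matrix.conjTranspose_mul, hMh,
      show M * X * (Xᴴ * M) = (M * (X * Xᴴ)) * M by simp only [Matrix.mul_assoc],
      rtr_mul_comm, ← Matrix.mul_assoc]
  rw [← h2] at h1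
  have h3 : 0 ≤ c * (c ^ 2 * hs2 X - hs2 (M * X)) := by nlinarith
  have := (mul_nonneg_iff_of_pos_left hc).mp h3
  linarith

theorem hs2_conjTranspose (X : Matrix (Fin n) (Fin m) ℂ) : hs2 Xᴴ = hs2 X := by
  rw [hs2_eq_rtr, hs2_eq_rtr', Matrix.conjTranspose_conjTranspose]

theorem hs2_neg (X : Matrix (Fin n) (Fin m) ℂ) : hs2 (-X) = hs2 X := by
  simp [hs2]

/-- trace algebra -/
theorem tr_identity {A F R Ai : Matrix (Fin n) (Fin n) ℂ} {s : ℂ}
    (h1 : R * A + s • (R * F) = 1) (h2 : A * R + s • (F * R) = 1)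
    (hA2 : Ai * A = 1) :
    trace R - trace (R * Ai * R * (A * A - F * F))
      = s * trace (Ai * R * F) + (1 - s ^ 2) * trace (Ai * R * F * F * R) := by
  have h1' : R * A = 1 - s • (R * F) := eq_sub_of_add_eq h1
  have h2' : A * R = 1 - s • (F * R) := eq_sub_of_add_eq h2
  have hR : R = Ai - s • (Ai * F * R) := by
    calc R = Ai * (A * R) := by rw [← Matrix.mul_assoc, hA2, Matrix.one_mul]
      _ = _ := by rw [h2', Matrix.mul_sub, Matrix.mul_one, Matrix.mul_smul, Matrix.mul_assoc]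
  have e1 : trace (R * Ai * R * (A * A)) = trace (Ai * (R * A) * (A * R)) := by
    rw [show R * Ai * R * (A * A) = R * (Ai * (R * A) * A) by simp only [Matrix.mul_assoc],
      Matrix.trace_mul_comm, show Ai * (R * A) * A * R = Ai * (R * A) * (A * R) by
        simp only [Matrix.mul_assoc]]
  have e2 : trace (R * Ai * R * (F * F)) = trace (Ai * R * F * F * R) := by
    rw [show R * Ai * R * (F * F) = R * (Ai * R * F * F) by simp only [Matrix.mul_assoc],
      Matrix.trace_mul_comm]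
  have e3 : trace (Ai * (R * A) * (A * R))
      = trace Ai - s * trace (Ai * R * F) - s * trace (Ai * F * R)
        + s ^ 2 * trace (Ai * R * F * F * R) := by
    rw [h1', h2']
    simp only [mul_sub, sub_mul, Matrix.smul_mul, Matrix.mul_smul, Matrix.mul_one,
      Matrix.trace_sub, Matrix.trace_smul, smul_eq_mul, ← Matrix.mul_assoc]
    ring
  have e4 : trace R = trace Ai - s * trace (Ai * F * R) := by
    conv_lhs => rw [hR]
    rw [Matrix.trace_sub, Matrix.trace_smul, smul_eq_mul]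
  rw [Matrix.mul_sub, Matrix.trace_sub, e1, e2, e3, e4]
  ring

theorem conj_apply {Z : Matrix (Fin n) (Fin n) ℂ} (hZ : Zᴴ = Z) (i j : Fin n) :
    Z j i = (starRingEnd ℂ) (Z i j) := by
  have := congrFun (congrFun hZ j) i
  rw [Matrix.conjTranspose_apply] at this
  exact this.symm

theorem defect_ge {a : Fin n → ℝ} {Z : Matrix (Fin n) (Fin n) ℂ} {amax : ℝ}
    (ha : ∀ i, 0 < a i ∧ a i ≤ amax) (hZ : Zᴴ = Z) :
    hs2 (dg (fun i => (a i)⁻¹) * Z - Z * dg (fun i => (a i)⁻¹)) / amax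
      ≤ rtr (dg (fun i => (a i)⁻¹) * (dg (fun i => (a i)⁻¹) * Z) * (Z * dg (fun i => (a i)⁻¹)))
        - rtr (dg (fun i => (a i)⁻¹) * (dg (fun i => (a i)⁻¹) * Z)
          * (dg (fun i => (a i)⁻¹) * Z)) := by
  set α : Fin n → ℝ := fun i => (a i)⁻¹ with hα
  have hαpos : ∀ i, 0 < α i := fun i => inv_pos.mpr (ha i).1
  have hαge : ∀ i, amax⁻¹ ≤ α i := fun i => inv_anti₀ (ha i).1 (ha i).2
  set w : Fin n → Fin n → ℝ := fun i j => ‖Z i j‖ ^ 2 with hw
  have hZZ : ∀ i j, Z i j * Z j i = ((w i j : ℝ) : ℂ) := by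
    intro i j
    rw [conj_apply hZ i j, Complex.mul_conj, hw]
    simp [Complex.normSq_eq_norm_sq]
  have hwsym : ∀ i j, w i j = w j i := by
    intro i j
    simp only [hw]
    rw [conj_apply hZ i j, Complex.norm_conj]
  have E1 : rtr (dg α * (dg α * Z) * (Z * dg α)) = ∑ i, ∑ j, α i ^ 3 * w i j := by
    rw [rtr, Matrix.trace, Complex.re_sum]
    refine Finset.sum_congr rfl fun i _ => ?_
    rw [Matrix.diag_apply, Matrix.mul_apply, Complex.re_sum]
    refine Finset.sum_congr rfl fun j _ => ?_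
    rw [dg, Matrix.diagonal_mul, Matrix.diagonal_mul, Matrix.mul_diagonal]
    have : (α i : ℂ) * ((α i : ℂ) * Z i j) * (Z j i * (α i : ℂ))
        = ((α i ^ 3 * w i j : ℝ) : ℂ) := by
      push_cast
      rw [← hZZ i j]; ring
    rw [this, Complex.ofReal_re]
  have E2 : rtr (dg α * (dg α * Z) * (dg α * Z)) = ∑ i, ∑ j, α i ^ 2 * α j * w i j := by
    rw [rtr, Matrix.trace, Complex.re_sum]
    refine Finset.sum_congr rfl fun i _ => ?_
    rw [Matrix.diag_apply, Matrix.mul_apply, Complex.re_sum]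
    refine Finset.sum_congr rfl fun j _ => ?_
    rw [dg, Matrix.diagonal_mul, Matrix.diagonal_mul, Matrix.diagonal_mul]
    have : (α i : ℂ) * ((α i : ℂ) * Z i j) * ((α j : ℂ) * Z j i)
        = ((α i ^ 2 * α j * w i j : ℝ) : ℂ) := by
      push_cast
      rw [← hZZ i j]; ring
    rw [this, Complex.ofReal_re]
  have E3 : hs2 (dg α * Z - Z * dg α) = ∑ i, ∑ j, (α i - α j) ^ 2 * w i j := by
    rw [hs2]
    refine Finset.sum_congr rfl fun i _ => Finset.sum_congr rfl fun j _ => ?_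
    rw [Matrix.sub_apply, dg, Matrix.diagonal_mul, Matrix.mul_diagonal]
    have : (α i : ℂ) * Z i j - Z i j * (α j : ℂ) = ((α i - α j : ℝ) : ℂ) * Z i j := by
      push_cast; ring
    rw [this, norm_mul, mul_pow, Complex.norm_real, Real.norm_eq_abs, sq_abs]
  rw [E1, E2, E3]
  have hsym : ∑ i, ∑ j, α i ^ 3 * w i j - ∑ i, ∑ j, α i ^ 2 * α j * w i j
      = ∑ i, ∑ j, (1 / 2) * ((α i - α j) ^ 2 * (α i + α j) * w i j) := by
    have h1 : ∑ i, ∑ j, α i ^ 3 * w i j = ∑ i, ∑ j, α j ^ 3 * w i j := by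
      rw [Finset.sum_comm]
      exact Finset.sum_congr rfl fun i _ => Finset.sum_congr rfl fun j _ => by rw [hwsym]
    have h2 : ∑ i, ∑ j, α i ^ 2 * α j * w i j = ∑ i, ∑ j, α j ^ 2 * α i * w i j := by
      rw [Finset.sum_comm]
      exact Finset.sum_congr rfl fun i _ => Finset.sum_congr rfl fun j _ => by rw [hwsym]
    have h3 : ∑ i, ∑ j, (1 / 2) * ((α i - α j) ^ 2 * (α i + α j) * w i j)
        = (1 / 2) * ((∑ i, ∑ j, α i ^ 3 * w i j + ∑ i, ∑ j, α j ^ 3 * w i j)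
          - (∑ i, ∑ j, α i ^ 2 * α j * w i j + ∑ i, ∑ j, α j ^ 2 * α i * w i j)) := by
      simp only [← Finset.sum_add_distrib, ← Finset.sum_sub_distrib, Finset.mul_sum]
      exact Finset.sum_congr rfl fun i _ => Finset.sum_congr rfl fun j _ => by ring
    rw [h3, ← h1, ← h2]; ring
  rw [hsym, Finset.sum_div]
  refine Finset.sum_le_sum fun i _ => ?_
  rw [Finset.sum_div]
  refine Finset.sum_le_sum fun j _ => ?_
  have h1 := hαge i
  have h2 := hαge j
  have h3 : 0 ≤ (α i - α j) ^ 2 * w i j := by positivity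
  rw [div_eq_mul_inv]
  nlinarith

section deriv

attribute [local instance] Matrix.linftyOpNormedRing Matrix.linftyOpNormedAlgebra

theorem hasDerivAt_Rm {a : Fin n → ℝ} {F : Matrix (Fin n) (Fin n) ℂ} (φ : ℝ)
    (hu : IsUnit (dg a + (Real.sin φ : ℂ) • F)) :
    HasDerivAt (Rm a F) (-(Rm a F φ * ((Real.cos φ : ℂ) • F) * Rm a F φ)) φ := by
  have h1 : HasDerivAt (fun φ : ℝ => dg a + (Real.sin φ : ℂ) • F) ((Real.cos φ : ℂ) • F) φ :=
    ((Real.hasDerivAt_sin φ).ofReal_comp.smul_const F).const_add (dg a)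
  obtain ⟨u, hu'⟩ := hu
  have h2 : HasFDerivAt Ring.inverse
      (-ContinuousLinearMap.mulLeftRight ℝ (Matrix (Fin n) (Fin n) ℂ) ↑u⁻¹ ↑u⁻¹)
      (dg a + (Real.sin φ : ℂ) • F) := by
    rw [← hu']
    exact hasFDerivAt_ringInverse u
  have h3 := h2.comp_hasDerivAt φ h1
  have hR : (↑u⁻¹ : Matrix (Fin n) (Fin n) ℂ) = Rm a F φ := by
    rw [Rm, ← hu', Matrix.coe_units_inv]
  have e : Rm a F = Ring.inverse ∘ fun φ : ℝ => dg a + (Real.sin φ : ℂ) • F := by
    funext ψ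
    rw [Rm, Matrix.nonsing_inv_eq_ringInverse]; rfl
  have h4 := h3
  rw [← e] at h4
  refine h4.congr_deriv ?_
  rw [_root_.neg_apply, ContinuousLinearMap.mulLeftRight_apply, hR]

theorem continuous_Rm {a : Fin n → ℝ} {F : Matrix (Fin n) (Fin n) ℂ}
    (hu : ∀ φ : ℝ, IsUnit (dg a + (Real.sin φ : ℂ) • F)) : Continuous (Rm a F) :=
  continuous_iff_continuousAt.mpr fun φ => (hasDerivAt_Rm φ (hu φ)).continuousAt

theorem hasDerivAt_rtr {a : Fin n → ℝ} {F : Matrix (Fin n) (Fin n) ℂ} (φ : ℝ)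
    (hu : IsUnit (dg a + (Real.sin φ : ℂ) • F)) (B C : Matrix (Fin n) (Fin n) ℂ) :
    HasDerivAt (fun φ => rtr (B * Rm a F φ * C))
      (-(Real.cos φ * rtr (B * Rm a F φ * F * Rm a F φ * C))) φ := by
  let L : Matrix (Fin n) (Fin n) ℂ →ₗ[ℝ] ℝ :=
    { toFun X := rtr (B * X * C)
      map_add' X Y := by
        rw [Matrix.mul_add, Matrix.add_mul, rtr_add]
      map_smul' c X := by
        have : c • X = (c : ℂ) • X := by
          ext i j; simp
        rw [this, Matrix.mul_smul, Matrix.smul_mul, rtr_smul]; rfl }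
  have h := (LinearMap.toContinuousLinearMap L).hasFDerivAt.comp_hasDerivAt φ (hasDerivAt_Rm φ hu)
  refine HasDerivAt.congr_deriv h ?_
  show rtr (B * (-(Rm a F φ * ((Real.cos φ : ℂ) • F) * Rm a F φ)) * C) = _
  have : B * (-(Rm a F φ * ((Real.cos φ : ℂ) • F) * Rm a F φ)) * C
      = ((-Real.cos φ : ℝ) : ℂ) • (B * Rm a F φ * F * Rm a F φ * C) := by
    simp only [Matrix.mul_smul, Matrix.smul_mul, Matrix.mul_neg, Matrix.neg_mul, Matrix.mul_assoc]
    push_cast
    rw [neg_smul]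
  rw [this, rtr_smul]
  ring

end deriv

end B3_aux

open B3_aux

theorem comm_defect {n : ℕ} (a : Fin n → ℝ) (F : Matrix (Fin n) (Fin n) ℂ) {q amax : ℝ}
    (hq0 : 0 ≤ q) (hq1 : q < 1) (ha : ∀ i, 0 < a i ∧ a i ≤ amax)
    (hF : Btw (fun i => q * a i) F) :
    hs2 (dg a * F - F * dg a) / (32 * amax ^ 5) ≤
      avg (fun φ => rtr (Rm a F φ) - rtr (Rm a F φ * (dg a)⁻¹ * Rm a F φ * XX a F)) := by
  rcases Nat.eq_zero_or_pos n with hn | hn
  · subst hn
    have h1 : hs2 (dg a * F - F * dg a) = 0 := by simp [hs2]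
    have h2 : (fun φ => rtr (Rm a F φ) - rtr (Rm a F φ * (dg a)⁻¹ * Rm a F φ * XX a F))
        = fun _ => (0 : ℝ) := by
      funext φ; simp [rtr, Matrix.trace]
    rw [h1, h2, avg_const, zero_div]
  have hamax : 0 < amax := lt_of_lt_of_le (ha ⟨0, hn⟩).1 (ha ⟨0, hn⟩).2
  have hane : ∀ i, a i ≠ 0 := fun i => (ha i).1.ne'
  have hFh : Fᴴ = F := hF.isHermitian
  set Ai := (dg a)⁻¹ with hAi
  have hAA : Ai * dg a = 1 := inv_mul_dg hane
  have hAA' : dg a * Ai = 1 := dg_mul_inv hane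
  have hPD : ∀ φ : ℝ, (dg a + (Real.sin φ : ℂ) • F).PosDef := fun φ =>
    M_posDef hq1 (fun i => (ha i).1) hF (Real.abs_sin_le_one φ)
  have hu : ∀ φ : ℝ, IsUnit (dg a + (Real.sin φ : ℂ) • F) := fun φ => (hPD φ).isUnit
  have hdet : ∀ φ : ℝ, IsUnit (dg a + (Real.sin φ : ℂ) • F).det := fun φ =>
    (Matrix.isUnit_iff_isUnit_det _).mp (hu φ)
  have hMR : ∀ φ : ℝ, (dg a + (Real.sin φ : ℂ) • F) * Rm a F φ = 1 := fun φ =>
    Matrix.mul_nonsing_inv _ (hdet φ)
  have hRM : ∀ φ : ℝ, Rm a F φ * (dg a + (Real.sin φ : ℂ) • F) = 1 := fun φ =>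
    Matrix.nonsing_inv_mul _ (hdet φ)
  have h1 : ∀ φ : ℝ, Rm a F φ * dg a + (Real.sin φ : ℂ) • (Rm a F φ * F) = 1 := fun φ => by
    have := hRM φ
    rwa [Matrix.mul_add, Matrix.mul_smul] at this
  have h2 : ∀ φ : ℝ, dg a * Rm a F φ + (Real.sin φ : ℂ) • (F * Rm a F φ) = 1 := fun φ => by
    have := hMR φ
    rwa [Matrix.add_mul, Matrix.smul_mul] at this
  have hRc : Continuous (Rm a F) := continuous_Rm hu
  -- the total derivative
  set D : ℝ → ℝ := fun φ => Real.sin φ * rtr (Ai * Rm a F φ * F)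
    + Real.cos φ ^ 2 * rtr (Ai * Rm a F φ * F * Rm a F φ * F) with hD
  have hDc : Continuous D := by
    refine (Real.continuous_sin.mul (continuous_rtr.comp ?_)).add
      ((Real.continuous_cos.pow 2).mul (continuous_rtr.comp ?_))
    · exact (continuous_const.matrix_mul hRc).matrix_mul continuous_const
    · exact (((continuous_const.matrix_mul hRc).matrix_mul continuous_const).matrix_mul
        hRc).matrix_mul continuous_const
  have hD0 : avg D = 0 := by
    have hder : ∀ φ, HasDerivAt (fun φ => Real.cos φ * rtr (Ai * Rm a F φ * F)) (-D φ) φ := by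
      intro φ
      refine ((Real.hasDerivAt_cos φ).mul (hasDerivAt_rtr φ (hu φ) Ai F)).congr_deriv ?_
      simp only [hD]
      ring
    have := avg_deriv hder hDc.neg (by simp [Rm])
    have h3 : avg (fun φ => -D φ) = -avg D := by
      have := avg_mul_left (-1) D
      simpa using this
    rw [h3] at this
    linarith
  set κ : ℝ := hs2 (dg a * F - F * dg a) / (16 * amax ^ 5) with hκ
  -- pointwise identity and inequality
  have hpt : ∀ φ, D φ + κ * Real.cos φ ^ 2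
      ≤ rtr (Rm a F φ) - rtr (Rm a F φ * Ai * Rm a F φ * XX a F) := by
    intro φ
    have hid := tr_identity (h1 φ) (h2 φ) hAA
    set R := Rm a F φ with hR
    set s := Real.sin φ with hs
    have hid' : rtr R - rtr (R * Ai * R * XX a F)
        = s * rtr (Ai * R * F) + Real.cos φ ^ 2 * rtr (Ai * R * F * F * R) := by
      have hc : (1 : ℂ) - (s : ℂ) ^ 2 = ((Real.cos φ ^ 2 : ℝ) : ℂ) := by
        rw [Real.cos_sq', ← hs]; push_cast; rfl
      rw [hc] at hid
      have := congrArg Complex.re hid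
      rw [Complex.sub_re, Complex.add_re, Complex.re_ofReal_mul, Complex.re_ofReal_mul] at this
      exact this
    rw [hid']
    -- Hermitian resolvent
    have hRh : Rᴴ = R := by
      have : (dg a + (s : ℂ) • F)ᴴ = dg a + (s : ℂ) • F := (hPD φ).isHermitian
      rw [hR, Rm, Matrix.conjTranspose_nonsing_inv, this]
    have hdgh : (dg a)ᴴ = dg a := (dg_posDef fun i => (ha i).1).isHermitian
    set Z := dg a * R * F with hZdef
    have hZ' : Z = F * R * dg a := by
      have e1 : dg a * R = 1 - (s : ℂ) • (F * R) := eq_sub_of_add_eq (h2 φ)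
      have e2 : R * dg a = 1 - (s : ℂ) • (R * F) := eq_sub_of_add_eq (h1 φ)
      rw [hZdef, e1, Matrix.mul_assoc F R, e2, Matrix.sub_mul, Matrix.mul_sub, Matrix.one_mul,
        Matrix.mul_one, Matrix.smul_mul, Matrix.mul_smul, Matrix.mul_assoc]
    have hZh : Zᴴ = Z := by
      conv_rhs => rw [hZ']
      rw [hZdef, Matrix.conjTranspose_mul, Matrix.conjTranspose_mul, hFh, hRh, hdgh,
        Matrix.mul_assoc]
    have hRF : R * F = Ai * Z := by
      rw [hZdef, ← Matrix.mul_assoc, ← Matrix.mul_assoc, hAA, Matrix.one_mul]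
    have hFR : F * R = Z * Ai := by
      rw [hZ', Matrix.mul_assoc, hAA', Matrix.mul_one]
    have hAidg : Ai = dg (fun i => (a i)⁻¹) := dg_inv hane
    have hdef := defect_ge ha hZh
    rw [← hAidg, ← hRF, ← hFR] at hdef
    have hge : hs2 (dg a * F - F * dg a) / (16 * amax ^ 5) ≤
        rtr (Ai * R * F * F * R) - rtr (Ai * R * F * R * F) := by
      have e1 : Ai * (R * F) * (F * R) = Ai * R * F * F * R := by simp only [Matrix.mul_assoc]
      have e2 : Ai * (R * F) * (R * F) = Ai * R * F * R * F := by simp only [Matrix.mul_assoc]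
      rw [e1, e2] at hdef
      refine le_trans ?_ hdef
      set M := dg a + (s : ℂ) • F with hM
      have hMh : Mᴴ = M := (hPD φ).isHermitian
      have hcomm : M * (R * F - F * R) * M = -(dg a * F - F * dg a) := by
        have e3 : M * R = 1 := hMR φ
        have e4 : R * M = 1 := hRM φ
        rw [Matrix.mul_sub, Matrix.sub_mul, ← Matrix.mul_assoc, e3, Matrix.one_mul,
          ← Matrix.mul_assoc M F R, Matrix.mul_assoc (M * F) R M, e4, Matrix.mul_one, hM,
          Matrix.mul_add, Matrix.add_mul, Matrix.mul_smul, Matrix.smul_mul]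
        abel
      have hc2 : (0 : ℝ) < 2 * amax := by linarith
      have hMle := M_le hq1 ha hF (Real.abs_sin_le_one φ)
      have b1 : hs2 (M * ((R * F - F * R) * M)) ≤ (2 * amax) ^ 2 * hs2 ((R * F - F * R) * M) :=
        hs2_mul_le_of_le hc2 (hPD φ).posSemidef hMle _
      have b2 : hs2 ((R * F - F * R) * M) ≤ (2 * amax) ^ 2 * hs2 (R * F - F * R) := by
        rw [← hs2_conjTranspose, Matrix.conjTranspose_mul, hMh,
          ← hs2_conjTranspose (R * F - F * R)]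
        exact hs2_mul_le_of_le hc2 (hPD φ).posSemidef hMle _
      rw [← Matrix.mul_assoc, hcomm, hs2_neg] at b1
      have b3 : hs2 (dg a * F - F * dg a) ≤ 16 * amax ^ 4 * hs2 (R * F - F * R) := by
        calc _ ≤ (2 * amax) ^ 2 * hs2 ((R * F - F * R) * M) := b1
          _ ≤ (2 * amax) ^ 2 * ((2 * amax) ^ 2 * hs2 (R * F - F * R)) := by gcongr
          _ = _ := by ring
      rw [div_le_div_iff₀ (by positivity) hamax]
      calc hs2 (dg a * F - F * dg a) * amax ≤ 16 * amax ^ 4 * hs2 (R * F - F * R) * amax := by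
            gcongr
        _ = _ := by ring
    have hcos : 0 ≤ Real.cos φ ^ 2 := sq_nonneg _
    simp only [hD]
    have := mul_le_mul_of_nonneg_left hge hcos
    rw [mul_sub] at this
    rw [hκ]
    linarith
  have hIc : Continuous fun φ => rtr (Rm a F φ) - rtr (Rm a F φ * Ai * Rm a F φ * XX a F) := by
    refine (continuous_rtr.comp hRc).sub (continuous_rtr.comp ?_)
    exact ((hRc.matrix_mul continuous_const).matrix_mul hRc).matrix_mul continuous_const
  have hcc : Continuous fun φ => κ * Real.cos φ ^ 2 :=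
    continuous_const.mul (Real.continuous_cos.pow 2)
  have hfin := avg_mono (hDc.add hcc) hIc hpt
  have hadd : avg (fun φ => D φ + κ * Real.cos φ ^ 2) = κ / 2 := by
    rw [avg_add hDc hcc, hD0, avg_mul_left, avg_cos_sq]; ring
  have hfin' : κ / 2 ≤ avg (fun φ => rtr (Rm a F φ) - rtr (Rm a F φ * Ai * Rm a F φ * XX a F)) := by
    rw [← hadd]; exact hfin
  refine le_trans (le_of_eq ?_) hfin'
  rw [hκ]
  field_simp
  ring

end Crest.Agent.R332
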