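import Crest.Agent.R332.A3
import Crest.Agent.R332.API

/-!
# R332 piece B4: derivative in `τ`

`a_τ = √(t+τ²)`, `A = diag a_τ`, `A' = τ A⁻¹`, `X_τ = A² - F² = T + τ² - F²`, `X_τ' = 2τ`.
`R = (A + sin φ F)⁻¹`, `R' = -R A' R`. Hence
`d/dτ tr(R X_τ) = -τ tr(R A⁻¹ R X_τ) + 2 τ tr R`; differentiate under the circle average
(everything is jointly continuous in `(τ, φ)` on `(0,∞) × ℝ`; the derivative is bounded on
compact `τ`-intervals).
Btw √t F and `τ > 0` imply `A ± sin φ F > 0`: `√t_i < √(t_i+τ²)`.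
`continuousOn_psi` also covers the joint continuity in the arguments that later pieces need.
-/

set_option autoImplicit false
open MeasureTheory Set Matrix
open scoped ComplexOrder

namespace Crest.Agent.R332

namespace B4_aux

variable {n : ℕ}

lemma at'_pos {t : Fin n → ℝ} (ht : ∀ i, 0 ≤ t i) {τ : ℝ} (hτ : 0 < τ) (i : Fin n) :
    0 < at' t τ i := Real.sqrt_pos.mpr (by have := ht i; positivity)

/-- `dg` is additive -/
lemma dg_add (a b : Fin n → ℝ) : dg (fun i => a i + b i) = dg a + dg b := by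
  unfold dg
  rw [Matrix.diagonal_add]
  congr 1
  funext i
  push_cast
  rfl

lemma posDef_res {t : Fin n → ℝ} (ht : ∀ i, 0 ≤ t i) {F : Matrix (Fin n) (Fin n) ℂ}
    (hF : Btw (fun i => √(t i)) F) {τ : ℝ} (hτ : 0 < τ) (φ : ℝ) :
    (dg (at' t τ) + (Real.sin φ : ℂ) • F).PosDef := by
  have h1 : (dg (fun i => at' t τ i - √(t i))).PosDef := by
    refine dg_posDef fun i => ?_
    rw [sub_pos]
    exact Real.sqrt_lt_sqrt (ht i) (by have : 0 < τ ^ 2 := by positivity
                                       linarith)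
  have hs1 : (0:ℝ) ≤ (1 + Real.sin φ) / 2 := by linarith [Real.neg_one_le_sin φ]
  have hs2 : (0:ℝ) ≤ (1 - Real.sin φ) / 2 := by linarith [Real.sin_le_one φ]
  have h2 : (((((1 + Real.sin φ) / 2 : ℝ)) : ℂ) • (dg (fun i => √(t i)) + F)).PosSemidef :=
    hF.2.smul (by exact_mod_cast hs1)
  have h3 : (((((1 - Real.sin φ) / 2 : ℝ)) : ℂ) • (dg (fun i => √(t i)) - F)).PosSemidef :=
    hF.1.smul (by exact_mod_cast hs2)
  have h4 := (h1.add_posSemidef h2).add_posSemidef h3
  convert h4 using 1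
  have h5 : dg (at' t τ) = dg (fun i => at' t τ i - √(t i)) + dg (fun i => √(t i)) := by
    rw [← dg_add]; congr 1; funext i; ring
  rw [h5]
  push_cast
  module

lemma det_ne {t : Fin n → ℝ} (ht : ∀ i, 0 ≤ t i) {F : Matrix (Fin n) (Fin n) ℂ}
    (hF : Btw (fun i => √(t i)) F) {τ : ℝ} (hτ : 0 < τ) (φ : ℝ) :
    (dg (at' t τ) + (Real.sin φ : ℂ) • F).det ≠ 0 :=
  ((Matrix.isUnit_iff_isUnit_det _).1 (posDef_res ht hF hτ φ).isUnit).ne_zero

lemma continuous_at' (t : Fin n → ℝ) : Continuous (fun τ : ℝ => at' t τ) := by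
  refine continuous_pi fun i => ?_
  exact Real.continuous_sqrt.comp (by fun_prop)

lemma continuous_dg : Continuous (dg : (Fin n → ℝ) → Matrix (Fin n) (Fin n) ℂ) := by
  unfold dg
  refine Continuous.matrix_diagonal ?_
  refine continuous_pi fun i => ?_
  exact Complex.continuous_ofReal.comp (continuous_apply i)

/-- joint continuity of the inverse -/
lemma continuous_inv_of {X : Type*} [TopologicalSpace X] {B : X → Matrix (Fin n) (Fin n) ℂ}
    (hB : Continuous B) (hdet : ∀ x, (B x).det ≠ 0) : Continuous (fun x => (B x)⁻¹) := by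
  rw [continuous_iff_continuousAt]
  intro x
  have h1 : ContinuousAt Ring.inverse ((B x).det) := by
    have : (Ring.inverse : ℂ → ℂ) = Inv.inv := by
      funext z; exact Ring.inverse_eq_inv z
    rw [this]
    exact continuousAt_inv₀ (hdet x)
  exact (continuousAt_matrix_inv (B x) h1).comp hB.continuousAt

lemma hasDerivAt_dg {t : Fin n → ℝ} (ht : ∀ i, 0 ≤ t i) {s : ℝ} (hs : 0 < s) :
    HasDerivAt (fun s => dg (at' t s)) ((s : ℂ) • (dg (at' t s))⁻¹) s := by
  have hinv : (dg (at' t s))⁻¹ = dg (fun i => (at' t s i)⁻¹) := by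
    refine Matrix.inv_eq_right_inv ?_
    rw [dg_mul]
    unfold dg
    have : ∀ i, at' t s i * (at' t s i)⁻¹ = 1 := fun i => mul_inv_cancel₀ (at'_pos ht hs i).ne'
    simp only [this, Complex.ofReal_one]
    exact Matrix.diagonal_one
  rw [hinv]
  refine hasDerivAt_pi.2 fun i => hasDerivAt_pi.2 fun j => ?_
  by_cases hij : i = j
  · subst hij
    simp only [dg, Matrix.diagonal_apply_eq, Matrix.smul_apply, smul_eq_mul]
    have h1 : HasDerivAt (fun s : ℝ => t i + s ^ 2) (2 * s) s := by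
      simpa using (hasDerivAt_pow 2 s).const_add (t i)
    have h2 := h1.sqrt (by have := ht i; positivity)
    have h3 := h2.ofReal_comp
    refine h3.congr_deriv ?_
    have h4 := (at'_pos ht hs i).ne'
    unfold at' at h4 ⊢
    have h5 : ((√(t i + s ^ 2) : ℝ) : ℂ) ≠ 0 := by exact_mod_cast h4
    push_cast
    field_simp
  · simp only [dg, Matrix.diagonal_apply_ne _ hij, Matrix.smul_apply, smul_zero]
    exact hasDerivAt_const _ _

open scoped Matrix.Norms.L2Operator in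
lemma hasDerivAt_Rm {t : Fin n → ℝ} (ht : ∀ i, 0 ≤ t i) {F : Matrix (Fin n) (Fin n) ℂ}
    (hF : Btw (fun i => √(t i)) F) {s : ℝ} (hs : 0 < s) (φ : ℝ) :
    HasDerivAt (fun s => Rm (at' t s) F φ)
      (-(Rm (at' t s) F φ * ((s : ℂ) • (dg (at' t s))⁻¹) * Rm (at' t s) F φ)) s := by
  have h1 : HasDerivAt (fun s => dg (at' t s) + (Real.sin φ : ℂ) • F)
      ((s : ℂ) • (dg (at' t s))⁻¹) s := (hasDerivAt_dg ht hs).add_const _
  obtain ⟨u, hu⟩ := (posDef_res ht hF hs φ).isUnit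
  have h2 := hasFDerivAt_ringInverse (𝕜 := ℝ) u
  rw [hu] at h2
  have h3 := h2.comp_hasDerivAt s h1
  have h4 : (fun s => Rm (at' t s) F φ) =
      Ring.inverse ∘ (fun s => dg (at' t s) + (Real.sin φ : ℂ) • F) := by
    funext s
    unfold Rm
    simp only [Function.comp_apply, Matrix.nonsing_inv_eq_ringInverse]
  rw [h4]
  refine h3.congr_deriv ?_
  have h5 : Rm (at' t s) F φ = ((u⁻¹ : (Matrix (Fin n) (Fin n) ℂ)ˣ) : Matrix (Fin n) (Fin n) ℂ) := by
    unfold Rm
    rw [← hu, Matrix.nonsing_inv_eq_ringInverse, Ring.inverse_unit]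
  rw [h5]
  simp

open scoped Matrix.Norms.L2Operator in
lemma hasDerivAt_XX {t : Fin n → ℝ} (ht : ∀ i, 0 ≤ t i) (F : Matrix (Fin n) (Fin n) ℂ)
    (s : ℝ) :
    HasDerivAt (fun s => XX (at' t s) F) ((2 * s : ℂ) • (1 : Matrix (Fin n) (Fin n) ℂ)) s := by
  have h1 : (fun s => XX (at' t s) F) = fun s => dg (fun i => t i + s ^ 2) - F * F := by
    funext s
    unfold XX
    rw [dg_mul]
    congr 2
    funext i
    exact Real.mul_self_sqrt (by have := ht i; positivity)
  rw [h1]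
  refine HasDerivAt.sub_const _ ?_
  refine hasDerivAt_pi.2 fun i => hasDerivAt_pi.2 fun j => ?_
  by_cases hij : i = j
  · subst hij
    simp only [dg, Matrix.diagonal_apply_eq, Matrix.smul_apply, smul_eq_mul, Matrix.one_apply_eq,
      mul_one]
    have h1 : HasDerivAt (fun s : ℝ => t i + s ^ 2) (2 * s) s := by
      simpa using (hasDerivAt_pow 2 s).const_add (t i)
    have h3 := h1.ofReal_comp
    refine h3.congr_deriv ?_
    push_cast
    ring
  · simp only [dg, Matrix.diagonal_apply_ne _ hij, Matrix.smul_apply, Matrix.one_apply_ne hij,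
      smul_zero]
    exact hasDerivAt_const _ _

lemma hasDerivAt_rtr {f : ℝ → Matrix (Fin n) (Fin n) ℂ} {f' : Matrix (Fin n) (Fin n) ℂ} {s : ℝ}
    (h : HasDerivAt f f' s) : HasDerivAt (fun s => rtr (f s)) (rtr f') s := by
  have h1 : ∀ i, HasDerivAt (fun s => f s i i) (f' i i) s := fun i =>
    hasDerivAt_pi.1 (hasDerivAt_pi.1 h i) i
  have h2 : HasDerivAt (fun s => ∑ i, (f s i i).re) (∑ i, (f' i i).re) s := by
    refine HasDerivAt.fun_sum fun i _ => ?_
    exact Complex.reCLM.hasFDerivAt.comp_hasDerivAt s (h1 i)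
  have e : ∀ M : Matrix (Fin n) (Fin n) ℂ, rtr M = ∑ i, (M i i).re := by
    intro M
    unfold rtr Matrix.trace
    rw [Complex.re_sum]
    rfl
  simp only [e]
  exact h2

/-- the integrand of `hasDerivAt_g` -/
noncomputable def gi (t : Fin n → ℝ) (F : Matrix (Fin n) (Fin n) ℂ) (τ φ : ℝ) : ℝ :=
  2 * rtr (Rm (at' t τ) F φ) -
        rtr (Rm (at' t τ) F φ * (dg (at' t τ))⁻¹ * Rm (at' t τ) F φ * XX (at' t τ) F)

open scoped Matrix.Norms.L2Operator in
lemma hasDerivAt_int {t : Fin n → ℝ} (ht : ∀ i, 0 ≤ t i) {F : Matrix (Fin n) (Fin n) ℂ}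
    (hF : Btw (fun i => √(t i)) F) {s : ℝ} (hs : 0 < s) (φ : ℝ) :
    HasDerivAt (fun s => rtr (Rm (at' t s) F φ * XX (at' t s) F)) (s * gi t F s φ) s := by
  have h1 := (hasDerivAt_Rm ht hF hs φ).mul (hasDerivAt_XX ht F s)
  have h2 := hasDerivAt_rtr h1
  refine h2.congr_deriv ?_
  unfold gi
  rw [rtr_add]
  have e1 : -(Rm (at' t s) F φ * ((s : ℂ) • (dg (at' t s))⁻¹) * Rm (at' t s) F φ) *
      XX (at' t s) F = ((-s : ℝ) : ℂ) • (Rm (at' t s) F φ * (dg (at' t s))⁻¹ *
        Rm (at' t s) F φ * XX (at' t s) F) := by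
    simp only [Matrix.mul_smul, Matrix.smul_mul, Matrix.neg_mul, Complex.ofReal_neg, neg_smul]
  have e2 : Rm (at' t s) F φ * ((2 * s : ℂ) • (1 : Matrix (Fin n) (Fin n) ℂ)) =
      ((2 * s : ℝ) : ℂ) • Rm (at' t s) F φ := by
    rw [Matrix.mul_smul, Matrix.mul_one]
    push_cast
    rfl
  rw [e1, e2, rtr_smul, rtr_smul]
  ring

lemma continuous_Rm {t : Fin n → ℝ} (ht : ∀ i, 0 ≤ t i) {F : Matrix (Fin n) (Fin n) ℂ}
    (hF : Btw (fun i => √(t i)) F) :
    Continuous (fun p : Ioi (0:ℝ) × ℝ => Rm (at' t p.1.1) F p.2) := by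
  unfold Rm
  refine continuous_inv_of ?_ fun p => det_ne ht hF p.1.2 p.2
  refine (continuous_dg.comp ((continuous_at' t).comp ?_)).add
    (Continuous.smul (Complex.continuous_ofReal.comp (Real.continuous_sin.comp ?_))
      continuous_const)
  · fun_prop
  · fun_prop

lemma continuous_XX (t : Fin n → ℝ) (F : Matrix (Fin n) (Fin n) ℂ) :
    Continuous (fun p : Ioi (0:ℝ) × ℝ => XX (at' t p.1.1) F) := by
  unfold XX
  have h1 : Continuous (fun p : Ioi (0:ℝ) × ℝ => dg (at' t p.1.1)) :=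
    continuous_dg.comp ((continuous_at' t).comp (by fun_prop))
  exact (h1.mul h1).sub continuous_const

lemma continuous_gi {t : Fin n → ℝ} (ht : ∀ i, 0 ≤ t i) {F : Matrix (Fin n) (Fin n) ℂ}
    (hF : Btw (fun i => √(t i)) F) :
    Continuous (fun p : Ioi (0:ℝ) × ℝ => gi t F p.1.1 p.2) := by
  have hR := continuous_Rm ht hF
  have hA : Continuous (fun p : Ioi (0:ℝ) × ℝ => (dg (at' t p.1.1))⁻¹) := by
    refine continuous_inv_of (continuous_dg.comp ((continuous_at' t).comp (by fun_prop)))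
      fun p => ?_
    exact ((Matrix.isUnit_iff_isUnit_det _).1 (dg_posDef (at'_pos ht p.1.2)).isUnit).ne_zero
  have hX := continuous_XX t F
  exact (continuous_const.mul (continuous_rtr.comp hR)).sub
      (continuous_rtr.comp (((hR.mul hA).mul hR).mul hX))

lemma continuous_int {t : Fin n → ℝ} (ht : ∀ i, 0 ≤ t i) {F : Matrix (Fin n) (Fin n) ℂ}
    (hF : Btw (fun i => √(t i)) F) :
    Continuous (fun p : Ioi (0:ℝ) × ℝ => rtr (Rm (at' t p.1.1) F p.2 * XX (at' t p.1.1) F)) :=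
  continuous_rtr.comp ((continuous_Rm ht hF).mul (continuous_XX t F))

/-- restriction of a jointly continuous function to a subset of the first factor -/
lemma cont_slice {G : ℝ → ℝ → ℝ} (hG : Continuous (fun p : Ioi (0:ℝ) × ℝ => G p.1.1 p.2))
    {s : ℝ} (hs : 0 < s) : Continuous (fun φ => G s φ) := by
  have h1 : Continuous (fun φ : ℝ => ((⟨s, hs⟩ : Ioi (0:ℝ)), φ)) := by fun_prop
  exact hG.comp h1

lemma cont_prod {G : ℝ → ℝ → ℝ} (hG : Continuous (fun p : Ioi (0:ℝ) × ℝ => G p.1.1 p.2))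
    {a b c d : ℝ} (ha : 0 < a) :
    ContinuousOn (fun p : ℝ × ℝ => G p.1 p.2) (Icc a b ×ˢ Icc c d) := by
  rw [continuousOn_iff_continuous_domRestrict]
  have h1 : Continuous (fun p : (Icc a b ×ˢ Icc c d : Set (ℝ × ℝ)) =>
      ((⟨p.1.1, lt_of_lt_of_le ha p.2.1.1⟩ : Ioi (0:ℝ)), p.1.2)) := by fun_prop
  exact hG.comp h1

end B4_aux

open B4_aux

theorem hasDerivAt_g {n : ℕ} (t : Fin n → ℝ) (ht : ∀ i, 0 ≤ t i)
    (F : Matrix (Fin n) (Fin n) ℂ) (hF : Btw (fun i => √(t i)) F) {τ : ℝ} (hτ : 0 < τ) :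
    HasDerivAt (fun s => psi (at' t s) F (XX (at' t s) F))
      (τ * avg (fun φ => 2 * rtr (Rm (at' t τ) F φ) -
        rtr (Rm (at' t τ) F φ * (dg (at' t τ))⁻¹ * Rm (at' t τ) F φ * XX (at' t τ) F))) τ := by
  have hsub : Icc (τ / 2) (2 * τ) ⊆ Ioi 0 := fun s hs => lt_of_lt_of_le (by positivity) hs.1
  -- continuity of the integrand for fixed `s`
  have hc1 : ∀ s : ℝ, 0 < s → Continuous (fun φ => rtr (Rm (at' t s) F φ * XX (at' t s) F)) :=
    fun s hs => cont_slice (G := fun s φ => rtr (Rm (at' t s) F φ * XX (at' t s) F))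
      (continuous_int ht hF) hs
  have hc2 : Continuous (fun φ => τ * gi t F τ φ) :=
    continuous_const.mul (cont_slice (G := fun s φ => gi t F s φ) (continuous_gi ht hF) hτ)
  -- bound
  have hco : ContinuousOn (fun p : ℝ × ℝ => p.1 * gi t F p.1 p.2)
      (Icc (τ / 2) (2 * τ) ×ˢ Icc 0 (2 * Real.pi)) :=
    continuousOn_fst.mul (cont_prod (G := fun s φ => gi t F s φ) (continuous_gi ht hF)
      (by positivity))
  obtain ⟨C, hC⟩ := (isCompact_Icc.prod isCompact_Icc).exists_bound_of_continuousOn hco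
  have hpi := Real.pi_pos
  have key := intervalIntegral.hasDerivAt_integral_of_dominated_loc_of_deriv_le
    (μ := volume) (a := 0) (b := 2 * Real.pi) (bound := fun _ => C)
    (F := fun s φ => rtr (Rm (at' t s) F φ * XX (at' t s) F))
    (F' := fun s φ => s * gi t F s φ) (x₀ := τ) (s := Icc (τ / 2) (2 * τ))
    (Icc_mem_nhds (by linarith) (by linarith))
    (by
      filter_upwards [Ioi_mem_nhds hτ] with s hs
      exact (hc1 s hs).aestronglyMeasurable)
    ((hc1 τ hτ).intervalIntegrable _ _)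
    hc2.aestronglyMeasurable
    (by
      refine Filter.Eventually.of_forall fun φ hφ s hs => ?_
      rw [uIoc_of_le (by positivity)] at hφ
      exact hC (s, φ) ⟨hs, ⟨hφ.1.le, hφ.2⟩⟩)
    (by exact intervalIntegrable_const)
    (by
      refine Filter.Eventually.of_forall fun φ hφ s hs => ?_
      exact hasDerivAt_int ht hF (hsub hs) φ)
  have h2 := key.2.const_mul (2 * Real.pi)⁻¹
  have e1 : τ * avg (fun φ => 2 * rtr (Rm (at' t τ) F φ) -
        rtr (Rm (at' t τ) F φ * (dg (at' t τ))⁻¹ * Rm (at' t τ) F φ * XX (at' t τ) F)) =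
      (2 * Real.pi)⁻¹ * ∫ φ in (0:ℝ)..(2 * Real.pi), τ * gi t F τ φ := by
    rw [intervalIntegral.integral_const_mul]
    unfold avg gi
    ring
  rw [e1]
  exact h2

theorem continuousOn_g' {n : ℕ} (t : Fin n → ℝ) (ht : ∀ i, 0 ≤ t i)
    (F : Matrix (Fin n) (Fin n) ℂ) (hF : Btw (fun i => √(t i)) F) :
    ContinuousOn (fun τ : ℝ => avg (fun φ => 2 * rtr (Rm (at' t τ) F φ) -
        rtr (Rm (at' t τ) F φ * (dg (at' t τ))⁻¹ * Rm (at' t τ) F φ * XX (at' t τ) F)))
      (Ioi 0) := by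
  rw [continuousOn_iff_continuous_domRestrict]
  unfold avg
  refine Continuous.mul continuous_const ?_
  exact intervalIntegral.continuous_parametric_intervalIntegral_of_continuous' (f :=
    fun (τ : Ioi (0:ℝ)) φ => gi t F τ.1 φ) (continuous_gi ht hF) 0 (2 * Real.pi)

/-- joint continuity of `psi (a_τ) F M` in `(τ, F, M)` on `τ > 0`, `Btw √t F` -/
theorem continuousOn_psi {n : ℕ} (t : Fin n → ℝ) (ht : ∀ i, 0 ≤ t i) :
    ContinuousOn (fun p : ℝ × Matrix (Fin n) (Fin n) ℂ × Matrix (Fin n) (Fin n) ℂ =>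
        psi (at' t p.1) p.2.1 p.2.2)
      {p | 0 < p.1 ∧ Btw (fun i => √(t i)) p.2.1} := by
  rw [continuousOn_iff_continuous_domRestrict]
  unfold Set.domRestrict psi avg
  set S : Set (ℝ × Matrix (Fin n) (Fin n) ℂ × Matrix (Fin n) (Fin n) ℂ) :=
    {p | 0 < p.1 ∧ Btw (fun i => √(t i)) p.2.1} with hS
  refine Continuous.mul continuous_const ?_
  refine intervalIntegral.continuous_parametric_intervalIntegral_of_continuous' (f :=
    fun (p : S) φ => rtr (Rm (at' t p.1.1) p.1.2.1 φ * p.1.2.2)) ?_ 0 (2 * Real.pi)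
  have hR : Continuous (fun q : S × ℝ => Rm (at' t q.1.1.1) q.1.1.2.1 q.2) := by
    unfold Rm
    refine continuous_inv_of ?_ fun q => det_ne ht q.1.2.2 q.1.2.1 q.2
    refine (continuous_dg.comp ((continuous_at' t).comp ?_)).add
      (Continuous.smul (Complex.continuous_ofReal.comp (Real.continuous_sin.comp ?_)) ?_)
    · fun_prop
    · fun_prop
    · fun_prop
  have hM : Continuous (fun q : S × ℝ => q.1.1.2.2) := by fun_prop
  exact continuous_rtr.comp (hR.mul hM)

end Crest.Agent.R332
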