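import Crest.Agent.R332.A1
import Crest.Agent.R332.B1
import Crest.Agent.R332.B3
import Crest.Agent.R332.B4

/-!
# R332 piece B5: the pointwise Hamilton-Jacobi inequality with remainder (assembly of A1, B1-B4)

`T = diag t`, `X = T - F²`, `Y = (ν/(1+ν)) Wa ≥ 0`, `H = X - Wa - e`. For `τ > 0` put
`A = diag √(t+τ²)`, `Ψ` (so `psi (a_τ) F M = tr(Ψ M)`), `g(τ) = psi (a_τ) F (XX (a_τ) F)`
(`XX (a_τ) F = X + τ²`), `Q = (τ²+Y)^(1/2)` (`mpow (τ²•1+Y) (1/2)`). Consider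
`I(τ) = (1+ν) tr (Q-τ)² + ν [tr H - τ psi H] + ν [tr e - τ psi e]`.
Because `X = H + Wa + e` and `(1+ν) Y = ν Wa`,
`I = (1+ν)τ [2τ n - 2 tr Q + psi(Q²) - τ² psi(1)] + ν [tr X - τ g + τ³ psi(1)]`
`  = (1+ν)τ Δ₁ + ν tr X + 2(1+ν)τ² n - (1+2ν) τ g - τ³ psi(1)`, `Δ₁ = psi(Q²) - 2 tr Q + g ≥ 0`
(`young_defect`). Multiply by `τ^(2ν-1)`:
`τ^(2ν-1) I = (1+ν) τ^(2ν) Δ₁ + d/dτ[τ^(2ν) (tr X/2 + τ² n - τ g)] + τ^(2ν+1) (g' - τ psi(1))`
and `g' - τ psi(1) = τ Δ₂`, `Δ₂ = avg(tr R - tr(R A⁻¹ R X_τ)) ≥ hs2[A,F]/(32 amax⁵)`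
(`hasDerivAt_g`, `comm_defect`). At `τ = R` the bracket is `≥ 0` (`g_upper` with `τ`), at
`τ = ε` it is `≤ ε^(2ν)(tr T/2 + n ε²)` (`tr X ≤ tr T`, `g ≥ 0`).
Upper bounds: `∫ τ^(2ν-1)(1+ν) tr(Q-τ)² ≤ kap ν · tr Y^(1+ν)` (`scal2`, eigenvalues of `Y`),
`tr e - τ psi e ≤ (1 - τ/√(τ²+Λ)) tr e` (`psi_lower`) and `scal1`.
Remainder: on `τ ∈ [1,2]` (`amin = 1`, `amax = √(Λ+4)`, `q² = Λ/(Λ+1)`):
`Y - X = Q² - X_τ = (Q²-S²) + (S² - X_τ)`, `hs2(Q²-S²) ≤ (‖Q‖+‖S‖)² hs2(Q-S)`,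
`‖Q‖² ≤ 4 + tr Y`, `‖S‖ ≤ amax`, so `hs2(Y-X)/(1+tr Y) ≤ C(Λ)(Δ₁+Δ₂)`, and
`(t_i-t_j) = (a_i-a_j)(a_i+a_j)` gives `hs2[T,F] ≤ (2 amax)² hs2[A,F] ≤ C(Λ) Δ₂`.
-/

set_option autoImplicit false
open MeasureTheory Set Matrix
open scoped ComplexOrder
open Crest.MathPhysics.LiebThirring

namespace Crest.Agent.R332

namespace B5_aux

variable {n : ℕ}

theorem dg_sub (a b : Fin n → ℝ) : dg a - dg b = dg (fun i => a i - b i) := by
  unfold dg
  ext i j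
  by_cases h : i = j
  · subst h; simp
  · simp [h]

theorem dg_add (a b : Fin n → ℝ) : dg a + dg b = dg (fun i => a i + b i) := by
  unfold dg
  ext i j
  by_cases h : i = j
  · subst h; simp
  · simp [h]

theorem dg_mul (a b : Fin n → ℝ) : dg a * dg b = dg (fun i => a i * b i) := by
  unfold dg
  rw [Matrix.diagonal_mul_diagonal]
  congr 1
  ext i
  simp

theorem dg_smul (c : ℝ) (a : Fin n → ℝ) : ((c : ℝ) : ℂ) • dg a = dg (fun i => c * a i) := by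
  unfold dg
  ext i j
  by_cases h : i = j
  · subst h; simp
  · simp [h]

theorem dg_one : dg (fun _ : Fin n => (1 : ℝ)) = 1 := by
  unfold dg
  simp

theorem dg_const (c : ℝ) : dg (fun _ : Fin n => c) = ((c : ℝ) : ℂ) • (1 : Matrix (Fin n) (Fin n) ℂ) := by
  rw [← dg_one, dg_smul]
  simp

theorem dg_conjTranspose (a : Fin n → ℝ) : (dg a)ᴴ = dg a := by
  unfold dg
  rw [Matrix.diagonal_conjTranspose]
  congr 1
  ext i
  simp

theorem btw_mono {d d' : Fin n → ℝ} {F : Matrix (Fin n) (Fin n) ℂ} (h : ∀ i, d i ≤ d' i)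
    (hF : Btw d F) : Btw d' F := by
  have h1 : (dg (fun i => d' i - d i)).PosSemidef := dg_posSemidef fun i => by linarith [h i]
  rw [← dg_sub] at h1
  constructor
  · have := h1.add hF.1
    convert this using 1
    abel
  · have := h1.add hF.2
    convert this using 1
    abel

theorem pd_aux (a : Fin n → ℝ) (F : Matrix (Fin n) (Fin n) ℂ) {q : ℝ} (hq1 : q < 1)
    (ha : ∀ i, 0 < a i) (hF : Btw (fun i => q * a i) F) (φ : ℝ) :
    (dg a + (Real.sin φ : ℂ) • F).PosDef := by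
  have h1 : (dg (fun i => (1 - q) * a i)).PosDef := dg_posDef fun i => mul_pos (by linarith) (ha i)
  have hs1 := Real.neg_one_le_sin φ
  have hs2 := Real.sin_le_one φ
  have h2 : ((((1 + Real.sin φ) / 2 : ℝ) : ℂ) • (dg (fun i => q * a i) + F)).PosSemidef :=
    hF.2.smul (by
      rw [Complex.zero_le_real]; linarith)
  have h3 : ((((1 - Real.sin φ) / 2 : ℝ) : ℂ) • (dg (fun i => q * a i) - F)).PosSemidef :=
    hF.1.smul (by
      rw [Complex.zero_le_real]; linarith)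
  have h4 := (h1.add_posSemidef h2).add_posSemidef h3
  convert h4 using 1
  have e1 : dg (fun i => (1 - q) * a i) = dg a - dg (fun i => q * a i) := by
    rw [dg_sub]; congr 1; ext i; ring
  rw [e1]
  push_cast
  module

theorem cont_Rm (a : Fin n → ℝ) (F : Matrix (Fin n) (Fin n) ℂ) {q : ℝ} (hq1 : q < 1)
    (ha : ∀ i, 0 < a i) (hF : Btw (fun i => q * a i) F) : Continuous (fun φ => Rm a F φ) := by
  unfold Rm
  have h1 : Continuous fun φ : ℝ => (dg a + (Real.sin φ : ℂ) • F) := by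
    refine continuous_const.add ?_
    exact (Complex.continuous_ofReal.comp Real.continuous_sin).smul continuous_const
  simp_rw [Matrix.inv_def, Ring.inverse_eq_inv]
  have h2 : Continuous fun φ : ℝ => ((dg a + (Real.sin φ : ℂ) • F).det)⁻¹ :=
    h1.matrix_det.inv₀ (fun φ => (pd_aux a F hq1 ha hF φ).det_pos.ne')
  exact h2.smul h1.matrix_adjugate

theorem g'_sub (a : Fin n → ℝ) (F : Matrix (Fin n) (Fin n) ℂ) {q : ℝ} (hq1 : q < 1)
    (ha : ∀ i, 0 < a i) (hF : Btw (fun i => q * a i) F) :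
    avg (fun φ => 2 * rtr (Rm a F φ) - rtr (Rm a F φ * (dg a)⁻¹ * Rm a F φ * XX a F)) =
      psi a F 1 + avg (fun φ => rtr (Rm a F φ) - rtr (Rm a F φ * (dg a)⁻¹ * Rm a F φ * XX a F)) := by
  have hc := cont_Rm a F hq1 ha hF
  have h1 : Continuous fun φ => rtr (Rm a F φ) := continuous_rtr.comp hc
  have h2 : Continuous fun φ => rtr (Rm a F φ * (dg a)⁻¹ * Rm a F φ * XX a F) := by
    refine continuous_rtr.comp ?_
    exact (((hc.matrix_mul continuous_const).matrix_mul hc).matrix_mul continuous_const)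
  unfold psi
  simp only [mul_one]
  have h3 : Continuous fun φ =>
      rtr (Rm a F φ) - rtr (Rm a F φ * (dg a)⁻¹ * Rm a F φ * XX a F) := h1.sub h2
  rw [← avg_add h1 h3]
  congr 1
  ext φ
  ring

theorem at_pos (t : Fin n → ℝ) (ht : ∀ i, 0 < t i) {τ : ℝ} (i : Fin n) : 0 < at' t τ i := by
  unfold at'
  have := ht i
  positivity

theorem at_sq (t : Fin n → ℝ) (ht : ∀ i, 0 < t i) {τ : ℝ} (i : Fin n) :
    at' t τ i * at' t τ i = t i + τ ^ 2 := by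
  unfold at'
  have := ht i
  exact Real.mul_self_sqrt (by positivity)

theorem XX_at (t : Fin n → ℝ) (ht : ∀ i, 0 < t i) (F : Matrix (Fin n) (Fin n) ℂ) (τ : ℝ) :
    XX (at' t τ) F = (dg t - F * F) + ((τ ^ 2 : ℝ) : ℂ) • (1 : Matrix (Fin n) (Fin n) ℂ) := by
  unfold XX
  rw [dg_mul, ← dg_const]
  have : dg (fun i => at' t τ i * at' t τ i) = dg t + dg (fun _ => τ ^ 2) := by
    rw [dg_add]
    congr 1
    ext i
    exact at_sq t ht i
  rw [this]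
  abel

theorem at_le (t : Fin n → ℝ) {Λ : ℝ} (ht : ∀ i, 0 < t i ∧ t i ≤ Λ) {τ : ℝ} (i : Fin n) :
    at' t τ i ≤ √(Λ + τ ^ 2) :=
  Real.sqrt_le_sqrt (by linarith [(ht i).2])

theorem le_at (t : Fin n → ℝ) (ht : ∀ i, 0 < t i) {τ : ℝ} (i : Fin n) :
    τ ≤ at' t τ i := by
  unfold at'
  exact Real.le_sqrt_of_sq_le (by linarith [ht i])

theorem q_lt {Λ σ : ℝ} (hΛ : 0 < Λ) (hσ : 0 < σ) : √(Λ / (Λ + σ ^ 2)) < 1 := by
  rw [Real.sqrt_lt' one_pos, one_pow, div_lt_one (by positivity)]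
  have : 0 < σ ^ 2 := by positivity
  linarith

theorem btw_at (t : Fin n → ℝ) {Λ : ℝ} (hΛ : 0 < Λ) (ht : ∀ i, 0 < t i ∧ t i ≤ Λ)
    {F : Matrix (Fin n) (Fin n) ℂ} (hF : Btw (fun i => √(t i)) F) {σ τ : ℝ} (hσ : 0 < σ) (hστ : σ ≤ τ) :
    Btw (fun i => √(Λ / (Λ + σ ^ 2)) * at' t τ i) F := by
  refine btw_mono (fun i => ?_) hF
  unfold at'
  rw [← Real.sqrt_mul (by positivity)]
  apply Real.sqrt_le_sqrt
  have h1 := (ht i).1
  have h2 := (ht i).2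
  rw [div_mul_eq_mul_div, le_div_iff₀ (by positivity)]
  have h3 : σ ^ 2 ≤ τ ^ 2 := pow_le_pow_left₀ hσ.le hστ 2
  have h4 : 0 < σ ^ 2 := by positivity
  nlinarith

theorem psi_lin (a : Fin n → ℝ) (F : Matrix (Fin n) (Fin n) ℂ) {q amin amax : ℝ}
    (hq0 : 0 ≤ q) (hq1 : q < 1) (hmin : 0 < amin) (ha : ∀ i, amin ≤ a i ∧ a i ≤ amax)
    (hF : Btw (fun i => q * a i) F) :
    (∀ M N, psi a F (M + N) = psi a F M + psi a F N) ∧
    (∀ M N, psi a F (M - N) = psi a F M - psi a F N) ∧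
    (∀ (c : ℝ) M, psi a F ((c : ℂ) • M) = c * psi a F M) := by
  obtain ⟨S, _, hpsi, _⟩ := geo_mean a F hq0 hq1 hmin ha hF
  refine ⟨fun M N => ?_, fun M N => ?_, fun c M => ?_⟩
  · rw [hpsi, hpsi, hpsi, mul_add, rtr_add]
  · rw [hpsi, hpsi, hpsi, mul_sub, rtr_sub]
  · rw [hpsi, hpsi, mul_smul_comm, rtr_smul]

theorem conj_mul {u : Matrix (Fin n) (Fin n) ℂ} (hu : uᴴ * u = 1) (a b : Fin n → ℝ) :
    (u * dg a * uᴴ) * (u * dg b * uᴴ) = u * dg (fun i => a i * b i) * uᴴ := by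
  calc (u * dg a * uᴴ) * (u * dg b * uᴴ) = u * dg a * (uᴴ * u) * dg b * uᴴ := by
        simp only [mul_assoc]
    _ = u * (dg a * dg b) * uᴴ := by rw [hu]; simp only [mul_assoc, one_mul]
    _ = _ := by rw [dg_mul]

theorem conj_add {u : Matrix (Fin n) (Fin n) ℂ} (a b : Fin n → ℝ) :
    (u * dg a * uᴴ) + (u * dg b * uᴴ) = u * dg (fun i => a i + b i) * uᴴ := by
  rw [← dg_add, mul_add, add_mul]

theorem conj_sub {u : Matrix (Fin n) (Fin n) ℂ} (a b : Fin n → ℝ) :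
    (u * dg a * uᴴ) - (u * dg b * uᴴ) = u * dg (fun i => a i - b i) * uᴴ := by
  rw [← dg_sub, mul_sub, sub_mul]

theorem conj_const {u : Matrix (Fin n) (Fin n) ℂ} (hu' : u * uᴴ = 1) (c : ℝ) :
    ((c : ℝ) : ℂ) • (1 : Matrix (Fin n) (Fin n) ℂ) = u * dg (fun _ => c) * uᴴ := by
  rw [dg_const, mul_smul_comm, mul_one, smul_mul_assoc, hu']

theorem rtr_conj {u : Matrix (Fin n) (Fin n) ℂ} (hu : uᴴ * u = 1) (a : Fin n → ℝ) :
    rtr (u * dg a * uᴴ) = ∑ i, a i := by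
  rw [rtr_mul_comm, ← mul_assoc, hu, one_mul, rtr_dg]

theorem conj_psd {u : Matrix (Fin n) (Fin n) ℂ} {a : Fin n → ℝ} (ha : ∀ i, 0 ≤ a i) :
    (u * dg a * uᴴ).PosSemidef :=
  (dg_posSemidef ha).mul_mul_conjTranspose_same u

theorem conj_herm {u : Matrix (Fin n) (Fin n) ℂ} (a : Fin n → ℝ) :
    (u * dg a * uᴴ).IsHermitian := by
  rw [Matrix.IsHermitian, Matrix.conjTranspose_mul, Matrix.conjTranspose_mul,
    Matrix.conjTranspose_conjTranspose, dg_conjTranspose, mul_assoc]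

/-- the matrix `Q = (τ² + Y)^(1/2)` -/
noncomputable def Qm (u : Matrix (Fin n) (Fin n) ℂ) (y : Fin n → ℝ) (τ : ℝ) :
    Matrix (Fin n) (Fin n) ℂ := u * dg (fun i => √(τ ^ 2 + y i)) * uᴴ

theorem Qm_sq {u : Matrix (Fin n) (Fin n) ℂ} (hu : uᴴ * u = 1) (hu' : u * uᴴ = 1) {y : Fin n → ℝ}
    (hy : ∀ i, 0 ≤ y i) (τ : ℝ) :
    Qm u y τ * Qm u y τ = ((τ ^ 2 : ℝ) : ℂ) • (1 : Matrix (Fin n) (Fin n) ℂ) + u * dg y * uᴴ := by
  unfold Qm
  rw [conj_mul hu, conj_const hu', conj_add]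
  congr 3
  ext i
  exact Real.mul_self_sqrt (by have := hy i; positivity)

theorem sum_id {u : Matrix (Fin n) (Fin n) ℂ} (hu : uᴴ * u = 1) {y : Fin n → ℝ}
    (hy : ∀ i, 0 ≤ y i) (τ : ℝ) :
    ∑ i, (√(τ ^ 2 + y i) - τ) ^ 2 = 2 * n * τ ^ 2 + rtr (u * dg y * uᴴ) - 2 * τ * rtr (Qm u y τ) := by
  unfold Qm
  rw [rtr_conj hu, rtr_conj hu]
  have : ∀ i, (√(τ ^ 2 + y i) - τ) ^ 2 = 2 * τ ^ 2 + y i - 2 * τ * √(τ ^ 2 + y i) := by
    intro i
    have h1 : √(τ ^ 2 + y i) * √(τ ^ 2 + y i) = τ ^ 2 + y i :=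
      Real.mul_self_sqrt (by have := hy i; positivity)
    nlinarith
  simp only [this, Finset.sum_add_distrib, Finset.sum_sub_distrib, Finset.sum_const,
    Finset.card_univ, Fintype.card_fin, nsmul_eq_mul, Finset.mul_sum]
  ring

theorem main_id {ν : ℝ} (h0 : 0 < ν) (t : Fin n → ℝ) (ht : ∀ i, 0 < t i)
    (F Wa e : Matrix (Fin n) (Fin n) ℂ)
    {u : Matrix (Fin n) (Fin n) ℂ} (hu : uᴴ * u = 1) (hu' : u * uᴴ = 1) {y : Fin n → ℝ}
    (hy : ∀ i, 0 ≤ y i) (hY : ((ν / (1 + ν) : ℝ) : ℂ) • Wa = u * dg y * uᴴ) (τ : ℝ)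
    (hadd : ∀ M N, psi (at' t τ) F (M + N) = psi (at' t τ) F M + psi (at' t τ) F N)
    (hsub : ∀ M N, psi (at' t τ) F (M - N) = psi (at' t τ) F M - psi (at' t τ) F N)
    (hsm : ∀ (c : ℝ) M, psi (at' t τ) F ((c : ℂ) • M) = c * psi (at' t τ) F M) :
    (1 + ν) * ∑ i, (√(τ ^ 2 + y i) - τ) ^ 2 +
      ν * (rtr (dg t - F * F - Wa - e) - τ * psi (at' t τ) F (dg t - F * F - Wa - e)) +
      ν * (rtr e - τ * psi (at' t τ) F e) =
    (1 + ν) * τ * (psi (at' t τ) F (Qm u y τ * Qm u y τ) - 2 * rtr (Qm u y τ) +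
        psi (at' t τ) F (XX (at' t τ) F)) +
      ν * rtr (dg t - F * F) + 2 * (1 + ν) * τ ^ 2 * n -
      (1 + 2 * ν) * τ * psi (at' t τ) F (XX (at' t τ) F) - τ ^ 3 * psi (at' t τ) F 1 := by
  rw [sum_id hu hy, Qm_sq hu hu' hy, XX_at t ht, ← hY]
  simp only [hadd, hsub, hsm, rtr_sub, rtr_smul]
  have hν : (1 + ν) ≠ 0 := by positivity
  field_simp
  ring

theorem hs2_conjTranspose {m : ℕ} (A : Matrix (Fin n) (Fin m) ℂ) : hs2 Aᴴ = hs2 A := by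
  rw [hs2_eq_rtr, hs2_eq_rtr', Matrix.conjTranspose_conjTranspose]

theorem hs2_mul_left_le {B M : Matrix (Fin n) (Fin n) ℂ} {c : ℝ}
    (hB : (((c : ℝ) : ℂ) • (1 : Matrix (Fin n) (Fin n) ℂ) - Bᴴ * B).PosSemidef) :
    hs2 (B * M) ≤ c * hs2 M := by
  have h1 := rtr_mul_nonneg hB (Matrix.posSemidef_self_mul_conjTranspose M)
  rw [sub_mul, rtr_sub, smul_mul_assoc, one_mul, rtr_smul] at h1
  have h2 : hs2 (B * M) = rtr (Bᴴ * B * (M * Mᴴ)) := by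
    rw [hs2_eq_rtr, Matrix.conjTranspose_mul, mul_assoc, rtr_mul_comm]
    simp only [mul_assoc]
  rw [h2, hs2_eq_rtr' M]
  linarith

theorem hs2_mul_right_le {B M : Matrix (Fin n) (Fin n) ℂ} {c : ℝ}
    (hB : (((c : ℝ) : ℂ) • (1 : Matrix (Fin n) (Fin n) ℂ) - B * Bᴴ).PosSemidef) :
    hs2 (M * B) ≤ c * hs2 M := by
  rw [← hs2_conjTranspose, Matrix.conjTranspose_mul, ← hs2_conjTranspose M]
  refine hs2_mul_left_le ?_
  rw [Matrix.conjTranspose_conjTranspose]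
  exact hB

theorem sq_le_of_le {S : Matrix (Fin n) (Fin n) ℂ} {c : ℝ} (hS : S.PosSemidef)
    (h : (((c : ℝ) : ℂ) • (1 : Matrix (Fin n) (Fin n) ℂ) - S).PosSemidef) :
    (((c ^ 2 : ℝ) : ℂ) • (1 : Matrix (Fin n) (Fin n) ℂ) - S * S).PosSemidef := by
  obtain ⟨v, s, hv, hv', hSv⟩ := exists_diag hS.isHermitian
  have h1 := diag_nonneg hv hSv hS
  have h2 : ∀ i, 0 ≤ c - s i := by
    refine diag_nonneg (a := fun i => c - s i) hv ?_ h
    rw [hSv, conj_const hv', conj_sub]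
  rw [hSv, conj_mul hv, conj_const hv', conj_sub]
  refine conj_psd fun i => ?_
  have := h1 i
  have := h2 i
  nlinarith

set_option maxHeartbeats 1000000 in
/-- the remainder estimate at one value of `τ`. -/
theorem remainder {Λ : ℝ} (hΛ : 0 < Λ) (t : Fin n → ℝ) (ht : ∀ i, 0 < t i ∧ t i ≤ Λ)
    (F : Matrix (Fin n) (Fin n) ℂ) (hF : Btw (fun i => √(t i)) F)
    {u : Matrix (Fin n) (Fin n) ℂ} (hu : uᴴ * u = 1) (hu' : u * uᴴ = 1) {y : Fin n → ℝ}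
    (hy : ∀ i, 0 ≤ y i) {τ : ℝ} (h1 : 1 ≤ τ) (h2 : τ ≤ 2) (Δ₁ Δ₂ : ℝ)
    (hΔ₁ : Δ₁ = psi (at' t τ) F (Qm u y τ * Qm u y τ) - 2 * rtr (Qm u y τ) +
        psi (at' t τ) F (XX (at' t τ) F))
    (hΔ₂ : hs2 (dg (at' t τ) * F - F * dg (at' t τ)) / (32 * (√(Λ + 4)) ^ 5) ≤ Δ₂) :
    hs2 (dg t * F - F * dg t) + hs2 (u * dg y * uᴴ - (dg t - F * F)) / (1 + ∑ i, y i) ≤
      (4 * (4 + Λ + 4) * √(Λ + 4) + 128 * √(Λ + 4) ^ 7 +
        64 * (√(Λ + 4) * (Λ + 1)) ^ 2 * √(Λ + 4) ^ 5) * (Δ₁ + Δ₂) := by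
  set am := √(Λ + 4) with ham
  have ham0 : 0 < am := Real.sqrt_pos.2 (by linarith)
  have ham2 : am ^ 2 = Λ + 4 := Real.sq_sqrt (by linarith)
  have htp : ∀ i, 0 < t i := fun i => (ht i).1
  set a := at' t τ with ha
  have ha1 : ∀ i, 1 ≤ a i := fun i => h1.trans (le_at t htp i)
  have ha2 : ∀ i, a i ≤ am := fun i => (at_le t ht i).trans (Real.sqrt_le_sqrt (by nlinarith))
  set q := √(Λ / (Λ + 1 ^ 2)) with hq
  have hq0 : 0 ≤ q := Real.sqrt_nonneg _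
  have hq1 : q < 1 := q_lt hΛ one_pos
  have hqq : 1 - q ^ 2 = 1 / (Λ + 1) := by
    rw [hq, Real.sq_sqrt (by positivity)]
    field_simp
    ring
  have hbt : Btw (fun i => q * a i) F := btw_at t hΛ ht hF one_pos h1
  obtain ⟨S, hS, hSle, hSX, hQ⟩ := young_defect a F hq0 hq1 one_pos (fun i => ⟨ha1 i, ha2 i⟩) hbt
  have hQh : (Qm u y τ).IsHermitian := conj_herm _
  have hd1 := hQ (Qm u y τ) hQh
  rw [← hΔ₁] at hd1
  have hd1' : hs2 (Qm u y τ - S) ≤ am * Δ₁ := by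
    rw [div_le_iff₀ ham0] at hd1; linarith
  have hΔ₁0 : 0 ≤ Δ₁ := le_trans (div_nonneg (hs2_nonneg _) ham0.le) hd1
  have hcom : hs2 (dg a * F - F * dg a) ≤ 32 * am ^ 5 * Δ₂ := by
    rw [div_le_iff₀ (by positivity)] at hΔ₂; linarith
  have hcom0 := hs2_nonneg (dg a * F - F * dg a)
  have hΔ₂0 : 0 ≤ Δ₂ := le_trans (div_nonneg hcom0 (by positivity)) hΔ₂
  -- [T, F]
  have hAA : dg a * dg a = dg t + ((τ ^ 2 : ℝ) : ℂ) • (1 : Matrix (Fin n) (Fin n) ℂ) := by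
    rw [dg_mul, ← dg_const, dg_add]
    congr 1
    ext i
    exact at_sq t htp i
  have hApsd : (dg a).PosSemidef := dg_posSemidef fun i => (zero_le_one.trans (ha1 i))
  have hAle : (((am : ℝ) : ℂ) • (1 : Matrix (Fin n) (Fin n) ℂ) - dg a).PosSemidef := by
    rw [← dg_const, dg_sub]
    exact dg_posSemidef fun i => by linarith [ha2 i]
  have hA2 := sq_le_of_le hApsd hAle
  have hTF : hs2 (dg t * F - F * dg t) ≤ 4 * am ^ 2 * hs2 (dg a * F - F * dg a) := by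
    have e1 : dg t * F - F * dg t = dg a * (dg a * F - F * dg a) + (dg a * F - F * dg a) * dg a := by
      have : dg t = dg a * dg a - ((τ ^ 2 : ℝ) : ℂ) • (1 : Matrix (Fin n) (Fin n) ℂ) := by
        rw [hAA]; abel
      rw [this]
      simp only [mul_sub, sub_mul, smul_mul_assoc, mul_smul_comm, one_mul, mul_one, mul_assoc]
      abel
    rw [e1]
    refine (hs2_add_le _ _).trans ?_
    have b1 : hs2 (dg a * (dg a * F - F * dg a)) ≤ am ^ 2 * hs2 (dg a * F - F * dg a) :=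
      hs2_mul_left_le (by rw [dg_conjTranspose]; exact hA2)
    have b2 : hs2 ((dg a * F - F * dg a) * dg a) ≤ am ^ 2 * hs2 (dg a * F - F * dg a) :=
      hs2_mul_right_le (by rw [dg_conjTranspose]; exact hA2)
    linarith
  -- Y - X
  set sy := ∑ i, y i with hsy
  have hsy0 : 0 ≤ sy := Finset.sum_nonneg fun i _ => hy i
  have hYX : u * dg y * uᴴ - (dg t - F * F) =
      (Qm u y τ * (Qm u y τ - S) + (Qm u y τ - S) * S) + (S * S - XX a F) := by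
    rw [XX_at t htp]
    have : u * dg y * uᴴ = Qm u y τ * Qm u y τ - ((τ ^ 2 : ℝ) : ℂ) • (1 : Matrix (Fin n) (Fin n) ℂ) := by
      rw [Qm_sq hu hu' hy]; abel
    rw [this]
    noncomm_ring
  have hQle : (((4 + sy : ℝ) : ℂ) • (1 : Matrix (Fin n) (Fin n) ℂ) -
      (Qm u y τ)ᴴ * Qm u y τ).PosSemidef := by
    rw [hQh.eq, Qm_sq hu hu' hy, conj_const hu', conj_const hu', conj_add, conj_sub]
    refine conj_psd fun i => ?_
    have : y i ≤ sy := Finset.single_le_sum (fun i _ => hy i) (Finset.mem_univ i)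
    nlinarith
  have hS2 := sq_le_of_le hS hSle
  have c1 : hs2 (Qm u y τ * (Qm u y τ - S)) ≤ (4 + sy) * hs2 (Qm u y τ - S) := hs2_mul_left_le hQle
  have c2 : hs2 ((Qm u y τ - S) * S) ≤ am ^ 2 * hs2 (Qm u y τ - S) :=
    hs2_mul_right_le (by rw [hS.isHermitian.eq]; exact hS2)
  have c3 : hs2 (u * dg y * uᴴ - (dg t - F * F)) ≤
      4 * (4 + sy + am ^ 2) * (am * Δ₁) + 2 * ((am * (Λ + 1)) ^ 2 * (32 * am ^ 5 * Δ₂)) := by
    rw [hYX]
    refine (hs2_add_le _ _).trans ?_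
    have c4 := hs2_add_le (Qm u y τ * (Qm u y τ - S)) ((Qm u y τ - S) * S)
    have c5 : hs2 (S * S - XX a F) ≤ (am * (Λ + 1)) ^ 2 * (32 * am ^ 5 * Δ₂) := by
      refine hSX.trans ?_
      have : am / (1 * (1 - q ^ 2)) = am * (Λ + 1) := by
        rw [hqq]; field_simp
      rw [this]
      exact mul_le_mul_of_nonneg_left hcom (sq_nonneg _)
    have c6 : (4 + sy + am ^ 2) * hs2 (Qm u y τ - S) ≤ (4 + sy + am ^ 2) * (am * Δ₁) :=
      mul_le_mul_of_nonneg_left hd1' (by positivity)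
    nlinarith
  have c7 : hs2 (u * dg y * uᴴ - (dg t - F * F)) / (1 + sy) ≤
      4 * (4 + am ^ 2) * (am * Δ₁) + 2 * ((am * (Λ + 1)) ^ 2 * (32 * am ^ 5 * Δ₂)) := by
    rw [div_le_iff₀ (by linarith)]
    refine c3.trans ?_
    have d1 : 0 ≤ am * Δ₁ := by positivity
    have d2 : 0 ≤ (am * (Λ + 1)) ^ 2 * (32 * am ^ 5 * Δ₂) := by positivity
    have d3 : 0 ≤ am ^ 2 := by positivity
    have d4 : 0 ≤ sy * (am * Δ₁) := by positivity
    have d5 : 0 ≤ sy * am ^ 2 * (am * Δ₁) := by positivity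
    have d6 : 0 ≤ sy * ((am * (Λ + 1)) ^ 2 * (32 * am ^ 5 * Δ₂)) := by positivity
    nlinarith
  have c8 : hs2 (dg t * F - F * dg t) ≤ 4 * am ^ 2 * (32 * am ^ 5 * Δ₂) :=
    hTF.trans (mul_le_mul_of_nonneg_left hcom (by positivity))
  have k1 : 0 ≤ 4 * (4 + Λ + 4) * am := by positivity
  have k2 : 0 ≤ 128 * am ^ 7 := by positivity
  have k3 : 0 ≤ 64 * (am * (Λ + 1)) ^ 2 * am ^ 5 := by positivity
  calc _ ≤ 4 * am ^ 2 * (32 * am ^ 5 * Δ₂) + (4 * (4 + am ^ 2) * (am * Δ₁) +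
        2 * ((am * (Λ + 1)) ^ 2 * (32 * am ^ 5 * Δ₂))) := add_le_add c8 c7
    _ = 4 * (4 + am ^ 2) * am * Δ₁ + 128 * am ^ 7 * Δ₂ + 64 * (am * (Λ + 1)) ^ 2 * am ^ 5 * Δ₂ := by
        ring
    _ = 4 * (4 + Λ + 4) * am * Δ₁ + 128 * am ^ 7 * Δ₂ + 64 * (am * (Λ + 1)) ^ 2 * am ^ 5 * Δ₂ := by
        rw [show 4 + am ^ 2 = 4 + Λ + 4 by linarith]
    _ ≤ _ := by nlinarith [mul_nonneg k1 hΔ₂0, mul_nonneg k2 hΔ₁0, mul_nonneg k3 hΔ₁0]

theorem cont_psi (t : Fin n → ℝ) (ht : ∀ i, 0 < t i) {F : Matrix (Fin n) (Fin n) ℂ}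
    (hF : Btw (fun i => √(t i)) F) (M : Matrix (Fin n) (Fin n) ℂ) :
    ContinuousOn (fun τ => psi (at' t τ) F M) (Ioi 0) := by
  have h := continuousOn_psi t (fun i => (ht i).le)
  have h2 : Continuous (fun τ : ℝ => ((τ, F, M) : ℝ × Matrix (Fin n) (Fin n) ℂ × Matrix (Fin n) (Fin n) ℂ)) :=
    continuous_id.prodMk continuous_const
  have h3 : MapsTo (fun τ : ℝ => ((τ, F, M) : ℝ × Matrix (Fin n) (Fin n) ℂ × Matrix (Fin n) (Fin n) ℂ))
      (Ioi 0) {p | 0 < p.1 ∧ Btw (fun i => √(t i)) p.2.1} := by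
    intro τ hτ
    rw [Set.mem_ofPred_eq]
    exact And.intro hτ hF
  have h4 := ContinuousOn.comp h h2.continuousOn h3
  simpa only [Function.comp_def] using h4

theorem cont_g (t : Fin n → ℝ) (ht : ∀ i, 0 < t i) {F : Matrix (Fin n) (Fin n) ℂ}
    (hF : Btw (fun i => √(t i)) F) :
    ContinuousOn (fun τ => psi (at' t τ) F (XX (at' t τ) F)) (Ioi 0) := fun τ hτ =>
  (hasDerivAt_g t (fun i => (ht i).le) F hF hτ).continuousAt.continuousWithinAt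

/-- `τ^s` is continuous on `(0, ∞)` -/
theorem cont_rpow (s : ℝ) : ContinuousOn (fun τ : ℝ => τ ^ s) (Ioi 0) := fun τ hτ =>
  (Real.continuousAt_rpow_const τ s (Or.inl (ne_of_gt hτ))).continuousWithinAt

/-- the derivative of `g`, divided by `τ`. -/
noncomputable def gd (t : Fin n → ℝ) (F : Matrix (Fin n) (Fin n) ℂ) (τ : ℝ) : ℝ :=
  avg (fun φ => 2 * rtr (Rm (at' t τ) F φ) -
        rtr (Rm (at' t τ) F φ * (dg (at' t τ))⁻¹ * Rm (at' t τ) F φ * XX (at' t τ) F))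

noncomputable def GG (ν : ℝ) (t : Fin n → ℝ) (F : Matrix (Fin n) (Fin n) ℂ) (τ : ℝ) : ℝ :=
  τ ^ (2 * ν) * (rtr (dg t - F * F) / 2 + τ ^ 2 * n - τ * psi (at' t τ) F (XX (at' t τ) F))

noncomputable def GG' (ν : ℝ) (t : Fin n → ℝ) (F : Matrix (Fin n) (Fin n) ℂ) (τ : ℝ) : ℝ :=
  (2 * ν) * τ ^ (2 * ν - 1) *
    (rtr (dg t - F * F) / 2 + τ ^ 2 * n - τ * psi (at' t τ) F (XX (at' t τ) F)) +
  τ ^ (2 * ν) * (2 * τ * n - psi (at' t τ) F (XX (at' t τ) F) - τ * (τ * gd t F τ))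

theorem hasDerivAt_GG {ν : ℝ} (t : Fin n → ℝ) (ht : ∀ i, 0 < t i) {F : Matrix (Fin n) (Fin n) ℂ}
    (hF : Btw (fun i => √(t i)) F) {τ : ℝ} (hτ : 0 < τ) :
    HasDerivAt (GG ν t F) (GG' ν t F τ) τ := by
  have h1 := Real.hasDerivAt_rpow_const (p := 2 * ν) (Or.inl hτ.ne')
  have h2 := hasDerivAt_g t (fun i => (ht i).le) F hF hτ
  have h3 : HasDerivAt (fun s : ℝ => rtr (dg t - F * F) / 2 + s ^ 2 * n -
      s * psi (at' t s) F (XX (at' t s) F))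
      (2 * τ * n - (1 * psi (at' t τ) F (XX (at' t τ) F) + τ * (τ * gd t F τ))) τ := by
    have a1 : HasDerivAt (fun s : ℝ => s ^ 2 * (n : ℝ)) (2 * τ * n) τ := by
      have := (hasDerivAt_pow 2 τ).mul_const (n : ℝ)
      simpa using this
    have a2 := (hasDerivAt_id τ).mul h2
    exact (a1.const_add _).sub a2
  have h4 := h1.mul h3
  have h5 : GG ν t F = (fun s : ℝ => s ^ (2 * ν)) * (fun s : ℝ => rtr (dg t - F * F) / 2 + s ^ 2 * n -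
      s * psi (at' t s) F (XX (at' t s) F)) := by
    ext s
    rfl
  rw [h5]
  refine h4.congr_deriv ?_
  unfold GG'
  ring

theorem cont_GG' {ν : ℝ} (t : Fin n → ℝ) (ht : ∀ i, 0 < t i) {F : Matrix (Fin n) (Fin n) ℂ}
    (hF : Btw (fun i => √(t i)) F) : ContinuousOn (GG' ν t F) (Ioi 0) := by
  have h1 := cont_g t ht hF
  have h2 : ContinuousOn (gd t F) (Ioi 0) := continuousOn_g' t (fun i => (ht i).le) F hF
  have h3 := cont_rpow (2 * ν)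
  have h4 := cont_rpow (2 * ν - 1)
  have h5 : ContinuousOn (fun τ : ℝ => τ) (Ioi 0) := continuousOn_id
  unfold GG'
  fun_prop

/-- the three parts of the integrand -/
noncomputable def f1 (ν : ℝ) (y : Fin n → ℝ) (τ : ℝ) : ℝ :=
  τ ^ (2 * ν - 1) * ((1 + ν) * ∑ i, (√(τ ^ 2 + y i) - τ) ^ 2)

noncomputable def f2 (ν : ℝ) (t : Fin n → ℝ) (F M : Matrix (Fin n) (Fin n) ℂ) (τ : ℝ) : ℝ :=
  τ ^ (2 * ν - 1) * (ν * (rtr M - τ * psi (at' t τ) F M))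

theorem cont_f1 (ν : ℝ) (y : Fin n → ℝ) : ContinuousOn (f1 ν y) (Ioi 0) := by
  unfold f1
  refine (cont_rpow _).mul (Continuous.continuousOn ?_)
  fun_prop

theorem cont_f2 (ν : ℝ) (t : Fin n → ℝ) (ht : ∀ i, 0 < t i) {F : Matrix (Fin n) (Fin n) ℂ}
    (hF : Btw (fun i => √(t i)) F) (M : Matrix (Fin n) (Fin n) ℂ) :
    ContinuousOn (f2 ν t F M) (Ioi 0) := by
  have h1 := cont_psi t ht hF M
  have h4 := cont_rpow (2 * ν - 1)
  have h5 : ContinuousOn (fun τ : ℝ => τ) (Ioi 0) := continuousOn_id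
  exact h4.mul (continuousOn_const.mul (continuousOn_const.sub (h5.mul h1)))

theorem rpow_split {ν τ : ℝ} (hτ : 0 < τ) : τ ^ (2 * ν) = τ ^ (2 * ν - 1) * τ := by
  rw [Real.rpow_sub_one hτ.ne']
  field_simp

/-- the constant -/
noncomputable def C0 (Λ : ℝ) : ℝ := 4 * (4 + Λ + 4) * √(Λ + 4) + 128 * √(Λ + 4) ^ 7 +
        64 * (√(Λ + 4) * (Λ + 1)) ^ 2 * √(Λ + 4) ^ 5

theorem C0_pos {Λ : ℝ} (hΛ : 0 < Λ) : 0 < C0 Λ := by
  have : 0 < √(Λ + 4) := Real.sqrt_pos.2 (by linarith)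
  unfold C0
  positivity

set_option maxHeartbeats 1000000 in
theorem pointwise {ν : ℝ} (h0 : 0 < ν) {Λ : ℝ} (hΛ : 0 < Λ) (t : Fin n → ℝ)
    (ht : ∀ i, 0 < t i ∧ t i ≤ Λ) (F Wa e : Matrix (Fin n) (Fin n) ℂ)
    (hF : Btw (fun i => √(t i)) F)
    {u : Matrix (Fin n) (Fin n) ℂ} (hu : uᴴ * u = 1) (hu' : u * uᴴ = 1) {y : Fin n → ℝ}
    (hy : ∀ i, 0 ≤ y i) (hY : ((ν / (1 + ν) : ℝ) : ℂ) • Wa = u * dg y * uᴴ) {τ : ℝ} (hτ : 0 < τ) :
    0 ≤ f1 ν y τ + f2 ν t F (dg t - F * F - Wa - e) τ + f2 ν t F e τ - GG' ν t F τ ∧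
    (1 ≤ τ → τ ≤ 2 → (C0 Λ)⁻¹ * (hs2 (dg t * F - F * dg t) +
      hs2 (u * dg y * uᴴ - (dg t - F * F)) / (1 + ∑ i, y i)) ≤
      f1 ν y τ + f2 ν t F (dg t - F * F - Wa - e) τ + f2 ν t F e τ - GG' ν t F τ) := by
  have htp : ∀ i, 0 < t i := fun i => (ht i).1
  have hap : ∀ i, 0 < at' t τ i := fun i => at_pos t htp i
  have hbt : Btw (fun i => √(Λ / (Λ + τ ^ 2)) * at' t τ i) F := btw_at t hΛ ht hF hτ le_rfl
  have hq1 := q_lt hΛ hτ
  have hbd : ∀ i, τ ≤ at' t τ i ∧ at' t τ i ≤ √(Λ + τ ^ 2) := fun i => ⟨le_at t htp i, at_le t ht i⟩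
  obtain ⟨hadd, hsub, hsm⟩ := psi_lin (at' t τ) F (Real.sqrt_nonneg _) hq1 hτ hbd hbt
  have hid := main_id h0 t htp F Wa e hu hu' hy hY τ hadd hsub hsm
  have hg' := g'_sub (at' t τ) F hq1 hap hbt
  obtain ⟨S, hS, hSle, hSX, hQ⟩ := young_defect (at' t τ) F (Real.sqrt_nonneg _) hq1 hτ hbd hbt
  have hQ' := hQ (Qm u y τ) (conj_herm _)
  have hcd := comm_defect (at' t τ) F (Real.sqrt_nonneg _) hq1 (fun i => ⟨hap i, (hbd i).2⟩) hbt
  obtain ⟨Δ₁, hΔ₁⟩ : ∃ Δ₁, Δ₁ = psi (at' t τ) F (Qm u y τ * Qm u y τ) - 2 * rtr (Qm u y τ) +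
        psi (at' t τ) F (XX (at' t τ) F) := ⟨_, rfl⟩
  obtain ⟨Δ₂, hΔ₂⟩ : ∃ Δ₂, Δ₂ = avg (fun φ => rtr (Rm (at' t τ) F φ) -
    rtr (Rm (at' t τ) F φ * (dg (at' t τ))⁻¹ * Rm (at' t τ) F φ * XX (at' t τ) F)) := ⟨_, rfl⟩
  rw [← hΔ₁] at hid hQ'
  rw [← hΔ₂] at hcd hg'
  have hΔ₁0 : 0 ≤ Δ₁ := le_trans (div_nonneg (hs2_nonneg _) (Real.sqrt_nonneg _)) hQ'
  have hΔ₂0 : 0 ≤ Δ₂ := le_trans (div_nonneg (hs2_nonneg _) (by positivity)) hcd
  have heq : f1 ν y τ + f2 ν t F (dg t - F * F - Wa - e) τ + f2 ν t F e τ - GG' ν t F τ =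
      τ ^ (2 * ν - 1) * ((1 + ν) * τ * Δ₁ + τ ^ 3 * Δ₂) := by
    have hgd : gd t F τ = psi (at' t τ) F 1 + Δ₂ := hg'
    unfold f1 f2 GG'
    rw [hgd, rpow_split hτ]
    linear_combination τ ^ (2 * ν - 1) * hid
  have hw : 0 < τ ^ (2 * ν - 1) := Real.rpow_pos_of_pos hτ _
  rw [heq]
  refine ⟨by positivity, fun h1 h2 => ?_⟩
  have hrem := remainder hΛ t ht F hF hu hu' hy h1 h2 Δ₁ Δ₂ hΔ₁ (by
    have hbt1 : Btw (fun i => √(Λ / (Λ + 1 ^ 2)) * at' t τ i) F := btw_at t hΛ ht hF one_pos h1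
    have := comm_defect (at' t τ) F (Real.sqrt_nonneg _) (q_lt hΛ one_pos)
      (fun i => ⟨hap i, (at_le t ht i).trans (Real.sqrt_le_sqrt (by nlinarith : Λ + τ ^ 2 ≤ Λ + 4))⟩) hbt1
    rw [← hΔ₂] at this
    exact this)
  have hC := C0_pos hΛ
  have h3 : (C0 Λ)⁻¹ * (hs2 (dg t * F - F * dg t) +
      hs2 (u * dg y * uᴴ - (dg t - F * F)) / (1 + ∑ i, y i)) ≤ Δ₁ + Δ₂ := by
    rw [inv_mul_le_iff₀ hC]
    exact hrem
  refine h3.trans ?_
  have hw1 : 1 ≤ τ ^ (2 * ν - 1) * τ := by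
    rw [← rpow_split hτ]
    exact Real.one_le_rpow h1 (by linarith)
  have e1 : Δ₁ ≤ τ ^ (2 * ν - 1) * ((1 + ν) * τ * Δ₁) := by
    have : τ ^ (2 * ν - 1) * ((1 + ν) * τ * Δ₁) = (τ ^ (2 * ν - 1) * τ) * (1 + ν) * Δ₁ := by ring
    rw [this]
    exact le_mul_of_one_le_left hΔ₁0 (one_le_mul_of_one_le_of_one_le hw1 (by linarith))
  have e2 : Δ₂ ≤ τ ^ (2 * ν - 1) * (τ ^ 3 * Δ₂) := by
    have : τ ^ (2 * ν - 1) * (τ ^ 3 * Δ₂) = (τ ^ (2 * ν - 1) * τ) * τ ^ 2 * Δ₂ := by ring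
    rw [this]
    exact le_mul_of_one_le_left hΔ₂0 (one_le_mul_of_one_le_of_one_le hw1 (one_le_pow₀ h1))
  linarith

theorem int_f1_le {ν : ℝ} (h0 : 0 < ν) (h1 : ν < 1) {y : Fin n → ℝ} (hy : ∀ i, 0 ≤ y i)
    {ε R : ℝ} (hε : 0 < ε) (hεR : ε ≤ R) :
    ∫ τ in ε..R, f1 ν y τ ≤ kap ν * ∑ i, (y i) ^ (1 + ν) := by
  have hi : ∀ i, IntegrableOn (fun τ : ℝ => τ ^ (2 * ν - 1) * (√(τ ^ 2 + y i) - τ) ^ 2) (Ioi 0) :=
    fun i => (scal2 h0 h1 (hy i)).1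
  have hf : f1 ν y = fun τ : ℝ => ∑ i, (1 + ν) * (τ ^ (2 * ν - 1) * (√(τ ^ 2 + y i) - τ) ^ 2) := by
    ext τ
    unfold f1
    rw [Finset.mul_sum, Finset.mul_sum]
    exact Finset.sum_congr rfl fun i _ => by ring
  have hint : IntegrableOn (f1 ν y) (Ioi 0) := by
    rw [hf]
    exact integrable_finsetSum _ fun i _ => (hi i).const_mul _
  have htot : ∫ τ in Ioi (0:ℝ), f1 ν y τ = kap ν * ∑ i, (y i) ^ (1 + ν) := by
    rw [hf, integral_finsetSum _ fun i _ => (hi i).const_mul _, Finset.mul_sum]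
    refine Finset.sum_congr rfl fun i _ => ?_
    rw [integral_const_mul, (scal2 h0 h1 (hy i)).2]
    field_simp
  rw [← htot, intervalIntegral.integral_of_le hεR]
  refine setIntegral_mono_set hint ?_ ?_
  · filter_upwards [ae_restrict_mem measurableSet_Ioi] with τ hτ
    have : (0:ℝ) < τ ^ (2 * ν - 1) := Real.rpow_pos_of_pos hτ _
    have h2 : 0 ≤ ∑ i, (√(τ ^ 2 + y i) - τ) ^ 2 := Finset.sum_nonneg fun _ _ => sq_nonneg _
    unfold f1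
    simp only [Pi.zero_apply]
    positivity
  · exact Filter.Eventually.of_forall fun τ hτ => (hε.trans hτ.1 : (0:ℝ) < τ)

theorem int_f2_le {ν : ℝ} (h0 : 0 < ν) (h1 : ν < 1) {Λ : ℝ} (hΛ : 0 < Λ) (t : Fin n → ℝ)
    (ht : ∀ i, 0 < t i ∧ t i ≤ Λ) {F e : Matrix (Fin n) (Fin n) ℂ}
    (hF : Btw (fun i => √(t i)) F) (he : e.PosSemidef) {ε R : ℝ} (hε : 0 < ε) (hεR : ε ≤ R) :
    ∫ τ in ε..R, f2 ν t F e τ ≤ ν * kap ν * Λ ^ ν * rtr e := by
  have htp : ∀ i, 0 < t i := fun i => (ht i).1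
  obtain ⟨hi, hI⟩ := scal1 h0 h1 hΛ.le
  have he0 := rtr_nonneg he
  have hsub : Icc ε R ⊆ Ioi 0 := fun τ hτ => lt_of_lt_of_le hε hτ.1
  have hi' : IntegrableOn (fun τ : ℝ => (ν * rtr e) * (τ ^ (2 * ν - 1) * (1 - τ / √(τ ^ 2 + Λ)))) (Ioi 0) :=
    hi.const_mul _
  have hle : ∀ τ, 0 < τ → f2 ν t F e τ ≤ (ν * rtr e) * (τ ^ (2 * ν - 1) * (1 - τ / √(τ ^ 2 + Λ))) := by
    intro τ hτ
    have hbt : Btw (fun i => √(Λ / (Λ + τ ^ 2)) * at' t τ i) F := btw_at t hΛ ht hF hτ le_rfl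
    have := psi_lower (at' t τ) F (Real.sqrt_nonneg _) (q_lt hΛ hτ)
      (fun i => ⟨at_pos t htp i, at_le t ht i⟩) hbt he
    have hw : (0:ℝ) < τ ^ (2 * ν - 1) := Real.rpow_pos_of_pos hτ _
    unfold f2
    rw [add_comm (τ ^ 2) Λ]
    have h3 : τ * (rtr e / √(Λ + τ ^ 2)) ≤ τ * psi (at' t τ) F e := mul_le_mul_of_nonneg_left this hτ.le
    have h4 : ν * (rtr e - τ * psi (at' t τ) F e) ≤ ν * rtr e * (1 - τ / √(Λ + τ ^ 2)) := by
      have : ν * rtr e * (1 - τ / √(Λ + τ ^ 2)) = ν * (rtr e - τ * (rtr e / √(Λ + τ ^ 2))) := by ring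
      rw [this]
      exact mul_le_mul_of_nonneg_left (by linarith) h0.le
    calc _ ≤ τ ^ (2 * ν - 1) * (ν * rtr e * (1 - τ / √(Λ + τ ^ 2))) :=
          mul_le_mul_of_nonneg_left h4 hw.le
      _ = _ := by ring
  have hint1 : IntervalIntegrable (f2 ν t F e) volume ε R :=
    ((cont_f2 ν t htp hF e).mono (by rw [uIcc_of_le hεR]; exact hsub)).intervalIntegrable
  have hint2 : IntervalIntegrable (fun τ : ℝ => (ν * rtr e) * (τ ^ (2 * ν - 1) * (1 - τ / √(τ ^ 2 + Λ))))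
      volume ε R := by
    rw [intervalIntegrable_iff_integrableOn_Ioc_of_le hεR]
    exact hi'.mono_set fun τ hτ => (hε.trans hτ.1 : (0:ℝ) < τ)
  calc ∫ τ in ε..R, f2 ν t F e τ ≤ ∫ τ in ε..R, (ν * rtr e) * (τ ^ (2 * ν - 1) * (1 - τ / √(τ ^ 2 + Λ))) :=
        intervalIntegral.integral_mono_on hεR hint1 hint2 fun τ hτ => hle τ (hsub hτ)
    _ ≤ ∫ τ in Ioi (0:ℝ), (ν * rtr e) * (τ ^ (2 * ν - 1) * (1 - τ / √(τ ^ 2 + Λ))) := by
        rw [intervalIntegral.integral_of_le hεR]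
        refine setIntegral_mono_set hi' ?_ ?_
        · filter_upwards [ae_restrict_mem measurableSet_Ioi] with τ hτ
          have : (0:ℝ) < τ ^ (2 * ν - 1) := Real.rpow_pos_of_pos hτ _
          have h3 : τ / √(τ ^ 2 + Λ) ≤ 1 := by
            have hτ' : (0:ℝ) < τ := hτ
            rw [div_le_one (by positivity)]
            exact Real.le_sqrt_of_sq_le (by linarith)
          simp only [Pi.zero_apply]
          have h4 : 0 ≤ 1 - τ / √(τ ^ 2 + Λ) := by linarith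
          positivity
        · exact Filter.Eventually.of_forall fun τ hτ => (hε.trans hτ.1 : (0:ℝ) < τ)
    _ = _ := by
        rw [integral_const_mul, hI]
        ring

end B5_aux

open B5_aux in
theorem hj_pointwise {ν : ℝ} (h0 : 0 < ν) (h1 : ν < 1) {Λ : ℝ} (hΛ : 0 < Λ) :
    ∃ c : ℝ, 0 < c ∧ ∀ {n : ℕ} (t : Fin n → ℝ) (F Wa e : Matrix (Fin n) (Fin n) ℂ) (ε R : ℝ),
      (∀ i, 0 < t i ∧ t i ≤ Λ) → Btw (fun i => √(t i)) F → Wa.PosSemidef → e.PosSemidef →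
      0 < ε → ε ≤ 1 → 2 ≤ R →
      c * (hs2 (dg t * F - F * dg t) +
          hs2 (((ν / (1 + ν) : ℝ) : ℂ) • Wa - (dg t - F * F)) /
            (1 + (ν / (1 + ν)) * rtr Wa)) ≤
        kap ν * (ν / (1 + ν)) ^ (1 + ν) * tracePow Wa (1 + ν) +
        ν * kap ν * Λ ^ ν * rtr e +
        ε ^ (2 * ν) * ((∑ i, t i) / 2 + n * ε ^ 2) +
        ν * ∫ τ in ε..R, τ ^ (2 * ν - 1) *
          (rtr (dg t - F * F - Wa - e) - τ * psi (at' t τ) F (dg t - F * F - Wa - e)) := by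
  refine ⟨(C0 Λ)⁻¹, inv_pos.2 (C0_pos hΛ), ?_⟩
  intro n t F Wa e ε R ht hF hW he hε hε1 hR
  have htp : ∀ i, 0 < t i := fun i => (ht i).1
  have hεR : ε ≤ R := by linarith
  have hκ : 0 ≤ ν / (1 + ν) := by positivity
  have hYpsd : (((ν / (1 + ν) : ℝ) : ℂ) • Wa).PosSemidef :=
    hW.smul (by rw [Complex.zero_le_real]; exact hκ)
  obtain ⟨u, y, hu, hu', hY⟩ := exists_diag hYpsd.isHermitian
  have hy : ∀ i, 0 ≤ y i := diag_nonneg hu hY hYpsd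
  have hsub : Icc ε R ⊆ Ioi 0 := fun τ hτ => lt_of_lt_of_le hε hτ.1
  have huI : uIcc ε R ⊆ Ioi 0 := by rw [uIcc_of_le hεR]; exact hsub
  set H := dg t - F * F - Wa - e with hH
  have i1 : IntervalIntegrable (f1 ν y) volume ε R := ((cont_f1 ν y).mono huI).intervalIntegrable
  have i2 : IntervalIntegrable (f2 ν t F H) volume ε R :=
    ((cont_f2 ν t htp hF H).mono huI).intervalIntegrable
  have i3 : IntervalIntegrable (f2 ν t F e) volume ε R :=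
    ((cont_f2 ν t htp hF e).mono huI).intervalIntegrable
  have i4 : IntervalIntegrable (GG' ν t F) volume ε R :=
    ((cont_GG' (ν := ν) t htp hF).mono huI).intervalIntegrable
  have hcont : ContinuousOn (fun τ => f1 ν y τ + f2 ν t F H τ + f2 ν t F e τ - GG' ν t F τ) (Ioi 0) :=
    (((cont_f1 ν y).add (cont_f2 ν t htp hF H)).add (cont_f2 ν t htp hF e)).sub (cont_GG' t htp hF)
  set D := hs2 (dg t * F - F * dg t) +
      hs2 (u * dg y * uᴴ - (dg t - F * F)) / (1 + ∑ i, y i) with hD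
  have hpt := fun (τ : ℝ) (hτ : 0 < τ) => pointwise h0 hΛ t ht F Wa e hF hu hu' hy hY hτ
  have hmain : (C0 Λ)⁻¹ * D ≤ ∫ τ in ε..R, (f1 ν y τ + f2 ν t F H τ + f2 ν t F e τ - GG' ν t F τ) := by
    have ia : IntervalIntegrable (fun τ => f1 ν y τ + f2 ν t F H τ + f2 ν t F e τ - GG' ν t F τ)
        volume ε R := (hcont.mono huI).intervalIntegrable
    calc (C0 Λ)⁻¹ * D = ∫ _ in (1:ℝ)..2, (C0 Λ)⁻¹ * D := by
          rw [intervalIntegral.integral_const]; norm_num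
      _ ≤ ∫ τ in (1:ℝ)..2, (f1 ν y τ + f2 ν t F H τ + f2 ν t F e τ - GG' ν t F τ) := by
          refine intervalIntegral.integral_mono_on (by norm_num) (by simp) ?_ ?_
          · refine (hcont.mono ?_).intervalIntegrable
            rw [uIcc_of_le (by norm_num)]
            exact fun τ hτ => lt_of_lt_of_le one_pos hτ.1
          · intro τ hτ
            exact (hpt τ (by linarith [hτ.1])).2 hτ.1 hτ.2
      _ ≤ _ := by
          refine intervalIntegral.integral_mono_interval hε1 (by norm_num) hR ?_ ia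
          filter_upwards [ae_restrict_mem measurableSet_Ioc] with τ hτ
          exact (hpt τ (hε.trans hτ.1)).1
  rw [intervalIntegral.integral_sub ((i1.add i2).add i3) i4, intervalIntegral.integral_add (i1.add i2) i3,
    intervalIntegral.integral_add i1 i2] at hmain
  have hG : ∫ τ in ε..R, GG' ν t F τ = GG ν t F R - GG ν t F ε :=
    intervalIntegral.integral_eq_sub_of_hasDerivAt
      (fun τ hτ => hasDerivAt_GG t htp hF (huI hτ)) i4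
  rw [hG] at hmain
  have hR0 : 0 < R := by linarith
  have hGR : 0 ≤ GG ν t F R := by
    have hbt : Btw (fun i => √(Λ / (Λ + R ^ 2)) * at' t R i) F := btw_at t hΛ ht hF hR0 le_rfl
    have := (g_upper (at' t R) F (Real.sqrt_nonneg _) (q_lt hΛ hR0) (fun i => at_pos t htp i) hbt hR0).2
    rw [XX_at t htp, rtr_add, rtr_smul, ← XX_at t htp] at this
    have h1r : rtr (1 : Matrix (Fin n) (Fin n) ℂ) = n := by
      rw [← dg_one, rtr_dg]; simp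
    rw [h1r, le_div_iff₀ (by positivity)] at this
    unfold GG
    refine mul_nonneg (Real.rpow_nonneg hR0.le _) ?_
    nlinarith
  have hGε : GG ν t F ε ≤ ε ^ (2 * ν) * ((∑ i, t i) / 2 + n * ε ^ 2) := by
    have hbt : Btw (fun i => √(Λ / (Λ + ε ^ 2)) * at' t ε i) F := btw_at t hΛ ht hF hε le_rfl
    have := (g_upper (at' t ε) F (Real.sqrt_nonneg _) (q_lt hΛ hε) (fun i => at_pos t htp i) hbt hε).1
    unfold GG
    refine mul_le_mul_of_nonneg_left ?_ (Real.rpow_nonneg hε.le _)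
    have hFF : 0 ≤ rtr (F * F) := by
      have hFh := hF.isHermitian
      have := hs2_nonneg F
      rw [hs2_eq_rtr, hFh.eq] at this
      exact this
    rw [rtr_sub, rtr_dg]
    have h3 : 0 ≤ ε * psi (at' t ε) F (XX (at' t ε) F) := mul_nonneg hε.le this
    linarith
  have hf1 := int_f1_le h0 h1 hy hε hεR
  have hf3 := int_f2_le h0 h1 hΛ t ht hF he hε hεR
  have htr : kap ν * (ν / (1 + ν)) ^ (1 + ν) * tracePow Wa (1 + ν) = kap ν * ∑ i, (y i) ^ (1 + ν) := by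
    rw [mul_assoc, ← tracePow_smul hW hκ, hY, tracePow_diag hu hu']
  have hsy : ν / (1 + ν) * rtr Wa = ∑ i, y i := by
    rw [← rtr_smul, hY, rtr_conj hu, rtr_dg]
  have hf2 : ∫ τ in ε..R, f2 ν t F H τ = ν * ∫ τ in ε..R, τ ^ (2 * ν - 1) *
          (rtr H - τ * psi (at' t τ) F H) := by
    rw [← intervalIntegral.integral_const_mul]
    refine intervalIntegral.integral_congr fun τ _ => ?_
    simp only [f2]
    ring
  rw [htr, hsy, hY, ← hf2]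
  linarith

end Crest.Agent.R332
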