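import Crest.Agent.R332.A3
import Crest.Agent.R332.B4

/-!
# R332 piece C1: path integral of `Ψ` (exactness)

For a `C¹` path `F(x)`, `a ≤ x ≤ b`, with `Btw √t (F x)` and commuting end points
`F a = diag √t`, `F b = diag(-√t + η)`:
for fixed `τ > 0` and `φ` with `sin φ ≠ 0`,
`d/dx log det(A + sin φ F(x)) = sin φ · tr((A + sin φ F)⁻¹ F')` (Jacobi formula; the determinant
is real positive), hence
`∫_a^b tr(R_φ F') dx = (1/sin φ) Σ_j log[(a_j + sin φ(η-√t_j))/(a_j + sin φ √t_j)]
 = -Σ_j ∫_{-√t_j+η}^{√t_j} ds/(a_j + s sin φ)`.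
Average over `φ` (`avg_inv`, `g = s/a_j`): `∫_a^b psi(F') dx = -Σ_j ∫ (a_j²-s²)^(-1/2) ds`,
`a_j² - s² = τ² + t_j - s²`. Also `∫ tr F' = Σ_j (η - 2√t_j)`. Then integrate over `τ ∈ [ε,R]`
(Fubini; everything continuous, `continuousOn_psi`). `MDerivOn` is the entrywise derivative.
(Any other proof of exactness is fine, e.g. comparing with the straight diagonal path.)
-/

set_option autoImplicit false
open MeasureTheory Set Matrix
open scoped ComplexOrder

namespace Crest.Agent.R332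

namespace C1_aux

variable {n : ℕ}

/-- Jacobi's formula -/
lemma hasDerivWithinAt_det {G G' : ℝ → Matrix (Fin n) (Fin n) ℂ} {s : Set ℝ} {x : ℝ}
    (h : ∀ i j, HasDerivWithinAt (fun y => G y i j) (G' x i j) s x) :
    HasDerivWithinAt (fun y => (G y).det) (((G x).adjugate * G' x).trace) s x := by
  have h1 : HasDerivWithinAt (fun y => ∑ σ : Equiv.Perm (Fin n),
      ((Equiv.Perm.sign σ : ℤ) : ℂ) * ∏ i, G y (σ i) i)
      (∑ σ : Equiv.Perm (Fin n), ((Equiv.Perm.sign σ : ℤ) : ℂ) *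
        ∑ i, (∏ j ∈ Finset.univ.erase i, G x (σ j) j) • G' x (σ i) i) s x := by
    refine HasDerivWithinAt.fun_sum fun σ _ => HasDerivWithinAt.const_mul _ ?_
    exact HasDerivWithinAt.fun_finsetProd fun i _ => h (σ i) i
  have e1 : (fun y => (G y).det) = fun y => ∑ σ : Equiv.Perm (Fin n),
      ((Equiv.Perm.sign σ : ℤ) : ℂ) * ∏ i, G y (σ i) i := by
    funext y
    exact Matrix.det_apply' _
  have e2 : ((G x).adjugate * G' x).trace = ∑ σ : Equiv.Perm (Fin n),
      ((Equiv.Perm.sign σ : ℤ) : ℂ) *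
        ∑ i, (∏ j ∈ Finset.univ.erase i, G x (σ j) j) • G' x (σ i) i := by
    simp_rw [Finset.mul_sum]
    rw [Finset.sum_comm, Matrix.trace]
    refine Finset.sum_congr rfl fun i _ => ?_
    have e3 : ((G x).adjugate * G' x).diag i = ((G x).adjugate *ᵥ (fun k => G' x k i)) i := by
      simp [Matrix.mul_apply, Matrix.mulVec, dotProduct]
    rw [e3, ← cramer_eq_adjugate_mulVec, cramer_apply, Matrix.det_apply']
    refine Finset.sum_congr rfl fun σ _ => ?_
    congr 1
    rw [← Finset.mul_prod_erase _ _ (Finset.mem_univ i), smul_eq_mul, mul_comm]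
    congr 1
    · refine Finset.prod_congr rfl fun j hj => ?_
      rw [updateCol_ne (Finset.ne_of_mem_erase hj)]
    · rw [updateCol_self]
  rw [e1, e2]
  exact h1

lemma contOn_inv {X : Type*} [TopologicalSpace X] {G : X → Matrix (Fin n) (Fin n) ℂ} {s : Set X}
    (hG : ContinuousOn G s) (hd : ∀ x ∈ s, (G x).det ≠ 0) :
    ContinuousOn (fun x => (G x)⁻¹) s := by
  have e : (fun x => (G x)⁻¹) = fun x => ((G x).det)⁻¹ • (G x).adjugate := by
    funext x
    rw [Matrix.inv_def, Ring.inverse_eq_inv']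
  rw [e]
  exact (((continuous_id.matrix_det).comp_continuousOn hG).inv₀ hd).smul
    ((continuous_id.matrix_adjugate).comp_continuousOn hG)

lemma contOn_mul {X : Type*} [TopologicalSpace X] {G H : X → Matrix (Fin n) (Fin n) ℂ} {s : Set X}
    (hG : ContinuousOn G s) (hH : ContinuousOn H s) : ContinuousOn (fun x => G x * H x) s :=
  (continuous_fst.matrix_mul continuous_snd).comp_continuousOn (hG.prodMk hH)

lemma contOn_smul {X : Type*} [TopologicalSpace X] {c : X → ℂ} {G : X → Matrix (Fin n) (Fin n) ℂ}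
    {s : Set X} (hc : ContinuousOn c s) (hG : ContinuousOn G s) :
    ContinuousOn (fun x => c x • G x) s := hc.smul hG

lemma intInt {f : ℝ → ℝ → ℝ} {a b c d : ℝ} (hcd : c ≤ d)
    (h : IntegrableOn (Function.uncurry f) (uIoc a b ×ˢ uIoc c d)) :
    IntervalIntegrable (fun x => ∫ y in c..d, f x y) volume a b := by
  rw [intervalIntegrable_iff]
  have h1 : Integrable (Function.uncurry f)
      ((volume.restrict (uIoc a b)).prod (volume.restrict (uIoc c d))) := by
    rwa [Measure.prod_restrict, ← Measure.volume_eq_prod, ← IntegrableOn]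
  have h2 := h1.integral_prod_left
  simp only [Function.uncurry] at h2
  rw [uIoc_of_le hcd] at h2
  simp_rw [intervalIntegral.integral_of_le hcd]
  exact h2

lemma dg_add (a b : Fin n → ℝ) : dg a + dg b = dg (fun i => a i + b i) := by
  simp [dg, Matrix.diagonal_add]

lemma smul_dg (c : ℝ) (b : Fin n → ℝ) : (c : ℂ) • dg b = dg (fun i => c * b i) := by
  simp only [dg]
  rw [← Matrix.diagonal_smul]
  congr 1
  funext i
  simp

lemma det_dg (a : Fin n → ℝ) : (dg a).det = ((∏ i, a i : ℝ) : ℂ) := by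
  rw [dg, Matrix.det_diagonal]
  push_cast
  rfl

/-- positivity of `A + s F` -/
lemma posDef_add {a d : Fin n → ℝ} {F : Matrix (Fin n) (Fin n) ℂ} (hF : Btw d F)
    (had : ∀ i, d i < a i) {s : ℝ} (hs : |s| ≤ 1) : (dg a + (s : ℂ) • F).PosDef := by
  have h1 : (dg (fun i => a i - d i)).PosDef := dg_posDef fun i => sub_pos.2 (had i)
  have hs' := abs_le.1 hs
  have h2 : ((((1 + s) / 2 : ℝ) : ℂ) • (dg d + F)).PosSemidef :=
    hF.2.smul (by rw [Complex.zero_le_real]; linarith)
  have h3 : ((((1 - s) / 2 : ℝ) : ℂ) • (dg d - F)).PosSemidef :=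
    hF.1.smul (by rw [Complex.zero_le_real]; linarith)
  have h4 : dg a + (s : ℂ) • F = dg (fun i => a i - d i) +
      ((((1 + s) / 2 : ℝ) : ℂ) • (dg d + F) + (((1 - s) / 2 : ℝ) : ℂ) • (dg d - F)) := by
    have : dg a = dg (fun i => a i - d i) + dg d := by
      rw [dg_add]
      congr 1
      funext i
      ring
    rw [this, add_assoc]
    congr 1
    ext i j
    simp only [Matrix.add_apply, Matrix.smul_apply, Matrix.sub_apply, smul_eq_mul]
    push_cast
    ring
  rw [h4]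
  exact h1.add_posSemidef (h2.add h3)

lemma det_re {G : Matrix (Fin n) (Fin n) ℂ} (h : G.PosDef) : 0 < G.det.re ∧ G.det.im = 0 := by
  have h1 := h.det_pos
  rw [Complex.lt_def] at h1
  exact ⟨by simpa using h1.1, by simpa using h1.2.symm⟩

lemma det_eq_re {G : Matrix (Fin n) (Fin n) ℂ} (h : G.PosDef) : G.det = ((G.det.re : ℝ) : ℂ) :=
  Complex.ext (by simp) (by simp [(det_re h).2])

lemma trace_adj {G M : Matrix (Fin n) (Fin n) ℂ} (h : G.PosDef) :
    ((G.adjugate * M).trace).re = G.det.re * rtr (G⁻¹ * M) := by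
  have h1 := h.det_pos.ne'
  have h2 : G.adjugate * M = G.det • (G⁻¹ * M) := by
    rw [Matrix.inv_def, Ring.inverse_eq_inv', Matrix.smul_mul, smul_smul, mul_inv_cancel₀ h1,
      one_smul]
  rw [h2, Matrix.trace_smul, smul_eq_mul, det_eq_re h, rtr]
  simp

/-- derivative of `log det` -/
lemma hasDerivWithinAt_logdet {G G' : ℝ → Matrix (Fin n) (Fin n) ℂ} {s : Set ℝ} {x : ℝ}
    (h : ∀ i j, HasDerivWithinAt (fun y => G y i j) (G' x i j) s x) (hp : (G x).PosDef) :
    HasDerivWithinAt (fun y => Real.log (G y).det.re) (rtr ((G x)⁻¹ * G' x)) s x := by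
  have h1 := hasDerivWithinAt_det h
  have h2 : HasDerivWithinAt (fun y => (G y).det.re) (((G x).adjugate * G' x).trace.re) s x :=
    (Complex.reCLM.hasFDerivAt.comp_hasDerivWithinAt x h1)
  have h3 := h2.log (det_re hp).1.ne'
  rw [trace_adj hp, mul_div_cancel_left₀ _ (det_re hp).1.ne'] at h3
  exact h3

lemma matContOn {F F' : ℝ → Matrix (Fin n) (Fin n) ℂ} {s : Set ℝ} (h : MDerivOn F F' s) :
    ContinuousOn F s :=
  continuousOn_pi.2 fun i => continuousOn_pi.2 fun j => fun x hx => (h x hx i j).continuousWithinAt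

lemma at'_gt (t : Fin n → ℝ) {τ : ℝ} (hτ : 0 < τ) (ht : ∀ i, 0 < t i) (i : Fin n) :
    √(t i) < at' t τ i := by
  unfold at'
  exact Real.sqrt_lt_sqrt (ht i).le (by nlinarith)

lemma at'_sq (t : Fin n → ℝ) (τ : ℝ) (ht : ∀ i, 0 < t i) (i : Fin n) :
    at' t τ i ^ 2 = t i + τ ^ 2 := by
  unfold at'
  exact Real.sq_sqrt (by have := ht i; positivity)

lemma bd_end {t : Fin n → ℝ} {η : ℝ} (h : Btw (fun i => √(t i)) (dg (fun i => -√(t i) + η)))
    (i : Fin n) : -√(t i) ≤ -√(t i) + η ∧ -√(t i) + η ≤ √(t i) := by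
  have h1 := h.1.diag_nonneg (i := i)
  have h2 := h.2.diag_nonneg (i := i)
  simp only [dg, Matrix.sub_apply, Matrix.add_apply, Matrix.diagonal_apply_eq] at h1 h2
  rw [← Complex.ofReal_sub, Complex.zero_le_real] at h1
  rw [← Complex.ofReal_add, Complex.zero_le_real] at h2
  constructor <;> linarith

/-- the path integral for a fixed angle -/
lemma path_fixed (t : Fin n → ℝ) (ht : ∀ i, 0 < t i) {a b : ℝ} (hab : a ≤ b)
    (F F' : ℝ → Matrix (Fin n) (Fin n) ℂ) (hder : MDerivOn F F' (Icc a b))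
    (hcont : ContinuousOn F' (Icc a b)) (hbtw : ∀ x ∈ Icc a b, Btw (fun i => √(t i)) (F x))
    {η : ℝ} (hFa : F a = dg (fun i => √(t i))) (hFb : F b = dg (fun i => -√(t i) + η))
    {τ : ℝ} (hτ : 0 < τ) (φ : ℝ) :
    Real.sin φ * ∫ x in a..b, rtr (Rm (at' t τ) (F x) φ * F' x) =
      Real.sin φ * (-∑ j, ∫ s in (-√(t j) + η)..(√(t j)), (at' t τ j + s * Real.sin φ)⁻¹) := by
  set A := at' t τ with hA
  set σ := Real.sin φ with hσ
  have hσ1 : |σ| ≤ 1 := Real.abs_sin_le_one φ
  set G : ℝ → Matrix (Fin n) (Fin n) ℂ := fun x => dg A + (σ : ℂ) • F x with hG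
  have hGp : ∀ x ∈ Icc a b, (G x).PosDef := fun x hx =>
    posDef_add (hbtw x hx) (at'_gt t hτ ht) hσ1
  have hGd : ∀ x ∈ Icc a b, ∀ i j, HasDerivWithinAt (fun y => G y i j)
      (((σ : ℂ) • F' x) i j) (Icc a b) x := fun x hx i j => by
    have := ((hder x hx i j).const_mul (σ : ℂ)).const_add (dg A i j)
    simpa [hG, Matrix.add_apply, Matrix.smul_apply] using this
  have hlog : ∀ x ∈ Icc a b, HasDerivWithinAt (fun y => Real.log (G y).det.re)
      (rtr ((G x)⁻¹ * ((σ : ℂ) • F' x))) (Icc a b) x := fun x hx =>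
    hasDerivWithinAt_logdet (G' := fun x => (σ : ℂ) • F' x) (hGd x hx) (hGp x hx)
  have hGc : ContinuousOn G (Icc a b) :=
    continuousOn_const.add (contOn_smul continuousOn_const (matContOn hder))
  have hGi : ContinuousOn (fun x => (G x)⁻¹) (Icc a b) :=
    contOn_inv hGc fun x hx => (hGp x hx).det_pos.ne'
  have hint : ContinuousOn (fun x => rtr ((G x)⁻¹ * ((σ : ℂ) • F' x))) (Icc a b) := by
    refine continuous_rtr.comp_continuousOn ?_
    exact contOn_mul hGi (contOn_smul continuousOn_const hcont)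
  have hFTC : ∫ x in a..b, rtr ((G x)⁻¹ * ((σ : ℂ) • F' x)) =
      Real.log (G b).det.re - Real.log (G a).det.re := by
    refine intervalIntegral.integral_eq_sub_of_hasDerivAt_of_le hab
      (f := fun y => Real.log (G y).det.re) (fun x hx => (hlog x hx).continuousWithinAt)
      (fun x hx => (hlog x (Ioo_subset_Icc_self hx)).hasDerivAt (Icc_mem_nhds hx.1 hx.2)) ?_
    exact (hint.mono (by rw [uIcc_of_le hab])).intervalIntegrable
  have e1 : ∀ x, rtr ((G x)⁻¹ * ((σ : ℂ) • F' x)) = σ * rtr (Rm A (F x) φ * F' x) := fun x => by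
    rw [Matrix.mul_smul, rtr_smul]
    rfl
  simp_rw [e1] at hFTC
  rw [intervalIntegral.integral_const_mul] at hFTC
  rw [hFTC]
  have hend := hbtw b (right_mem_Icc.2 hab)
  rw [hFb] at hend
  have hbe := bd_end hend
  -- positivity of the scalar denominators
  have hpos : ∀ j, ∀ s, |s| ≤ √(t j) → 0 < A j + s * σ := fun j s hs => by
    have h1 := at'_gt t hτ ht j
    have h2 : |s * σ| ≤ √(t j) := by
      rw [abs_mul]
      calc |s| * |σ| ≤ √(t j) * 1 := mul_le_mul hs hσ1 (abs_nonneg _) (Real.sqrt_nonneg _)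
        _ = _ := mul_one _
    have h3 := (abs_le.1 h2).1
    linarith
  have ha1 : ∀ j, 0 < A j + √(t j) * σ := fun j =>
    hpos j _ (by rw [abs_of_nonneg (Real.sqrt_nonneg _)])
  have hb1 : ∀ j, 0 < A j + (-√(t j) + η) * σ := fun j =>
    hpos j _ (abs_le.2 (hbe j))
  have hGa : (G a).det.re = ∏ j, (A j + √(t j) * σ) := by
    simp only [hG]
    rw [hFa, smul_dg, dg_add, det_dg, Complex.ofReal_re]
    exact Finset.prod_congr rfl fun j _ => by ring
  have hGb : (G b).det.re = ∏ j, (A j + (-√(t j) + η) * σ) := by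
    simp only [hG]
    rw [hFb, smul_dg, dg_add, det_dg, Complex.ofReal_re]
    exact Finset.prod_congr rfl fun j _ => by ring
  rw [hGa, hGb, Real.log_prod (fun j _ => (ha1 j).ne'), Real.log_prod (fun j _ => (hb1 j).ne'),
    ← Finset.sum_sub_distrib, mul_neg, Finset.mul_sum, ← Finset.sum_neg_distrib]
  refine Finset.sum_congr rfl fun j _ => ?_
  rw [← intervalIntegral.integral_const_mul]
  have hsub : ∀ s ∈ uIcc (-√(t j) + η) (√(t j)), 0 < A j + s * σ := fun s hs => by
    rw [uIcc_of_le (hbe j).2] at hs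
    exact hpos j s (abs_le.2 ⟨(hbe j).1.trans hs.1, hs.2⟩)
  have hd : ∀ s ∈ uIcc (-√(t j) + η) (√(t j)),
      HasDerivAt (fun s => Real.log (A j + s * σ)) (σ * (A j + s * σ)⁻¹) s := fun s hs => by
    have h1 : HasDerivAt (fun s => A j + s * σ) σ s := by
      simpa using ((hasDerivAt_id s).mul_const σ).const_add (A j)
    have h2 := h1.log (hsub s hs).ne'
    rwa [div_eq_mul_inv] at h2
  rw [intervalIntegral.integral_eq_sub_of_hasDerivAt hd]
  · ring
  · refine ContinuousOn.intervalIntegrable ?_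
    refine continuousOn_const.mul (ContinuousOn.inv₀ (by fun_prop) fun s hs => (hsub s hs).ne')

lemma ae_sin_ne : ∀ᵐ φ : ℝ, Real.sin φ ≠ 0 := by
  have h : (Set.range fun n : ℤ => (n : ℝ) * Real.pi).Countable := Set.countable_range _
  filter_upwards [h.ae_notMem volume] with φ hφ h0
  rw [Real.sin_eq_zero_iff] at h0
  exact hφ h0

end C1_aux

open C1_aux

theorem path_psi {n : ℕ} (t : Fin n → ℝ) (ht : ∀ i, 0 < t i) {a b : ℝ} (hab : a ≤ b)
    (F F' : ℝ → Matrix (Fin n) (Fin n) ℂ) (hder : MDerivOn F F' (Icc a b))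
    (hcont : ContinuousOn F' (Icc a b)) (hbtw : ∀ x ∈ Icc a b, Btw (fun i => √(t i)) (F x))
    {η : ℝ} (hFa : F a = dg (fun i => √(t i))) (hFb : F b = dg (fun i => -√(t i) + η))
    {τ : ℝ} (hτ : 0 < τ) :
    ∫ x in a..b, psi (at' t τ) (F x) (F' x) =
      - ∑ j, ∫ s in (-√(t j) + η)..(√(t j)), (√(τ ^ 2 + t j - s ^ 2))⁻¹ := by
  set A := at' t τ with hA
  have hF := matContOn hder
  have hend := hbtw b (right_mem_Icc.2 hab)
  rw [hFb] at hend
  have hbe := bd_end hend
  -- continuity of the integrand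
  have hJ : ContinuousOn (fun p : ℝ × ℝ => rtr (Rm A (F p.1) p.2 * F' p.1))
      (Icc a b ×ˢ univ) := by
    refine continuous_rtr.comp_continuousOn ?_
    have hF1 : ContinuousOn (fun p : ℝ × ℝ => F p.1) (Icc a b ×ˢ univ) :=
      hF.comp continuousOn_fst fun p hp => hp.1
    have hF2 : ContinuousOn (fun p : ℝ × ℝ => F' p.1) (Icc a b ×ˢ univ) :=
      hcont.comp continuousOn_fst fun p hp => hp.1
    refine contOn_mul ?_ hF2
    refine contOn_inv ?_ fun p hp => ?_
    · refine continuousOn_const.add (contOn_smul ?_ hF1)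
      exact (Complex.continuous_ofReal.comp (Real.continuous_sin.comp continuous_snd)).continuousOn
    · exact (posDef_add (hbtw p.1 hp.1) (at'_gt t hτ ht) (Real.abs_sin_le_one _)).det_pos.ne'
  have e1 : ∫ x in a..b, psi A (F x) (F' x) =
      (2 * Real.pi)⁻¹ * ∫ φ in (0:ℝ)..(2 * Real.pi),
        ∫ x in a..b, rtr (Rm A (F x) φ * F' x) := by
    simp only [psi, avg]
    rw [intervalIntegral.integral_const_mul]
    congr 1
    refine intervalIntegral_intervalIntegral_swap (F := fun x φ => rtr (Rm A (F x) φ * F' x)) ?_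
    have h1 : IntegrableOn (Function.uncurry fun x φ => rtr (Rm A (F x) φ * F' x))
        (Icc a b ×ˢ uIcc 0 (2 * Real.pi)) := by
      refine ContinuousOn.integrableOn_compact (isCompact_Icc.prod isCompact_uIcc) ?_
      exact hJ.mono (prod_mono le_rfl (subset_univ _))
    refine h1.mono_set (prod_mono ?_ uIoc_subset_uIcc)
    rw [uIoc_of_le hab]
    exact Ioc_subset_Icc_self
  have e2 : ∫ φ in (0:ℝ)..(2 * Real.pi), ∫ x in a..b, rtr (Rm A (F x) φ * F' x) =
      ∫ φ in (0:ℝ)..(2 * Real.pi),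
        -∑ j, ∫ s in (-√(t j) + η)..(√(t j)), (A j + s * Real.sin φ)⁻¹ := by
    refine intervalIntegral.integral_congr_ae ?_
    filter_upwards [ae_sin_ne] with φ hφ _
    exact mul_left_cancel₀ hφ
      (path_fixed t ht hab F F' hder hcont hbtw hFa hFb hτ φ)
  -- the scalar part
  have hpos : ∀ j, ∀ s, |s| ≤ √(t j) → ∀ φ, 0 < A j + s * Real.sin φ := fun j s hs φ => by
    have h1 := at'_gt t hτ ht j
    have h2 : |s * Real.sin φ| ≤ √(t j) := by
      rw [abs_mul]
      calc |s| * |Real.sin φ| ≤ √(t j) * 1 :=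
            mul_le_mul hs (Real.abs_sin_le_one φ) (abs_nonneg _) (Real.sqrt_nonneg _)
        _ = _ := mul_one _
    have h3 := (abs_le.1 h2).1
    linarith
  have hsub : ∀ j, ∀ s ∈ uIcc (-√(t j) + η) (√(t j)), |s| ≤ √(t j) := fun j s hs => by
    rw [uIcc_of_le (hbe j).2] at hs
    exact abs_le.2 ⟨(hbe j).1.trans hs.1, hs.2⟩
  have hK : ∀ j, ContinuousOn (fun p : ℝ × ℝ => (A j + p.2 * Real.sin p.1)⁻¹)
      (univ ×ˢ uIcc (-√(t j) + η) (√(t j))) := fun j => by
    refine ContinuousOn.inv₀ (by fun_prop) fun p hp => (hpos j _ (hsub j _ hp.2) _).ne'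
  have hKint : ∀ j, IntegrableOn (Function.uncurry fun φ s => (A j + s * Real.sin φ)⁻¹)
        (uIoc 0 (2 * Real.pi) ×ˢ uIoc (-√(t j) + η) (√(t j))) := fun j => by
    have h1 : IntegrableOn (Function.uncurry fun φ s => (A j + s * Real.sin φ)⁻¹)
        (uIcc 0 (2 * Real.pi) ×ˢ uIcc (-√(t j) + η) (√(t j))) := by
      refine ContinuousOn.integrableOn_compact (isCompact_uIcc.prod isCompact_uIcc) ?_
      exact (hK j).mono (prod_mono (subset_univ _) le_rfl)
    exact h1.mono_set (prod_mono uIoc_subset_uIcc uIoc_subset_uIcc)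
  have e3 : ∀ j, ∫ φ in (0:ℝ)..(2 * Real.pi), ∫ s in (-√(t j) + η)..(√(t j)),
      (A j + s * Real.sin φ)⁻¹ = ∫ s in (-√(t j) + η)..(√(t j)), ∫ φ in (0:ℝ)..(2 * Real.pi),
      (A j + s * Real.sin φ)⁻¹ := fun j =>
    intervalIntegral_intervalIntegral_swap (F := fun φ s => (A j + s * Real.sin φ)⁻¹) (hKint j)
  have hKi : ∀ j, IntervalIntegrable (fun φ => ∫ s in (-√(t j) + η)..(√(t j)),
      (A j + s * Real.sin φ)⁻¹) volume 0 (2 * Real.pi) := fun j =>
    intInt (hbe j).2 (hKint j)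
  have e4 : ∀ j, ∀ s ∈ uIcc (-√(t j) + η) (√(t j)),
      (2 * Real.pi)⁻¹ * ∫ φ in (0:ℝ)..(2 * Real.pi), (A j + s * Real.sin φ)⁻¹ =
      (√(τ ^ 2 + t j - s ^ 2))⁻¹ := fun j s hs => by
    have h1 := at'_gt t hτ ht j
    have h2 := hsub j s hs
    have hA0 : 0 < A j := (Real.sqrt_nonneg _).trans_lt h1
    have h3 : |s / A j| < 1 := by
      rw [abs_div, abs_of_pos hA0, div_lt_one hA0]
      exact h2.trans_lt h1
    have h4 := avg_inv h3
    have h5 : (fun φ => (A j + s * Real.sin φ)⁻¹) =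
        fun φ => (A j)⁻¹ * (1 + s / A j * Real.sin φ)⁻¹ := by
      funext φ
      rw [← mul_inv]
      congr 1
      field_simp
    have h6 : avg (fun φ => (A j + s * Real.sin φ)⁻¹) = (√(τ ^ 2 + t j - s ^ 2))⁻¹ := by
      rw [h5, avg_mul_left, h4, ← mul_inv]
      congr 1
      nth_rewrite 1 [← Real.sqrt_sq hA0.le]
      rw [← Real.sqrt_mul (sq_nonneg _)]
      congr 1
      have h7 := at'_sq t τ ht j
      rw [← hA] at h7
      field_simp
      linarith
    exact h6
  rw [e1, e2]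
  rw [intervalIntegral.integral_neg, intervalIntegral.integral_finsetSum fun j _ => hKi j, mul_neg,
    Finset.mul_sum]
  congr 1
  refine Finset.sum_congr rfl fun j _ => ?_
  rw [e3 j, ← intervalIntegral.integral_const_mul]
  exact intervalIntegral.integral_congr fun s hs => e4 j s hs


theorem path_int {n : ℕ} (t : Fin n → ℝ) (ht : ∀ i, 0 < t i) {a b : ℝ} (hab : a ≤ b)
    (F F' : ℝ → Matrix (Fin n) (Fin n) ℂ) (hder : MDerivOn F F' (Icc a b))
    (hcont : ContinuousOn F' (Icc a b)) (hbtw : ∀ x ∈ Icc a b, Btw (fun i => √(t i)) (F x))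
    {η : ℝ} (hFa : F a = dg (fun i => √(t i))) (hFb : F b = dg (fun i => -√(t i) + η))
    {ν ε R : ℝ} (hε : 0 < ε) (hR : ε ≤ R) :
    ∫ x in a..b, (∫ τ in ε..R, τ ^ (2 * ν - 1) *
        (rtr (F' x) - τ * psi (at' t τ) (F x) (F' x))) =
      - ∑ j, ∫ s in (-√(t j) + η)..(√(t j)), (∫ τ in ε..R, τ ^ (2 * ν - 1) *
          (1 - τ / √(τ ^ 2 + (t j - s ^ 2)))) := by
  have hF := matContOn hder
  have hend := hbtw b (right_mem_Icc.2 hab)
  rw [hFb] at hend
  have hbe := bd_end hend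
  -- integral of the trace
  have htr : ∫ x in a..b, rtr (F' x) = ∑ j, (η - 2 * √(t j)) := by
    have h1 : ∀ x ∈ Icc a b, HasDerivWithinAt (fun y => rtr (F y)) (rtr (F' x)) (Icc a b) x := by
      intro x hx
      have h2 : HasDerivWithinAt (fun y => ∑ i, (F y i i).re) (∑ i, (F' x i i).re) (Icc a b) x :=
        HasDerivWithinAt.fun_sum fun i _ =>
          Complex.reCLM.hasFDerivAt.comp_hasDerivWithinAt x (hder x hx i i)
      have e : ∀ M : Matrix (Fin n) (Fin n) ℂ, rtr M = ∑ i, (M i i).re := fun M => by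
        simp [rtr, Matrix.trace]
      simp_rw [e]
      exact h2
    rw [intervalIntegral.integral_eq_sub_of_hasDerivAt_of_le hab
      (f := fun y => rtr (F y)) (fun x hx => (h1 x hx).continuousWithinAt)
      (fun x hx => (h1 x (Ioo_subset_Icc_self hx)).hasDerivAt (Icc_mem_nhds hx.1 hx.2))]
    · rw [hFa, hFb, rtr_dg, rtr_dg, ← Finset.sum_sub_distrib]
      exact Finset.sum_congr rfl fun j _ => by ring
    · exact ((continuous_rtr.comp_continuousOn hcont).mono
        (by rw [uIcc_of_le hab])).intervalIntegrable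
  -- swap
  have hf : ContinuousOn (fun p : ℝ × ℝ => p.2 ^ (2 * ν - 1) *
      (rtr (F' p.1) - p.2 * psi (at' t p.2) (F p.1) (F' p.1))) (Icc a b ×ˢ Icc ε R) := by
    have hF1 : ContinuousOn (fun p : ℝ × ℝ => F p.1) (Icc a b ×ˢ Icc ε R) :=
      hF.comp continuousOn_fst fun p hp => hp.1
    have hF2 : ContinuousOn (fun p : ℝ × ℝ => F' p.1) (Icc a b ×ˢ Icc ε R) :=
      hcont.comp continuousOn_fst fun p hp => hp.1
    have h2 : ContinuousOn (fun p : ℝ × ℝ => psi (at' t p.2) (F p.1) (F' p.1))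
        (Icc a b ×ˢ Icc ε R) :=
      (continuousOn_psi t (fun i => (ht i).le)).comp
        (f := fun p : ℝ × ℝ => (p.2, F p.1, F' p.1))
        (continuousOn_snd.prodMk (hF1.prodMk hF2))
        (fun p hp => ⟨hε.trans_le hp.2.1, hbtw p.1 hp.1⟩)
    refine ContinuousOn.mul ?_ ?_
    · exact continuousOn_snd.rpow_const fun p hp => Or.inl (hε.trans_le hp.2.1).ne'
    · exact (continuous_rtr.comp_continuousOn hF2).sub (continuousOn_snd.mul h2)
  have hsw : ∫ x in a..b, (∫ τ in ε..R, τ ^ (2 * ν - 1) *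
        (rtr (F' x) - τ * psi (at' t τ) (F x) (F' x))) =
      ∫ τ in ε..R, (∫ x in a..b, τ ^ (2 * ν - 1) *
        (rtr (F' x) - τ * psi (at' t τ) (F x) (F' x))) := by
    refine intervalIntegral_intervalIntegral_swap (F := fun x τ => τ ^ (2 * ν - 1) *
        (rtr (F' x) - τ * psi (at' t τ) (F x) (F' x))) ?_
    have h1 : IntegrableOn (Function.uncurry fun x τ => τ ^ (2 * ν - 1) *
        (rtr (F' x) - τ * psi (at' t τ) (F x) (F' x))) (Icc a b ×ˢ Icc ε R) :=
      ContinuousOn.integrableOn_compact (isCompact_Icc.prod isCompact_Icc) hf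
    refine h1.mono_set (prod_mono ?_ ?_)
    · rw [uIoc_of_le hab]; exact Ioc_subset_Icc_self
    · rw [uIoc_of_le hR]; exact Ioc_subset_Icc_self
  rw [hsw]
  -- the scalar kernel
  have hg : ∀ j, ContinuousOn (fun p : ℝ × ℝ => p.1 ^ (2 * ν - 1) *
      (1 - p.1 / √(p.1 ^ 2 + (t j - p.2 ^ 2)))) (Icc ε R ×ˢ Icc (-√(t j) + η) (√(t j))) := by
    intro j
    have hpos : ∀ p ∈ Icc ε R ×ˢ Icc (-√(t j) + η) (√(t j)),
        (0:ℝ) < p.1 ^ 2 + (t j - p.2 ^ 2) := by
      intro p hp
      have h1 : 0 < p.1 := hε.trans_le hp.1.1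
      have h2 : |p.2| ≤ √(t j) := abs_le.2 ⟨(hbe j).1.trans hp.2.1, hp.2.2⟩
      have h3 : p.2 ^ 2 ≤ t j := by
        rw [← sq_abs, ← Real.sq_sqrt (ht j).le]
        exact pow_le_pow_left₀ (abs_nonneg _) h2 2
      nlinarith
    refine ContinuousOn.mul ?_ ?_
    · exact continuousOn_fst.rpow_const fun p hp => Or.inl (hε.trans_le hp.1.1).ne'
    · refine continuousOn_const.sub (ContinuousOn.div continuousOn_fst ?_ ?_)
      · exact (Continuous.continuousOn (by fun_prop))
      · intro p hp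
        exact (Real.sqrt_pos.2 (hpos p hp)).ne'
  have hgi : ∀ j, IntegrableOn (Function.uncurry fun τ s : ℝ => τ ^ (2 * ν - 1) *
      (1 - τ / √(τ ^ 2 + (t j - s ^ 2)))) (uIoc ε R ×ˢ uIoc (-√(t j) + η) (√(t j))) := by
    intro j
    have h1 : IntegrableOn (Function.uncurry fun τ s : ℝ => τ ^ (2 * ν - 1) *
      (1 - τ / √(τ ^ 2 + (t j - s ^ 2)))) (Icc ε R ×ˢ Icc (-√(t j) + η) (√(t j))) :=
      ContinuousOn.integrableOn_compact (isCompact_Icc.prod isCompact_Icc) (hg j)
    refine h1.mono_set (prod_mono ?_ ?_)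
    · rw [uIoc_of_le hR]; exact Ioc_subset_Icc_self
    · rw [uIoc_of_le (hbe j).2]; exact Ioc_subset_Icc_self
  have hone : ∀ τ ∈ uIcc ε R, (∫ x in a..b, τ ^ (2 * ν - 1) *
        (rtr (F' x) - τ * psi (at' t τ) (F x) (F' x))) =
      -∑ j, ∫ s in (-√(t j) + η)..(√(t j)), τ ^ (2 * ν - 1) *
          (1 - τ / √(τ ^ 2 + (t j - s ^ 2))) := by
    intro τ hτ
    rw [uIcc_of_le hR] at hτ
    have hτ0 : 0 < τ := hε.trans_le hτ.1
    have i1 : IntervalIntegrable (fun x => rtr (F' x)) volume a b :=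
      ((continuous_rtr.comp_continuousOn hcont).mono
        (by rw [uIcc_of_le hab])).intervalIntegrable
    have i2 : IntervalIntegrable (fun x => psi (at' t τ) (F x) (F' x)) volume a b := by
      refine ContinuousOn.intervalIntegrable ?_
      rw [uIcc_of_le hab]
      exact (continuousOn_psi t (fun i => (ht i).le)).comp
        (f := fun x : ℝ => (τ, F x, F' x))
        (continuousOn_const.prodMk (hF.prodMk hcont)) (fun x hx => ⟨hτ0, hbtw x hx⟩)
    rw [intervalIntegral.integral_const_mul,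
      intervalIntegral.integral_sub i1 (i2.const_mul τ), intervalIntegral.integral_const_mul, htr,
      path_psi t ht hab F F' hder hcont hbtw hFa hFb hτ0, mul_neg, sub_neg_eq_add, Finset.mul_sum,
      ← Finset.sum_add_distrib, Finset.mul_sum, ← Finset.sum_neg_distrib]
    refine Finset.sum_congr rfl fun j _ => ?_
    rw [intervalIntegral.integral_const_mul]
    have hpos : ∀ s ∈ uIcc (-√(t j) + η) (√(t j)), (0:ℝ) < τ ^ 2 + t j - s ^ 2 := by
      intro s hs
      rw [uIcc_of_le (hbe j).2] at hs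
      have h2 : |s| ≤ √(t j) := abs_le.2 ⟨(hbe j).1.trans hs.1, hs.2⟩
      have h3 : s ^ 2 ≤ t j := by
        rw [← sq_abs, ← Real.sq_sqrt (ht j).le]
        exact pow_le_pow_left₀ (abs_nonneg _) h2 2
      nlinarith
    have i3 : IntervalIntegrable (fun s => (√(τ ^ 2 + t j - s ^ 2))⁻¹) volume
        (-√(t j) + η) (√(t j)) := by
      refine ContinuousOn.intervalIntegrable (ContinuousOn.inv₀ ?_ ?_)
      · exact Continuous.continuousOn (by fun_prop)
      · intro s hs
        exact (Real.sqrt_pos.2 (hpos s hs)).ne'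
    have e1 : ∫ s in (-√(t j) + η)..(√(t j)), (1 - τ / √(τ ^ 2 + (t j - s ^ 2))) =
        (2 * √(t j) - η) - τ * ∫ s in (-√(t j) + η)..(√(t j)), (√(τ ^ 2 + t j - s ^ 2))⁻¹ := by
      have e2 : ∀ s : ℝ, 1 - τ / √(τ ^ 2 + (t j - s ^ 2)) =
          1 - τ * (√(τ ^ 2 + t j - s ^ 2))⁻¹ := fun s => by
        rw [div_eq_mul_inv, add_sub_assoc]
      simp_rw [e2]
      rw [intervalIntegral.integral_sub (by simp) (i3.const_mul τ),
        intervalIntegral.integral_const_mul, intervalIntegral.integral_const]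
      simp only [smul_eq_mul]
      ring
    rw [e1]
    ring
  rw [intervalIntegral.integral_congr hone, intervalIntegral.integral_neg,
    intervalIntegral.integral_finsetSum fun j _ => intInt (hbe j).2 (hgi j)]
  congr 1
  refine Finset.sum_congr rfl fun j _ => ?_
  exact intervalIntegral_intervalIntegral_swap (F := fun τ s : ℝ => τ ^ (2 * ν - 1) *
      (1 - τ / √(τ ^ 2 + (t j - s ^ 2)))) (hgi j)

end Crest.Agent.R332
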