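import Crest.Agent.R332.API

/-!
# R332 piece D1: positivity for matrix Lyapunov equations

`X' = M X + X M* + P`, `P ≥ 0`, `X(a) ≥ 0` (resp. `> 0`) ⟹ `X(x) ≥ 0` (resp. `> 0`) on `[a,b]`.

Proof used here (no ODE existence): `X` stays Hermitian (Grönwall for `X - X*`). For a scalar
function `s` with `s' = K |s|`, `K` larger than the norm of `M + M*`, the matrix `X + s` solves the
same equation with a strictly positive right-hand side; at the first point where it is not
positive definite there is a kernel vector `v`, and `v* (X+s) v` has a strictly positive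
derivative there, a contradiction.
-/

set_option autoImplicit false
open MeasureTheory Set Matrix
open scoped ComplexOrder

namespace Crest.Agent.R332

namespace D1_aux

/-- the real quadratic form -/
noncomputable def q {n : ℕ} (A : Matrix (Fin n) (Fin n) ℂ) (v : Fin n → ℂ) : ℝ :=
  (star v ⬝ᵥ (A *ᵥ v)).re

theorem q_eq_sum {n : ℕ} (A : Matrix (Fin n) (Fin n) ℂ) (v : Fin n → ℂ) :
    q A v = ∑ i, ∑ j, (star (v i) * A i j * v j).re := by
  unfold q
  simp only [dotProduct, Matrix.mulVec, Finset.mul_sum, Complex.re_sum, Pi.star_apply]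
  refine Finset.sum_congr rfl fun i _ => Finset.sum_congr rfl fun j _ => ?_
  rw [mul_assoc]

theorem q_add {n : ℕ} (A B : Matrix (Fin n) (Fin n) ℂ) (v : Fin n → ℂ) :
    q (A + B) v = q A v + q B v := by
  unfold q
  rw [Matrix.add_mulVec, dotProduct_add, Complex.add_re]

theorem q_smul_one {n : ℕ} (c : ℝ) (v : Fin n → ℂ) :
    q ((c : ℂ) • (1 : Matrix (Fin n) (Fin n) ℂ)) v = c * ∑ i, ‖v i‖ ^ 2 := by
  unfold q
  rw [Matrix.smul_mulVec, Matrix.one_mulVec, dotProduct_smul, smul_eq_mul, Complex.re_ofReal_mul]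
  congr 1
  simp only [dotProduct, Complex.re_sum, Pi.star_apply]
  refine Finset.sum_congr rfl fun i _ => ?_
  rw [← Complex.normSq_eq_norm_sq]
  simp [Complex.normSq_apply]

theorem q_smul {n : ℕ} (A : Matrix (Fin n) (Fin n) ℂ) (c : ℝ) (v : Fin n → ℂ) :
    q A ((c : ℂ) • v) = c ^ 2 * q A v := by
  rw [q_eq_sum, q_eq_sum, Finset.mul_sum]
  refine Finset.sum_congr rfl fun i _ => ?_
  rw [Finset.mul_sum]
  refine Finset.sum_congr rfl fun j _ => ?_
  have : star (((c : ℂ) • v) i) * A i j * ((c : ℂ) • v) j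
      = ((c ^ 2 : ℝ) : ℂ) * (star (v i) * A i j * v j) := by
    simp only [Pi.smul_apply, smul_eq_mul, star_mul', Complex.star_def, Complex.conj_ofReal]
    push_cast
    ring
  rw [this, Complex.re_ofReal_mul]

theorem q_nonneg {n : ℕ} {A : Matrix (Fin n) (Fin n) ℂ} (h : A.PosSemidef) (v : Fin n → ℂ) :
    0 ≤ q A v := (Complex.le_def.1 (h.dotProduct_mulVec_nonneg v)).1

theorem q_pos {n : ℕ} {A : Matrix (Fin n) (Fin n) ℂ} (h : A.PosDef) {v : Fin n → ℂ}
    (hv : v ≠ 0) : 0 < q A v := (Complex.lt_def.1 (h.dotProduct_mulVec_pos hv)).1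

theorem im_zero {n : ℕ} {A : Matrix (Fin n) (Fin n) ℂ} (h : A.IsHermitian) (v : Fin n → ℂ) :
    (star v ⬝ᵥ (A *ᵥ v)).im = 0 := h.im_star_dotProduct_mulVec_self v

theorem psd_of_q {n : ℕ} {A : Matrix (Fin n) (Fin n) ℂ} (h : A.IsHermitian)
    (hq : ∀ v, 0 ≤ q A v) : A.PosSemidef := by
  refine Matrix.PosSemidef.of_dotProduct_mulVec_nonneg h fun v => ?_
  refine Complex.le_def.2 ⟨hq v, ?_⟩
  rw [im_zero h v]; simp

theorem pd_of_q {n : ℕ} {A : Matrix (Fin n) (Fin n) ℂ} (h : A.IsHermitian)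
    (hq : ∀ v, v ≠ 0 → 0 < q A v) : A.PosDef := by
  refine Matrix.PosDef.of_dotProduct_mulVec_pos h fun v hv => ?_
  refine Complex.lt_def.2 ⟨hq v hv, ?_⟩
  rw [im_zero h v]; simp

theorem sq_pos {n : ℕ} {v : Fin n → ℂ} (hv : v ≠ 0) : 0 < ∑ i, ‖v i‖ ^ 2 := by
  obtain ⟨i, hi⟩ := Function.ne_iff.1 hv
  have h1 : 0 < ‖v i‖ ^ 2 := by
    have : 0 < ‖v i‖ := norm_pos_iff.2 hi
    positivity
  exact h1.trans_le (Finset.single_le_sum (f := fun i => ‖v i‖ ^ 2)
    (fun _ _ => by positivity) (Finset.mem_univ i))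

/-- `|v* M v| ≤ C n |v|²` -/
theorem q_bound {n : ℕ} (A : Matrix (Fin n) (Fin n) ℂ) {C : ℝ} (hC : ∀ i j, ‖A i j‖ ≤ C)
    (hC0 : 0 ≤ C) (v : Fin n → ℂ) : |q A v| ≤ C * n * ∑ i, ‖v i‖ ^ 2 := by
  have h1 : |q A v| ≤ ∑ i, ∑ j, C * (‖v i‖ * ‖v j‖) := by
    rw [q_eq_sum]
    refine (Finset.abs_sum_le_sum_abs _ _).trans (Finset.sum_le_sum fun i _ => ?_)
    refine (Finset.abs_sum_le_sum_abs _ _).trans (Finset.sum_le_sum fun j _ => ?_)
    refine (Complex.abs_re_le_norm _).trans ?_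
    rw [norm_mul, norm_mul, norm_star]
    have := hC i j
    have h2 := norm_nonneg (v i)
    have h3 := norm_nonneg (v j)
    calc ‖v i‖ * ‖A i j‖ * ‖v j‖ = ‖A i j‖ * (‖v i‖ * ‖v j‖) := by ring
      _ ≤ C * (‖v i‖ * ‖v j‖) := by gcongr
  refine h1.trans ?_
  have h2 : ∑ i, ∑ j, C * (‖v i‖ * ‖v j‖) = C * (∑ i, ‖v i‖) ^ 2 := by
    rw [sq, Finset.sum_mul_sum, Finset.mul_sum]
    refine Finset.sum_congr rfl fun i _ => ?_
    rw [Finset.mul_sum]
  rw [h2, mul_assoc]
  refine mul_le_mul_of_nonneg_left ?_ hC0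
  have := sq_sum_le_card_mul_sum_sq (s := (Finset.univ : Finset (Fin n))) (f := fun i => ‖v i‖)
  simpa using this

theorem q_conj {n : ℕ} (A : Matrix (Fin n) (Fin n) ℂ) (v : Fin n → ℂ) : q Aᴴ v = q A v := by
  rw [q_eq_sum, q_eq_sum, Finset.sum_comm]
  refine Finset.sum_congr rfl fun i _ => Finset.sum_congr rfl fun j _ => ?_
  rw [Matrix.conjTranspose_apply]
  have : star (v j) * star (A i j) * v i = star (star (v i) * A i j * v j) := by
    simp only [star_mul', star_star]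
    ring
  rw [this, Complex.star_def, Complex.conj_re]

/-- continuity of the quadratic form along a continuous path -/
theorem q_continuousOn {n : ℕ} {X : ℝ → Matrix (Fin n) (Fin n) ℂ} {s : Set ℝ}
    (hX : ∀ i j, ContinuousOn (fun x => X x i j) s) :
    ContinuousOn (fun p : ℝ × (Fin n → ℂ) => q (X p.1) p.2) (s ×ˢ univ) := by
  simp only [q_eq_sum]
  refine continuousOn_finset_sum _ fun i _ => continuousOn_finset_sum _ fun j _ => ?_
  refine Complex.continuous_re.comp_continuousOn ?_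
  refine ContinuousOn.mul (ContinuousOn.mul ?_ ?_) ?_
  · exact (continuous_star.comp ((continuous_apply i).comp continuous_snd)).continuousOn
  · exact (hX i j).comp continuousOn_fst fun p hp => hp.1
  · exact ((continuous_apply j).comp continuous_snd).continuousOn

/-- derivative of the quadratic form with a fixed vector -/
theorem q_hasDeriv {n : ℕ} {X X' : ℝ → Matrix (Fin n) (Fin n) ℂ} {s : Set ℝ}
    (hX : MDerivOn X X' s) {x : ℝ} (hx : x ∈ s) (v : Fin n → ℂ) :
    HasDerivWithinAt (fun y => q (X y) v) (q (X' x) v) s x := by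
  simp only [q_eq_sum]
  refine HasDerivWithinAt.fun_sum fun i _ => HasDerivWithinAt.fun_sum fun j _ => ?_
  have h1 : HasDerivWithinAt (fun y => star (v i) * X y i j * v j)
      (star (v i) * X' x i j * v j) s x := ((hX x hx i j).const_mul _).mul_const _
  exact (Complex.reCLM.hasFDerivAt.comp_hasDerivWithinAt x h1)

/-- the core: strict positivity propagates -/
theorem core {n : ℕ} {a b : ℝ}
    (X M P : ℝ → Matrix (Fin n) (Fin n) ℂ)
    (hX : MDerivOn X (fun x => M x * X x + X x * (M x)ᴴ + P x) (Icc a b))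
    (hH : ∀ x ∈ Icc a b, (X x).IsHermitian)
    (hP : ∀ x ∈ Icc a b, ∀ v, v ≠ 0 → 0 < q (P x) v) (h0 : ∀ v, v ≠ 0 → 0 < q (X a) v) :
    ∀ x ∈ Icc a b, ∀ v, v ≠ 0 → 0 < q (X x) v := by
  have hcont : ∀ i j, ContinuousOn (fun x => X x i j) (Icc a b) := fun i j x hx =>
    (hX x hx i j).continuousWithinAt
  by_contra hcon
  push Not at hcon
  obtain ⟨x₀, hx₀, v₀, hv₀, hq₀⟩ := hcon
  set Kc : Set (ℝ × (Fin n → ℂ)) := Icc a b ×ˢ Metric.sphere (0 : Fin n → ℂ) 1 with hKc
  have hKcomp : IsCompact Kc := isCompact_Icc.prod (isCompact_sphere _ _)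
  have hqc : ContinuousOn (fun p : ℝ × (Fin n → ℂ) => q (X p.1) p.2) Kc :=
    (q_continuousOn hcont).mono (prod_mono le_rfl (subset_univ _))
  set Z : Set (ℝ × (Fin n → ℂ)) := Kc ∩ (fun p => q (X p.1) p.2) ⁻¹' Iic 0 with hZ
  have hZcl : IsClosed Z := hqc.preimage_isClosed_of_isClosed hKcomp.isClosed isClosed_Iic
  have hZcomp : IsCompact Z := hKcomp.of_isClosed_subset hZcl inter_subset_left
  have hnorm : 0 < ‖v₀‖ := norm_pos_iff.2 hv₀
  have hscale : ∀ (A : Matrix (Fin n) (Fin n) ℂ) (w : Fin n → ℂ), w ≠ 0 →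
      ‖((‖w‖⁻¹ : ℝ) : ℂ) • w‖ = 1 ∧ q A (((‖w‖⁻¹ : ℝ) : ℂ) • w) = (‖w‖⁻¹) ^ 2 * q A w := by
    intro A w hw
    have hw' : 0 < ‖w‖ := norm_pos_iff.2 hw
    refine ⟨?_, q_smul A _ w⟩
    rw [norm_smul, Complex.norm_real, Real.norm_of_nonneg (by positivity)]
    exact inv_mul_cancel₀ hw'.ne'
  have hZne : Z.Nonempty := by
    refine ⟨(x₀, ((‖v₀‖⁻¹ : ℝ) : ℂ) • v₀), ⟨hx₀, ?_⟩, ?_⟩
    · simpa using (hscale (X x₀) v₀ hv₀).1
    · show q (X x₀) _ ≤ 0
      rw [(hscale (X x₀) v₀ hv₀).2]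
      exact mul_nonpos_of_nonneg_of_nonpos (by positivity) hq₀
  obtain ⟨⟨x₁, v⟩, hmem, hmin⟩ := hZcomp.exists_isMinOn hZne continuousOn_fst
  have hx₁ : x₁ ∈ Icc a b := hmem.1.1
  have hv1 : ‖v‖ = 1 := by simpa using hmem.1.2
  have hqv : q (X x₁) v ≤ 0 := hmem.2
  have hv : v ≠ 0 := by
    intro h; rw [h, norm_zero] at hv1; exact zero_ne_one hv1
  have hbefore : ∀ y ∈ Icc a b, y < x₁ → ∀ w, w ≠ 0 → 0 < q (X y) w := by
    intro y hy hyx w hw
    by_contra hneg
    push Not at hneg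
    have hmem' : (y, ((‖w‖⁻¹ : ℝ) : ℂ) • w) ∈ Z := by
      refine ⟨⟨hy, ?_⟩, ?_⟩
      · simpa using (hscale (X y) w hw).1
      · show q (X y) _ ≤ 0
        rw [(hscale (X y) w hw).2]
        exact mul_nonpos_of_nonneg_of_nonpos (by positivity) hneg
    have := hmin hmem'
    simp only [mem_setOf_eq] at this
    linarith
  have hax : a < x₁ := by
    rcases eq_or_lt_of_le hx₁.1 with h | h
    · exfalso
      rw [← h] at hqv
      exact absurd (h0 v hv) (not_lt.2 hqv)
    · exact h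
  -- the punctured left neighbourhood
  haveI : (nhdsWithin x₁ (Ico a x₁)).NeBot := by
    rw [nhdsWithin_Ico_eq_nhdsLT hax]
    infer_instance
  have hsub : Ico a x₁ ⊆ Icc a b := fun y hy => ⟨hy.1, hy.2.le.trans hx₁.2⟩
  have hnn : ∀ w, 0 ≤ q (X x₁) w := by
    intro w
    by_cases hw : w = 0
    · subst hw; simp [q]
    have hc : ContinuousWithinAt (fun y => q (X y) w) (Ico a x₁) x₁ :=
      ((q_hasDeriv hX hx₁ w).continuousWithinAt).mono hsub
    refine ge_of_tendsto hc ?_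
    filter_upwards [self_mem_nhdsWithin] with y hy
    exact (hbefore y (hsub hy) hy.2 w hw).le
  have hpsd : (X x₁).PosSemidef := psd_of_q (hH x₁ hx₁) hnn
  have hq0 : q (X x₁) v = 0 := le_antisymm hqv (hnn v)
  have hker : X x₁ *ᵥ v = 0 := by
    refine (hpsd.dotProduct_mulVec_zero_iff v).1 ?_
    exact Complex.ext hq0 (by rw [im_zero (hH x₁ hx₁) v]; simp)
  have hder := q_hasDeriv hX hx₁ v
  have hval : q (M x₁ * X x₁ + X x₁ * (M x₁)ᴴ + P x₁) v = q (P x₁) v := by
    rw [q_add, q_add]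
    have e1 : q (M x₁ * X x₁) v = 0 := by
      unfold q
      rw [← Matrix.mulVec_mulVec, hker, Matrix.mulVec_zero, dotProduct_zero, Complex.zero_re]
    have e2 : q (X x₁ * (M x₁)ᴴ) v = 0 := by
      rw [← q_conj, Matrix.conjTranspose_mul, Matrix.conjTranspose_conjTranspose,
        (hH x₁ hx₁).eq, e1]
    rw [e1, e2]; ring
  have hpos : 0 < q (M x₁ * X x₁ + X x₁ * (M x₁)ᴴ + P x₁) v := by
    rw [hval]; exact hP x₁ hx₁ v hv
  have hsl := (hasDerivWithinAt_iff_tendsto_slope.1 hder)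
  have hsub' : Ico a x₁ ⊆ Icc a b \ {x₁} := fun y hy => ⟨hsub hy, hy.2.ne⟩
  have hsl' := hsl.mono_left (nhdsWithin_mono x₁ hsub')
  have hev := hsl'.eventually (lt_mem_nhds hpos)
  obtain ⟨y, hy1, hy2⟩ := (hev.and self_mem_nhdsWithin).exists
  have hy3 := hbefore y (hsub hy2) hy2.2 v hv
  rw [slope_def_field] at hy1
  have h3 : q (X y) v - q (X x₁) v > 0 := by linarith
  have h4 : y - x₁ < 0 := by linarith [hy2.2]
  have := div_neg_of_pos_of_neg h3 h4
  linarith

/-- uniform bound for the entries of a continuous matrix function -/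
theorem entries_bound {n : ℕ} {a b : ℝ} (M : ℝ → Matrix (Fin n) (Fin n) ℂ)
    (hM : ContinuousOn M (Icc a b)) : ∃ C : ℝ, 0 ≤ C ∧ ∀ x ∈ Icc a b, ∀ i j, ‖M x i j‖ ≤ C := by
  have h1 : ∀ i j, ∃ C, ∀ x ∈ Icc a b, ‖M x i j‖ ≤ C := fun i j =>
    isCompact_Icc.exists_bound_of_continuousOn
      ((continuous_id.matrix_elem i j).comp_continuousOn hM)
  choose C hC using h1
  refine ⟨∑ i, ∑ j, |C i j|, by positivity, fun x hx i j => ?_⟩
  refine (hC i j x hx).trans ((le_abs_self _).trans ?_)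
  refine le_trans ?_ (Finset.single_le_sum (f := fun i => ∑ j, |C i j|)
    (fun _ _ => by positivity) (Finset.mem_univ i))
  exact Finset.single_le_sum (f := fun j => |C i j|) (fun _ _ => by positivity)
    (Finset.mem_univ j)

theorem herm {n : ℕ} {a b : ℝ}
    (X M P : ℝ → Matrix (Fin n) (Fin n) ℂ) (hM : ContinuousOn M (Icc a b))
    (hX : MDerivOn X (fun x => M x * X x + X x * (M x)ᴴ + P x) (Icc a b))
    (hP : ∀ x ∈ Icc a b, (P x).IsHermitian) (h0 : (X a).IsHermitian) :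
    ∀ x ∈ Icc a b, (X x).IsHermitian := by
  obtain ⟨C, hC0, hC⟩ := entries_bound M hM
  -- the difference `X - X*` as a function into a Pi type
  set Y : ℝ → Fin n → Fin n → ℂ := fun x i j => X x i j - star (X x j i) with hY
  set Y' : ℝ → Fin n → Fin n → ℂ := fun x i j =>
    (∑ k, M x i k * Y x k j) + ∑ k, Y x i k * star (M x j k) with hY'
  have hder : ∀ x ∈ Icc a b, HasDerivWithinAt Y (Y' x) (Icc a b) x := by
    intro x hx
    rw [hasDerivWithinAt_pi]
    intro i
    rw [hasDerivWithinAt_pi]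
    intro j
    have h1 := hX x hx i j
    have h2 := (hX x hx j i).star
    have h3 := h1.sub h2
    refine h3.congr_deriv ?_
    have hPx : P x i j = star (P x j i) := by
      have := congrFun (congrFun (hP x hx).eq i) j
      rw [Matrix.conjTranspose_apply] at this
      exact this.symm
    simp only [hY', hY, Matrix.add_apply, Matrix.mul_apply, Matrix.conjTranspose_apply, star_add,
      star_sum, star_mul', star_star, hPx, mul_sub, sub_mul, Finset.sum_sub_distrib]
    have e1 : ∑ k, star (M x j k) * star (X x k i) = ∑ k, star (X x k i) * star (M x j k) :=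
      Finset.sum_congr rfl fun k _ => mul_comm _ _
    have e2 : ∑ k, star (X x j k) * M x i k = ∑ k, M x i k * star (X x j k) :=
      Finset.sum_congr rfl fun k _ => mul_comm _ _
    rw [e1, e2]
    ring
  have hcont : ContinuousOn Y (Icc a b) := fun x hx => (hder x hx).continuousWithinAt
  have hzero := eq_zero_of_abs_deriv_le_mul_abs_self_of_eq_zero_right (f := Y) (f' := Y')
    (K := 2 * n * C) (a := a) (b := b) hcont ?_ ?_ ?_
  · intro x hx
    ext i j
    have := congrFun (congrFun (hzero x hx) i) j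
    simp only [hY, Pi.zero_apply, sub_eq_zero] at this
    rw [Matrix.conjTranspose_apply]
    exact this.symm
  · intro x hx
    have h1 := hder x ⟨hx.1, hx.2.le⟩
    refine h1.mono_of_mem_nhdsWithin ?_
    exact Icc_mem_nhdsGE_of_mem hx
  · funext i j
    have := congrFun (congrFun h0.eq i) j
    rw [Matrix.conjTranspose_apply] at this
    simp only [hY, Pi.zero_apply]
    rw [this, sub_self]
  · intro x hx
    have hx' : x ∈ Icc a b := ⟨hx.1, hx.2.le⟩
    have hb : (0:ℝ) ≤ 2 * n * C * ‖Y x‖ := by positivity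
    rw [pi_norm_le_iff_of_nonneg hb]
    intro i
    rw [pi_norm_le_iff_of_nonneg hb]
    intro j
    have hent : ∀ k l, ‖Y x k l‖ ≤ ‖Y x‖ := fun k l =>
      (norm_le_pi_norm (Y x k) l).trans (norm_le_pi_norm (Y x) k)
    have s1 : ‖∑ k, M x i k * Y x k j‖ ≤ n * C * ‖Y x‖ := by
      refine (norm_sum_le _ _).trans ?_
      calc ∑ k, ‖M x i k * Y x k j‖ ≤ ∑ _k : Fin n, C * ‖Y x‖ := by
            refine Finset.sum_le_sum fun k _ => ?_
            rw [norm_mul]
            exact mul_le_mul (hC x hx' i k) (hent k j) (norm_nonneg _) hC0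
        _ = n * C * ‖Y x‖ := by simp [mul_assoc]
    have s2 : ‖∑ k, Y x i k * star (M x j k)‖ ≤ n * C * ‖Y x‖ := by
      refine (norm_sum_le _ _).trans ?_
      calc ∑ k, ‖Y x i k * star (M x j k)‖ ≤ ∑ _k : Fin n, C * ‖Y x‖ := by
            refine Finset.sum_le_sum fun k _ => ?_
            rw [norm_mul, norm_star, mul_comm C]
            exact mul_le_mul (hent i k) (hC x hx' j k) (norm_nonneg _) (norm_nonneg _)
        _ = n * C * ‖Y x‖ := by simp [mul_assoc]
    calc ‖Y' x i j‖ ≤ _ := norm_add_le _ _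
      _ ≤ n * C * ‖Y x‖ + n * C * ‖Y x‖ := add_le_add s1 s2
      _ = 2 * n * C * ‖Y x‖ := by ring

/-- the comparison with a scalar function `s`, `s' = K |s|` -/
theorem shifted {n : ℕ} {a b : ℝ}
    (X M P : ℝ → Matrix (Fin n) (Fin n) ℂ)
    (hX : MDerivOn X (fun x => M x * X x + X x * (M x)ᴴ + P x) (Icc a b))
    (hH : ∀ x ∈ Icc a b, (X x).IsHermitian)
    (hP : ∀ x ∈ Icc a b, (P x).PosSemidef)
    {C : ℝ} (hC0 : 0 ≤ C) (hC : ∀ x ∈ Icc a b, ∀ i j, ‖M x i j‖ ≤ C)
    (s : ℝ → ℝ) (hs : ∀ x, HasDerivAt s ((2 * C * n + 1) * |s x|) x) (hs0 : ∀ x, s x ≠ 0)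
    (h0 : ∀ v, v ≠ 0 → 0 < q (X a) v + s a * ∑ i, ‖v i‖ ^ 2) :
    ∀ x ∈ Icc a b, ∀ v, v ≠ 0 → 0 < q (X x) v + s x * ∑ i, ‖v i‖ ^ 2 := by
  set X₂ : ℝ → Matrix (Fin n) (Fin n) ℂ := fun x => X x + ((s x : ℝ) : ℂ) • 1 with hX₂
  set P₂ : ℝ → Matrix (Fin n) (Fin n) ℂ := fun x =>
    P x + (((2 * C * n + 1) * |s x| : ℝ) : ℂ) • 1 + ((-(s x) : ℝ) : ℂ) • (M x + (M x)ᴴ) with hP₂
  have hq : ∀ x v, q (X₂ x) v = q (X x) v + s x * ∑ i, ‖v i‖ ^ 2 := by
    intro x v
    rw [hX₂]
    simp only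
    rw [q_add, q_smul_one]
  have key := core (a := a) (b := b) X₂ M P₂ ?_ ?_ ?_ ?_
  · intro x hx v hv
    rw [← hq]
    exact key x hx v hv
  · intro x hx i j
    have h1 := hX x hx i j
    have h2 : HasDerivWithinAt (fun y => ((s y : ℝ) : ℂ) * (1 : Matrix (Fin n) (Fin n) ℂ) i j)
        ((((2 * C * n + 1) * |s x| : ℝ) : ℂ) * (1 : Matrix (Fin n) (Fin n) ℂ) i j)
        (Icc a b) x := ((hs x).ofReal_comp.mul_const _).hasDerivWithinAt
    have h3 := h1.add h2
    refine h3.congr_deriv ?_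
    beta_reduce
    have e : M x * X₂ x + X₂ x * (M x)ᴴ + P₂ x
        = (M x * X x + X x * (M x)ᴴ + P x) + (((2 * C * n + 1) * |s x| : ℝ) : ℂ) • 1 := by
      simp only [hX₂, hP₂, mul_add, add_mul, Matrix.mul_smul, Matrix.smul_mul, Matrix.mul_one,
        Matrix.one_mul, smul_add]
      push_cast
      simp only [neg_smul]
      abel
    show (M x * X x + X x * (M x)ᴴ + P x) i j + (((2 * C * n + 1) * |s x| : ℝ) : ℂ) *
      (1 : Matrix (Fin n) (Fin n) ℂ) i j = (M x * X₂ x + X₂ x * (M x)ᴴ + P₂ x) i j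
    rw [e, Matrix.add_apply (M x * X x + X x * (M x)ᴴ + P x), Matrix.smul_apply, smul_eq_mul]
  · intro x hx
    refine (hH x hx).add ?_
    unfold Matrix.IsHermitian
    rw [Matrix.conjTranspose_smul, Matrix.conjTranspose_one]
    simp
  · intro x hx v hv
    simp only [hP₂]
    rw [q_add, q_add, q_smul_one]
    have h1 := q_nonneg (hP x hx) v
    have h2 : q (((-(s x) : ℝ) : ℂ) • (M x + (M x)ᴴ)) v = -(s x) * (2 * q (M x) v) := by
      unfold q
      rw [Matrix.smul_mulVec, dotProduct_smul, smul_eq_mul, Complex.re_ofReal_mul]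
      congr 1
      have := q_add (M x) (M x)ᴴ v
      rw [q_conj] at this
      unfold q at this
      rw [this]; ring
    rw [h2]
    have h3 := q_bound (M x) (hC x hx) hC0 v
    have h4 := sq_pos hv
    have h5 : 0 < |s x| := abs_pos.2 (hs0 x)
    have h6 : |s x * (2 * q (M x) v)| ≤ |s x| * (2 * (C * n * ∑ i, ‖v i‖ ^ 2)) := by
      rw [abs_mul, abs_mul, abs_two]
      gcongr
    have h7 := (abs_le.1 h6).2
    have h8 : 0 < |s x| * ∑ i, ‖v i‖ ^ 2 := mul_pos h5 h4
    nlinarith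
  · intro v hv
    rw [hq]
    exact h0 v hv

end D1_aux

open D1_aux

theorem lyap_posSemidef {n : ℕ} {a b : ℝ} (hab : a ≤ b)
    (X M P : ℝ → Matrix (Fin n) (Fin n) ℂ) (hM : ContinuousOn M (Icc a b))
    (hX : MDerivOn X (fun x => M x * X x + X x * (M x)ᴴ + P x) (Icc a b))
    (hP : ∀ x ∈ Icc a b, (P x).PosSemidef) (h0 : (X a).PosSemidef) :
    ∀ x ∈ Icc a b, (X x).PosSemidef := by
  obtain ⟨C, hC0, hC⟩ := entries_bound M hM
  have hH := herm X M P hM hX (fun x hx => (hP x hx).isHermitian) h0.isHermitian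
  intro x hx
  refine psd_of_q (hH x hx) fun v => ?_
  by_cases hv : v = 0
  · subst hv; simp [q]
  set K : ℝ := 2 * C * n + 1 with hK
  have hKey : ∀ ε : ℝ, 0 < ε →
      0 < q (X x) v + ε * Real.exp (K * (x - a)) * ∑ i, ‖v i‖ ^ 2 := by
    intro ε hε
    refine shifted X M P hX hH hP hC0 hC (fun y => ε * Real.exp (K * (y - a))) ?_ ?_ ?_ x hx v hv
    · intro y
      have h1 : HasDerivAt (fun y => K * (y - a)) K y := by
        simpa using ((hasDerivAt_id y).sub_const a).const_mul K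
      have h2 := (h1.exp).const_mul ε
      refine h2.congr_deriv ?_
      rw [abs_of_pos (by positivity), ← hK]
      ring
    · intro y; positivity
    · intro w hw
      have h1 := q_nonneg h0 w
      have h2 := sq_pos hw
      have h3 : 0 < ε * Real.exp (K * (a - a)) * ∑ i, ‖w i‖ ^ 2 := by positivity
      linarith
  have hlim : Filter.Tendsto (fun ε : ℝ => q (X x) v + ε * Real.exp (K * (x - a)) *
      ∑ i, ‖v i‖ ^ 2) (nhdsWithin 0 (Ioi 0)) (nhds (q (X x) v + 0 * Real.exp (K * (x - a)) *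
      ∑ i, ‖v i‖ ^ 2)) := by
    refine tendsto_nhdsWithin_of_tendsto_nhds ?_
    exact (by fun_prop : Continuous fun ε : ℝ => q (X x) v + ε * Real.exp (K * (x - a)) *
      ∑ i, ‖v i‖ ^ 2).tendsto 0
  have := ge_of_tendsto hlim (by
    filter_upwards [self_mem_nhdsWithin] with ε hε
    exact (hKey ε hε).le)
  simpa using this

theorem lyap_posDef {n : ℕ} {a b : ℝ} (hab : a ≤ b)
    (X M P : ℝ → Matrix (Fin n) (Fin n) ℂ) (hM : ContinuousOn M (Icc a b))
    (hX : MDerivOn X (fun x => M x * X x + X x * (M x)ᴴ + P x) (Icc a b))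
    (hP : ∀ x ∈ Icc a b, (P x).PosSemidef) (h0 : (X a).PosDef) :
    ∀ x ∈ Icc a b, (X x).PosDef := by
  obtain ⟨C, hC0, hC⟩ := entries_bound M hM
  have hH := herm X M P hM hX (fun x hx => (hP x hx).isHermitian) h0.isHermitian
  -- a lower bound for the quadratic form of `X a`
  obtain ⟨δ, hδ, hδq⟩ : ∃ δ : ℝ, 0 < δ ∧ ∀ v : Fin n → ℂ, v ≠ 0 →
      δ * ∑ i, ‖v i‖ ^ 2 < q (X a) v := by
    obtain ⟨u, c, hu, hu', hA⟩ := exists_diag h0.isHermitian
    have hc := diag_pos hu hA h0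
    rcases isEmpty_or_nonempty (Fin n) with hn | hn
    · exact ⟨1, one_pos, fun v hv => absurd (Subsingleton.elim v 0) hv⟩
    obtain ⟨i₀, hi₀⟩ := Finite.exists_min c
    refine ⟨c i₀ / 2, half_pos (hc i₀), fun v hv => ?_⟩
    have h1 : (u * dg (fun i => c i - c i₀) * uᴴ).PosSemidef :=
      conj_dg_posSemidef fun i => sub_nonneg.2 (hi₀ i)
    have h2 : u * dg (fun i => c i - c i₀) * uᴴ + ((c i₀ : ℝ) : ℂ) • 1 = X a := by
      rw [hA]
      have e1 : dg (fun i => c i - c i₀) = dg c - ((c i₀ : ℝ) : ℂ) • 1 := by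
        ext i j
        by_cases hij : i = j
        · subst hij; simp [dg]
        · simp [dg, Matrix.diagonal_apply_ne _ hij, Matrix.one_apply_ne hij]
      rw [e1, mul_sub, sub_mul, Matrix.mul_smul, Matrix.smul_mul, Matrix.mul_one, hu']
      abel
    have h3 := q_nonneg h1 v
    rw [← h2, q_add, q_smul_one]
    have h4 := mul_pos (hc i₀) (sq_pos hv)
    linarith
  intro x hx
  refine pd_of_q (hH x hx) fun v hv => ?_
  set K : ℝ := 2 * C * n + 1 with hK
  have hKey := shifted X M P hX hH hP hC0 hC (fun y => -(δ * Real.exp (-(K * (y - a))))) ?_ ?_ ?_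
    x hx v hv
  · have h2 := sq_pos hv
    have h3 : 0 < δ * Real.exp (-(K * (x - a))) * ∑ i, ‖v i‖ ^ 2 := by positivity
    simp only [neg_mul] at hKey
    linarith
  · intro y
    have h1 : HasDerivAt (fun y => -(K * (y - a))) (-K) y := by
      have h0 := (((hasDerivAt_id y).sub_const a).const_mul K).neg
      rw [mul_one] at h0
      exact h0
    have h2 := ((h1.exp).const_mul δ).neg
    refine h2.congr_deriv ?_
    rw [abs_neg, abs_of_pos (by positivity), ← hK]
    ring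
  · intro y
    have : 0 < δ * Real.exp (-(K * (y - a))) := by positivity
    linarith
  · intro w hw
    have h1 := hδq w hw
    simp only [sub_self, mul_zero, neg_zero, Real.exp_zero, mul_one, neg_mul]
    linarith

end Crest.Agent.R332
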