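import Mathlib

/-!
# R332 piece D2: global ODE solutions with parameters in a Banach space

`f : P → ℝ → E → E` (parameter `p` in a topological space), globally `K`-Lipschitz and globally
bounded by `C` in the state, continuous in time. Picard-Lindelöf on the whole interval `[a,b]`
(closed ball of radius `C (b-a)`), uniqueness and continuous dependence by Grönwall
(`dist_le_of_approx_trajectories_ODE` or the `Icc` versions in `Mathlib.Analysis.ODE.Gronwall`).
For the continuity at `p₀`: by compactness of `[a,b] × image of the limiting trajectory`,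
`sup_{x ∈ [a,b]} ‖f p x (F p₀ x) - f p₀ x (F p₀ x)‖ → 0` as `p → p₀` (joint continuity), then
Grönwall.
-/

set_option autoImplicit false
open Set

namespace Crest.Agent.R332

namespace D2_aux

theorem gronwall_small (K : NNReal) (s ε : ℝ) (hε : 0 < ε) :
    ∃ δ > 0, gronwallBound δ K (0 + δ) s < ε := by
  have hc : Continuous fun δ : ℝ => gronwallBound δ K (0 + δ) s := by
    by_cases hK : (K : ℝ) = 0
    · simp only [gronwallBound, if_pos hK]
      fun_prop
    · simp only [gronwallBound, if_neg hK]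
      fun_prop
  have h0 : gronwallBound (0 : ℝ) K (0 + 0) s = 0 := by
    rw [add_zero]; exact gronwallBound_ε0_δ0 _ _
  have hev : ∀ᶠ δ in nhds (0 : ℝ), gronwallBound δ K (0 + δ) s < ε := by
    have := (hc.tendsto 0)
    simp only [h0] at this
    exact this.eventually_lt_const hε
  rcases Metric.eventually_nhds_iff.1 hev with ⟨r, hr, h⟩
  refine ⟨r / 2, by positivity, h ?_⟩
  rw [Real.dist_eq, sub_zero, abs_of_pos (by positivity)]
  linarith

end D2_aux

theorem ode_param {P E : Type*} [TopologicalSpace P] [NormedAddCommGroup E] [NormedSpace ℝ E]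
    [CompleteSpace E] {a b : ℝ} (hab : a ≤ b) (S : Set P) (f : P → ℝ → E → E)
    {K : NNReal} {C : ℝ}
    (hlip : ∀ p ∈ S, ∀ x ∈ Icc a b, LipschitzWith K (f p x))
    (hbd : ∀ p ∈ S, ∀ x ∈ Icc a b, ∀ y, ‖f p x y‖ ≤ C)
    (hcont : ContinuousOn (fun q : P × ℝ × E => f q.1 q.2.1 q.2.2) (S ×ˢ (Icc a b ×ˢ univ)))
    (y₀ : P → E) (hy₀ : ContinuousOn y₀ S) :
    ∃ F : P → ℝ → E, (∀ p ∈ S, F p a = y₀ p) ∧
      (∀ p ∈ S, ∀ x ∈ Icc a b, HasDerivWithinAt (F p) (f p x (F p x)) (Icc a b) x) ∧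
      (∀ x ∈ Icc a b, ContinuousOn (fun p => F p x) S) := by
  classical
  have hex : ∀ p ∈ S, ∃ F : ℝ → E, F a = y₀ p ∧
      ∀ x ∈ Icc a b, HasDerivWithinAt F (f p x (F x)) (Icc a b) x := by
    intro p hp
    have hC0 : 0 ≤ C := (norm_nonneg _).trans (hbd p hp a ⟨le_rfl, hab⟩ 0)
    have hPL : IsPicardLindelof (f p) (⟨a, le_rfl, hab⟩ : Icc a b) (y₀ p)
        (⟨C * (b - a), mul_nonneg hC0 (sub_nonneg.2 hab)⟩ : NNReal) 0 ⟨C, hC0⟩ K := by
      refine ⟨fun t ht => (hlip p hp t ht).lipschitzOnWith, ?_, fun t ht x _ => hbd p hp t ht x, ?_⟩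
      · intro y _
        have h1 : ContinuousOn (fun t : ℝ => ((p, t, y) : P × ℝ × E)) (Icc a b) := by fun_prop
        have h2 : MapsTo (fun t : ℝ => ((p, t, y) : P × ℝ × E)) (Icc a b)
            (S ×ˢ (Icc a b ×ˢ univ)) := fun t ht => ⟨hp, ht, mem_univ _⟩
        exact hcont.comp h1 h2
      · simp only [NNReal.coe_zero, sub_self, sub_zero]
        rw [max_eq_left (sub_nonneg.2 hab)]
        exact le_refl (C * (b - a))
    exact hPL.exists_eq_forall_mem_Icc_hasDerivWithinAt₀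
  choose! F hF0 hF using hex
  refine ⟨F, hF0, hF, ?_⟩
  intro x hx p₀ hp₀
  rw [ContinuousWithinAt, Metric.tendsto_nhds]
  intro ε hε
  obtain ⟨δ, hδ, hδε⟩ := D2_aux.gronwall_small K (x - a) ε hε
  have hF₀c : ContinuousOn (F p₀) (Icc a b) := fun t ht => (hF p₀ hp₀ t ht).continuousWithinAt
  have hg : ContinuousOn (Function.uncurry fun (p : P) (t : ℝ) => f p t (F p₀ t))
      (S ×ˢ Icc a b) := by
    have h1 : ContinuousOn (fun q : P × ℝ => ((q.1, q.2, F p₀ q.2) : P × ℝ × E))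
        (S ×ˢ Icc a b) := by
      refine continuousOn_fst.prodMk (continuousOn_snd.prodMk ?_)
      exact hF₀c.comp continuousOn_snd fun q hq => hq.2
    have h2 : MapsTo (fun q : P × ℝ => ((q.1, q.2, F p₀ q.2) : P × ℝ × E)) (S ×ˢ Icc a b)
        (S ×ˢ (Icc a b ×ˢ univ)) := fun q hq => ⟨hq.1, hq.2, mem_univ _⟩
    exact hcont.comp h1 h2
  obtain ⟨v, hv, hvδ⟩ := IsCompact.mem_uniformity_of_prod (k := Icc a b) (s := S) (q := p₀)
    isCompact_Icc hg hp₀ (Metric.dist_mem_uniformity hδ)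
  have hy : ∀ᶠ p in nhdsWithin p₀ S, dist (y₀ p) (y₀ p₀) < δ :=
    (Metric.tendsto_nhds.1 (hy₀ p₀ hp₀)) δ hδ
  filter_upwards [hv, hy, self_mem_nhdsWithin] with p hpv hpy hpS
  have hder : ∀ q ∈ S, ∀ t ∈ Ico a b, HasDerivWithinAt (F q) (f q t (F q t)) (Ici t) t := by
    intro q hq t ht
    have h := hF q hq t ⟨ht.1, ht.2.le⟩
    exact h.mono_of_mem_nhdsWithin (Icc_mem_nhdsGE_of_mem ht)
  have key := dist_le_of_approx_trajectories_ODE_of_mem (v := f p) (s := fun _ => univ) (K := K)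
    (f := F p) (g := F p₀) (f' := fun t => f p t (F p t)) (g' := fun t => f p₀ t (F p₀ t))
    (a := a) (b := b) (εf := 0) (εg := δ) (δ := δ)
    (fun t ht => (hlip p hpS t ⟨ht.1, ht.2.le⟩).lipschitzOnWith)
    (fun t ht => (hF p hpS t ht).continuousWithinAt)
    (hder p hpS) (fun t _ => by simp) (fun _ _ => mem_univ _) hF₀c (hder p₀ hp₀)
    (fun t ht => by
      have := hvδ p hpv t ⟨ht.1, ht.2.le⟩
      rw [dist_comm]
      exact (show dist (f p t (F p₀ t)) (f p₀ t (F p₀ t)) < δ from this).le)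
    (fun _ _ => mem_univ _)
    (by rw [hF0 p hpS, hF0 p₀ hp₀]; exact hpy.le) x hx
  exact key.trans_lt hδε

end Crest.Agent.R332
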