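import Crest.Agent.R332.API

/-!
# R332: definitions for the existence part
-/

set_option autoImplicit false
open MeasureTheory Set Matrix
open scoped ComplexOrder

namespace Crest.Agent.R332

/-- the matrix interval `ε ≤ T ≤ Λ` -/
def KK (n : ℕ) (ε Λ : ℝ) : Set (Matrix (Fin n) (Fin n) ℂ) :=
  {T | (T - ((ε : ℝ) : ℂ) • (1 : Matrix (Fin n) (Fin n) ℂ)).PosSemidef ∧
    (((Λ : ℝ) : ℂ) • (1 : Matrix (Fin n) (Fin n) ℂ) - T).PosSemidef}

/-- the half line `ε ≤ T` -/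
def KI (n : ℕ) (ε : ℝ) : Set (Matrix (Fin n) (Fin n) ℂ) :=
  {T | (T - ((ε : ℝ) : ℂ) • (1 : Matrix (Fin n) (Fin n) ℂ)).PosSemidef}

/-- matrix square root -/
noncomputable def msq {n : ℕ} (T : Matrix (Fin n) (Fin n) ℂ) : Matrix (Fin n) (Fin n) ℂ :=
  mpow T (1 / 2)

end Crest.Agent.R332
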