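import Crest.Agent.R332.D1
import Crest.Agent.R332.D2
import Crest.Agent.R332.D3Defs

/-!
# R332 piece D3: the cut-off Riccati flow

For `T ∈ KK n ε Λ` (`0 < ε`) we solve on `[a,b]` (space of all matrices, L2 operator norm)
`F' = s² T - (s H)² - r² 𝒲(T,x)`, `F(a) = √T`, `H = (F + F*)/2`, `s = R / max ‖H‖ R`,
`r = min 1 (dist(√T + H, {M Hermitian, not positive definite}) / δ)`, `ρ = r²`.
The field is globally Lipschitz and bounded (`ode_param`), `F` stays Hermitian, and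
`P = √T - F`, `Q = √T + F` satisfy `P' = -(s²/2)(QP + PQ) + ρ𝒲`, `Q' = (s²/2)(PQ + QP) - ρ𝒲` and
`k Q - ρ 𝒲 ≥ 0` for the continuous coefficient `k = C_W r / δ`; so `P ≥ 0`, `Q > 0` on the whole
interval by the Lyapunov lemmas, `‖F‖ ≤ 3‖√T‖ ≤ R` and `s = 1`.
-/

set_option autoImplicit false
open MeasureTheory Set Matrix
open scoped ComplexOrder

namespace Crest.Agent.R332
namespace D3_aux

open scoped Matrix.Norms.L2Operator MatrixOrder

variable {n : ℕ}

theorem algMap (r : ℝ) : algebraMap ℝ (Matrix (Fin n) (Fin n) ℂ) r =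
    ((r : ℝ) : ℂ) • (1 : Matrix (Fin n) (Fin n) ℂ) := by
  rw [Algebra.algebraMap_eq_smul_one]
  ext i j
  simp

theorem le_norm {A : Matrix (Fin n) (Fin n) ℂ} (hA : A.IsHermitian) :
    (((‖A‖ : ℝ) : ℂ) • (1 : Matrix (Fin n) (Fin n) ℂ) - A).PosSemidef := by
  have h := IsSelfAdjoint.le_algebraMap_norm_self (a := A) hA
  rw [Matrix.le_iff, algMap] at h
  exact h

theorem norm_one_le : ‖(1 : Matrix (Fin n) (Fin n) ℂ)‖ ≤ 1 := by
  rw [← Matrix.diagonal_one, Matrix.l2_opNorm_diagonal]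
  exact (pi_norm_le_iff_of_nonneg zero_le_one).2 fun i => by simp

theorem norm_smul_one_le (c : ℝ) : ‖((c : ℝ) : ℂ) • (1 : Matrix (Fin n) (Fin n) ℂ)‖ ≤ |c| := by
  rw [norm_smul, Complex.norm_real, Real.norm_eq_abs]
  calc |c| * _ ≤ |c| * 1 := mul_le_mul_of_nonneg_left norm_one_le (abs_nonneg _)
    _ = _ := mul_one _

theorem norm_le_of {A B : Matrix (Fin n) (Fin n) ℂ} (hA : A.PosSemidef) (hB : (B - A).PosSemidef) :
    ‖A‖ ≤ ‖B‖ :=
  CStarAlgebra.norm_le_norm_of_nonneg_of_le (Matrix.nonneg_iff_posSemidef.2 hA) (Matrix.le_iff.2 hB)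

/-- the quadratic form -/
noncomputable def qf (A : Matrix (Fin n) (Fin n) ℂ) (v : Fin n → ℂ) : ℝ :=
  (star v ⬝ᵥ (A *ᵥ v)).re

theorem qf_add (A B : Matrix (Fin n) (Fin n) ℂ) (v : Fin n → ℂ) : qf (A + B) v = qf A v + qf B v := by
  unfold qf
  rw [Matrix.add_mulVec, dotProduct_add, Complex.add_re]

theorem qf_sub (A B : Matrix (Fin n) (Fin n) ℂ) (v : Fin n → ℂ) : qf (A - B) v = qf A v - qf B v := by
  unfold qf
  rw [Matrix.sub_mulVec, dotProduct_sub, Complex.sub_re]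

theorem qf_smul (c : ℝ) (A : Matrix (Fin n) (Fin n) ℂ) (v : Fin n → ℂ) :
    qf (((c : ℝ) : ℂ) • A) v = c * qf A v := by
  unfold qf
  rw [Matrix.smul_mulVec, dotProduct_smul, smul_eq_mul, Complex.re_ofReal_mul]

/-- squared length -/
noncomputable def ql (v : Fin n → ℂ) : ℝ := (star v ⬝ᵥ v).re

theorem qf_one (v : Fin n → ℂ) : qf 1 v = ql v := by
  unfold qf ql
  rw [Matrix.one_mulVec]

theorem ql_nonneg (v : Fin n → ℂ) : 0 ≤ ql v := (Complex.le_def.1 (dotProduct_star_self_nonneg v)).1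

theorem ql_pos {v : Fin n → ℂ} (hv : v ≠ 0) : 0 < ql v :=
  (Complex.lt_def.1 (dotProduct_star_self_pos_iff.2 hv)).1

theorem qf_im {A : Matrix (Fin n) (Fin n) ℂ} (hA : A.IsHermitian) (v : Fin n → ℂ) :
    (star v ⬝ᵥ (A *ᵥ v)).im = 0 := by
  have h : star (star v ⬝ᵥ (A *ᵥ v)) = star v ⬝ᵥ (A *ᵥ v) := by
    rw [← Matrix.star_dotProduct_star, star_star, Matrix.star_mulVec, hA.eq, dotProduct_comm,
      Matrix.dotProduct_mulVec]
    exact dotProduct_comm _ _
  exact Complex.conj_eq_iff_im.1 h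

theorem psd_iff {A : Matrix (Fin n) (Fin n) ℂ} :
    A.PosSemidef ↔ A.IsHermitian ∧ ∀ v, 0 ≤ qf A v := by
  rw [Matrix.posSemidef_iff_dotProduct_mulVec]
  constructor
  · rintro ⟨h1, h2⟩
    exact ⟨h1, fun v => (Complex.le_def.1 (h2 v)).1⟩
  · rintro ⟨h1, h2⟩
    exact ⟨h1, fun v => Complex.le_def.2 ⟨h2 v, by rw [qf_im h1]; rfl⟩⟩

theorem pd_iff {A : Matrix (Fin n) (Fin n) ℂ} :
    A.PosDef ↔ A.IsHermitian ∧ ∀ v, v ≠ 0 → 0 < qf A v := by
  rw [Matrix.posDef_iff_dotProduct_mulVec]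
  constructor
  · rintro ⟨h1, h2⟩
    exact ⟨h1, fun v hv => (Complex.lt_def.1 (h2 hv)).1⟩
  · rintro ⟨h1, h2⟩
    exact ⟨h1, fun v hv => Complex.lt_def.2 ⟨h2 v hv, by rw [qf_im h1]; rfl⟩⟩

theorem qf_le {A : Matrix (Fin n) (Fin n) ℂ} (hA : A.IsHermitian) (v : Fin n → ℂ) :
    qf A v ≤ ‖A‖ * ql v := by
  have h := (psd_iff.1 (le_norm hA)).2 v
  rw [qf_sub, qf_smul, qf_one] at h
  linarith


theorem smul_one_herm (c : ℝ) : (((c : ℝ) : ℂ) • (1 : Matrix (Fin n) (Fin n) ℂ)).IsHermitian := by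
  unfold Matrix.IsHermitian
  rw [Matrix.conjTranspose_smul, Matrix.conjTranspose_one]
  simp

theorem isBounded_KK (n : ℕ) (ε Λ : ℝ) : ∃ C : ℝ, ∀ T ∈ KK n ε Λ, ‖T‖ ≤ C := by
  refine ⟨|Λ - ε| + |ε|, fun T hT => ?_⟩
  have h1 : ‖T - ((ε : ℝ) : ℂ) • (1 : Matrix (Fin n) (Fin n) ℂ)‖ ≤ |Λ - ε| := by
    refine (norm_le_of (B := (((Λ - ε : ℝ)) : ℂ) • (1 : Matrix (Fin n) (Fin n) ℂ)) hT.1 ?_).trans
      (norm_smul_one_le _)
    have := hT.2
    convert this using 1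
    push_cast
    module
  calc ‖T‖ = ‖(T - ((ε : ℝ) : ℂ) • (1 : Matrix (Fin n) (Fin n) ℂ)) +
        ((ε : ℝ) : ℂ) • (1 : Matrix (Fin n) (Fin n) ℂ)‖ := by rw [sub_add_cancel]
    _ ≤ _ := (norm_add_le _ _).trans (add_le_add h1 (norm_smul_one_le _))

theorem isClosed_KK (n : ℕ) (ε Λ : ℝ) : IsClosed (KK n ε Λ) := by
  have h1 : IsClosed ((fun T : Matrix (Fin n) (Fin n) ℂ =>
      T - ((ε : ℝ) : ℂ) • (1 : Matrix (Fin n) (Fin n) ℂ)) ⁻¹' {A | A.PosSemidef}) :=
    isClosed_posSemidef.preimage (continuous_id.sub continuous_const)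
  have h2 : IsClosed ((fun T : Matrix (Fin n) (Fin n) ℂ =>
      ((Λ : ℝ) : ℂ) • (1 : Matrix (Fin n) (Fin n) ℂ) - T) ⁻¹' {A | A.PosSemidef}) :=
    isClosed_posSemidef.preimage (continuous_const.sub continuous_id)
  exact h1.inter h2

theorem isCompact_KK' (n : ℕ) (ε Λ : ℝ) : IsCompact (KK n ε Λ) := by
  obtain ⟨C, hC⟩ := isBounded_KK n ε Λ
  have : ProperSpace (Matrix (Fin n) (Fin n) ℂ) := FiniteDimensional.proper ℂ _
  apply Metric.isCompact_of_isClosed_isBounded (isClosed_KK n ε Λ)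
  rw [isBounded_iff_forall_norm_le]
  exact ⟨C, hC⟩

/-- Hermitian matrices that are not positive definite. -/
def NN (n : ℕ) : Set (Matrix (Fin n) (Fin n) ℂ) := {M | M.IsHermitian ∧ ¬ M.PosDef}

/-- `min 1 (dist(Q, NN) / δ)` -/
noncomputable def rr (δ : ℝ) (Q : Matrix (Fin n) (Fin n) ℂ) : ℝ :=
  min 1 (Metric.infDist Q (NN n) / δ)

theorem rr_nonneg {δ : ℝ} (hδ : 0 < δ) (Q : Matrix (Fin n) (Fin n) ℂ) : 0 ≤ rr δ Q :=
  le_min zero_le_one (div_nonneg Metric.infDist_nonneg hδ.le)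

theorem rr_le_one (δ : ℝ) (Q : Matrix (Fin n) (Fin n) ℂ) : rr δ Q ≤ 1 := min_le_left _ _

theorem rr_lip {δ : ℝ} (hδ : 0 < δ) (Q Q' : Matrix (Fin n) (Fin n) ℂ) :
    |rr δ Q - rr δ Q'| ≤ δ⁻¹ * ‖Q - Q'‖ := by
  unfold rr
  refine (abs_min_sub_min_le_max _ _ _ _).trans ?_
  rw [sub_self, abs_zero]
  refine max_le (by positivity) ?_
  rw [← sub_div, abs_div, abs_of_pos hδ, div_eq_inv_mul]
  apply mul_le_mul_of_nonneg_left _ (by positivity)
  have := (Metric.lipschitz_infDist_pt (NN n)).dist_le_mul Q Q'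
  rw [NNReal.coe_one, one_mul, Real.dist_eq, dist_eq_norm] at this
  exact this

theorem continuous_rr {δ : ℝ} : Continuous (rr δ : Matrix (Fin n) (Fin n) ℂ → ℝ) := by
  unfold rr
  exact continuous_const.min ((Metric.continuous_infDist_pt _).div_const _)

theorem rr_zero {δ : ℝ} {Q : Matrix (Fin n) (Fin n) ℂ} (hQ : Q.IsHermitian) (h : ¬ Q.PosDef) :
    rr δ Q = 0 := by
  unfold rr
  rw [Metric.infDist_zero_of_mem (show Q ∈ NN n from ⟨hQ, h⟩), zero_div]
  exact min_eq_right zero_le_one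

/-- `dist(Q, NN) ‖v‖² ≤ v* Q v` -/
theorem rr_le {δ : ℝ} (hδ : 0 < δ) {Q : Matrix (Fin n) (Fin n) ℂ} (hQ : Q.PosDef) {v : Fin n → ℂ}
    (hv : v ≠ 0) : rr δ Q * ql v ≤ qf Q v / δ := by
  have hl := ql_pos hv
  have hq := (pd_iff.1 hQ).2 v hv
  set M : Matrix (Fin n) (Fin n) ℂ := Q - ((qf Q v / ql v : ℝ) : ℂ) • 1 with hM
  have hMN : M ∈ NN n := by
    refine ⟨hQ.isHermitian.sub (smul_one_herm _), fun h => ?_⟩
    have := (pd_iff.1 h).2 v hv
    rw [hM, qf_sub, qf_smul, qf_one, div_mul_cancel₀ _ hl.ne', sub_self] at this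
    exact lt_irrefl _ this
  have h1 : Metric.infDist Q (NN n) ≤ qf Q v / ql v := by
    refine (Metric.infDist_le_dist_of_mem hMN).trans ?_
    rw [dist_eq_norm, hM, sub_sub_cancel]
    refine (norm_smul_one_le _).trans ?_
    rw [abs_of_nonneg (by positivity)]
  have h2 : rr δ Q ≤ Metric.infDist Q (NN n) / δ := min_le_right _ _
  calc rr δ Q * ql v ≤ (qf Q v / ql v) / δ * ql v :=
        mul_le_mul_of_nonneg_right (h2.trans (div_le_div_of_nonneg_right h1 hδ.le)) hl.le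
    _ = _ := by field_simp

/-- the key inequality: `k Q - ρ W ≥ 0`. -/
theorem key_psd {δ : ℝ} (hδ : 0 < δ) {Q W : Matrix (Fin n) (Fin n) ℂ} (hQ : Q.IsHermitian)
    (hW : W.PosSemidef) {C : ℝ} (hC : ‖W‖ ≤ C) :
    ((((C * rr δ Q / δ : ℝ)) : ℂ) • Q - (((rr δ Q ^ 2 : ℝ)) : ℂ) • W).PosSemidef := by
  by_cases h : Q.PosDef
  · rw [psd_iff]
    constructor
    · apply Matrix.IsHermitian.sub
      · unfold Matrix.IsHermitian
        rw [Matrix.conjTranspose_smul, hQ.eq]; simp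
      · unfold Matrix.IsHermitian
        rw [Matrix.conjTranspose_smul, hW.isHermitian.eq]; simp
    · intro v
      by_cases hv : v = 0
      · subst hv; simp [qf]
      rw [qf_sub, qf_smul, qf_smul]
      have h1 := rr_le hδ h hv
      have h2 := qf_le hW.isHermitian v
      have h3 := rr_nonneg hδ Q
      have h4 := ql_nonneg v
      have hC0 : 0 ≤ C := (norm_nonneg _).trans hC
      have h5 : qf W v ≤ C * ql v := h2.trans (mul_le_mul_of_nonneg_right hC h4)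
      have h6 : rr δ Q ^ 2 * qf W v ≤ rr δ Q ^ 2 * (C * ql v) :=
        mul_le_mul_of_nonneg_left h5 (by positivity)
      have h7 : C * rr δ Q * (rr δ Q * ql v) ≤ C * rr δ Q * (qf Q v / δ) :=
        mul_le_mul_of_nonneg_left h1 (by positivity)
      have h8 : C * rr δ Q / δ * qf Q v = C * rr δ Q * (qf Q v / δ) := by ring
      rw [h8]
      nlinarith
  · rw [rr_zero hQ h]
    simpa using Matrix.PosSemidef.zero

theorem rr_one {δ : ℝ} (hδ : 0 < δ) (hn : 0 < n) {Q : Matrix (Fin n) (Fin n) ℂ}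
    (h : (Q - ((δ : ℝ) : ℂ) • (1 : Matrix (Fin n) (Fin n) ℂ)).PosSemidef) : rr δ Q = 1 := by
  unfold rr
  apply min_eq_left
  rw [le_div_iff₀ hδ, one_mul, Metric.le_infDist]
  · rintro M ⟨hM, hM'⟩
    by_contra hlt
    rw [not_le, dist_eq_norm] at hlt
    apply hM'
    rw [pd_iff]
    refine ⟨hM, fun v hv => ?_⟩
    have hQ : Q.IsHermitian := by
      have := h.isHermitian.add (smul_one_herm (n := n) δ)
      rwa [sub_add_cancel] at this
    have h1 := (psd_iff.1 h).2 v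
    rw [qf_sub, qf_smul, qf_one] at h1
    have h2 := qf_le (hQ.sub hM) v
    rw [qf_sub] at h2
    have h3 := ql_pos hv
    nlinarith
  · refine ⟨0, Matrix.isHermitian_zero, fun h0 => ?_⟩
    have : (fun _ : Fin n => (1 : ℂ)) ≠ 0 := by
      intro h1
      have := congrFun h1 ⟨0, hn⟩
      simp at this
    have := (pd_iff.1 h0).2 _ this
    simp [qf] at this


/-- bounded and Lipschitz -/
def LB {E F : Type*} [SeminormedAddCommGroup E] [SeminormedAddCommGroup F] (f : E → F)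
    (B K : ℝ) : Prop :=
  (∀ x, ‖f x‖ ≤ B) ∧ ∀ x y, ‖f x - f y‖ ≤ K * ‖x - y‖

section LBlem
variable {E F : Type*} [SeminormedAddCommGroup E] [SeminormedAddCommGroup F]

theorem LB.nonneg {f : E → F} {B K : ℝ} (h : LB f B K) : 0 ≤ B := (norm_nonneg _).trans (h.1 0)

theorem LB.sub {f g : E → F} {B K B' K' : ℝ} (hf : LB f B K) (hg : LB g B' K') :
    LB (fun x => f x - g x) (B + B') (K + K') := by
  refine ⟨fun x => (norm_sub_le _ _).trans (add_le_add (hf.1 x) (hg.1 x)), fun x y => ?_⟩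
  have e : f x - g x - (f y - g y) = (f x - f y) - (g x - g y) := by abel
  rw [e, add_mul]
  exact (norm_sub_le _ _).trans (add_le_add (hf.2 x y) (hg.2 x y))

theorem LB.const {c : F} {B : ℝ} (h : ‖c‖ ≤ B) : LB (fun _ : E => c) B 0 :=
  ⟨fun _ => h, fun _ _ => by simp⟩

theorem LB.comp {G : Type*} [SeminormedAddCommGroup G] {f : E → F} {g : G → E} {B K : ℝ}
    (hf : LB f B K) (hK : 0 ≤ K) (hg : ∀ x y, ‖g x - g y‖ ≤ ‖x - y‖) :
    LB (fun x => f (g x)) B K :=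
  ⟨fun _ => hf.1 _, fun x y => (hf.2 _ _).trans (mul_le_mul_of_nonneg_left (hg x y) hK)⟩

theorem LB.mul {A : Type*} [SeminormedRing A] {f g : E → A} {B K B' K' : ℝ} (hf : LB f B K)
    (hg : LB g B' K') : LB (fun x => f x * g x) (B * B') (K * B' + B * K') := by
  refine ⟨fun x => (norm_mul_le _ _).trans
    (mul_le_mul (hf.1 x) (hg.1 x) (norm_nonneg _) hf.nonneg), fun x y => ?_⟩
  have e : f x * g x - f y * g y = (f x - f y) * g x + f y * (g x - g y) := by noncomm_ring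
  rw [e, add_mul]
  refine (norm_add_le _ _).trans (add_le_add ?_ ?_)
  · calc _ ≤ _ := norm_mul_le _ _
      _ ≤ (K * ‖x - y‖) * B' :=
          mul_le_mul (hf.2 x y) (hg.1 x) (norm_nonneg _) ((norm_nonneg _).trans (hf.2 x y))
      _ = _ := by ring
  · calc _ ≤ _ := norm_mul_le _ _
      _ ≤ B * (K' * ‖x - y‖) :=
          mul_le_mul (hf.1 y) (hg.2 x y) (norm_nonneg _) hf.nonneg
      _ = _ := by ring

theorem LB.smul {f : E → ℝ} {g : E → Matrix (Fin n) (Fin n) ℂ} {B K B' K' : ℝ} (hf : LB f B K)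
    (hg : LB g B' K') : LB (fun x => ((f x : ℝ) : ℂ) • g x) (B * B') (K * B' + B * K') := by
  have ns : ∀ (a : ℝ) (M : Matrix (Fin n) (Fin n) ℂ), ‖((a : ℝ) : ℂ) • M‖ = ‖a‖ * ‖M‖ := by
    intro a M
    rw [norm_smul, Complex.norm_real]
  refine ⟨fun x => (ns _ _).le.trans
    (mul_le_mul (hf.1 x) (hg.1 x) (norm_nonneg _) hf.nonneg), fun x y => ?_⟩
  have e : ((f x : ℝ) : ℂ) • g x - ((f y : ℝ) : ℂ) • g y =
      ((f x - f y : ℝ) : ℂ) • g x + ((f y : ℝ) : ℂ) • (g x - g y) := by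
    push_cast
    module
  rw [e, add_mul]
  refine (norm_add_le _ _).trans (add_le_add ?_ ?_)
  · calc _ ≤ _ := (ns _ _).le
      _ ≤ (K * ‖x - y‖) * B' :=
          mul_le_mul (hf.2 x y) (hg.1 x) (norm_nonneg _) ((norm_nonneg _).trans (hf.2 x y))
      _ = _ := by ring
  · calc _ ≤ _ := (ns _ _).le
      _ ≤ B * (K' * ‖x - y‖) :=
          mul_le_mul (hf.1 y) (hg.2 x y) (norm_nonneg _) hf.nonneg
      _ = _ := by ring

end LBlem

/-- `R / max ‖F‖ R`. -/
noncomputable def ss (R : ℝ) (F : Matrix (Fin n) (Fin n) ℂ) : ℝ := R / max ‖F‖ R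

theorem ss_nonneg {R : ℝ} (hR : 0 < R) (F : Matrix (Fin n) (Fin n) ℂ) : 0 ≤ ss R F :=
  div_nonneg hR.le (hR.le.trans (le_max_right _ _))

theorem ss_one {R : ℝ} (hR : 0 < R) {F : Matrix (Fin n) (Fin n) ℂ} (h : ‖F‖ ≤ R) : ss R F = 1 := by
  unfold ss
  rw [max_eq_right h, div_self hR.ne']

theorem lb_ss {R : ℝ} (hR : 0 < R) : LB (ss R : Matrix (Fin n) (Fin n) ℂ → ℝ) 1 R⁻¹ := by
  refine ⟨fun x => ?_, fun x y => ?_⟩
  · rw [Real.norm_eq_abs, abs_of_nonneg (ss_nonneg hR x)]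
    unfold ss
    exact div_le_one_of_le₀ (le_max_right _ _) (hR.le.trans (le_max_right _ _))
  · unfold ss
    have ha : R ≤ max ‖x‖ R := le_max_right _ _
    have hb : R ≤ max ‖y‖ R := le_max_right _ _
    have ha0 := hR.trans_le ha
    have hb0 := hR.trans_le hb
    have h1 : |max ‖y‖ R - max ‖x‖ R| ≤ ‖x - y‖ := by
      refine (abs_max_sub_max_le_max _ _ _ _).trans ?_
      rw [sub_self, abs_zero]
      refine max_le ?_ (norm_nonneg _)
      rw [norm_sub_rev]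
      exact abs_norm_sub_norm_le _ _
    have e : R / max ‖x‖ R - R / max ‖y‖ R =
        R * (max ‖y‖ R - max ‖x‖ R) / (max ‖x‖ R * max ‖y‖ R) := by
      field_simp
    rw [e, Real.norm_eq_abs, abs_div, abs_mul, abs_of_pos hR, abs_of_pos (mul_pos ha0 hb0),
      div_le_iff₀ (mul_pos ha0 hb0)]
    have h2 : R * R ≤ max ‖x‖ R * max ‖y‖ R := mul_le_mul ha hb hR.le ha0.le
    calc R * |max ‖y‖ R - max ‖x‖ R| ≤ R * ‖x - y‖ := mul_le_mul_of_nonneg_left h1 hR.le
      _ = R⁻¹ * ‖x - y‖ * (R * R) := by field_simp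
      _ ≤ _ := mul_le_mul_of_nonneg_left h2 (by positivity)

theorem lb_cc {R : ℝ} (hR : 0 < R) :
    LB (fun F : Matrix (Fin n) (Fin n) ℂ => ((ss R F : ℝ) : ℂ) • F) R 2 := by
  have ns : ∀ (a : ℝ) (M : Matrix (Fin n) (Fin n) ℂ), ‖((a : ℝ) : ℂ) • M‖ = |a| * ‖M‖ := by
    intro a M
    rw [norm_smul, Complex.norm_real, Real.norm_eq_abs]
  have hb : ∀ F : Matrix (Fin n) (Fin n) ℂ, ss R F * ‖F‖ ≤ R := by
    intro F
    unfold ss
    have ha0 : 0 < max ‖F‖ R := hR.trans_le (le_max_right _ _)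
    rw [div_mul_eq_mul_div, div_le_iff₀ ha0]
    exact mul_le_mul_of_nonneg_left (le_max_left _ _) hR.le
  refine ⟨fun F => ?_, fun x y => ?_⟩
  · rw [ns, abs_of_nonneg (ss_nonneg hR F)]
    exact hb F
  · have e : ((ss R x : ℝ) : ℂ) • x - ((ss R y : ℝ) : ℂ) • y =
        ((ss R x : ℝ) : ℂ) • (x - y) + ((ss R x - ss R y : ℝ) : ℂ) • y := by
      push_cast
      module
    rw [e]
    refine (norm_add_le _ _).trans ?_
    rw [ns, ns, two_mul]
    have h1 := (lb_ss (n := n) hR).1 x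
    rw [Real.norm_eq_abs] at h1
    refine add_le_add (by nlinarith [norm_nonneg (x - y)]) ?_
    -- |s x - s y| ‖y‖ ≤ ‖x - y‖
    unfold ss
    have ha : R ≤ max ‖x‖ R := le_max_right _ _
    have hb' : R ≤ max ‖y‖ R := le_max_right _ _
    have ha0 := hR.trans_le ha
    have hb0 := hR.trans_le hb'
    have h2 : |max ‖y‖ R - max ‖x‖ R| ≤ ‖x - y‖ := by
      refine (abs_max_sub_max_le_max _ _ _ _).trans ?_
      rw [sub_self, abs_zero]
      refine max_le ?_ (norm_nonneg _)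
      rw [norm_sub_rev]
      exact abs_norm_sub_norm_le _ _
    have e2 : R / max ‖x‖ R - R / max ‖y‖ R =
        R * (max ‖y‖ R - max ‖x‖ R) / (max ‖x‖ R * max ‖y‖ R) := by
      field_simp
    rw [e2, abs_div, abs_mul, abs_of_pos hR, abs_of_pos (mul_pos ha0 hb0),
      div_mul_eq_mul_div, div_le_iff₀ (mul_pos ha0 hb0)]
    have h3 : ‖y‖ ≤ max ‖y‖ R := le_max_left _ _
    calc R * |max ‖y‖ R - max ‖x‖ R| * ‖y‖ ≤ max ‖x‖ R * ‖x - y‖ * max ‖y‖ R := by
          gcongr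
      _ = _ := by ring

/-- Hermitian part. -/
noncomputable def hp (F : Matrix (Fin n) (Fin n) ℂ) : Matrix (Fin n) (Fin n) ℂ :=
  ((1 / 2 : ℝ) : ℂ) • (F + Fᴴ)

theorem hp_lip (x y : Matrix (Fin n) (Fin n) ℂ) : ‖hp x - hp y‖ ≤ ‖x - y‖ := by
  have e : hp x - hp y = ((1 / 2 : ℝ) : ℂ) • ((x - y) + (x - y)ᴴ) := by
    unfold hp
    rw [Matrix.conjTranspose_sub]
    module
  rw [e, norm_smul, Complex.norm_real, Real.norm_eq_abs, abs_of_pos (by norm_num)]
  have := norm_add_le (x - y) (x - y)ᴴ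
  rw [Matrix.l2_opNorm_conjTranspose] at this
  linarith

theorem continuous_hp : Continuous (hp : Matrix (Fin n) (Fin n) ℂ → Matrix (Fin n) (Fin n) ℂ) := by
  unfold hp
  have h : Continuous (fun F : Matrix (Fin n) (Fin n) ℂ => Fᴴ) :=
    Continuous.matrix_conjTranspose continuous_id
  exact (continuous_id.add h).const_smul (((1 / 2 : ℝ)) : ℂ)

theorem hp_herm (F : Matrix (Fin n) (Fin n) ℂ) : (hp F).IsHermitian := by
  unfold hp Matrix.IsHermitian
  rw [Matrix.conjTranspose_smul, Matrix.conjTranspose_add, Matrix.conjTranspose_conjTranspose,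
    add_comm]
  simp

theorem hp_eq {F : Matrix (Fin n) (Fin n) ℂ} (h : F.IsHermitian) : hp F = F := by
  unfold hp
  rw [h.eq, ← two_smul ℂ F, smul_smul]
  norm_num

/-- the vector field -/
noncomputable def ff (R δ : ℝ) (s T W F : Matrix (Fin n) (Fin n) ℂ) : Matrix (Fin n) (Fin n) ℂ :=
  ((ss R (hp F) * ss R (hp F) : ℝ) : ℂ) • T -
    (((ss R (hp F) : ℝ) : ℂ) • hp F) * (((ss R (hp F) : ℝ) : ℂ) • hp F) -
    ((rr δ (s + hp F) * rr δ (s + hp F) : ℝ) : ℂ) • W

theorem lb_ff {R δ BT BW : ℝ} (hR : 0 < R) (hδ : 0 < δ) {s T W : Matrix (Fin n) (Fin n) ℂ}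
    (hT : ‖T‖ ≤ BT) (hW : ‖W‖ ≤ BW) :
    LB (ff R δ s T W) ((1 * 1) * BT + R * R + (1 * 1) * BW)
      ((((R⁻¹ * 1 + 1 * R⁻¹) * BT + (1 * 1) * 0) + (2 * R + R * 2)) +
        ((δ⁻¹ * 1 + 1 * δ⁻¹) * BW + (1 * 1) * 0)) := by
  have h1 : LB (fun F : Matrix (Fin n) (Fin n) ℂ => ss R (hp F)) 1 R⁻¹ :=
    (lb_ss hR).comp (by positivity) hp_lip
  have h2 : LB (fun F : Matrix (Fin n) (Fin n) ℂ => ((ss R (hp F) : ℝ) : ℂ) • hp F) R 2 :=
    (lb_cc hR).comp (by norm_num) hp_lip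
  have h3 : LB (fun F : Matrix (Fin n) (Fin n) ℂ => rr δ (s + hp F)) 1 δ⁻¹ := by
    refine ⟨fun F => ?_, fun x y => ?_⟩
    · rw [Real.norm_eq_abs, abs_of_nonneg (rr_nonneg hδ _)]
      exact rr_le_one _ _
    · refine (rr_lip hδ _ _).trans ?_
      rw [add_sub_add_left_eq_sub]
      exact mul_le_mul_of_nonneg_left (hp_lip x y) (by positivity)
  exact (((h1.mul h1).smul (LB.const hT)).sub (h2.mul h2)).sub ((h3.mul h3).smul (LB.const hW))


theorem ff_cont {R δ : ℝ} (hR : 0 < R) {S : Set (Matrix (Fin n) (Fin n) ℂ)} {J : Set ℝ}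
    {s : Matrix (Fin n) (Fin n) ℂ → Matrix (Fin n) (Fin n) ℂ} (hs : ContinuousOn s S)
    {W : Matrix (Fin n) (Fin n) ℂ → ℝ → Matrix (Fin n) (Fin n) ℂ}
    (hW : ContinuousOn (fun q : Matrix (Fin n) (Fin n) ℂ × ℝ => W q.1 q.2) (S ×ˢ J)) :
    ContinuousOn (fun q : Matrix (Fin n) (Fin n) ℂ × ℝ × Matrix (Fin n) (Fin n) ℂ =>
      ff R δ (s q.1) q.1 (W q.1 q.2.1) q.2.2) (S ×ˢ (J ×ˢ univ)) := by
  have hF : Continuous (fun q : Matrix (Fin n) (Fin n) ℂ × ℝ × Matrix (Fin n) (Fin n) ℂ =>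
      hp q.2.2) := continuous_hp.comp (continuous_snd.comp continuous_snd)
  have hT : Continuous (fun q : Matrix (Fin n) (Fin n) ℂ × ℝ × Matrix (Fin n) (Fin n) ℂ =>
      q.1) := continuous_fst
  have hss : Continuous (ss R : Matrix (Fin n) (Fin n) ℂ → ℝ) := by
    unfold ss
    refine continuous_const.div (continuous_norm.max continuous_const) fun x => ?_
    exact (hR.trans_le (le_max_right _ _)).ne'
  have hsF : Continuous (fun q : Matrix (Fin n) (Fin n) ℂ × ℝ × Matrix (Fin n) (Fin n) ℂ =>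
      ((ss R (hp q.2.2) : ℝ) : ℂ)) := Complex.continuous_ofReal.comp (hss.comp hF)
  have hs' : ContinuousOn (fun q : Matrix (Fin n) (Fin n) ℂ × ℝ × Matrix (Fin n) (Fin n) ℂ =>
      s q.1) (S ×ˢ (J ×ˢ univ)) := hs.comp hT.continuousOn fun q hq => hq.1
  have hW' : ContinuousOn (fun q : Matrix (Fin n) (Fin n) ℂ × ℝ × Matrix (Fin n) (Fin n) ℂ =>
      W q.1 q.2.1) (S ×ˢ (J ×ˢ univ)) :=
    hW.comp (f := fun q : Matrix (Fin n) (Fin n) ℂ × ℝ × Matrix (Fin n) (Fin n) ℂ => (q.1, q.2.1))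
      (by fun_prop) fun q hq => ⟨hq.1, hq.2.1⟩
  have hr : ContinuousOn (fun q : Matrix (Fin n) (Fin n) ℂ × ℝ × Matrix (Fin n) (Fin n) ℂ =>
      ((rr δ (s q.1 + hp q.2.2) : ℝ) : ℂ)) (S ×ˢ (J ×ˢ univ)) :=
    Complex.continuous_ofReal.comp_continuousOn
      (continuous_rr.comp_continuousOn (hs'.add hF.continuousOn))
  unfold ff
  push_cast
  refine ContinuousOn.sub (ContinuousOn.sub ?_ ?_) ?_
  · exact (hsF.mul hsF).continuousOn.smul hT.continuousOn
  · exact ((hsF.smul hF).mul (hsF.smul hF)).continuousOn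
  · exact (hr.mul hr).smul hW'

theorem ff_herm {R δ : ℝ} {s T W : Matrix (Fin n) (Fin n) ℂ} (hT : T.IsHermitian)
    (hW : W.IsHermitian) (F : Matrix (Fin n) (Fin n) ℂ) : (ff R δ s T W F).IsHermitian := by
  unfold ff Matrix.IsHermitian
  rw [Matrix.conjTranspose_sub, Matrix.conjTranspose_sub, Matrix.conjTranspose_smul,
    Matrix.conjTranspose_mul, Matrix.conjTranspose_smul, Matrix.conjTranspose_smul, hT.eq, hW.eq,
    (hp_herm F).eq]
  simp

theorem entry_deriv {F : ℝ → Matrix (Fin n) (Fin n) ℂ} {F' : Matrix (Fin n) (Fin n) ℂ} {S : Set ℝ}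
    {x : ℝ} (h : HasDerivWithinAt F F' S x) (i j : Fin n) :
    HasDerivWithinAt (fun y => F y i j) (F' i j) S x := by
  have h1 := hasDerivWithinAt_pi.1 h i
  exact hasDerivWithinAt_pi.1 h1 j

theorem herm_flow {a b : ℝ} {F f : ℝ → Matrix (Fin n) (Fin n) ℂ}
    (hF : ∀ x ∈ Icc a b, ∀ i j, HasDerivWithinAt (fun y => F y i j) (f x i j) (Icc a b) x)
    (hf : ∀ x ∈ Icc a b, (f x).IsHermitian) (h0 : (F a).IsHermitian) :
    ∀ x ∈ Icc a b, (F x).IsHermitian := by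
  intro x hx
  ext i j
  rw [Matrix.conjTranspose_apply]
  have hd : ∀ y ∈ Icc a b, HasDerivWithinAt (fun y => star (F y j i) - F y i j) 0 (Icc a b) y := by
    intro y hy
    have h1 := (hF y hy j i).star
    have h2 := hF y hy i j
    have h3 := h1.sub h2
    refine h3.congr_deriv ?_
    have := congrFun (congrFun (hf y hy).eq i) j
    rw [Matrix.conjTranspose_apply] at this
    rw [this, sub_self]
  have hc : ContinuousOn (fun y => star (F y j i) - F y i j) (Icc a b) := fun y hy =>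
    (hd y hy).continuousWithinAt
  have : star (F x j i) - F x i j = star (F a j i) - F a i j :=
    constant_of_has_deriv_right_zero hc (fun y hy => by
    refine (hd y (Ico_subset_Icc_self hy)).mono_of_mem_nhdsWithin ?_
    exact Icc_mem_nhdsGE_of_mem hy) x hx
  have h0' := congrFun (congrFun h0.eq i) j
  rw [Matrix.conjTranspose_apply] at h0'
  rw [h0', sub_self] at this
  exact sub_eq_zero.1 this

theorem msq_herm {T : Matrix (Fin n) (Fin n) ℂ} (hT : T.PosSemidef) : (msq T).IsHermitian :=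
  (mpow_posSemidef hT _).isHermitian

theorem KK_posDef {ε Λ : ℝ} (hε : 0 < ε) {T : Matrix (Fin n) (Fin n) ℂ} (hT : T ∈ KK n ε Λ) :
    T.PosDef := by
  rw [pd_iff]
  have hT' : T.IsHermitian := by
    have := hT.1.isHermitian.add (smul_one_herm (n := n) ε)
    rwa [sub_add_cancel] at this
  refine ⟨hT', fun v hv => ?_⟩
  have h1 := (psd_iff.1 hT.1).2 v
  rw [qf_sub, qf_smul, qf_one] at h1
  have := mul_pos hε (ql_pos hv)
  linarith

theorem alg1 (z : ℂ) (A B C : Matrix (Fin n) (Fin n) ℂ) :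
    -(z • (A * B + B * A) - C) = -(z • B) * A + A * (-(z • B)) + C := by
  simp only [Matrix.neg_mul, Matrix.mul_neg, Matrix.smul_mul, Matrix.mul_smul, smul_add]
  abel

theorem alg2 (z k : ℂ) (A B C : Matrix (Fin n) (Fin n) ℂ) :
    z • (A * B + B * A) - C = (z • A - k • 1) * B + B * (z • A - k • 1) + ((k + k) • B - C) := by
  simp only [Matrix.sub_mul, Matrix.mul_sub, Matrix.smul_mul, Matrix.mul_smul, smul_add,
    add_smul, Matrix.one_mul, Matrix.mul_one]
  abel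

end D3_aux

open scoped Matrix.Norms.L2Operator in
theorem isCompact_KK (n : ℕ) (ε Λ : ℝ) : IsCompact (KK n ε Λ) :=
  D3_aux.isCompact_KK' n ε Λ

open scoped Matrix.Norms.L2Operator in
theorem cut_flow {n : ℕ} {a b : ℝ} (hab : a ≤ b) {ε Λ δ : ℝ} (hε : 0 < ε) (hεΛ : ε ≤ Λ)
    (hδ : 0 < δ) (W : Matrix (Fin n) (Fin n) ℂ → ℝ → Matrix (Fin n) (Fin n) ℂ)
    (hW : ContinuousOn (fun q : Matrix (Fin n) (Fin n) ℂ × ℝ => W q.1 q.2)
      (KK n ε Λ ×ˢ Icc a b))
    (hpsd : ∀ T ∈ KK n ε Λ, ∀ x ∈ Icc a b, (W T x).PosSemidef) :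
    ∃ (F : Matrix (Fin n) (Fin n) ℂ → ℝ → Matrix (Fin n) (Fin n) ℂ)
      (ρ : Matrix (Fin n) (Fin n) ℂ → ℝ → ℝ),
      (∀ T ∈ KK n ε Λ, F T a = msq T ∧
        MDerivOn (F T) (fun x => T - F T x * F T x - ((ρ T x : ℝ) : ℂ) • W T x) (Icc a b) ∧
        ∀ x ∈ Icc a b, 0 ≤ ρ T x ∧ ρ T x ≤ 1 ∧ (msq T - F T x).PosSemidef ∧
          (msq T + F T x).PosDef ∧
          ((msq T + F T x - ((δ : ℝ) : ℂ) • (1 : Matrix (Fin n) (Fin n) ℂ)).PosSemidef →
            ρ T x = 1)) ∧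
      ContinuousOn (fun T => F T b) (KK n ε Λ) := by
  rcases Nat.eq_zero_or_pos n with rfl | hn
  · refine ⟨fun _ _ => 0, fun _ _ => 1, fun T hT => ⟨Subsingleton.elim _ _, fun x hx i => i.elim0,
      fun x hx => ⟨zero_le_one, le_rfl, ?_, ?_, fun _ => rfl⟩⟩, continuousOn_const⟩
    · rw [Subsingleton.elim (msq T - 0) 0]; exact Matrix.PosSemidef.zero
    · rw [Subsingleton.elim (msq T + 0) 1]; exact Matrix.PosDef.one
  obtain ⟨BT, hBT⟩ := D3_aux.isBounded_KK n ε Λ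
  obtain ⟨BW, hBW⟩ := ((isCompact_KK n ε Λ).prod isCompact_Icc).exists_bound_of_continuousOn hW
  have hmsq : ContinuousOn (fun T : Matrix (Fin n) (Fin n) ℂ => msq T) (KK n ε Λ) :=
    (continuousOn_mpow (by norm_num)).mono fun T hT => (D3_aux.KK_posDef hε hT).posSemidef
  obtain ⟨BS, hBS⟩ := (isCompact_KK n ε Λ).exists_bound_of_continuousOn hmsq
  set R : ℝ := max (3 * BS) 1 with hRdef
  have hR : 0 < R := lt_of_lt_of_le one_pos (le_max_right _ _)
  have hlb : ∀ T ∈ KK n ε Λ, ∀ x ∈ Icc a b, _ := fun T hT x hx =>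
    D3_aux.lb_ff (n := n) hR hδ (s := msq T) (hBT T hT) (hBW (T, x) ⟨hT, hx⟩)
  obtain ⟨F, hF0, hF1, hF2⟩ := ode_param hab (KK n ε Λ)
    (fun T x F => D3_aux.ff R δ (msq T) T (W T x) F)
    (fun T hT x hx => LipschitzWith.of_dist_le' fun y z => by
      rw [dist_eq_norm, dist_eq_norm]
      exact (hlb T hT x hx).2 y z)
    (fun T hT x hx y => (hlb T hT x hx).1 y)
    (D3_aux.ff_cont hR hmsq hW) (fun T => msq T) hmsq
  refine ⟨F, fun T x => D3_aux.rr δ (msq T + F T x) ^ 2, fun T hT => ?_,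
    hF2 b (right_mem_Icc.2 hab)⟩
  have hTpd := D3_aux.KK_posDef hε hT
  have hsH := D3_aux.msq_herm hTpd.posSemidef
  have hspd : (msq T).PosDef := mpow_posDef hTpd _
  have hss : msq T * msq T = T := mpow_half_mul hTpd.posSemidef
  have hFH : ∀ x ∈ Icc a b, (F T x).IsHermitian :=
    D3_aux.herm_flow (fun x hx i j => D3_aux.entry_deriv (hF1 T hT x hx) i j)
      (fun x hx => D3_aux.ff_herm hTpd.isHermitian (hpsd T hT x hx).isHermitian _)
      (by rw [hF0 T hT]; exact hsH)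
  have hFc : ContinuousOn (F T) (Icc a b) := fun x hx => (hF1 T hT x hx).continuousWithinAt
  -- the scalar cut-off along the flow
  set c : ℝ → ℝ := fun x => D3_aux.ss R (F T x) with hc
  have hcc : ContinuousOn c (Icc a b) := by
    have : Continuous (D3_aux.ss R : Matrix (Fin n) (Fin n) ℂ → ℝ) := by
      unfold D3_aux.ss
      refine continuous_const.div (continuous_norm.max continuous_const) fun x => ?_
      exact (hR.trans_le (le_max_right _ _)).ne'
    exact this.comp_continuousOn hFc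
  set r : ℝ → ℝ := fun x => D3_aux.rr δ (msq T + F T x) with hr
  have hrc : ContinuousOn r (Icc a b) :=
    D3_aux.continuous_rr.comp_continuousOn (continuousOn_const.add hFc)
  have hder : ∀ x ∈ Icc a b, ∀ i j, HasDerivWithinAt (fun y => F T y i j)
      ((((c x ^ 2 / 2 : ℝ) : ℂ) • ((msq T - F T x) * (msq T + F T x) +
        (msq T + F T x) * (msq T - F T x)) - ((r x ^ 2 : ℝ) : ℂ) • W T x) i j) (Icc a b) x := by
    intro x hx i j
    refine (D3_aux.entry_deriv (hF1 T hT x hx) i j).congr_deriv ?_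
    refine congrFun (congrFun (show D3_aux.ff R δ (msq T) T (W T x) (F T x) = _ from ?_) i) j
    unfold D3_aux.ff
    rw [D3_aux.hp_eq (hFH x hx)]
    have e1 : (msq T - F T x) * (msq T + F T x) + (msq T + F T x) * (msq T - F T x) =
        (2 : ℂ) • (T - F T x * F T x) := by
      rw [two_smul]
      have : (msq T - F T x) * (msq T + F T x) + (msq T + F T x) * (msq T - F T x) =
        (msq T * msq T - F T x * F T x) + (msq T * msq T - F T x * F T x) := by noncomm_ring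
      rw [this, hss]
    rw [e1]
    simp only [hc, hr, Matrix.smul_mul, Matrix.mul_smul, smul_smul, smul_sub]
    congr 1
    · congr 1
      · congr 1
        push_cast; ring
      · congr 1
        push_cast; ring
    · congr 1
      push_cast; ring
  have hWc : ContinuousOn (fun x => W T x) (Icc a b) :=
    hW.comp (f := fun x : ℝ => (T, x)) (by fun_prop) fun x hx => ⟨hT, hx⟩
  have hccC : ContinuousOn (fun x => ((c x ^ 2 / 2 : ℝ) : ℂ)) (Icc a b) :=
    Complex.continuous_ofReal.comp_continuousOn ((hcc.pow 2).div_const 2)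
  have hP : ∀ x ∈ Icc a b, (msq T - F T x).PosSemidef := by
    refine lyap_posSemidef hab (fun x => msq T - F T x)
      (fun x => -(((c x ^ 2 / 2 : ℝ) : ℂ) • (msq T + F T x)))
      (fun x => ((r x ^ 2 : ℝ) : ℂ) • W T x) ?_ ?_ ?_ ?_
    · exact (hccC.smul (continuousOn_const.add hFc)).neg
    · intro x hx i j
      refine (((hder x hx i j).const_sub (msq T i j))).congr_deriv ?_
      have e : (-(((c x ^ 2 / 2 : ℝ) : ℂ) • (msq T + F T x)))ᴴ =
          -(((c x ^ 2 / 2 : ℝ) : ℂ) • (msq T + F T x)) := by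
        rw [Matrix.conjTranspose_neg, Matrix.conjTranspose_smul, Matrix.conjTranspose_add,
          hsH.eq, (hFH x hx).eq]
        simp
      simp only [e]
      rw [← Matrix.neg_apply]
      exact congrFun (congrFun (D3_aux.alg1 _ _ _ _) i) j
    · intro x hx
      exact (hpsd T hT x hx).smul (by exact_mod_cast sq_nonneg (r x))
    · rw [hF0 T hT, sub_self]; exact Matrix.PosSemidef.zero
  have hQ : ∀ x ∈ Icc a b, (msq T + F T x).PosDef := by
    refine lyap_posDef hab (fun x => msq T + F T x)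
      (fun x => (((c x ^ 2 / 2 : ℝ) : ℂ) • (msq T - F T x)) -
        ((BW * r x / δ / 2 : ℝ) : ℂ) • (1 : Matrix (Fin n) (Fin n) ℂ))
      (fun x => ((BW * r x / δ : ℝ) : ℂ) • (msq T + F T x) - ((r x ^ 2 : ℝ) : ℂ) • W T x)
      ?_ ?_ ?_ ?_
    · refine (hccC.smul (continuousOn_const.sub hFc)).sub ?_
      refine ContinuousOn.smul (f := fun x => ((BW * r x / δ / 2 : ℝ) : ℂ))
        (g := fun _ => (1 : Matrix (Fin n) (Fin n) ℂ)) ?_ continuousOn_const
      exact Complex.continuous_ofReal.comp_continuousOn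
        (((hrc.const_mul BW).div_const δ).div_const 2)
    · intro x hx i j
      refine (((hder x hx i j).const_add (msq T i j))).congr_deriv ?_
      have e : ((((c x ^ 2 / 2 : ℝ) : ℂ) • (msq T - F T x)) -
        ((BW * r x / δ / 2 : ℝ) : ℂ) • (1 : Matrix (Fin n) (Fin n) ℂ))ᴴ =
          (((c x ^ 2 / 2 : ℝ) : ℂ) • (msq T - F T x)) -
        ((BW * r x / δ / 2 : ℝ) : ℂ) • (1 : Matrix (Fin n) (Fin n) ℂ) := by
        rw [Matrix.conjTranspose_sub, Matrix.conjTranspose_smul, Matrix.conjTranspose_sub,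
          hsH.eq, (hFH x hx).eq, (D3_aux.smul_one_herm _).eq]
        simp
      simp only [e]
      have e2 : ((BW * r x / δ : ℝ) : ℂ) = ((BW * r x / δ / 2 : ℝ) : ℂ) +
          ((BW * r x / δ / 2 : ℝ) : ℂ) := by
        push_cast; ring
      rw [e2]
      exact congrFun (congrFun (D3_aux.alg2 _ _ _ _ _) i) j
    · intro x hx
      exact D3_aux.key_psd hδ (hsH.add (hFH x hx)) (hpsd T hT x hx) (hBW (T, x) ⟨hT, hx⟩)
    · rw [hF0 T hT]; exact hspd.add hspd
  have hc1 : ∀ x ∈ Icc a b, c x = 1 := by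
    intro x hx
    apply D3_aux.ss_one hR
    have h1 : ‖msq T + F T x‖ ≤ ‖msq T + msq T‖ :=
      D3_aux.norm_le_of (hQ x hx).posSemidef (by
        have := hP x hx
        rwa [add_sub_add_left_eq_sub])
    have h2 : ‖msq T + msq T‖ ≤ 2 * BS := by
      refine (norm_add_le _ _).trans ?_
      have := hBS T hT
      linarith
    have h3 : F T x = (msq T + F T x) - msq T := by rw [add_sub_cancel_left]
    rw [h3]
    refine (norm_sub_le _ _).trans ?_
    have h4 := hBS T hT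
    have h5 : 3 * BS ≤ R := le_max_left _ _
    linarith
  refine ⟨hF0 T hT, ?_, fun x hx => ⟨by positivity, ?_, hP x hx, hQ x hx, fun h => ?_⟩⟩
  · intro x hx i j
    refine (hder x hx i j).congr_deriv ?_
    refine congrFun (congrFun ?_ i) j
    rw [hc1 x hx]
    congr 1
    have : (msq T - F T x) * (msq T + F T x) + (msq T + F T x) * (msq T - F T x) =
        (msq T * msq T - F T x * F T x) + (msq T * msq T - F T x * F T x) := by noncomm_ring
    rw [this, hss, ← two_smul ℂ, smul_smul]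
    norm_num
  · have h1 := D3_aux.rr_nonneg hδ (msq T + F T x)
    have h2 := D3_aux.rr_le_one δ (msq T + F T x)
    nlinarith
  · show D3_aux.rr δ (msq T + F T x) ^ 2 = 1
    rw [D3_aux.rr_one hδ hn h, one_pow]

end Crest.Agent.R332
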