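import Mathlib
import Crest.Prelude.Def_LiebThirring

/-!
# Row 332 (S0515, S0516): definitions

Notation used everywhere: `ν = γ - 1/2 ∈ (0,1)`, `p = γ + 1/2 = 1 + ν`, `r = 1/ν`.
All matrices are complex, indexed by `Fin n`.  Derivatives and integrals of matrix valued
functions are always taken ENTRYWISE, so that no matrix norm instance appears in any statement.
-/

set_option autoImplicit false

open MeasureTheory Matrix
open scoped ComplexOrder
open Crest.MathPhysics.LiebThirring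

namespace Crest.Agent.R332

/-- real part of the trace -/
noncomputable def rtr {n : ℕ} (A : Matrix (Fin n) (Fin n) ℂ) : ℝ := (Matrix.trace A).re

/-- squared Hilbert-Schmidt (Frobenius) norm -/
noncomputable def hs2 {n m : ℕ} (A : Matrix (Fin n) (Fin m) ℂ) : ℝ := ∑ i, ∑ j, ‖A i j‖ ^ 2

/-- a real diagonal matrix, as a complex matrix -/
noncomputable def dg {n : ℕ} (a : Fin n → ℝ) : Matrix (Fin n) (Fin n) ℂ :=
  Matrix.diagonal fun i => ((a i : ℝ) : ℂ)

/-- real power of a (positive semidefinite) matrix through the real functional calculus -/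
noncomputable def mpow {n : ℕ} (A : Matrix (Fin n) (Fin n) ℂ) (s : ℝ) :
    Matrix (Fin n) (Fin n) ℂ := cfc (fun t : ℝ => t ^ s) A

/-- entrywise derivative within a set -/
def MDerivOn {a b : ℕ} (F F' : ℝ → Matrix (Fin a) (Fin b) ℂ) (s : Set ℝ) : Prop :=
  ∀ x ∈ s, ∀ i j, HasDerivWithinAt (fun y => F y i j) (F' x i j) s x

/-- `-D ≤ F ≤ D` in the Loewner order, `D = diag d` (so `F` is Hermitian). -/
def Btw {n : ℕ} (d : Fin n → ℝ) (F : Matrix (Fin n) (Fin n) ℂ) : Prop :=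
  (dg d - F).PosSemidef ∧ (dg d + F).PosSemidef

/-- average over the circle -/
noncomputable def avg (f : ℝ → ℝ) : ℝ := (2 * Real.pi)⁻¹ * ∫ φ in (0:ℝ)..(2 * Real.pi), f φ

/-- the resolvent `(A + sin φ F)⁻¹`, `A = diag a` -/
noncomputable def Rm {n : ℕ} (a : Fin n → ℝ) (F : Matrix (Fin n) (Fin n) ℂ) (φ : ℝ) :
    Matrix (Fin n) (Fin n) ℂ := (dg a + (Real.sin φ : ℂ) • F)⁻¹

/-- `Re tr (Ψ M)`, `Ψ = ⟨(A + sin φ F)⁻¹⟩_φ` -/
noncomputable def psi {n : ℕ} (a : Fin n → ℝ) (F M : Matrix (Fin n) (Fin n) ℂ) : ℝ :=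
  avg fun φ => rtr (Rm a F φ * M)

/-- `A² - F²` -/
noncomputable def XX {n : ℕ} (a : Fin n → ℝ) (F : Matrix (Fin n) (Fin n) ℂ) :
    Matrix (Fin n) (Fin n) ℂ := dg a * dg a - F * F

/-- `a_τ = sqrt (t + τ²)` -/
noncomputable def at' {n : ℕ} (t : Fin n → ℝ) (τ : ℝ) : Fin n → ℝ := fun i => √(t i + τ ^ 2)

/-- the constant in `∫₀^∞ τ^(2ν-1) (1 - τ/√(τ²+x)) dτ = kap ν · x^ν` -/
noncomputable def kap (ν : ℝ) : ℝ :=
  ∫ τ in Set.Ioi (0:ℝ), τ ^ (2 * ν - 1) * (1 - τ / √(τ ^ 2 + 1))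

/-- the potential `lam • U (U*U)^(r-1) U*` (`N × N`) attached to `U : N × m`. -/
noncomputable def pot {N m : ℕ} (lam r : ℝ) (U : Matrix (Fin N) (Fin m) ℂ) :
    Matrix (Fin N) (Fin N) ℂ := (lam : ℂ) • (U * mpow (Uᴴ * U) (r - 1) * Uᴴ)

/-- the potential `lam • (U*U)^r` (`m × m`) attached to `U : N × m`. -/
noncomputable def potm {N m : ℕ} (lam r : ℝ) (U : Matrix (Fin N) (Fin m) ℂ) :
    Matrix (Fin m) (Fin m) ℂ := (lam : ℂ) • mpow (Uᴴ * U) r

/-- Bregman divergence of `tr A^p`: `tr W^p + (p-1) tr V^p - p tr (W V^(p-1))`. -/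
noncomputable def breg {m : ℕ} (p : ℝ) (W V : Matrix (Fin m) (Fin m) ℂ) : ℝ :=
  tracePow W p + (p - 1) * tracePow V p - p * rtr (W * mpow V (p - 1))

end Crest.Agent.R332
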