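import Crest.Agent.R332.Defs

/-!
# R332 piece G1: trial functions for one soliton

`w(x) = soliton r a c x = (r+1) a² / cosh²(r a (x-c))`, `r = 1/ν`. The positive function
`y(x) = cosh(r a (x-c))^(-ν)` satisfies `y'' = (a² - w) y` (`y'/y = -a tanh(r a (x-c))`,
`(y'/y)' = -r a²/cosh²`). For a smooth compactly supported cutoff `χ`,
`∫ ((χy)')² - w (χy)² = -a² ∫ (χy)² + ∫ (χ')² y²`
(`((χy)')² = χ'² y² + (χ² y y')' - χ² y y''`). Take `χ_n(x) = χ(x/n)`, `χ` a smooth bump equal to
1 near 0: `∫ χ_n'² y² ≤ C/n² ∫ y²`, `∫ (χ_n y)² → ∫ y² > 0` (`y² = cosh^(-2ν)` is integrable).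
Normalise. (Real valued; `y` is smooth.)
-/

set_option autoImplicit false
open MeasureTheory Set
open scoped ContDiff
open Crest.MathPhysics.LiebThirring

namespace Crest.Agent.R332

namespace G1_aux

/-- the ground state -/
noncomputable def yy (ν a c x : ℝ) : ℝ := Real.cosh (ν⁻¹ * a * (x - c)) ^ (-ν)

/-- its derivative -/
noncomputable def yy' (ν a c x : ℝ) : ℝ :=
  -a * (Real.sinh (ν⁻¹ * a * (x - c)) / Real.cosh (ν⁻¹ * a * (x - c))) * yy ν a c x

lemma yy_contDiff (ν a c : ℝ) : ContDiff ℝ ∞ (yy ν a c) := by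
  unfold yy
  apply ContDiff.rpow_const_of_ne
  · fun_prop
  · intro x
    exact (Real.cosh_pos _).ne'

lemma yy_pos (ν a c x : ℝ) : 0 < yy ν a c x := Real.rpow_pos_of_pos (Real.cosh_pos _) _

lemma yy_le_one {ν : ℝ} (h0 : 0 < ν) (a c x : ℝ) : yy ν a c x ≤ 1 :=
  Real.rpow_le_one_of_one_le_of_nonpos (Real.one_le_cosh _) (by linarith)

lemma yy_hasDerivAt {ν : ℝ} (h0 : 0 < ν) (a c x : ℝ) :
    HasDerivAt (yy ν a c) (yy' ν a c x) x := by
  have h1 : HasDerivAt (fun x : ℝ => ν⁻¹ * a * (x - c)) (ν⁻¹ * a) x := by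
    simpa using ((hasDerivAt_id x).sub_const c).const_mul (ν⁻¹ * a)
  have h2 := h1.cosh
  have h3 := h2.rpow_const (p := -ν) (Or.inl (Real.cosh_pos _).ne')
  have h4 : HasDerivAt (yy ν a c) _ x := h3
  refine h4.congr_deriv ?_
  unfold yy' yy
  have hc := (Real.cosh_pos (ν⁻¹ * a * (x - c)))
  rw [Real.rpow_sub_one hc.ne']
  field_simp

lemma yy'_hasDerivAt {ν : ℝ} (h0 : 0 < ν) (a c x : ℝ) :
    HasDerivAt (yy' ν a c) ((a ^ 2 - soliton ν⁻¹ a c x) * yy ν a c x) x := by
  have h1 : HasDerivAt (fun x : ℝ => ν⁻¹ * a * (x - c)) (ν⁻¹ * a) x := by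
    simpa using ((hasDerivAt_id x).sub_const c).const_mul (ν⁻¹ * a)
  have hc := (Real.cosh_pos (ν⁻¹ * a * (x - c)))
  have h2 := ((h1.sinh.div h1.cosh hc.ne').const_mul (-a)).mul (yy_hasDerivAt h0 a c x)
  have h4 : HasDerivAt (yy' ν a c) _ x := h2
  refine h4.congr_deriv ?_
  unfold yy' soliton
  have hsq := Real.cosh_sq (ν⁻¹ * a * (x - c))
  simp only [Pi.div_apply]
  clear h2 h4
  generalize Real.cosh (ν⁻¹ * a * (x - c)) = C at *
  generalize Real.sinh (ν⁻¹ * a * (x - c)) = S at *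
  generalize yy ν a c x = Y
  field_simp
  linear_combination (-(a ^ 2 * ν * Y) - a ^ 2 * Y) * hsq
  
lemma cutoff : ∃ (f : ℝ → ℝ) (C : ℝ), ContDiff ℝ ∞ f ∧ HasCompactSupport f ∧
    (∀ x, |x| ≤ 1 → f x = 1) ∧ (∀ x, 2 ≤ |x| → f x = 0) ∧ (∀ x, |deriv f x| ≤ C) ∧ 0 < C ∧
    (∀ x, 2 ≤ |x| → deriv f x = 0) := by
  let b : ContDiffBump (0 : ℝ) := ⟨1, 2, one_pos, one_lt_two⟩
  have hb : ContDiff ℝ ∞ (b : ℝ → ℝ) := b.contDiff
  have hd : ∀ x : ℝ, 2 ≤ |x| → b x = 0 := by
    intro x hx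
    apply b.zero_of_le_dist
    simpa [Real.dist_eq] using hx
  have hcs : HasCompactSupport (b : ℝ → ℝ) := b.hasCompactSupport
  have hdc : Continuous (deriv (b : ℝ → ℝ)) := hb.continuous_deriv (by simp)
  obtain ⟨C, hC⟩ := hcs.deriv.exists_bound_of_continuous hdc
  refine ⟨b, |C| + 1, hb, hcs, ?_, hd, ?_, by positivity, ?_⟩
  · intro x hx
    apply b.one_of_mem_closedBall
    simpa [Real.dist_eq] using hx
  · intro x
    have := hC x
    rw [Real.norm_eq_abs] at this
    linarith [le_abs_self C]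
  · intro x hx
    have hm : ∀ z : ℝ, b z = b z := fun _ => rfl
    have hloc : IsLocalMin (b : ℝ → ℝ) x := by
      apply Filter.Eventually.of_forall
      intro z
      rw [hd x hx]
      exact b.nonneg
    exact hloc.deriv_eq_zero

end G1_aux

open G1_aux

theorem soliton_trial {ν : ℝ} (h0 : 0 < ν) (h1 : ν < 1) {a : ℝ} (ha : 0 < a) (c : ℝ)
    {ε : ℝ} (hε : 0 < ε) :
    ∃ g : ℝ → ℝ, ContDiff ℝ ∞ g ∧ HasCompactSupport g ∧ (∫ x, (g x) ^ 2) = 1 ∧
      (∫ x, ((deriv g x) ^ 2 - soliton ν⁻¹ a c x * (g x) ^ 2)) ≤ -a ^ 2 + ε := by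
  obtain ⟨f, C, hf, hfc, hf1, hf2, hfC, hC0, hf3⟩ := cutoff
  set y := yy ν a c with hy
  have hyc : ContDiff ℝ ∞ y := yy_contDiff ν a c
  -- lower bound for the mass
  set κ : ℝ := ∫ x in (-1:ℝ)..1, y x ^ 2 with hκ
  have hκpos : 0 < κ := by
    apply intervalIntegral.intervalIntegral_pos_of_pos
    · exact (hyc.continuous.pow 2).intervalIntegrable _ _
    · intro x
      exact pow_pos (yy_pos ν a c x) 2
    · norm_num
  obtain ⟨n, hn⟩ := exists_nat_gt (4 * C ^ 2 / (ε * κ))
  have hεκ : 0 < ε * κ := mul_pos hε hκpos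
  have hn0 : (0 : ℝ) < n := lt_of_le_of_lt (by positivity) hn
  have hn1 : (1 : ℝ) ≤ n := by
    have : 0 < n := by exact_mod_cast hn0
    exact_mod_cast this
  rw [div_lt_iff₀ hεκ] at hn
  -- the scaled cutoff
  set χ : ℝ → ℝ := fun x => f (x / n) with hχ
  have hχd : ContDiff ℝ ∞ χ := hf.comp (contDiff_id.div_const _)
  have hχ' : ∀ x, HasDerivAt χ (deriv f (x / n) / n) x := by
    intro x
    have h := (hf.differentiable (by simp) (x / n)).hasDerivAt
    have h2 : HasDerivAt (fun x : ℝ => x / n) (1 / (n:ℝ)) x := (hasDerivAt_id x).div_const _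
    have h3 : HasDerivAt χ _ x := HasDerivAt.comp x h h2
    refine h3.congr_deriv ?_
    ring
  have hχ0 : ∀ x, 2 * (n:ℝ) ≤ |x| → χ x = 0 := by
    intro x hx
    apply hf2
    rw [abs_div, abs_of_pos hn0, le_div_iff₀ hn0]
    exact hx
  have hχ1 : ∀ x, |x| ≤ 1 → χ x = 1 := by
    intro x hx
    apply hf1
    rw [abs_div, abs_of_pos hn0, div_le_iff₀ hn0]
    linarith
  have hχcs : HasCompactSupport χ := by
    apply HasCompactSupport.intro (K := Icc (-(2 * (n:ℝ))) (2 * n)) isCompact_Icc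
    intro x hx
    apply hχ0
    by_contra hlt
    push Not at hlt
    exact hx (abs_le.mp hlt.le)
  set G : ℝ → ℝ := fun x => χ x * y x with hG
  have hGd : ContDiff ℝ ∞ G := hχd.mul hyc
  have hGcs : HasCompactSupport G := hχcs.mul_right
  set χ' : ℝ → ℝ := fun x => deriv f (x / n) / n with hχ'def
  set y' : ℝ → ℝ := yy' ν a c with hy'
  have hG' : ∀ x, HasDerivAt G (χ' x * y x + χ x * y' x) x := fun x =>
    (hχ' x).mul (yy_hasDerivAt h0 a c x)
  have hχ'c : Continuous χ' := by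
    have : χ' = deriv χ := by
      funext x
      exact (hχ' x).deriv.symm
    rw [this]
    exact hχd.continuous_deriv (by simp)
  have hy'c : Continuous y' := by
    have : y' = deriv y := by
      funext x
      exact (yy_hasDerivAt h0 a c x).deriv.symm
    rw [this]
    exact hyc.continuous_deriv (by simp)
  have hwc : Continuous (soliton ν⁻¹ a c) := by
    unfold soliton
    apply Continuous.div
    · fun_prop
    · fun_prop
    · intro x
      exact pow_ne_zero _ (Real.cosh_pos _).ne'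
  have hyc' := hyc.continuous
  have hχc' := hχd.continuous
  have hχ'cs : HasCompactSupport χ' := by
    have : χ' = deriv χ := by
      funext x
      exact (hχ' x).deriv.symm
    rw [this]
    exact hχcs.deriv
  -- integrable functions
  have hI1 : Integrable (fun x => χ' x ^ 2 * y x ^ 2) := by
    apply Continuous.integrable_of_hasCompactSupport (by fun_prop)
    apply HasCompactSupport.mul_right
    have : (fun x => χ' x ^ 2) = fun x => χ' x * χ' x := by
      funext x; ring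
    rw [this]
    exact hχ'cs.mul_right
  have hI2 : Integrable (fun x => G x ^ 2) := by
    have : (fun x => G x ^ 2) = fun x => G x * G x := by
      funext x; ring
    rw [this]
    exact (hGd.continuous.mul hGd.continuous).integrable_of_hasCompactSupport hGcs.mul_right
  have hcs2 : HasCompactSupport (fun x => χ x ^ 2 * (y x * y' x)) := by
    apply HasCompactSupport.mul_right
    have : (fun x => χ x ^ 2) = fun x => χ x * χ x := by
      funext x; ring
    rw [this]
    exact hχcs.mul_right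
  have hI3 : Integrable (fun x => χ x ^ 2 * (y x * y' x)) :=
    Continuous.integrable_of_hasCompactSupport (by fun_prop) hcs2
  set D : ℝ → ℝ := fun x => 2 * χ x * χ' x * (y x * y' x) +
    χ x ^ 2 * (y' x * y' x + y x * ((a ^ 2 - soliton ν⁻¹ a c x) * y x)) with hD
  have hDd : ∀ x, HasDerivAt (fun x => χ x ^ 2 * (y x * y' x)) (D x) x := by
    intro x
    have h1 := ((hχ' x).pow 2).mul ((yy_hasDerivAt h0 a c x).mul (yy'_hasDerivAt h0 a c x))
    have h2 : HasDerivAt (fun x => χ x ^ 2 * (y x * y' x)) _ x := h1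
    refine h2.congr_deriv ?_
    simp only [hD]
    norm_num
    ring
  have hI4 : Integrable D := by
    apply Continuous.integrable_of_hasCompactSupport (by fun_prop)
    have : D = deriv (fun x => χ x ^ 2 * (y x * y' x)) := by
      funext x
      exact (hDd x).deriv.symm
    rw [this]
    exact hcs2.deriv
  have hD0 : ∫ x, D x = 0 := integral_eq_zero_of_hasDerivAt_of_integrable hDd hI4 hI3
  -- pointwise identity
  have hid : ∀ x, (deriv G x) ^ 2 - soliton ν⁻¹ a c x * (G x) ^ 2 =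
      χ' x ^ 2 * y x ^ 2 + D x - a ^ 2 * G x ^ 2 := by
    intro x
    rw [(hG' x).deriv]
    simp only [hD, hG]
    ring
  have hint : ∫ x, ((deriv G x) ^ 2 - soliton ν⁻¹ a c x * (G x) ^ 2) =
      (∫ x, χ' x ^ 2 * y x ^ 2) - a ^ 2 * ∫ x, G x ^ 2 := by
    simp_rw [hid]
    have e1 : ∫ x, (χ' x ^ 2 * y x ^ 2 + D x - a ^ 2 * G x ^ 2) =
        (∫ x, (χ' x ^ 2 * y x ^ 2 + D x)) - ∫ x, a ^ 2 * G x ^ 2 :=
      integral_sub (hI1.add hI4) (hI2.const_mul _)
    have e2 : ∫ x, (χ' x ^ 2 * y x ^ 2 + D x) =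
        (∫ x, (χ' x ^ 2 * y x ^ 2)) + ∫ x, D x := integral_add hI1 hI4
    rw [e1, e2, hD0, integral_const_mul, add_zero]
  -- bounds
  set M : ℝ := ∫ x, G x ^ 2 with hM
  have hMκ : κ ≤ M := by
    rw [hκ, intervalIntegral.integral_of_le (by norm_num), hM]
    calc ∫ x in Ioc (-1:ℝ) 1, y x ^ 2 = ∫ x in Ioc (-1:ℝ) 1, G x ^ 2 := by
          apply setIntegral_congr_fun measurableSet_Ioc
          intro x hx
          simp only [hG]
          rw [hχ1 x (abs_le.mpr ⟨hx.1.le, hx.2⟩), one_mul]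
      _ ≤ ∫ x, G x ^ 2 := setIntegral_le_integral hI2 (Filter.Eventually.of_forall fun x => sq_nonneg _)
  have hMpos : 0 < M := lt_of_lt_of_le hκpos hMκ
  have hbound : (∫ x, χ' x ^ 2 * y x ^ 2) ≤ 4 * C ^ 2 / n := by
    have hle : ∀ x, χ' x ^ 2 * y x ^ 2 ≤
        (Icc (-(2 * (n:ℝ))) (2 * n)).indicator (fun _ => (C / n) ^ 2) x := by
      intro x
      by_cases hx : x ∈ Icc (-(2 * (n:ℝ))) (2 * n)
      · rw [indicator_of_mem hx]
        have h1 : χ' x ^ 2 ≤ (C / n) ^ 2 := by
          rw [sq_le_sq, abs_of_pos (div_pos hC0 hn0)]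
          simp only [hχ'def]
          rw [abs_div, abs_of_pos hn0]
          exact div_le_div_of_nonneg_right (hfC _) hn0.le
        have h2 : y x ^ 2 ≤ 1 := by
          have := yy_le_one h0 a c x
          have h3 := (yy_pos ν a c x)
          rw [hy]
          nlinarith
        calc χ' x ^ 2 * y x ^ 2 ≤ (C / n) ^ 2 * 1 := by
              apply mul_le_mul h1 h2 (sq_nonneg _) (sq_nonneg _)
          _ = _ := mul_one _
      · rw [indicator_of_notMem hx]
        have : χ' x = 0 := by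
          simp only [hχ'def]
          rw [hf3, zero_div]
          rw [abs_div, abs_of_pos hn0, le_div_iff₀ hn0]
          by_contra hlt
          push Not at hlt
          exact hx (abs_le.mp hlt.le)
        rw [this]
        simp
    have hfin : Integrable ((Icc (-(2 * (n:ℝ))) (2 * n)).indicator (fun _ => (C / n) ^ 2)) := by
      rw [integrable_indicator_iff measurableSet_Icc]
      exact integrableOn_const (by simp) 
    calc (∫ x, χ' x ^ 2 * y x ^ 2) ≤
        ∫ x, (Icc (-(2 * (n:ℝ))) (2 * n)).indicator (fun _ => (C / n) ^ 2) x :=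
          integral_mono hI1 hfin hle
      _ = 4 * C ^ 2 / n := by
          rw [integral_indicator measurableSet_Icc, setIntegral_const]
          simp only [Measure.real, Real.volume_Icc, smul_eq_mul]
          rw [ENNReal.toReal_ofReal (by linarith)]
          field_simp
          ring
  refine ⟨fun x => (√M)⁻¹ * G x, contDiff_const.mul hGd, hGcs.mul_left, ?_, ?_⟩
  · have : (fun x => ((√M)⁻¹ * G x) ^ 2) = fun x => M⁻¹ * G x ^ 2 := by
      funext x
      rw [mul_pow, inv_pow, Real.sq_sqrt hMpos.le]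
    rw [this, integral_const_mul, ← hM, inv_mul_cancel₀ hMpos.ne']
  · have : (fun x => (deriv (fun x => (√M)⁻¹ * G x) x) ^ 2 -
        soliton ν⁻¹ a c x * ((√M)⁻¹ * G x) ^ 2) =
        fun x => M⁻¹ * ((deriv G x) ^ 2 - soliton ν⁻¹ a c x * (G x) ^ 2) := by
      funext x
      rw [((hG' x).const_mul _).deriv, (hG' x).deriv]
      have hs : (√M)⁻¹ ^ 2 = M⁻¹ := by rw [inv_pow, Real.sq_sqrt hMpos.le]
      rw [mul_pow, mul_pow, hs]
      ring
    rw [this, integral_const_mul, hint, mul_sub]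
    have h2 : M⁻¹ * (a ^ 2 * M) = a ^ 2 := by field_simp
    rw [h2]
    have h3 : M⁻¹ * (∫ x, χ' x ^ 2 * y x ^ 2) ≤ ε := by
      rw [inv_mul_le_iff₀ hMpos]
      calc (∫ x, χ' x ^ 2 * y x ^ 2) ≤ 4 * C ^ 2 / n := hbound
        _ ≤ ε * κ := by
            rw [div_le_iff₀ hn0]
            linarith
        _ ≤ M * ε := by nlinarith
    linarith

end Crest.Agent.R332
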