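import Crest.Agent.R332.G1
import Crest.Agent.R332.A2
import Crest.Agent.R332.API

/-!
# R332 piece G2: soliton sums are extremal (the direction `⟸` of S0516)

`W = U diag(w_i) U*` a.e., `w_i = soliton ν⁻¹ a_i c_i`. `tracePow (W x) p = Σ_i w_i(x)^p` a.e.
(`tracePow_diag`), so `C ∫ tr W^p = Σ_i a_i^(2ν+1)` (`soliton_int`). Trial family indexed by
`J = {i : a_i > 0}` (reindexed by `Fin n`): `φ_i(x) = g_i(x) • (U e_i)` with `g_i` from
`soliton_trial`; orthonormal because the columns of `U` are. The energy matrix is diagonal with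
entries `E_i = ∫ g_i'² - w_i g_i² ≤ -a_i² + δ`, so `negMoment ≥ Σ_{i∈J} max(a_i² - δ, 0)^(ν+1/2)`,
which tends to `Σ a_i^(2ν+1)` as `δ → 0`.
-/

set_option autoImplicit false
open MeasureTheory Set Matrix
open scoped ComplexOrder ContDiff
open Crest.MathPhysics.LiebThirring

namespace Crest.Agent.R332

namespace G2_aux

open Filter Topology

/-- the trial functions, also for `a = 0` -/
lemma trial {ν : ℝ} (h0 : 0 < ν) (h1 : ν < 1) {a : ℝ} (ha : 0 ≤ a) (c : ℝ) {ε : ℝ} (hε : 0 < ε) :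
    ∃ g : ℝ → ℝ, ContDiff ℝ ∞ g ∧ HasCompactSupport g ∧ (∫ x, (g x) ^ 2) = 1 ∧
      max (a ^ 2 - ε) 0 ≤
        max (-(∫ x, ((deriv g x) ^ 2 - soliton ν⁻¹ a c x * (g x) ^ 2))) 0 := by
  rcases ha.eq_or_lt with rfl | ha
  · obtain ⟨g, hg1, hg2, hg3, -⟩ := soliton_trial h0 h1 one_pos c hε
    refine ⟨g, hg1, hg2, hg3, ?_⟩
    rw [max_eq_right (by nlinarith)]
    exact le_max_right _ _
  · obtain ⟨g, hg1, hg2, hg3, hg4⟩ := soliton_trial h0 h1 ha c hε
    exact ⟨g, hg1, hg2, hg3, max_le_max_right _ (by linarith)⟩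

/-- choice of the loss -/
lemma loss {m : ℕ} {ν : ℝ} (h0 : 0 < ν) (a : Fin m → ℝ) (ha : ∀ i, 0 ≤ a i) {ε : ℝ} (hε : 0 < ε) :
    ∃ δ : ℝ, 0 < δ ∧ (∑ i, a i ^ (2 * ν + 1)) - ε <
      ∑ i, (max ((a i) ^ 2 - δ) 0) ^ (ν + 1 / 2) := by
  have hc : Continuous fun δ : ℝ => ∑ i, (max ((a i) ^ 2 - δ) 0) ^ (ν + 1 / 2) := by
    apply continuous_finset_sum
    intro i _
    apply Continuous.rpow_const
    · fun_prop
    · intro x
      right
      linarith
  have h00 : ∑ i, (max ((a i) ^ 2 - 0) 0) ^ (ν + 1 / 2) = ∑ i, a i ^ (2 * ν + 1) := by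
    refine Finset.sum_congr rfl fun i _ => ?_
    rw [sub_zero, max_eq_left (sq_nonneg _), ← Real.rpow_natCast, ← Real.rpow_mul (ha i)]
    congr 1
    push_cast
    ring
  have ht : Tendsto (fun δ : ℝ => ∑ i, (max ((a i) ^ 2 - δ) 0) ^ (ν + 1 / 2)) (𝓝[>] 0)
      (𝓝 (∑ i, a i ^ (2 * ν + 1))) := by
    rw [← h00]
    exact (hc.tendsto 0).mono_left nhdsWithin_le_nhds
  have he : ∀ᶠ δ in 𝓝[>] (0:ℝ), (∑ i, a i ^ (2 * ν + 1)) - ε <
      ∑ i, (max ((a i) ^ 2 - δ) 0) ^ (ν + 1 / 2) :=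
    ht.eventually (lt_mem_nhds (by linarith))
  obtain ⟨δ, hδ, hδ0⟩ := (he.and self_mem_nhdsWithin).exists
  exact ⟨δ, hδ0, hδ⟩

/-- the `k`-th column of a matrix as a vector -/
noncomputable def vcol {m : ℕ} (U : Matrix (Fin m) (Fin m) ℂ) (k : Fin m) : Vec m :=
  WithLp.toLp 2 (fun i => U i k)

lemma inner_vcol {m : ℕ} {U : Matrix (Fin m) (Fin m) ℂ} (hU : Uᴴ * U = 1) (k l : Fin m) :
    inner ℂ (vcol U k) (vcol U l) = if k = l then (1 : ℂ) else 0 := by
  have h := congrFun (congrFun hU k) l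
  rw [Matrix.mul_apply, Matrix.one_apply] at h
  rw [← h, PiLp.inner_apply]
  refine Finset.sum_congr rfl fun i _ => ?_
  simp only [vcol, Matrix.conjTranspose_apply, RCLike.inner_apply]
  rw [mul_comm]
  rfl

lemma mul_vcol {m : ℕ} {U : Matrix (Fin m) (Fin m) ℂ} (hU : Uᴴ * U = 1) (w : Fin m → ℝ)
    (l : Fin m) :
    Matrix.toEuclideanLin (U * dg w * Uᴴ) (vcol U l) = (w l : ℂ) • vcol U l := by
  rw [Matrix.toEuclideanLin_apply]
  have h1 : (U * dg w * Uᴴ) * U = U * dg w := by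
    rw [Matrix.mul_assoc, hU, Matrix.mul_one]
  have h2 : (U * dg w * Uᴴ) *ᵥ (fun i => U i l) = fun i => (w l : ℂ) * U i l := by
    funext i
    have h3 := congrFun (congrFun h1 i) l
    rw [Matrix.mul_apply] at h3
    rw [Matrix.mulVec, dotProduct, h3]
    unfold dg
    rw [Matrix.mul_diagonal, mul_comm]
  show WithLp.toLp 2 ((U * dg w * Uᴴ) *ᵥ (fun i => U i l)) = _
  rw [h2]
  rfl

end G2_aux

open G2_aux

theorem extremal_of_soliton {ν : ℝ} (h0 : 0 < ν) (h1 : ν < 1) {m : ℕ}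
    (W : ℝ → Matrix (Fin m) (Fin m) ℂ) (hW : ∀ i j, Measurable fun x => W x i j)
    (hWp : ∀ x, (W x).PosSemidef) (hWi : Integrable fun x => tracePow (W x) (1 + ν))
    (U : Matrix.unitaryGroup (Fin m) ℂ) (a c : Fin m → ℝ) (ha : ∀ i, 0 ≤ a i)
    (hsol : ∀ᵐ x : ℝ, W x = (U : Matrix (Fin m) (Fin m) ℂ) *
          Matrix.diagonal (fun i => ((soliton ν⁻¹ (a i) (c i) x : ℝ) : ℂ)) *
            star (U : Matrix (Fin m) (Fin m) ℂ)) :
    ∀ ε : ℝ, 0 < ε → ∃ (n : ℕ) (φ : Fin n → ℝ → Vec m), IsTrialFamily φ ∧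
        sharpConst (ν + 1 / 2) * (∫ x, tracePow (W x) (1 + ν)) - ε <
          negMoment (energyMatrix W φ) (ν + 1 / 2) := by
  intro ε hε
  set V : Matrix (Fin m) (Fin m) ℂ := (U : Matrix (Fin m) (Fin m) ℂ) with hV
  have hV1 : Vᴴ * V = 1 := Unitary.coe_star_mul_self U
  have hV2 : V * Vᴴ = 1 := Unitary.coe_mul_star_self U
  have hsol' : ∀ᵐ x : ℝ, W x = V * dg (fun i => soliton ν⁻¹ (a i) (c i) x) * Vᴴ := hsol
  -- the right-hand side
  have hR : sharpConst (ν + 1 / 2) * (∫ x, tracePow (W x) (1 + ν)) =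
      ∑ i, a i ^ (2 * ν + 1) := by
    have e1 : (∫ x, tracePow (W x) (1 + ν)) =
        ∫ x, ∑ i, (soliton ν⁻¹ (a i) (c i) x) ^ (1 + ν) := by
      apply integral_congr_ae
      filter_upwards [hsol'] with x hx
      rw [hx, tracePow_diag hV1 hV2]
    rw [e1, integral_finset_sum _ fun i _ => (soliton_int h0 h1 (ha i) (c i)).1, Finset.mul_sum]
    exact Finset.sum_congr rfl fun i _ => (soliton_int h0 h1 (ha i) (c i)).2
  obtain ⟨δ, hδ, hloss⟩ := loss h0 a ha hε
  choose g hg1 hg2 hg3 hg4 using fun i => trial h0 h1 (ha i) (c i) hδ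
  refine ⟨m, fun k x => ((g k x : ℝ) : ℂ) • vcol V k, ⟨?_, ?_, ?_⟩, ?_⟩
  · intro k
    exact (Complex.ofRealCLM.contDiff.comp (hg1 k)).smul contDiff_const
  · intro k
    have h2 : HasCompactSupport (fun x => ((g k x : ℝ) : ℂ)) := by
      exact (hg2 k).comp_left (g := fun t : ℝ => (t : ℂ)) (by simp)
    exact h2.smul_right
  · intro k l
    have e1 : (fun x => inner ℂ (((g k x : ℝ) : ℂ) • vcol V k) (((g l x : ℝ) : ℂ) • vcol V l)) =
        fun x => ((g k x * g l x : ℝ) : ℂ) * (if k = l then (1:ℂ) else 0) := by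
      funext x
      rw [inner_smul_left, inner_smul_right, inner_vcol hV1, Complex.conj_ofReal]
      push_cast
      ring
    rw [e1]
    by_cases hkl : k = l
    · subst hkl
      simp only [if_true, mul_one]
      rw [integral_complex_ofReal]
      have := hg3 k
      simp_rw [pow_two] at this
      rw [this]
      simp
    · simp [hkl]
  · rw [hR]
    set E : Fin m → ℝ := fun k =>
      ∫ x, ((deriv (g k) x) ^ 2 - soliton ν⁻¹ (a k) (c k) x * (g k x) ^ 2) with hE
    have hmat : energyMatrix W (fun k x => ((g k x : ℝ) : ℂ) • vcol V k) = dg E := by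
      ext k l
      unfold energyMatrix dg
      rw [Matrix.of_apply, Matrix.diagonal_apply]
      have hder : ∀ k x, deriv (fun x => ((g k x : ℝ) : ℂ) • vcol V k) x =
          ((deriv (g k) x : ℝ) : ℂ) • vcol V k := by
        intro k x
        have h1 : HasDerivAt (g k) (deriv (g k) x) x :=
          ((hg1 k).differentiable (by simp) x).hasDerivAt
        exact (h1.ofReal_comp.smul_const (vcol V k)).deriv
      have e1 : (∫ x, (inner ℂ (deriv (fun x => ((g k x : ℝ) : ℂ) • vcol V k) x)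
            (deriv (fun x => ((g l x : ℝ) : ℂ) • vcol V l) x) -
          inner ℂ (((g k x : ℝ) : ℂ) • vcol V k)
            (Matrix.toEuclideanLin (W x) (((g l x : ℝ) : ℂ) • vcol V l)))) =
          ∫ x, ((deriv (g k) x * deriv (g l) x -
            soliton ν⁻¹ (a l) (c l) x * (g k x * g l x) : ℝ) : ℂ) *
              (if k = l then (1:ℂ) else 0) := by
        apply integral_congr_ae
        filter_upwards [hsol'] with x hx
        rw [hder, hder, hx, map_smul, mul_vcol hV1]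
        simp only [inner_smul_left, inner_smul_right, inner_vcol hV1, Complex.conj_ofReal]
        push_cast
        ring
      rw [e1]
      by_cases hkl : k = l
      · subst hkl
        simp only [if_true, mul_one]
        rw [integral_complex_ofReal]
        congr 1
        simp only [hE]
        congr 1
        funext x
        ring
      · simp [hkl]
    rw [hmat]
    have hneg : negMoment (dg E) (ν + 1 / 2) = ∑ i, (max (-(E i)) 0) ^ (ν + 1 / 2) := by
      unfold negMoment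
      have h1 := cfc_diag (u := (1 : Matrix (Fin m) (Fin m) ℂ)) (a := E) (by simp) (by simp)
        (fun t : ℝ => (max (-t) 0) ^ (ν + 1 / 2))
      rw [Matrix.one_mul, Matrix.conjTranspose_one, Matrix.mul_one, Matrix.one_mul,
        Matrix.mul_one] at h1
      rw [h1]
      exact rtr_dg _
    rw [hneg]
    refine hloss.trans_le (Finset.sum_le_sum fun i _ => ?_)
    exact Real.rpow_le_rpow (le_max_right _ _) (hg4 i) (by linarith)

end Crest.Agent.R332
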