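import Mathlib

/-!
# R332 piece H5A: an abstract limit theorem for approximate solutions of an autonomous ODE
-/

set_option autoImplicit false
open MeasureTheory Set Filter Topology

namespace Crest.Agent.R332.H5_aux

variable {E : Type*} [NormedAddCommGroup E] [NormedSpace ℝ E] [CompleteSpace E]

theorem gb_le {δ K ε x X : ℝ} (hδ : 0 ≤ δ) (hε : 0 ≤ ε) (hK : 1 ≤ K) (hxX : x ≤ X) :
    gronwallBound δ K ε x ≤ (δ + ε) * Real.exp (K * X) := by
  have hK0 : K ≠ 0 := by linarith
  rw [gronwallBound_of_K_ne_0 hK0]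
  have h1 : Real.exp (K * x) ≤ Real.exp (K * X) := by
    apply Real.exp_le_exp.2
    exact mul_le_mul_of_nonneg_left hxX (by linarith)
  have h2 : ε / K ≤ ε := div_le_self hε hK
  have h3 : 0 ≤ ε / K := div_nonneg hε (by linarith)
  have h4 := Real.exp_pos (K * X)
  have h5 : δ * Real.exp (K * x) ≤ δ * Real.exp (K * X) := mul_le_mul_of_nonneg_left h1 hδ
  have h6 : ε / K * (Real.exp (K * x) - 1) ≤ ε * Real.exp (K * X) := by
    have h7 : ε / K * (Real.exp (K * x) - 1) ≤ ε / K * Real.exp (K * X) :=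
      mul_le_mul_of_nonneg_left (by linarith) h3
    exact h7.trans (mul_le_mul_of_nonneg_right h2 h4.le)
  simp only
  linarith

/-- the hypotheses on one member on `[a, b]` -/
structure Good (a b B ε : ℝ) (w : E → E) (f f' : ℝ → E) : Prop where
  der : ∀ x ∈ Icc a b, HasDerivWithinAt f (f' x) (Icc a b) x
  cont : ContinuousOn f' (Icc a b)
  bdd : ∀ x ∈ Icc a b, ‖f x‖ ≤ B
  int : (∫ x in a..b, ‖f' x - w (f x)‖) ≤ ε

theorem prim {a b B ε : ℝ} {w : E → E} {f f' : ℝ → E} (hab : a ≤ b)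
    (hw : ContinuousOn w (Metric.closedBall 0 B)) (h : Good a b B ε w f f') {c : ℝ}
    (hc : c ∈ Icc a b) :
    ContinuousOn (fun x => f' x - w (f x)) (Icc a b) ∧
    (∀ x ∈ Icc a b, ‖∫ s in c..x, (f' s - w (f s))‖ ≤ ε) ∧
    (∀ x ∈ Icc a b, HasDerivWithinAt (fun y => ∫ s in c..y, (f' s - w (f s)))
      (f' x - w (f x)) (Icc a b) x) := by
  have hfc : ContinuousOn f (Icc a b) := fun x hx => (h.der x hx).continuousWithinAt
  have hR : ContinuousOn (fun x => f' x - w (f x)) (Icc a b) := by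
    refine h.cont.sub (hw.comp hfc fun x hx => ?_)
    rw [mem_closedBall_zero_iff]; exact h.bdd x hx
  refine ⟨hR, ?_, ?_⟩
  · intro x hx
    have h1 : ‖∫ s in c..x, (f' s - w (f s))‖ ≤ ∫ s in uIoc c x, ‖f' s - w (f s)‖ :=
      intervalIntegral.norm_integral_le_integral_norm_uIoc
    refine h1.trans (le_trans ?_ h.int)
    rw [intervalIntegral.integral_of_le hab]
    refine setIntegral_mono_set ?_ ?_ ?_
    · exact (hR.norm.integrableOn_Icc).mono_set Ioc_subset_Icc_self
    · exact Eventually.of_forall fun x => norm_nonneg _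
    · refine LE.le.eventuallyLE ?_
      intro y hy
      rw [mem_uIoc] at hy
      rcases hy with hy | hy
      · exact ⟨lt_of_le_of_lt hc.1 hy.1, hy.2.trans hx.2⟩
      · exact ⟨lt_of_le_of_lt hx.1 hy.1, hy.2.trans hc.2⟩
  · intro x hx
    have hii : IntervalIntegrable (fun s => f' s - w (f s)) volume c x := by
      refine (hR.mono ?_).intervalIntegrable
      exact uIcc_subset_Icc hc hx
    have : Fact (x ∈ Icc a b) := ⟨hx⟩
    refine intervalIntegral.integral_hasDerivWithinAt_right hii (s := Icc a b) (t := Icc a b)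
      ?_ (hR x hx)
    exact hR.stronglyMeasurableAtFilter_nhdsWithin measurableSet_Icc x

theorem pair_bound {X B ε₁ ε₂ δ : ℝ} (hX : 0 ≤ X) {w : E → E} {C : NNReal} (hC : 1 ≤ C)
    (hw : LipschitzOnWith C w (Metric.closedBall 0 (B + 1))) {f f' g g' : ℝ → E}
    (hf : Good 0 X B ε₁ w f f') (hg : Good 0 X B ε₂ w g g') (h1 : ε₁ ≤ 1) (h2 : ε₂ ≤ 1)
    (hδ : dist (f 0) (g 0) ≤ δ) {x : ℝ} (hx : x ∈ Icc 0 X) :
    dist (f x) (g x) ≤ (δ + (C * ε₁ + C * ε₂)) * Real.exp (C * X) + (ε₁ + ε₂) := by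
  have h0 : (0:ℝ) ∈ Icc 0 X := ⟨le_rfl, hX⟩
  have hsub : Metric.closedBall (0:E) B ⊆ Metric.closedBall 0 (B + 1) :=
    Metric.closedBall_subset_closedBall (by linarith)
  have hwB : ContinuousOn w (Metric.closedBall 0 B) := hw.continuousOn.mono hsub
  obtain ⟨-, fb, fd⟩ := prim hX hwB hf h0
  obtain ⟨-, gb, gd⟩ := prim hX hwB hg h0
  set rf : ℝ → E := fun y => ∫ s in (0:ℝ)..y, (f' s - w (f s)) with hrf
  set rg : ℝ → E := fun y => ∫ s in (0:ℝ)..y, (g' s - w (g s)) with hrg
  have hrf0 : rf 0 = 0 := by simp [hrf]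
  have hrg0 : rg 0 = 0 := by simp [hrg]
  have hε₁ : 0 ≤ ε₁ := (norm_nonneg _).trans (fb 0 h0)
  have hε₂ : 0 ≤ ε₂ := (norm_nonneg _).trans (gb 0 h0)
  have Fd : ∀ y ∈ Icc 0 X, HasDerivWithinAt (fun y => f y - rf y) (w (f y)) (Icc 0 X) y := by
    intro y hy
    have := (hf.der y hy).fun_sub (fd y hy)
    rwa [sub_sub_cancel] at this
  have Gd : ∀ y ∈ Icc 0 X, HasDerivWithinAt (fun y => g y - rg y) (w (g y)) (Icc 0 X) y := by
    intro y hy
    have := (hg.der y hy).fun_sub (gd y hy)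
    rwa [sub_sub_cancel] at this
  have Fb : ∀ y ∈ Icc 0 X, f y - rf y ∈ Metric.closedBall (0:E) (B + 1) := by
    intro y hy
    rw [mem_closedBall_zero_iff]
    exact (norm_sub_le _ _).trans (add_le_add (hf.bdd y hy) ((fb y hy).trans h1))
  have Gb : ∀ y ∈ Icc 0 X, g y - rg y ∈ Metric.closedBall (0:E) (B + 1) := by
    intro y hy
    rw [mem_closedBall_zero_iff]
    exact (norm_sub_le _ _).trans (add_le_add (hg.bdd y hy) ((gb y hy).trans h2))
  have Fm : ∀ y ∈ Icc 0 X, f y ∈ Metric.closedBall (0:E) (B + 1) := fun y hy =>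
    hsub (by rw [mem_closedBall_zero_iff]; exact hf.bdd y hy)
  have Gm : ∀ y ∈ Icc 0 X, g y ∈ Metric.closedBall (0:E) (B + 1) := fun y hy =>
    hsub (by rw [mem_closedBall_zero_iff]; exact hg.bdd y hy)
  have ico : ∀ y, y ∈ Ico 0 X → y ∈ Icc 0 X := fun y hy => ⟨hy.1, hy.2.le⟩
  have key := dist_le_of_approx_trajectories_ODE_of_mem (v := fun _ => w)
    (s := fun _ => Metric.closedBall (0:E) (B + 1)) (K := C)
    (f := fun y => f y - rf y) (g := fun y => g y - rg y) (f' := fun y => w (f y))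
    (g' := fun y => w (g y)) (a := 0) (b := X) (εf := C * ε₁) (εg := C * ε₂) (δ := δ)
    (fun t _ => hw)
    (fun t ht => (Fd t ht).continuousWithinAt)
    (fun t ht => (Fd t (ico t ht)).mono_of_mem_nhdsWithin (Icc_mem_nhdsGE_of_mem ht))
    (fun t ht => by
      have := hw.dist_le_mul _ (Fm t (ico t ht)) _ (Fb t (ico t ht))
      refine this.trans (mul_le_mul_of_nonneg_left ?_ C.coe_nonneg)
      rw [dist_eq_norm]
      simpa using fb t (ico t ht))
    (fun t ht => Fb t (ico t ht))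
    (fun t ht => (Gd t ht).continuousWithinAt)
    (fun t ht => (Gd t (ico t ht)).mono_of_mem_nhdsWithin (Icc_mem_nhdsGE_of_mem ht))
    (fun t ht => by
      have := hw.dist_le_mul _ (Gm t (ico t ht)) _ (Gb t (ico t ht))
      refine this.trans (mul_le_mul_of_nonneg_left ?_ C.coe_nonneg)
      rw [dist_eq_norm]
      simpa using gb t (ico t ht))
    (fun t ht => Gb t (ico t ht))
    (by simpa [hrf0, hrg0] using hδ) x hx
  have hδ0 : 0 ≤ δ := dist_nonneg.trans hδ
  have hb := gb_le (x := x - 0) (X := X) (K := C) hδ0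
    (add_nonneg (mul_nonneg C.coe_nonneg hε₁) (mul_nonneg C.coe_nonneg hε₂)) (by exact_mod_cast hC)
    (by linarith [hx.2])
  have e1 : dist (f x) (f x - rf x) ≤ ε₁ := by
    rw [dist_eq_norm]; simpa using fb x hx
  have e2 : dist (g x - rg x) (g x) ≤ ε₂ := by
    rw [dist_eq_norm]; simpa using gb x hx
  have e3 := dist_triangle4 (f x) (f x - rf x) (g x - rg x) (g x)
  linarith

omit [CompleteSpace E] in
theorem Good.mono_eps {a b B ε ε' : ℝ} {w : E → E} {f f' : ℝ → E} (h : Good a b B ε w f f')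
    (he : ε ≤ ε') : Good a b B ε' w f f' := ⟨h.der, h.cont, h.bdd, h.int.trans he⟩

theorem Good.right {X B ε : ℝ} (hX : 0 ≤ X) {w : E → E} {f f' : ℝ → E}
    (hw : ContinuousOn w (Metric.closedBall 0 B)) (h : Good (-X) X B ε w f f') :
    Good 0 X B ε w f f' := by
  have hsub : Icc 0 X ⊆ Icc (-X) X := Icc_subset_Icc (by linarith) le_rfl
  have h0 : (0:ℝ) ∈ Icc (-X) X := ⟨by linarith, hX⟩
  obtain ⟨hR, -, -⟩ := prim (by linarith : -X ≤ X) hw h h0
  refine ⟨fun x hx => (h.der x (hsub hx)).mono hsub, h.cont.mono hsub,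
    fun x hx => h.bdd x (hsub hx), le_trans ?_ h.int⟩
  rw [intervalIntegral.integral_of_le hX, intervalIntegral.integral_of_le (by linarith)]
  refine setIntegral_mono_set ?_ ?_ ?_
  · exact (hR.norm.integrableOn_Icc).mono_set Ioc_subset_Icc_self
  · exact Eventually.of_forall fun x => norm_nonneg _
  · exact LE.le.eventuallyLE (Ioc_subset_Ioc_left (by linarith))

theorem Good.left {X B ε : ℝ} (hX : 0 ≤ X) {w : E → E} {f f' : ℝ → E}
    (hw : ContinuousOn w (Metric.closedBall 0 B)) (h : Good (-X) X B ε w f f') :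
    Good 0 X B ε (fun y => - w y) (fun x => f (-x)) (fun x => - f' (-x)) := by
  have hsub : Icc (-X) 0 ⊆ Icc (-X) X := Icc_subset_Icc le_rfl hX
  have h0 : (0:ℝ) ∈ Icc (-X) X := ⟨by linarith, hX⟩
  obtain ⟨hR, -, -⟩ := prim (by linarith : -X ≤ X) hw h h0
  have hm : MapsTo (fun x : ℝ => -x) (Icc 0 X) (Icc (-X) X) := fun x hx =>
    ⟨by simpa using hx.2, by have := hx.1; simp only; linarith⟩
  refine ⟨fun x hx => ?_, ?_, fun x hx => h.bdd _ (hm hx), ?_⟩
  · have h1 := h.der (-x) (hm hx)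
    have h2 : HasDerivWithinAt (fun x : ℝ => -x) (-1) (Icc 0 X) x := (hasDerivAt_neg x).hasDerivWithinAt
    have h3 := HasDerivWithinAt.scomp x h1 h2 hm
    simpa [Function.comp_def] using h3
  · exact (h.cont.comp continuous_neg.continuousOn hm).neg
  · have e1 : (∫ x in (0:ℝ)..X, ‖(fun x => - f' (-x)) x - (fun y => - w y) ((fun x => f (-x)) x)‖)
        = ∫ x in (-X)..0, ‖f' x - w (f x)‖ := by
      have := intervalIntegral.integral_comp_neg (a := 0) (b := X)
        (fun x => ‖f' x - w (f x)‖)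
      rw [neg_zero] at this
      rw [← this]
      refine intervalIntegral.integral_congr fun x _ => ?_
      simp only
      rw [← norm_neg]
      congr 1
      abel
    rw [e1]
    refine le_trans ?_ h.int
    rw [intervalIntegral.integral_of_le (by linarith), intervalIntegral.integral_of_le (by linarith)]
    refine setIntegral_mono_set ?_ ?_ ?_
    · exact (hR.norm.integrableOn_Icc).mono_set Ioc_subset_Icc_self
    · exact Eventually.of_forall fun x => norm_nonneg _
    · exact LE.le.eventuallyLE (Ioc_subset_Ioc_right (by linarith))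

theorem pair_bound' {X B ε δ : ℝ} (hX : 0 ≤ X) {w : E → E} {C : NNReal} (hC : 1 ≤ C)
    (hw : LipschitzOnWith C w (Metric.closedBall 0 (B + 1))) {f f' g g' : ℝ → E}
    (hf : Good (-X) X B ε w f f') (hg : Good (-X) X B ε w g g') (h1 : ε ≤ 1)
    (hδ : dist (f 0) (g 0) ≤ δ) {x : ℝ} (hx : x ∈ Icc (-X) X) :
    dist (f x) (g x) ≤ (δ + (C * ε + C * ε)) * Real.exp (C * X) + (ε + ε) := by
  have hsub : Metric.closedBall (0:E) B ⊆ Metric.closedBall 0 (B + 1) :=
    Metric.closedBall_subset_closedBall (by linarith)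
  have hwB : ContinuousOn w (Metric.closedBall 0 B) := hw.continuousOn.mono hsub
  rcases le_total 0 x with h | h
  · exact pair_bound hX hC hw (hf.right hX hwB) (hg.right hX hwB) h1 h1 hδ ⟨h, hx.2⟩
  · have := pair_bound hX hC (w := fun y => - w y) (f := fun x => f (-x)) (g := fun x => g (-x))
      (x := -x) (δ := δ) (LipschitzOnWith.of_dist_le_mul fun y hy z hz => by
        rw [dist_neg_neg]; exact hw.dist_le_mul y hy z hz)
      (hf.left hX hwB) (hg.left hX hwB) h1 h1 (by simpa using hδ)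
      ⟨by linarith, by linarith [hx.1]⟩
    simpa using this

theorem limit_flow {f f' : ℕ → ℝ → E} {w : E → E} {B : ℝ} {C : NNReal} (hC : 1 ≤ C)
    (hw : LipschitzOnWith C w (Metric.closedBall 0 (B + 1))) {ε : ℝ → ℕ → ℝ}
    (hgood : ∀ X, 0 < X → ∀ᶠ k in atTop, Good (-X) X B (ε X k) w (f k) (f' k))
    (hε : ∀ X, 0 < X → Tendsto (ε X) atTop (𝓝 0))
    (h0 : CauchySeq fun k => f k 0) :
    ∃ F : ℝ → E, (∀ x, Tendsto (fun k => f k x) atTop (𝓝 (F x))) ∧
      ∀ x, HasDerivAt F (w (F x)) x := by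
  have hsub : Metric.closedBall (0:E) B ⊆ Metric.closedBall 0 (B + 1) :=
    Metric.closedBall_subset_closedBall (by linarith)
  have hwB : ContinuousOn w (Metric.closedBall 0 B) := hw.continuousOn.mono hsub
  have huc : ∀ X, 0 < X → UniformCauchySeqOn f atTop (Icc (-X) X) := by
    intro X hX
    rw [Metric.uniformCauchySeqOn_iff]
    intro δ hδ
    set M : ℝ := (1 + 2 * C) * Real.exp (C * X) + 2 with hM
    have hMpos : 0 < M := by
      have := Real.exp_pos (C * X)
      have := C.coe_nonneg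
      positivity
    set η : ℝ := min 1 (δ / (2 * M)) with hη
    have hη0 : 0 < η := lt_min one_pos (by positivity)
    have hη1 : η ≤ 1 := min_le_left _ _
    have hηM : η * M < δ := by
      have h1 : η ≤ δ / (2 * M) := min_le_right _ _
      have h2 : η * M ≤ δ / (2 * M) * M := mul_le_mul_of_nonneg_right h1 hMpos.le
      have h3 : δ / (2 * M) * M = δ / 2 := by field_simp
      linarith
    obtain ⟨N1, hN1⟩ := eventually_atTop.1 (hgood X hX)
    obtain ⟨N2, hN2⟩ := eventually_atTop.1 ((hε X hX).eventually_le_const hη0)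
    obtain ⟨N3, hN3⟩ := Metric.cauchySeq_iff.1 h0 η hη0
    refine ⟨max N1 (max N2 N3), fun m hm n hn x hx => ?_⟩
    have m1 : N1 ≤ m := (le_max_left _ _).trans hm
    have m2 : N2 ≤ m := ((le_max_left _ _).trans (le_max_right _ _)).trans hm
    have m3 : N3 ≤ m := ((le_max_right _ _).trans (le_max_right _ _)).trans hm
    have n1 : N1 ≤ n := (le_max_left _ _).trans hn
    have n2 : N2 ≤ n := ((le_max_left _ _).trans (le_max_right _ _)).trans hn
    have n3 : N3 ≤ n := ((le_max_right _ _).trans (le_max_right _ _)).trans hn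
    have := pair_bound' hX.le hC hw ((hN1 m m1).mono_eps (hN2 m m2))
      ((hN1 n n1).mono_eps (hN2 n n2)) hη1 (hN3 m m3 n n3).le hx
    refine this.trans_lt ?_
    calc (η + (C * η + C * η)) * Real.exp (C * X) + (η + η) = η * M := by rw [hM]; ring
      _ < δ := hηM
  have hlim : ∀ x, ∃ y, Tendsto (fun k => f k x) atTop (𝓝 y) := by
    intro x
    apply cauchySeq_tendsto_of_complete
    rw [Metric.cauchySeq_iff]
    intro δ hδ
    have hX : 0 < |x| + 1 := by positivity
    obtain ⟨N, hN⟩ := Metric.uniformCauchySeqOn_iff.1 (huc _ hX) δ hδ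
    refine ⟨N, fun m hm n hn => hN m hm n hn x ?_⟩
    constructor
    · linarith [neg_abs_le x]
    · linarith [le_abs_self x]
  choose F hF using hlim
  refine ⟨F, hF, fun x => ?_⟩
  set X : ℝ := |x| + 1 with hXd
  have hX : 0 < X := by positivity
  have hxs : x ∈ Ioo (-X) X := ⟨by linarith [neg_abs_le x], by linarith [le_abs_self x]⟩
  have h0X : (0:ℝ) ∈ Icc (-X) X := ⟨by linarith, hX.le⟩
  have hFB : ∀ y ∈ Icc (-X) X, F y ∈ Metric.closedBall (0:E) B := by
    intro y hy
    refine Metric.isClosed_closedBall.mem_of_tendsto (hF y) ?_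
    filter_upwards [hgood X hX] with k hk
    rw [mem_closedBall_zero_iff]
    exact hk.bdd y hy
  have hunif : TendstoUniformlyOn f F atTop (Icc (-X) X) :=
    (huc X hX).tendstoUniformlyOn_of_tendsto fun y _ => hF y
  refine hasDerivAt_of_tendstoUniformlyOn (l := atTop) (s := Ioo (-X) X) isOpen_Ioo
    (f := fun k y => f k y - ∫ s in (0:ℝ)..y, (f' k s - w (f k s)))
    (f' := fun k y => w (f k y)) (g := F) (g' := fun y => w (F y)) ?_ ?_ ?_ hxs
  · rw [Metric.tendstoUniformlyOn_iff]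
    intro δ hδ
    have hC0 : (0:ℝ) < C := lt_of_lt_of_le one_pos (by exact_mod_cast hC)
    have := Metric.tendstoUniformlyOn_iff.1 hunif (δ / C) (by positivity)
    filter_upwards [this, hgood X hX] with k hk hg y hy
    have hy' : y ∈ Icc (-X) X := Ioo_subset_Icc_self hy
    have h1 := hk y hy'
    have h2 := hw.dist_le_mul _ (hsub (hFB y hy')) _ (hsub (show f k y ∈ Metric.closedBall (0:E) B by
      rw [mem_closedBall_zero_iff]; exact hg.bdd y hy'))
    refine h2.trans_lt ?_
    calc (C:ℝ) * dist (F y) (f k y) < C * (δ / C) := mul_lt_mul_of_pos_left h1 hC0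
      _ = δ := by field_simp
  · filter_upwards [hgood X hX] with k hg y hy
    have hy' : y ∈ Icc (-X) X := Ioo_subset_Icc_self hy
    obtain ⟨-, -, hd⟩ := prim (by linarith : -X ≤ X) hwB hg h0X
    have h1 := (hg.der y hy').fun_sub (hd y hy')
    rw [sub_sub_cancel] at h1
    exact h1.hasDerivAt (Icc_mem_nhds hy.1 hy.2)
  · intro y hy
    have hy' : y ∈ Icc (-X) X := Ioo_subset_Icc_self hy
    have h1 : Tendsto (fun k => ∫ s in (0:ℝ)..y, (f' k s - w (f k s))) atTop (𝓝 0) := by
      refine squeeze_zero_norm' ?_ (hε X hX)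
      filter_upwards [hgood X hX] with k hg
      exact (prim (by linarith : -X ≤ X) hwB hg h0X).2.1 y hy'
    simpa using (hF y).sub h1

end Crest.Agent.R332.H5_aux
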