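import Crest.Agent.R332.API

/-!
# R332 piece H6: the commuting flow `F' = -(1/ν)(T - F²)` is explicit

Simultaneously diagonalise the commuting Hermitian matrices `dg tt` and `Ft 0`:
`dg tt = u dg(τ) u*`, `Ft 0 = u dg(f₀) u*` (τ is a permutation of tt, so `τ_i > 0`); `Btw` gives
`|f₀ i| ≤ √τ_i`. If `|f₀ i| < √τ_i` put `f_i(x) = -√τ_i tanh(√τ_i (x - c_i)/ν)` with `c_i` such
that `f_i(0) = f₀ i`; otherwise `f_i` constant `±√τ_i`. `u dg(f(x)) u*` solves the same ODE with
the same value at 0; uniqueness (locally Lipschitz right hand side, both solutions bounded).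
-/

set_option autoImplicit false
open MeasureTheory Set Matrix
open scoped ComplexOrder

namespace Crest.Agent.R332
namespace H6_aux

variable {n : ℕ}

lemma mul_dg_apply {m : ℕ} (A : Matrix (Fin m) (Fin n) ℂ) (a : Fin n → ℝ) (i : Fin m) (j : Fin n) :
    (A * dg a) i j = A i j * a j := by
  unfold dg; rw [Matrix.mul_diagonal]

lemma dg_mul_apply {m : ℕ} (A : Matrix (Fin n) (Fin m) ℂ) (a : Fin n → ℝ) (i : Fin n) (j : Fin m) :
    (dg a * A) i j = a i * A i j := by
  unfold dg; rw [Matrix.diagonal_mul]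

/-- an eigenvalue of `w dg β wᴴ` is one of the `β i` -/
lemma eig_mem {w B : Matrix (Fin n) (Fin n) ℂ} {β : Fin n → ℝ} (hw : wᴴ * w = 1) (hw' : w * wᴴ = 1)
    (hB : B = w * dg β * wᴴ) {x : Fin n → ℂ} (hx : x ≠ 0) {c : ℝ}
    (h : B *ᵥ x = (c : ℂ) • x) : ∃ i, β i = c := by
  set y := wᴴ *ᵥ x with hy
  have hy0 : y ≠ 0 := by
    intro h0
    apply hx
    have h1 : w *ᵥ y = x := by rw [hy, Matrix.mulVec_mulVec, hw', Matrix.one_mulVec]
    rw [← h1, h0, Matrix.mulVec_zero]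
  have h1 : dg β *ᵥ y = (c : ℂ) • y := by
    have h2 : wᴴ *ᵥ (B *ᵥ x) = dg β *ᵥ y := by
      rw [hB, Matrix.mulVec_mulVec, hy, Matrix.mulVec_mulVec, ← Matrix.mul_assoc,
        ← Matrix.mul_assoc, hw, Matrix.one_mul]
    rw [← h2, h, Matrix.mulVec_smul]
  obtain ⟨i, hi⟩ : ∃ i, y i ≠ 0 := by
    by_contra hne
    push Not at hne
    exact hy0 (funext hne)
  refine ⟨i, ?_⟩
  have h3 := congrFun h1 i
  unfold dg at h3
  rw [Matrix.mulVec_diagonal] at h3
  simp only [Pi.smul_apply, smul_eq_mul] at h3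
  have := mul_right_cancel₀ hi h3
  exact_mod_cast this

lemma smul_dg (t : ℝ) (a : Fin n → ℝ) : (t : ℂ) • dg a = dg (fun i => t * a i) := by
  have := smul_conj_dg t (1 : Matrix (Fin n) (Fin n) ℂ) a
  simpa using this

lemma dg_sub (a b : Fin n → ℝ) : dg a - dg b = dg (fun i => a i - b i) := by
  unfold dg
  rw [Matrix.diagonal_sub]
  congr 1
  funext i
  push_cast
  rfl

lemma dg_add (a b : Fin n → ℝ) : dg a + dg b = dg (fun i => a i + b i) := by
  unfold dg
  rw [Matrix.diagonal_add]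
  congr 1
  funext i
  push_cast
  rfl

/-- simultaneous diagonalisation when the first matrix is diagonal -/
lemma simul_diag_dg {α : Fin n → ℝ} {B : Matrix (Fin n) (Fin n) ℂ} (hB : B.IsHermitian)
    (hAB : dg α * B = B * dg α) :
    ∃ (w : Matrix (Fin n) (Fin n) ℂ) (a b : Fin n → ℝ), wᴴ * w = 1 ∧ w * wᴴ = 1 ∧
      dg α = w * dg a * wᴴ ∧ B = w * dg b * wᴴ := by
  obtain ⟨w₀, β, hw₀, hw₀', hB₀⟩ := exists_diag hB
  -- a real number `t` avoiding the finitely many bad ratios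
  obtain ⟨t, ht⟩ : ∃ t : ℝ, ∀ i j k l, α k ≠ α l → β i - β j ≠ t * (α l - α k) := by
    let S : Finset ℝ := Finset.univ.image
      (fun q : (Fin n × Fin n) × (Fin n × Fin n) =>
        (β q.1.1 - β q.1.2) / (α q.2.2 - α q.2.1))
    obtain ⟨t, ht⟩ := Infinite.exists_notMem_finset S
    refine ⟨t, fun i j k l hkl h => ht ?_⟩
    refine Finset.mem_image.2 ⟨((i, j), (k, l)), Finset.mem_univ _, ?_⟩
    have h0 : α l - α k ≠ 0 := sub_ne_zero.2 (Ne.symm hkl)
    show (β i - β j) / (α l - α k) = t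
    rw [h, mul_div_assoc, div_self h0, mul_one]
  have hC : (B + (t : ℂ) • dg α).IsHermitian := by
    rw [smul_dg]
    exact hB.add (dg_isHermitian _)
  obtain ⟨w, γ, hw, hw', hCw⟩ := exists_diag hC
  have hCw' : (B + (t : ℂ) • dg α) * w = w * dg γ := by
    rw [hCw, Matrix.mul_assoc, hw, Matrix.mul_one]
  have hentry : ∀ i j, (B * w) i j = (γ j - t * α i : ℝ) * w i j := by
    intro i j
    have h1 := congrFun (congrFun hCw' i) j
    rw [Matrix.add_mul, Matrix.add_apply, Matrix.smul_mul, Matrix.smul_apply, dg_mul_apply,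
      mul_dg_apply, smul_eq_mul] at h1
    have h2 : (B * w) i j = w i j * γ j - t * (α i * w i j) := by rw [← h1]; ring
    rw [h2]
    push_cast
    ring
  have hblock : ∀ i k, α i ≠ α k → B i k = 0 := by
    intro i k hik
    have h1 := congrFun (congrFun hAB i) k
    rw [dg_mul_apply, mul_dg_apply] at h1
    have h2 : ((α i : ℂ) - α k) * B i k = 0 := by rw [sub_mul, h1]; ring
    rcases mul_eq_zero.1 h2 with h3 | h3
    · exact absurd (by exact_mod_cast sub_eq_zero.1 h3) hik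
    · exact h3
  -- the restriction of a column of `w` to `{α = α k}` is an eigenvector of `B`
  have heig : ∀ j k, w k j ≠ 0 → ∃ i, β i = γ j - t * α k := by
    intro j k hk
    refine eig_mem hw₀ hw₀' hB₀ (x := fun i => if α i = α k then w i j else 0) ?_ ?_
    · intro h0
      have := congrFun h0 k
      simp only [if_true, Pi.zero_apply] at this
      exact hk this
    · funext i
      have h1 : (B *ᵥ fun i => if α i = α k then w i j else 0) i =
          ∑ l, B i l * (if α l = α k then w l j else 0) := rfl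
      rw [h1]
      simp only [Pi.smul_apply, smul_eq_mul]
      by_cases hi : α i = α k
      · rw [if_pos hi]
        have h2 : ∑ l, B i l * (if α l = α k then w l j else 0) = (B * w) i j := by
          rw [Matrix.mul_apply]
          refine Finset.sum_congr rfl fun l _ => ?_
          by_cases hl : α l = α k
          · rw [if_pos hl]
          · rw [if_neg hl, hblock i l (fun h => hl (h ▸ hi)), zero_mul, zero_mul]
        rw [h2, hentry, hi]
      · rw [if_neg hi, mul_zero]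
        refine Finset.sum_eq_zero fun l _ => ?_
        by_cases hl : α l = α k
        · rw [hblock i l (fun h => hi (h.trans hl)), zero_mul]
        · rw [if_neg hl, mul_zero]
  have hconst : ∀ j k l, w k j ≠ 0 → w l j ≠ 0 → α k = α l := by
    intro j k l hk hl
    by_contra hne
    obtain ⟨i, hi⟩ := heig j k hk
    obtain ⟨i', hi'⟩ := heig j l hl
    exact ht i i' k l hne (by rw [hi, hi']; ring)
  have hcol : ∀ j, ∃ k, w k j ≠ 0 := by
    intro j
    by_contra hne
    push Not at hne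
    have h1 := congrFun (congrFun hw j) j
    rw [Matrix.mul_apply, Matrix.one_apply_eq] at h1
    rw [Finset.sum_eq_zero (fun k _ => by rw [hne k, mul_zero])] at h1
    exact zero_ne_one h1
  choose κ hκ using hcol
  have hαw : dg α * w = w * dg (fun j => α (κ j)) := by
    ext i j
    rw [dg_mul_apply, mul_dg_apply]
    by_cases h : w i j = 0
    · rw [h, mul_zero, zero_mul]
    · rw [hconst j i (κ j) h (hκ j), mul_comm]
  have hα : dg α = w * dg (fun j => α (κ j)) * wᴴ := by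
    rw [← hαw, Matrix.mul_assoc, hw', Matrix.mul_one]
  refine ⟨w, fun j => α (κ j), fun j => γ j - t * α (κ j), hw, hw', hα, ?_⟩
  have h1 : B = (B + (t : ℂ) • dg α) - (t : ℂ) • dg α := by rw [add_sub_cancel_right]
  rw [h1, hCw]
  conv_lhs => rw [hα]
  rw [smul_conj_dg, ← Matrix.sub_mul, ← Matrix.mul_sub, dg_sub]

end H6_aux
open H6_aux

/-- simultaneous diagonalisation of two commuting Hermitian matrices -/
theorem simul_diag {n : ℕ} {A B : Matrix (Fin n) (Fin n) ℂ} (hA : A.IsHermitian)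
    (hB : B.IsHermitian) (hAB : A * B = B * A) :
    ∃ (u : Matrix (Fin n) (Fin n) ℂ) (a b : Fin n → ℝ), uᴴ * u = 1 ∧ u * uᴴ = 1 ∧
      A = u * dg a * uᴴ ∧ B = u * dg b * uᴴ := by
  obtain ⟨v, α, hv, hv', hAv⟩ := exists_diag hA
  have hB' : (vᴴ * B * v).IsHermitian := by
    show (vᴴ * B * v)ᴴ = vᴴ * B * v
    rw [Matrix.conjTranspose_mul, Matrix.conjTranspose_mul, Matrix.conjTranspose_conjTranspose,
      hB.eq, Matrix.mul_assoc]
  have hα : dg α = vᴴ * A * v := by
    rw [hAv]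
    calc dg α = (vᴴ * v) * dg α * (vᴴ * v) := by rw [hv, Matrix.one_mul, Matrix.mul_one]
      _ = _ := by simp only [Matrix.mul_assoc]
  have hcomm : dg α * (vᴴ * B * v) = (vᴴ * B * v) * dg α := by
    rw [hα]
    calc vᴴ * A * v * (vᴴ * B * v) = vᴴ * A * (v * vᴴ) * B * v := by
          simp only [Matrix.mul_assoc]
      _ = vᴴ * (A * B) * v := by rw [hv', Matrix.mul_one, Matrix.mul_assoc vᴴ]
      _ = vᴴ * B * (v * vᴴ) * A * v := by
          rw [hv', hAB, Matrix.mul_one]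
          simp only [Matrix.mul_assoc]
      _ = _ := by simp only [Matrix.mul_assoc]
  obtain ⟨w, a, b, hw, hw', h1, h2⟩ := simul_diag_dg hB' hcomm
  refine ⟨v * w, a, b, ?_, ?_, ?_, ?_⟩
  · rw [Matrix.conjTranspose_mul, Matrix.mul_assoc, ← Matrix.mul_assoc vᴴ, hv, Matrix.one_mul, hw]
  · rw [Matrix.conjTranspose_mul, Matrix.mul_assoc, ← Matrix.mul_assoc w, hw', Matrix.one_mul, hv']
  · rw [Matrix.conjTranspose_mul, hAv, h1]
    simp only [Matrix.mul_assoc]
  · have h3 : B = v * (vᴴ * B * v) * vᴴ := by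
      calc B = (v * vᴴ) * B * (v * vᴴ) := by rw [hv', Matrix.one_mul, Matrix.mul_one]
        _ = _ := by simp only [Matrix.mul_assoc]
    rw [h3, h2, Matrix.conjTranspose_mul]
    simp only [Matrix.mul_assoc]

namespace H6_aux

variable {n : ℕ}

/-- the norm of the entries of a unitary matrix -/
lemma unitary_entry_le {u : Matrix (Fin n) (Fin n) ℂ} (hu' : u * uᴴ = 1) (i j : Fin n) :
    ‖u i j‖ ≤ 1 := by
  have h1 : ∑ k, ‖u i k‖ ^ 2 = 1 := by
    have h2 := congrFun (congrFun hu' i) i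
    rw [Matrix.mul_apply, Matrix.one_apply_eq] at h2
    have h3 : ∀ k, u i k * uᴴ k i = ((‖u i k‖ ^ 2 : ℝ) : ℂ) := by
      intro k
      rw [Matrix.conjTranspose_apply]
      have := Complex.mul_conj (u i k)
      rw [Complex.normSq_eq_norm_sq] at this
      exact this
    rw [Finset.sum_congr rfl fun k _ => h3 k, ← Complex.ofReal_sum] at h2
    exact_mod_cast h2
  have h2 : ‖u i j‖ ^ 2 ≤ 1 := by
    rw [← h1]
    exact Finset.single_le_sum (f := fun k => ‖u i k‖ ^ 2) (fun k _ => by positivity)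
      (Finset.mem_univ j)
  nlinarith [norm_nonneg (u i j)]

lemma conj_entry_le {u : Matrix (Fin n) (Fin n) ℂ} (hu' : u * uᴴ = 1) (f : Fin n → ℝ)
    {R : ℝ} (hf : ∀ i, |f i| ≤ R) (i j : Fin n) : ‖(u * dg f * uᴴ) i j‖ ≤ n * R := by
  rw [Matrix.mul_apply]
  have h1 : ∀ k, ‖(u * dg f) i k * uᴴ k j‖ ≤ R := by
    intro k
    rw [mul_dg_apply, Matrix.conjTranspose_apply, norm_mul, norm_mul, norm_star,
      Complex.norm_real, Real.norm_eq_abs]
    have h2 := unitary_entry_le hu' i k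
    have h3 := unitary_entry_le hu' j k
    have h4 := hf k
    have h5 : 0 ≤ |f k| := abs_nonneg _
    have h6 : 0 ≤ 1 * R := by linarith
    calc ‖u i k‖ * |f k| * ‖u j k‖ ≤ 1 * R * 1 := by gcongr
      _ = R := by ring
  calc ‖∑ k, (u * dg f) i k * uᴴ k j‖ ≤ ∑ k : Fin n, R := by
        refine (norm_sum_le _ _).trans (Finset.sum_le_sum fun k _ => h1 k)
    _ = n * R := by rw [Finset.sum_const, Finset.card_univ, Fintype.card_fin, nsmul_eq_mul]

lemma btw_entry_le {d : Fin n → ℝ} {F : Matrix (Fin n) (Fin n) ℂ} (hF : Btw d F) {R : ℝ}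
    (hd : ∀ i, d i ≤ R) (i j : Fin n) : ‖F i j‖ ≤ n * R := by
  obtain ⟨u, f, hu, hu', hFu⟩ := exists_diag hF.isHermitian
  have hR1 : ∀ i, |f i| ≤ R := by
    have hRd : (dg (fun i => R - d i)).PosSemidef :=
      dg_posSemidef fun i => sub_nonneg.2 (hd i)
    have hone : dg (fun _ : Fin n => R) = u * dg (fun _ => R) * uᴴ := by
      have : dg (fun _ : Fin n => R) = (R : ℂ) • (1 : Matrix (Fin n) (Fin n) ℂ) := by
        unfold dg
        ext i j
        by_cases h : i = j <;> simp [h]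
      rw [this, Matrix.mul_smul, Matrix.smul_mul, Matrix.mul_one, hu']
    have h1 : (u * dg (fun i => R - f i) * uᴴ).PosSemidef := by
      have h2 := hRd.add hF.1
      have h3 : dg (fun i => R - d i) + (dg d - F) = u * dg (fun i => R - f i) * uᴴ := by
        rw [← dg_sub, ← dg_sub, Matrix.mul_sub, Matrix.sub_mul, ← hone, ← hFu]
        abel
      rwa [h3] at h2
    have h1' : (u * dg (fun i => R + f i) * uᴴ).PosSemidef := by
      have h2 := hRd.add hF.2
      have h3 : dg (fun i => R - d i) + (dg d + F) = u * dg (fun i => R + f i) * uᴴ := by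
        rw [← dg_sub, ← dg_add, Matrix.mul_add, Matrix.add_mul, ← hone, ← hFu]
        abel
      rwa [h3] at h2
    intro i
    have h4 := diag_nonneg hu rfl h1 i
    have h5 := diag_nonneg hu rfl h1' i
    rw [abs_le]
    constructor <;> linarith
  rw [hFu]
  exact conj_entry_le hu' f hR1 i j

lemma hasDerivAt_tanh (y : ℝ) : HasDerivAt Real.tanh (1 - Real.tanh y ^ 2) y := by
  have h1 : Real.tanh = fun y => Real.sinh y / Real.cosh y := by
    funext y; exact Real.tanh_eq_sinh_div_cosh y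
  have hc : Real.cosh y ≠ 0 := (Real.cosh_pos y).ne'
  rw [h1]
  have h2 := (Real.hasDerivAt_sinh y).div (Real.hasDerivAt_cosh y) hc
  refine h2.congr_deriv ?_
  show (Real.cosh y * Real.cosh y - Real.sinh y * Real.sinh y) / Real.cosh y ^ 2 =
    1 - (Real.sinh y / Real.cosh y) ^ 2
  field_simp

/-- the scalar flow -/
lemma scalar_flow {ν : ℝ} (h0 : 0 < ν) {τ f₀ : ℝ} (hτ : 0 < τ) (hf : |f₀| ≤ √τ) :
    ∃ f : ℝ → ℝ, f 0 = f₀ ∧ (∀ x, HasDerivAt f (-ν⁻¹ * (τ - f x ^ 2)) x) ∧ (∀ x, |f x| ≤ √τ) ∧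
      ((∃ c : ℝ, ∀ x, f x = -√τ * Real.tanh (ν⁻¹ * √τ * (x - c))) ∨
        (∀ x, f x = √τ) ∨ (∀ x, f x = -√τ)) := by
  have hs : 0 < √τ := Real.sqrt_pos.2 hτ
  have hss : √τ ^ 2 = τ := Real.sq_sqrt hτ.le
  by_cases h1 : f₀ = √τ
  · refine ⟨fun _ => √τ, h1.symm, fun x => ?_, fun x => (abs_of_pos hs).le, Or.inr (Or.inl fun _ => rfl)⟩
    refine (hasDerivAt_const x (√τ)).congr_deriv ?_
    rw [hss, sub_self, mul_zero]
  by_cases h2 : f₀ = -√τ
  · refine ⟨fun _ => -√τ, h2.symm, fun x => ?_, fun x => ?_, Or.inr (Or.inr fun _ => rfl)⟩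
    · refine (hasDerivAt_const x (-√τ)).congr_deriv ?_
      rw [neg_sq, hss, sub_self, mul_zero]
    · rw [abs_neg]; exact (abs_of_pos hs).le
  have hlt : |f₀| < √τ := by
    refine lt_of_le_of_ne hf fun h => ?_
    rcases abs_choice f₀ with h3 | h3
    · exact h1 (by rw [← h3, h])
    · exact h2 (by rw [← h, h3, neg_neg])
  obtain ⟨hlt1, hlt2⟩ := abs_lt.1 hlt
  have hmem : f₀ / √τ ∈ Ioo (-1 : ℝ) 1 := by
    constructor
    · rw [lt_div_iff₀ hs]; linarith
    · rw [div_lt_iff₀ hs]; linarith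
  set c : ℝ := ν / √τ * Real.artanh (f₀ / √τ) with hc
  refine ⟨fun x => -√τ * Real.tanh (ν⁻¹ * √τ * (x - c)), ?_, fun x => ?_, fun x => ?_,
    Or.inl ⟨c, fun x => rfl⟩⟩
  · have h3 : ν⁻¹ * √τ * (0 - c) = -Real.artanh (f₀ / √τ) := by
      rw [hc]; field_simp; ring
    show -√τ * Real.tanh (ν⁻¹ * √τ * (0 - c)) = f₀
    rw [h3, Real.tanh_neg, Real.tanh_artanh hmem]
    field_simp
  · have h3 : HasDerivAt (fun x => ν⁻¹ * √τ * (x - c)) (ν⁻¹ * √τ) x := by
      simpa using ((hasDerivAt_id x).sub_const c).const_mul (ν⁻¹ * √τ)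
    have h4 := ((hasDerivAt_tanh (ν⁻¹ * √τ * (x - c))).comp x h3).const_mul (-√τ)
    refine h4.congr_deriv ?_
    show -√τ * ((1 - Real.tanh (ν⁻¹ * √τ * (x - c)) ^ 2) * (ν⁻¹ * √τ)) =
      -ν⁻¹ * (τ - (-√τ * Real.tanh (ν⁻¹ * √τ * (x - c))) ^ 2)
    generalize Real.tanh (ν⁻¹ * √τ * (x - c)) = T
    rw [mul_pow, neg_sq, hss]
    linear_combination (-ν⁻¹ * (1 - T ^ 2)) * hss
  · show |-√τ * Real.tanh (ν⁻¹ * √τ * (x - c))| ≤ √τ
    rw [abs_mul, abs_neg, abs_of_pos hs]
    have h3 : |Real.tanh (ν⁻¹ * √τ * (x - c))| ≤ 1 := by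
      have := Real.abs_tanh_lt_one (ν⁻¹ * √τ * (x - c))
      exact this.le
    calc √τ * |Real.tanh (ν⁻¹ * √τ * (x - c))| ≤ √τ * 1 := by gcongr
      _ = √τ := mul_one _

/-- the matrix vector field `X ↦ c (T - X²)` -/
def vf {K : ℕ} (c : ℂ) (T X : Matrix (Fin K) (Fin K) ℂ) : Matrix (Fin K) (Fin K) ℂ :=
  c • (T - X * X)

/-- the matrix vector field is Lipschitz on bounded sets (sup norm of the entries) -/
lemma lipschitz_vf {K : ℕ} (c : ℂ) (T : Matrix (Fin K) (Fin K) ℂ) {R : ℝ} (hR : 0 ≤ R) :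
    ∃ C : NNReal, LipschitzOnWith C
      (fun X : Fin K → Fin K → ℂ => (fun i j => vf c T X i j : Fin K → Fin K → ℂ))
      {X : Fin K → Fin K → ℂ | ∀ i j, ‖X i j‖ ≤ R} := by
  refine ⟨⟨‖c‖ * (K * (2 * R)), by positivity⟩, LipschitzOnWith.of_dist_le_mul ?_⟩
  intro X hX Y hY
  have hd0 : 0 ≤ dist X Y := dist_nonneg
  have hent : ∀ i j, ‖X i j - Y i j‖ ≤ dist X Y := by
    intro i j
    rw [← dist_eq_norm]
    exact (dist_le_pi_dist (X i) (Y i) j).trans (dist_le_pi_dist X Y i)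
  show _ ≤ ‖c‖ * (K * (2 * R)) * dist X Y
  refine (dist_pi_le_iff (by positivity)).2 fun i => (dist_pi_le_iff (by positivity)).2 fun j => ?_
  rw [dist_eq_norm]
  have h1 : vf c T X i j - vf c T Y i j =
      -c * ∑ k, (X i k * (X k j - Y k j) + (X i k - Y i k) * Y k j) := by
    have h2 : ∑ k, (X i k * (X k j - Y k j) + (X i k - Y i k) * Y k j) =
        ∑ k, X i k * X k j - ∑ k, Y i k * Y k j := by
      rw [← Finset.sum_sub_distrib]
      refine Finset.sum_congr rfl fun k _ => ?_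
      ring
    rw [h2]
    show c * (T i j - ∑ k, X i k * X k j) - c * (T i j - ∑ k, Y i k * Y k j) = _
    ring
  rw [h1, norm_mul, norm_neg, mul_assoc ‖c‖]
  refine mul_le_mul_of_nonneg_left ?_ (norm_nonneg _)
  calc ‖∑ k, (X i k * (X k j - Y k j) + (X i k - Y i k) * Y k j)‖
      ≤ ∑ k : Fin K, (2 * R) * dist X Y := by
        refine (norm_sum_le _ _).trans (Finset.sum_le_sum fun k _ => ?_)
        refine (norm_add_le _ _).trans ?_
        rw [norm_mul, norm_mul]
        have e1 : ‖X i k‖ * ‖X k j - Y k j‖ ≤ R * dist X Y :=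
          mul_le_mul (hX i k) (hent k j) (norm_nonneg _) hR
        have e2 : ‖X i k - Y i k‖ * ‖Y k j‖ ≤ dist X Y * R :=
          mul_le_mul (hent i k) (hY k j) (norm_nonneg _) hd0
        linarith
    _ = K * (2 * R) * dist X Y := by
        rw [Finset.sum_const, Finset.card_univ, Fintype.card_fin, nsmul_eq_mul]
        ring

end H6_aux

theorem explicit_flow {ν : ℝ} (h0 : 0 < ν) {K : ℕ} (tt : Fin K → ℝ) (htt : ∀ i, 0 < tt i)
    (Ft : ℝ → Matrix (Fin K) (Fin K) ℂ)
    (hd : ∀ x i j, HasDerivAt (fun y => Ft y i j)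
      ((((-ν⁻¹ : ℝ) : ℂ) • (dg tt - Ft x * Ft x)) i j) x)
    (hcomm : ∀ x, dg tt * Ft x = Ft x * dg tt) (hbtw : ∀ x, Btw (fun i => √(tt i)) (Ft x)) :
    ∃ (u : Matrix (Fin K) (Fin K) ℂ) (τ : Fin K → ℝ) (f : Fin K → ℝ → ℝ),
      uᴴ * u = 1 ∧ u * uᴴ = 1 ∧ dg tt = u * dg τ * uᴴ ∧ (∀ i, 0 < τ i) ∧
      (∀ x, Ft x = u * dg (fun i => f i x) * uᴴ) ∧
      ∀ i, (∃ c : ℝ, ∀ x, f i x = -√(τ i) * Real.tanh (ν⁻¹ * √(τ i) * (x - c))) ∨
        (∀ x, f i x = √(τ i)) ∨ (∀ x, f i x = -√(τ i)) := by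
  obtain ⟨u, τ, f₀, hu, hu', hτu, hFu⟩ :=
    simul_diag (dg_isHermitian tt) (hbtw 0).isHermitian (hcomm 0)
  have hτ : ∀ i, 0 < τ i := diag_pos hu hτu (dg_posDef htt)
  have hsq : dg (fun i => √(tt i)) = u * dg (fun i => √(τ i)) * uᴴ := by
    have h1 : cfc Real.sqrt (dg tt) = dg (fun i => √(tt i)) := by
      have := cfc_diag (n := K) (u := 1) (a := tt) (by simp) (by simp) Real.sqrt
      simpa using this
    rw [← h1, hτu, cfc_diag hu hu']
  have hf₀ : ∀ i, |f₀ i| ≤ √(τ i) := by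
    have h1 : (u * dg (fun i => √(τ i) - f₀ i) * uᴴ).PosSemidef := by
      have h2 := (hbtw 0).1
      rwa [hsq, hFu, ← Matrix.sub_mul, ← Matrix.mul_sub, dg_sub] at h2
    have h2 : (u * dg (fun i => √(τ i) + f₀ i) * uᴴ).PosSemidef := by
      have h2 := (hbtw 0).2
      rwa [hsq, hFu, ← Matrix.add_mul, ← Matrix.mul_add, dg_add] at h2
    intro i
    have h3 := diag_nonneg hu rfl h1 i
    have h4 := diag_nonneg hu rfl h2 i
    rw [abs_le]
    constructor <;> linarith
  choose f hf0 hfd hfb hfe using fun i => scalar_flow h0 (hτ i) (hf₀ i)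
  set G : ℝ → Matrix (Fin K) (Fin K) ℂ := fun x => u * dg (fun i => f i x) * uᴴ with hG
  -- a common bound
  obtain ⟨R, hR0, hR1, hR2⟩ : ∃ R : ℝ, 0 ≤ R ∧ (∀ i, √(tt i) ≤ R) ∧ (∀ i, √(τ i) ≤ R) := by
    refine ⟨∑ i, √(tt i) + ∑ i, √(τ i), by positivity, fun i => ?_, fun i => ?_⟩
    · have h1 := Finset.single_le_sum (f := fun i => √(tt i)) (fun i _ => Real.sqrt_nonneg _)
        (Finset.mem_univ i)
      have h2 : 0 ≤ ∑ i, √(τ i) := Finset.sum_nonneg fun i _ => Real.sqrt_nonneg _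
      linarith
    · have h1 := Finset.single_le_sum (f := fun i => √(τ i)) (fun i _ => Real.sqrt_nonneg _)
        (Finset.mem_univ i)
      have h2 : 0 ≤ ∑ i, √(tt i) := Finset.sum_nonneg fun i _ => Real.sqrt_nonneg _
      linarith
  obtain ⟨C, hC⟩ := lipschitz_vf (K := K) ((-ν⁻¹ : ℝ) : ℂ) (dg tt) (R := K * R) (by positivity)
  have hFG : (fun x => (Ft x : Fin K → Fin K → ℂ)) = fun x => (G x : Fin K → Fin K → ℂ) := by
    refine ODE_solution_unique_univ (v := fun _ => (fun X : Fin K → Fin K → ℂ =>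
        (fun i j => vf ((-ν⁻¹ : ℝ) : ℂ) (dg tt) X i j : Fin K → Fin K → ℂ)))
      (s := fun _ => {X : Fin K → Fin K → ℂ | ∀ i j, ‖X i j‖ ≤ K * R}) (K := C) (t₀ := 0)
      (fun _ => hC) (fun x => ⟨?_, ?_⟩) (fun x => ⟨?_, ?_⟩) ?_
    · exact hasDerivAt_pi.2 fun i => hasDerivAt_pi.2 fun j => hd x i j
    · intro i j
      exact btw_entry_le (hbtw x) hR1 i j
    · refine hasDerivAt_pi.2 fun i => hasDerivAt_pi.2 fun j => ?_
      have h1 : (((-ν⁻¹ : ℝ) : ℂ) • (dg tt - G x * G x)) =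
          u * dg (fun i => -ν⁻¹ * (τ i - f i x ^ 2)) * uᴴ := by
        rw [hG, hτu]
        simp only
        rw [conj_dg_mul hu, ← Matrix.sub_mul, ← Matrix.mul_sub, dg_sub, smul_conj_dg]
        simp only [sq]
      show HasDerivAt (fun y => G y i j) ((((-ν⁻¹ : ℝ) : ℂ) • (dg tt - G x * G x)) i j) x
      rw [h1]
      have h2 : (fun y => G y i j) = fun y => ∑ k, u i k * ((f k y : ℝ) : ℂ) * uᴴ k j := by
        funext y
        rw [hG]
        simp only
        rw [Matrix.mul_apply]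
        refine Finset.sum_congr rfl fun k _ => ?_
        rw [mul_dg_apply]
      rw [h2, Matrix.mul_apply]
      refine HasDerivAt.fun_sum fun k _ => ?_
      rw [mul_dg_apply]
      exact ((hfd k x).ofReal_comp.const_mul (u i k)).mul_const (uᴴ k j)
    · intro i j
      exact conj_entry_le hu' (fun i => f i x) (fun i => (hfb i x).trans (hR2 i)) i j
    · show (Ft 0 : Fin K → Fin K → ℂ) = G 0
      rw [hG]
      simp only [hf0]
      exact hFu
  refine ⟨u, τ, f, hu, hu', hτu, hτ, fun x => ?_, hfe⟩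
  exact congrFun hFG x

end Crest.Agent.R332
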