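import Crest.Agent.R332.M2
import Crest.Agent.R332.H6

/-!
# R332 piece H9: identification of `W` as a soliton sum (algebra)

`V(x) = u* Ut(x)` (`K × m`) satisfies `V' = dg(f) V`, so row `i` is `V_i(x) = y_i(x) b_i`,
`b_i = V_i(0)`, `y_i > 0`. `pot V = dg(s_i)` a.e., `s_i(x) = ((1+ν)/ν)(τ_i - f_i(x)²) ≥ 0`
(`pot_conj`). Since `pot lam r V = lam (V V*)^r` (`V (V*V)^(r-1) V* = (VV*)^r`), taking the power
`ν = 1/r`: `V V* = dg((s_i/lam)^ν)` a.e.: `y_i y_j ⟨b_j, b_i⟩ = 0` for `i ≠ j` (so the `b_i` are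
mutually orthogonal) and `y_i² |b_i|² = (s_i/lam)^ν`. Inactive channels have `s_i = 0`, `b_i = 0`.
For active ones `b_i ≠ 0`. Then `V*V = Σ_{active} (s_i/lam)^ν P_i`, `P_i = b_i* b_i/|b_i|²`
mutually orthogonal rank one projections, and `W = potm V = lam (V*V)^r = Σ_{active} s_i P_i`
(`potm_conj`). `s_i = soliton ν⁻¹ √τ_i c_i` (`(1+ν)/ν = ν⁻¹ + 1`, `τ - f² = τ/cosh²`). Complete
the orthonormal vectors `b_i*/|b_i|` (`i` active) to a unitary `U`; `a = √τ_i` on the active
columns and `a = 0` on the others. (There are at most `m` active rows because they are nonzero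
and orthogonal in `ℂ^m`.)
-/

set_option autoImplicit false
open MeasureTheory Set Matrix
open scoped ComplexOrder
open Crest.MathPhysics.LiebThirring

namespace Crest.Agent.R332

namespace H9_aux

open MT_aux

theorem conj_aeval {N m : ℕ} (Z : Matrix (Fin N) (Fin m) ℂ) (q : Polynomial ℝ) :
    Z * Polynomial.aeval (Zᴴ * Z) q * Zᴴ = Polynomial.aeval (Z * Zᴴ) (q * Polynomial.X) := by
  induction q using Polynomial.induction_on' with
  | add p q hp hq =>
    rw [map_add, Matrix.mul_add, Matrix.add_mul, hp, hq, add_mul, map_add]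
  | monomial n a =>
    rw [Polynomial.aeval_monomial, Polynomial.monomial_mul_X, Polynomial.aeval_monomial,
      pow_succ_comm, Algebra.algebraMap_eq_smul_one, Algebra.algebraMap_eq_smul_one,
      smul_mul_assoc, smul_mul_assoc, one_mul, one_mul, Matrix.mul_smul, Matrix.smul_mul]

theorem diag_of_pow {K m : ℕ} {lam ν : ℝ} (hl : 0 < lam) (h0 : 0 < ν)
    (V : Matrix (Fin K) (Fin m) ℂ) (s : Fin K → ℝ)
    (h : (lam : ℂ) • mpow (V * Vᴴ) ν⁻¹ = dg s) :
    V * Vᴴ = dg (fun i => (lam ^ ν)⁻¹ * (s i) ^ ν) := by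
  have h1 : mpow ((lam : ℂ) • mpow (V * Vᴴ) ν⁻¹) ν = mpow (dg s) ν := by rw [h]
  rw [mpow_smul (mpow_posSemidef (mul_star_psd V) _) hl.le, mpow_mpow (mul_star_psd V),
    inv_mul_cancel₀ h0.ne', mpow_one (mul_star_psd V), mpow_dg] at h1
  have h2 : (lam ^ ν : ℝ) ≠ 0 := (Real.rpow_pos_of_pos hl ν).ne'
  have h3 : V * Vᴴ = (((lam ^ ν)⁻¹ : ℝ) : ℂ) • dg (fun i => (s i) ^ ν) := by
    rw [← h1, smul_smul, ← Complex.ofReal_mul, inv_mul_cancel₀ h2, Complex.ofReal_one, one_smul]
  rw [h3]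
  have := smul_conj_dg ((lam ^ ν)⁻¹) (1 : Matrix (Fin K) (Fin K) ℂ) (fun i => (s i) ^ ν)
  simpa using this

theorem ode_solution {f : ℝ → ℝ} (hf : Continuous f) {y : ℝ → ℂ}
    (hy : ∀ x, HasDerivAt y ((f x : ℂ) * y x) x) (x : ℝ) :
    y x = ((Real.exp (∫ t in (0:ℝ)..x, f t) : ℝ) : ℂ) * y 0 := by
  set Φ : ℝ → ℝ := fun x => ∫ t in (0:ℝ)..x, f t with hΦ
  have hd : ∀ x, HasDerivAt Φ (f x) x := fun x =>
    (hf.integral_hasStrictDerivAt 0 x).hasDerivAt
  have hg : ∀ x, HasDerivAt (fun x => y x * ((Real.exp (-Φ x) : ℝ) : ℂ)) 0 x := by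
    intro x
    have h1 : HasDerivAt (fun x => ((Real.exp (-Φ x) : ℝ) : ℂ))
        ((Real.exp (-Φ x) * (-f x) : ℝ) : ℂ) x := ((hd x).neg.exp).ofReal_comp
    have h2 := (hy x).mul h1
    have e : (0 : ℂ) = (f x : ℂ) * y x * ((Real.exp (-Φ x) : ℝ) : ℂ) +
        y x * ((Real.exp (-Φ x) * (-f x) : ℝ) : ℂ) := by
      rw [Complex.ofReal_mul, Complex.ofReal_neg]
      ring
    rw [e]
    exact h2
  have hc := is_const_of_deriv_eq_zero (fun x => (hg x).differentiableAt)
    (fun x => (hg x).deriv) x 0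
  have h0 : Φ 0 = 0 := by simp [hΦ]
  rw [h0] at hc
  simp only [neg_zero, Real.exp_zero, Complex.ofReal_one, mul_one] at hc
  rw [← hc]
  have : ((Real.exp (Φ x) : ℝ) : ℂ) * ((Real.exp (-Φ x) : ℝ) : ℂ) = 1 := by
    rw [← Complex.ofReal_mul, ← Real.exp_add]
    simp
  calc y x = (((Real.exp (Φ x) : ℝ) : ℂ) * ((Real.exp (-Φ x) : ℝ) : ℂ)) * y x := by
        rw [this, one_mul]
    _ = _ := by ring

end H9_aux

open H9_aux MT_aux

/-- `lam U (U*U)^(r-1) U* = lam (U U*)^r` -/
theorem pot_eq {lam r : ℝ} (hr : 1 < r) {K m : ℕ} (U : Matrix (Fin K) (Fin m) ℂ) :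
    pot lam r U = (lam : ℂ) • mpow (U * Uᴴ) r := by
  classical
  obtain ⟨w, a, hw, hw', hA'⟩ := exists_diag (mul_star_psd U).isHermitian
  have ha := diag_nonneg hw hA' (mul_star_psd U)
  have hB : IsSelfAdjoint (Uᴴ * U) := (star_mul_psd U).isHermitian
  have hA : IsSelfAdjoint (U * Uᴴ) := (mul_star_psd U).isHermitian
  have hfB : (spectrum ℝ (Uᴴ * U)).Finite := Matrix.finite_real_spectrum
  let S : Finset ℝ := hfB.toFinset ∪ Finset.univ.image a
  let f : ℝ → ℝ := fun t => t ^ (r - 1)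
  let q : Polynomial ℝ := Lagrange.interpolate S id f
  have hq : ∀ x ∈ S, q.eval x = f x := fun x hx =>
    Lagrange.eval_interpolate_at_node (v := id) f (Set.injOn_id _) hx
  have h1 : mpow (Uᴴ * U) (r - 1) = Polynomial.aeval (Uᴴ * U) q := by
    rw [← cfc_polynomial q _ hB]
    refine cfc_congr fun x hx => ?_
    exact (hq x (Finset.mem_union_left _ (hfB.mem_toFinset.2 hx))).symm
  have h2 : mpow (U * Uᴴ) r = Polynomial.aeval (U * Uᴴ) (q * Polynomial.X) := by
    rw [← cfc_polynomial _ _ hA, hA', mpow_diag hw hw']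
    have := cfc_diag (a := a) hw hw' (fun x => (q * Polynomial.X).eval x)
    rw [this]
    congr 3
    funext i
    have h3 : q.eval (a i) = (a i) ^ (r - 1) :=
      hq (a i) (Finset.mem_union_right _ (Finset.mem_image_of_mem a (Finset.mem_univ i)))
    rw [Polynomial.eval_mul, Polynomial.eval_X, h3]
    have h4 : (a i) ^ r = (a i) ^ ((r - 1) + 1) := by congr 1; ring
    rw [h4, Real.rpow_add_of_nonneg (ha i) (by linarith) zero_le_one, Real.rpow_one]
  unfold pot
  rw [h1, h2, conj_aeval]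


theorem identify {ν : ℝ} (h0 : 0 < ν) (h1 : ν < 1) {m K : ℕ}
    (W : ℝ → Matrix (Fin m) (Fin m) ℂ) (tt : Fin K → ℝ) (htt : ∀ i, 0 < tt i)
    (Ft : ℝ → Matrix (Fin K) (Fin K) ℂ)
    (u : Matrix (Fin K) (Fin K) ℂ) (τ : Fin K → ℝ) (f : Fin K → ℝ → ℝ)
    (hu : uᴴ * u = 1) (hu' : u * uᴴ = 1) (htτ : dg tt = u * dg τ * uᴴ) (hτ : ∀ i, 0 < τ i)
    (hF : ∀ x, Ft x = u * dg (fun i => f i x) * uᴴ)
    (hf : ∀ i, (∃ c : ℝ, ∀ x, f i x = -√(τ i) * Real.tanh (ν⁻¹ * √(τ i) * (x - c))) ∨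
        (∀ x, f i x = √(τ i)) ∨ (∀ x, f i x = -√(τ i)))
    (Ut : ℝ → Matrix (Fin K) (Fin m) ℂ)
    (hUd : ∀ x i j, HasDerivAt (fun y => Ut y i j) ((Ft x * Ut x) i j) x)
    (hW : ∀ᵐ x : ℝ, W x = potm (lamc ν) ν⁻¹ (Ut x))
    (hP : ∀ᵐ x : ℝ, pot (lamc ν) ν⁻¹ (Ut x) =
        (((1 + ν) / ν : ℝ) : ℂ) • (dg tt - Ft x * Ft x)) :
    ∃ (U : Matrix.unitaryGroup (Fin m) ℂ) (a c : Fin m → ℝ), (∀ i, 0 ≤ a i) ∧
      ∀ᵐ x : ℝ, W x = (U : Matrix (Fin m) (Fin m) ℂ) *
        Matrix.diagonal (fun i => ((soliton ν⁻¹ (a i) (c i) x : ℝ) : ℂ)) *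
          star (U : Matrix (Fin m) (Fin m) ℂ) := by
  classical
  have hl : 0 < lamc ν := lamc_pos h0
  have hr : 1 < ν⁻¹ := (one_lt_inv₀ h0).2 h1
  -- continuity of f
  have hfc : ∀ i, Continuous (f i) := by
    intro i
    rcases hf i with ⟨c, hc⟩ | h | h
    · have : f i = fun x => -√(τ i) * Real.tanh (ν⁻¹ * √(τ i) * (x - c)) := funext hc
      rw [this]
      have ht : Continuous Real.tanh := by
        have : Real.tanh = fun x => Real.sinh x / Real.cosh x := funext Real.tanh_eq_sinh_div_cosh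
        rw [this]
        exact Real.continuous_sinh.div Real.continuous_cosh fun x => (Real.cosh_pos x).ne'
      exact continuous_const.mul (ht.comp (by fun_prop))
    · rw [show f i = fun _ => √(τ i) from funext h]; exact continuous_const
    · rw [show f i = fun _ => -√(τ i) from funext h]; exact continuous_const
  set V : ℝ → Matrix (Fin K) (Fin m) ℂ := fun x => uᴴ * Ut x with hV
  have hVd : ∀ x i j, HasDerivAt (fun y => V y i j) ((f i x : ℂ) * V x i j) x := by
    intro x i j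
    have h2 : HasDerivAt (fun y => ∑ k, uᴴ i k * Ut y k j)
        (∑ k, uᴴ i k * (Ft x * Ut x) k j) x :=
      HasDerivAt.fun_sum fun k _ => (hUd x k j).const_mul _
    have h3 : (∑ k, uᴴ i k * (Ft x * Ut x) k j) = (f i x : ℂ) * V x i j := by
      rw [← Matrix.mul_apply]
      have h4 : uᴴ * (Ft x * Ut x) = dg (fun i => f i x) * V x := by
        rw [hF x, hV]
        calc uᴴ * (u * dg (fun i => f i x) * uᴴ * Ut x)
            = (uᴴ * u) * (dg (fun i => f i x) * (uᴴ * Ut x)) := by simp only [Matrix.mul_assoc]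
          _ = _ := by rw [hu, Matrix.one_mul]
      rw [h4]
      simp [dg, Matrix.diagonal_mul]
    rw [h3] at h2
    exact h2
  set y : ℝ → Fin K → ℝ := fun x i => Real.exp (∫ t in (0:ℝ)..x, f i t) with hy
  have hypos : ∀ x i, 0 < y x i := fun x i => Real.exp_pos _
  have hVs : ∀ x i j, V x i j = (y x i : ℂ) * V 0 i j := fun x i j =>
    ode_solution (hfc i) (fun x => hVd x i j) x
  set s : ℝ → Fin K → ℝ := fun x i => (1 + ν) / ν * (τ i - f i x * f i x) with hs
  have hdiag : ∀ᵐ x : ℝ, V x * (V x)ᴴ = dg (fun i => ((lamc ν) ^ ν)⁻¹ * (s x i) ^ ν) := by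
    filter_upwards [hP] with x hx
    refine diag_of_pow hl h0 _ _ ?_
    rw [← pot_eq hr, hV]
    have h2 : (uᴴ)ᴴ * uᴴ = 1 := by rw [Matrix.conjTranspose_conjTranspose]; exact hu'
    rw [pot_conj h2, hx, hF x, conj_dg_mul hu, htτ, ← Matrix.sub_mul, ← Matrix.mul_sub]
    have h3 : dg τ - dg (fun i => f i x * f i x) = dg (fun i => τ i - f i x * f i x) := by
      unfold dg
      rw [Matrix.diagonal_sub]
      congr 1
      funext i
      push_cast
      rfl
    rw [h3, smul_conj_dg, Matrix.conjTranspose_conjTranspose]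
    calc uᴴ * (u * dg (fun i => (1 + ν) / ν * (τ i - f i x * f i x)) * uᴴ) * u
        = (uᴴ * u) * dg (fun i => (1 + ν) / ν * (τ i - f i x * f i x)) * (uᴴ * u) := by
          simp only [Matrix.mul_assoc]
      _ = _ := by rw [hu, Matrix.one_mul, Matrix.mul_one]
  -- the rows at 0
  set b : Fin K → Fin m → ℂ := fun i k => V 0 i k with hb
  set n : Fin K → ℝ := fun i => ∑ k, ‖b i k‖ ^ 2 with hn
  have hn0 : ∀ i, 0 ≤ n i := fun i => Finset.sum_nonneg fun k _ => sq_nonneg _
  have hVV : ∀ x i j, (V x * (V x)ᴴ) i j =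
      (y x i : ℂ) * (y x j : ℂ) * ∑ k, b i k * star (b j k) := by
    intro x i j
    rw [Matrix.mul_apply, Finset.mul_sum]
    refine Finset.sum_congr rfl fun k _ => ?_
    rw [Matrix.conjTranspose_apply, hVs x i k, hVs x j k, star_mul']
    have : star ((y x j : ℝ) : ℂ) = ((y x j : ℝ) : ℂ) := Complex.conj_ofReal _
    rw [this]
    ring
  have hbb : ∀ i, ∑ k, b i k * star (b i k) = ((n i : ℝ) : ℂ) := by
    intro i
    rw [hn]
    push_cast
    refine Finset.sum_congr rfl fun k _ => ?_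
    rw [Complex.star_def, Complex.mul_conj, Complex.normSq_eq_norm_sq]
    push_cast
    rfl
  have horth : ∀ i j, i ≠ j → ∑ k, b i k * star (b j k) = 0 := by
    intro i j hij
    obtain ⟨x, hx⟩ := hdiag.exists
    have h2 := congrFun (congrFun hx i) j
    rw [hVV] at h2
    have h3 : dg (fun i => ((lamc ν) ^ ν)⁻¹ * (s x i) ^ ν) i j = 0 := by
      unfold dg; exact Matrix.diagonal_apply_ne _ hij
    rw [h3] at h2
    have hyi : (y x i : ℂ) ≠ 0 := by exact_mod_cast (hypos x i).ne'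
    have hyj : (y x j : ℂ) ≠ 0 := by exact_mod_cast (hypos x j).ne'
    rcases mul_eq_zero.1 h2 with h4 | h4
    · exact absurd h4 (mul_ne_zero hyi hyj)
    · exact h4
  have hnorm : ∀ᵐ x : ℝ, ∀ i, y x i * y x i * n i = ((lamc ν) ^ ν)⁻¹ * (s x i) ^ ν := by
    filter_upwards [hdiag] with x hx i
    have h2 := congrFun (congrFun hx i) i
    rw [hVV, hbb] at h2
    have h3 : dg (fun i => ((lamc ν) ^ ν)⁻¹ * (s x i) ^ ν) i i =
        ((((lamc ν) ^ ν)⁻¹ * (s x i) ^ ν : ℝ) : ℂ) := by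
      unfold dg; exact Matrix.diagonal_apply_eq _ _
    rw [h3] at h2
    exact_mod_cast h2
  -- active channels
  have hact : ∀ i, n i ≠ 0 → ∃ c : ℝ, ∀ x, s x i = soliton ν⁻¹ (√(τ i)) c x := by
    intro i hi
    have hsq : √(τ i) * √(τ i) = τ i := Real.mul_self_sqrt (hτ i).le
    have hinact : (∀ x, s x i = 0) → False := by
      intro h
      obtain ⟨x, hx⟩ := hnorm.exists
      have h2 := hx i
      rw [h x, Real.zero_rpow h0.ne', mul_zero] at h2
      have h3 : y x i * y x i ≠ 0 := (mul_pos (hypos x i) (hypos x i)).ne'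
      rcases mul_eq_zero.1 h2 with h4 | h4
      · exact h3 h4
      · exact hi h4
    rcases hf i with ⟨c, hc⟩ | h | h
    · refine ⟨c, fun x => ?_⟩
      rw [hs]
      simp only
      rw [hc x, soliton, Real.tanh_eq_sinh_div_cosh]
      set z := ν⁻¹ * √(τ i) * (x - c)
      have hch : Real.cosh z ≠ 0 := (Real.cosh_pos z).ne'
      have h2 : Real.cosh z ^ 2 = Real.sinh z ^ 2 + 1 := Real.cosh_sq z
      have h3 : √(τ i) ^ 2 = τ i := by rw [sq, hsq]
      rw [h3]
      have h4 : -√(τ i) * (Real.sinh z / Real.cosh z) * (-√(τ i) * (Real.sinh z / Real.cosh z)) =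
          τ i * (Real.sinh z ^ 2 / Real.cosh z ^ 2) := by
        calc -√(τ i) * (Real.sinh z / Real.cosh z) * (-√(τ i) * (Real.sinh z / Real.cosh z))
            = (√(τ i) * √(τ i)) * (Real.sinh z ^ 2 / Real.cosh z ^ 2) := by
              field_simp
          _ = _ := by rw [hsq]
      rw [h4]
      have h5 : Real.sinh z ^ 2 = Real.cosh z ^ 2 - 1 := by linarith
      rw [h5]
      field_simp
      ring
    · exfalso
      apply hinact
      intro x
      rw [hs]
      simp only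
      rw [h x, hsq, sub_self, mul_zero]
    · exfalso
      apply hinact
      intro x
      rw [hs]
      simp only
      rw [h x, neg_mul_neg, hsq, sub_self, mul_zero]
  choose! cc hcc using hact
  let A : Type := {i : Fin K // n i ≠ 0}
  have hApos : ∀ a : A, 0 < n a.1 := fun a => lt_of_le_of_ne (hn0 a.1) (Ne.symm a.2)
  let E : A → EuclideanSpace ℂ (Fin m) := fun a =>
    WithLp.toLp 2 fun k => star (b a.1 k) / ((√(n a.1) : ℝ) : ℂ)
  have hE : Orthonormal ℂ E := by
    rw [orthonormal_iff_ite]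
    intro a a'
    have h2 : inner ℂ (E a) (E a') =
        (∑ k, b a.1 k * star (b a'.1 k)) / (((√(n a.1) : ℝ) : ℂ) * ((√(n a'.1) : ℝ) : ℂ)) := by
      rw [PiLp.inner_apply, Finset.sum_div]
      refine Finset.sum_congr rfl fun k _ => ?_
      show inner ℂ (star (b a.1 k) / ((√(n a.1) : ℝ) : ℂ))
        (star (b a'.1 k) / ((√(n a'.1) : ℝ) : ℂ)) = _
      rw [RCLike.inner_apply]
      simp only [map_div₀, Complex.conj_ofReal, ← Complex.star_def, star_star]
      have e1 : ((√(n a.1) : ℝ) : ℂ) ≠ 0 := by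
        exact_mod_cast (Real.sqrt_pos.2 (hApos a)).ne'
      have e2 : ((√(n a'.1) : ℝ) : ℂ) ≠ 0 := by
        exact_mod_cast (Real.sqrt_pos.2 (hApos a')).ne'
      field_simp
    rw [h2]
    by_cases haa : a = a'
    · subst haa
      rw [if_pos rfl, hbb, ← Complex.ofReal_mul, Real.mul_self_sqrt (hn0 a.1)]
      exact div_self (by exact_mod_cast a.2)
    · rw [if_neg haa, horth a.1 a'.1 (fun h => haa (Subtype.ext h)), zero_div]
  have hcard : Fintype.card A ≤ Fintype.card (Fin m) := by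
    have := hE.linearIndependent.fintype_card_le_finrank
    simpa using this
  obtain ⟨g⟩ := Function.Embedding.nonempty_of_card_le hcard
  let v : Fin m → EuclideanSpace ℂ (Fin m) := Function.extend g E 0
  have hv : Orthonormal ℂ ((Set.range g).domRestrict v) := by
    have h2 : (Set.range g).domRestrict v = E ∘ (Equiv.ofInjective g g.injective).symm := by
      funext ⟨j, a, ha⟩
      subst ha
      have e1 : (Set.range g).domRestrict v ⟨g a, ⟨a, rfl⟩⟩ = E a :=
        g.injective.extend_apply E 0 a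
      rw [e1, Function.comp_apply]
      congr 1
      exact (Equiv.ofInjective_symm_apply g.injective a).symm
    rw [h2]
    exact hE.comp _ (Equiv.injective _)
  obtain ⟨B, hB⟩ := hv.exists_orthonormalBasis_extension_of_card_eq (by simp)
  have hBg : ∀ a : A, B (g a) = E a := fun a => by
    rw [hB (g a) ⟨a, rfl⟩]
    exact g.injective.extend_apply E 0 a
  let M : Matrix (Fin m) (Fin m) ℂ := Matrix.of fun k j => B j k
  have hM : Mᴴ * M = 1 := by
    ext j j'
    rw [Matrix.mul_apply]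
    have h2 := orthonormal_iff_ite.1 B.orthonormal j j'
    rw [PiLp.inner_apply] at h2
    rw [Matrix.one_apply, ← h2]
    refine Finset.sum_congr rfl fun k _ => ?_
    rw [RCLike.inner_apply, Matrix.conjTranspose_apply, mul_comm]
    rfl
  have hM' : M * Mᴴ = 1 := mul_eq_one_comm.1 hM
  refine ⟨⟨M, Matrix.mem_unitaryGroup_iff.2 hM'⟩, Function.extend g (fun a => √(τ a.1)) 0,
    Function.extend g (fun a => cc a.1) 0, ?_, ?_⟩
  · intro j
    by_cases hj : ∃ a, g a = j
    · obtain ⟨a, rfl⟩ := hj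
      rw [g.injective.extend_apply]
      exact Real.sqrt_nonneg _
    · rw [Function.extend_apply' _ _ _ hj]
      exact le_rfl
  filter_upwards [hW, hnorm] with x hWx hnx
  have h2 : (uᴴ)ᴴ * uᴴ = 1 := by rw [Matrix.conjTranspose_conjTranspose]; exact hu'
  have h3 : W x = potm (lamc ν) ν⁻¹ (V x) := by rw [hWx, hV, potm_conj h2]
  set D : Fin m → ℝ := Function.extend g (fun a => y x a.1 * y x a.1 * n a.1) 0 with hD
  have hDg : ∀ a, D (g a) = y x a.1 * y x a.1 * n a.1 := fun a => g.injective.extend_apply _ _ a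
  have hDn : ∀ j, j ∉ Set.range g → D j = 0 := fun j hj => Function.extend_apply' _ _ _ hj
  have h4 : (V x)ᴴ * V x = M * dg D * Mᴴ := by
    ext k l
    have e1 : ((V x)ᴴ * V x) k l = ∑ i, ((y x i : ℂ) * (y x i : ℂ)) * (star (b i k) * b i l) := by
      rw [Matrix.mul_apply]
      refine Finset.sum_congr rfl fun i _ => ?_
      rw [Matrix.conjTranspose_apply, hVs x i k, hVs x i l, star_mul']
      have : star ((y x i : ℝ) : ℂ) = ((y x i : ℝ) : ℂ) := Complex.conj_ofReal _
      rw [this]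
      ring
    have e2 : (M * dg D * Mᴴ) k l = ∑ j, B j k * (D j : ℂ) * star (B j l) := by
      rw [Matrix.mul_apply]
      refine Finset.sum_congr rfl fun j _ => ?_
      unfold dg
      rw [Matrix.mul_diagonal, Matrix.conjTranspose_apply]
      rfl
    rw [e1, e2]
    have e3 : ∑ a : A, ((y x a.1 : ℂ) * (y x a.1 : ℂ)) * (star (b a.1 k) * b a.1 l) =
        ∑ i, ((y x i : ℂ) * (y x i : ℂ)) * (star (b i k) * b i l) := by
      refine Fintype.sum_of_injective (fun a : A => a.1) Subtype.val_injective _ _ ?_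
        (fun a => rfl)
      intro i hi
      have hni : n i = 0 := by
        by_contra h
        exact hi ⟨⟨i, h⟩, rfl⟩
      have hbi : b i k = 0 := by
        have := (Finset.sum_eq_zero_iff_of_nonneg (fun k _ => sq_nonneg ‖b i k‖)).1 hni k
          (Finset.mem_univ k)
        simpa using this
      rw [hbi]
      simp
    have e4 : ∑ a : A, ((y x a.1 : ℂ) * (y x a.1 : ℂ)) * (star (b a.1 k) * b a.1 l) =
        ∑ j, B j k * (D j : ℂ) * star (B j l) := by
      refine Fintype.sum_of_injective g g.injective _ _ ?_ ?_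
      · intro j hj
        rw [hDn j hj]
        simp
      · intro a
        rw [hDg a, hBg a]
        show _ = (star (b a.1 k) / ((√(n a.1) : ℝ) : ℂ)) * _ *
          star (star (b a.1 l) / ((√(n a.1) : ℝ) : ℂ))
        have e5 : star (star (b a.1 l) / ((√(n a.1) : ℝ) : ℂ)) =
            b a.1 l / ((√(n a.1) : ℝ) : ℂ) := by
          simp only [Complex.star_def, map_div₀, Complex.conj_ofReal, Complex.conj_conj]
        rw [e5]
        have e6 : ((n a.1 : ℝ) : ℂ) = ((√(n a.1) : ℝ) : ℂ) * ((√(n a.1) : ℝ) : ℂ) := by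
          rw [← Complex.ofReal_mul, Real.mul_self_sqrt (hn0 a.1)]
        have e1 : ((√(n a.1) : ℝ) : ℂ) ≠ 0 := by
          exact_mod_cast (Real.sqrt_pos.2 (hApos a)).ne'
        rw [Complex.ofReal_mul, Complex.ofReal_mul, e6]
        field_simp
    rw [← e3, e4]
  rw [h3]
  unfold potm
  rw [h4, mpow_diag hM hM', smul_conj_dg]
  show _ = M * Matrix.diagonal _ * Mᴴ
  congr 2
  unfold dg
  congr 1
  funext j
  congr 1
  show lamc ν * D j ^ ν⁻¹ = soliton ν⁻¹ (Function.extend g (fun a => √(τ a.1)) 0 j)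
    (Function.extend g (fun a => cc a.1) 0 j) x
  by_cases hj : j ∈ Set.range g
  · obtain ⟨a, rfl⟩ := hj
    rw [hDg a, g.injective.extend_apply, g.injective.extend_apply, ← hcc a.1 a.2 x, hnx a.1]
    have hs0 : 0 ≤ s x a.1 := by
      rw [hcc a.1 a.2 x, soliton]
      have : 0 < ν⁻¹ := inv_pos.2 h0
      positivity
    have hlν : 0 < lamc ν ^ ν := Real.rpow_pos_of_pos hl ν
    rw [Real.mul_rpow (inv_nonneg.2 hlν.le) (Real.rpow_nonneg hs0 ν),
      ← Real.rpow_mul hs0, mul_inv_cancel₀ h0.ne', Real.rpow_one, Real.inv_rpow hlν.le,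
      ← Real.rpow_mul hl.le, mul_inv_cancel₀ h0.ne', Real.rpow_one, ← mul_assoc,
      mul_inv_cancel₀ hl.ne', one_mul]
  · rw [hDn j hj, Real.zero_rpow (inv_ne_zero h0.ne'), mul_zero,
      Function.extend_apply' _ _ _ hj, soliton]
    simp

end Crest.Agent.R332
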