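import Crest.Agent.R332.B5
import Crest.Agent.R332.C1
import Crest.Agent.R332.A2

/-!
# R332 piece HJ: the Hamilton-Jacobi theorem for Riccati paths (assembly of B5 and C1)

Integrate `hj_pointwise` over `x ∈ [a,b]` (with `H(x) = F'(x)`), use `path_int`, then let
`ε → 0`, `R → ∞`: `∫_ε^R τ^(2ν-1)(1-τ/√(τ²+x)) dτ ↑ kap ν x^ν` (`scal1`; here `x = t_j - s² ≥ 0`
for `s ∈ [-√t_j+η, √t_j]` because `Btw √t (F b)` forces `-√t_j + η ≤ √t_j`, and `η ≥ 0`),
dominated/monotone convergence, divide by `kap ν > 0`.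
Note `∫_{-√t_j+η}^{√t_j}` is an honest integral over an interval contained in `[-√t_j, √t_j]`.
-/

set_option autoImplicit false
open MeasureTheory Set Matrix Filter Topology
open scoped ComplexOrder
open Crest.MathPhysics.LiebThirring

namespace Crest.Agent.R332

namespace HJ_aux

/-- continuity of a parametric integral over a compact interval -/
lemma cont_param {X : Type*} [TopologicalSpace X] {G : X → ℝ → ℝ} {ε R : ℝ} (h : ε ≤ R)
    (hG : ContinuousOn (fun p : X × ℝ => G p.1 p.2) {p | p.2 ∈ Icc ε R}) :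
    Continuous (fun x => ∫ τ in ε..R, G x τ) := by
  have h1 : Continuous (fun p : X × ℝ => G p.1 (projIcc ε R h p.2)) := by
    refine hG.comp_continuous (f := fun p : X × ℝ => (p.1, ((projIcc ε R h p.2 : Icc ε R) : ℝ)))
      ?_ fun p => ?_
    · exact continuous_fst.prodMk (continuous_subtype_val.comp (continuous_projIcc.comp
        continuous_snd))
    · exact (projIcc ε R h p.2).2
  have h2 := intervalIntegral.continuous_parametric_intervalIntegral_of_continuous'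
    (μ := volume) (f := fun (x : X) τ => G x (projIcc ε R h τ)) h1 ε R
  convert h2 using 2 with x
  refine intervalIntegral.integral_congr fun τ hτ => ?_
  rw [uIcc_of_le h] at hτ
  simp only [projIcc_of_mem h hτ]

/-- the truncated scalar integral -/
noncomputable def sc (ν ε R x : ℝ) : ℝ :=
  ∫ τ in ε..R, τ ^ (2 * ν - 1) * (1 - τ / √(τ ^ 2 + x))

lemma integrand_nonneg (ν : ℝ) {τ x : ℝ} (hτ : 0 < τ) (hx : 0 ≤ x) :
    0 ≤ τ ^ (2 * ν - 1) * (1 - τ / √(τ ^ 2 + x)) := by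
  refine mul_nonneg (by positivity) ?_
  rw [sub_nonneg, div_le_one (Real.sqrt_pos.mpr (by positivity))]
  exact Real.le_sqrt_of_sq_le (by linarith)

lemma sc_nonneg (ν : ℝ) {ε R x : ℝ} (hε : 0 < ε) (hR : ε ≤ R) (hx : 0 ≤ x) :
    0 ≤ sc ν ε R x := by
  refine intervalIntegral.integral_nonneg hR fun τ hτ => ?_
  exact integrand_nonneg ν (hε.trans_le hτ.1) hx

lemma sc_le {ν : ℝ} (h0 : 0 < ν) (h1 : ν < 1) {ε R x : ℝ} (hε : 0 < ε) (hR : ε ≤ R)
    (hx : 0 ≤ x) : sc ν ε R x ≤ kap ν * x ^ ν := by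
  obtain ⟨hi, he⟩ := scal1 h0 h1 hx
  rw [← he, sc, intervalIntegral.integral_of_le hR]
  refine setIntegral_mono_set hi ?_ ?_
  · refine (ae_restrict_iff' measurableSet_Ioi).2 (Eventually.of_forall fun τ hτ => ?_)
    exact integrand_nonneg ν hτ hx
  · exact (Ioc_subset_Ioi_self.trans (Ioi_subset_Ioi hε.le)).eventuallyLE

lemma sc_tendsto {ν : ℝ} (h0 : 0 < ν) (h1 : ν < 1) {x : ℝ} (hx : 0 ≤ x) :
    Tendsto (fun k : ℕ => sc ν (1 / ((k : ℝ) + 1)) ((k : ℝ) + 2) x) atTop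
      (𝓝 (kap ν * x ^ ν)) := by
  obtain ⟨hi, he⟩ := scal1 h0 h1 hx
  set f : ℝ → ℝ := fun τ => τ ^ (2 * ν - 1) * (1 - τ / √(τ ^ 2 + x)) with hf
  have hU : (⋃ k : ℕ, Ioc (1 / ((k : ℝ) + 1)) ((k : ℝ) + 2)) = Ioi (0:ℝ) := by
    ext y
    simp only [mem_iUnion, mem_Ioc, mem_Ioi]
    constructor
    · rintro ⟨k, hk, _⟩
      exact lt_trans (by positivity) hk
    · intro hy
      obtain ⟨k1, hk1⟩ := exists_nat_one_div_lt hy
      obtain ⟨k2, hk2⟩ := exists_nat_ge y
      refine ⟨max k1 k2, ?_, ?_⟩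
      · refine lt_of_le_of_lt ?_ hk1
        have : (k1 : ℝ) ≤ ((max k1 k2 : ℕ) : ℝ) := by exact_mod_cast le_max_left _ _
        gcongr
      · have : (k2 : ℝ) ≤ ((max k1 k2 : ℕ) : ℝ) := by exact_mod_cast le_max_right _ _
        linarith
  have hmono : Monotone (fun k : ℕ => Ioc (1 / ((k : ℝ) + 1)) ((k : ℝ) + 2)) := by
    intro i j hij
    have hij' : (i : ℝ) ≤ (j : ℝ) := by exact_mod_cast hij
    refine Ioc_subset_Ioc ?_ (by linarith)
    gcongr
  have h2 := tendsto_setIntegral_of_monotone (μ := volume) (f := f)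
    (s := fun k : ℕ => Ioc (1 / ((k : ℝ) + 1)) ((k : ℝ) + 2))
    (fun k => measurableSet_Ioc) hmono (by rw [hU]; exact hi)
  rw [hU, he] at h2
  refine h2.congr fun k => ?_
  rw [sc, intervalIntegral.integral_of_le]
  have : 1 / ((k : ℝ) + 1) ≤ 1 := by
    rw [div_le_one (by positivity)]; linarith [(Nat.cast_nonneg k : (0:ℝ) ≤ k)]
  linarith [(Nat.cast_nonneg k : (0:ℝ) ≤ k)]

lemma sc_cont (ν : ℝ) {ε R : ℝ} (hε : 0 < ε) (hR : ε ≤ R) : ContinuousOn (sc ν ε R) (Ici 0) := by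
  rw [continuousOn_iff_continuous_domRestrict]
  unfold Set.domRestrict sc
  refine cont_param (G := fun (x : Ici (0:ℝ)) τ => τ ^ (2 * ν - 1) * (1 - τ / √(τ ^ 2 + x.1)))
    hR ?_
  intro p hp
  have hp0 : 0 < p.2 := hε.trans_le hp.1
  have hx : (0:ℝ) ≤ p.1.1 := p.1.2
  refine ContinuousAt.continuousWithinAt ?_
  refine ContinuousAt.mul ?_ ?_
  · exact ContinuousAt.rpow_const continuousAt_snd (Or.inl hp0.ne')
  · refine continuousAt_const.sub (continuousAt_snd.div ?_ ?_)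
    · exact (Real.continuous_sqrt.comp (by fun_prop)).continuousAt
    · exact (Real.sqrt_pos.mpr (by positivity)).ne'

/-- limit of the truncated `s`-integral -/
lemma int_tendsto {ν : ℝ} (h0 : 0 < ν) (h1 : ν < 1) {t u : ℝ} (hu : u ≤ √t)
    (hu' : -√t ≤ u) (ht : 0 < t) :
    Tendsto (fun k : ℕ => ∫ s in u..(√t), sc ν (1 / ((k : ℝ) + 1)) ((k : ℝ) + 2) (t - s ^ 2))
      atTop (𝓝 (kap ν * ∫ s in u..(√t), (t - s ^ 2) ^ ν)) := by
  rw [← intervalIntegral.integral_const_mul]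
  have hx : ∀ s ∈ Icc u (√t), 0 ≤ t - s ^ 2 := by
    intro s hs
    have h2 : s ^ 2 ≤ (√t) ^ 2 := by
      refine sq_le_sq' ?_ hs.2
      linarith [hs.1]
    rw [Real.sq_sqrt ht.le] at h2
    linarith
  have hk : ∀ k : ℕ, 0 < 1 / ((k : ℝ) + 1) ∧ 1 / ((k : ℝ) + 1) ≤ (k : ℝ) + 2 := by
    intro k
    have h1 : 1 / ((k : ℝ) + 1) ≤ 1 := by
      rw [div_le_one (by positivity)]; linarith [(Nat.cast_nonneg k : (0:ℝ) ≤ k)]
    exact ⟨by positivity, by linarith [(Nat.cast_nonneg k : (0:ℝ) ≤ k)]⟩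
  refine intervalIntegral.tendsto_integral_filter_of_dominated_convergence
    (fun s => kap ν * (t - s ^ 2) ^ ν) ?_ ?_ ?_ ?_
  · refine Eventually.of_forall fun k => ?_
    have h2 : ContinuousOn (fun s => sc ν (1 / ((k : ℝ) + 1)) ((k : ℝ) + 2) (t - s ^ 2))
        (Icc u (√t)) :=
      (sc_cont ν (hk k).1 (hk k).2).comp (by fun_prop) fun s hs => hx s hs
    rw [uIoc_of_le hu]
    exact (h2.mono Ioc_subset_Icc_self).aestronglyMeasurable measurableSet_Ioc
  · refine Eventually.of_forall fun k => Eventually.of_forall fun s hs => ?_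
    rw [uIoc_of_le hu] at hs
    have hs' := hx s (Ioc_subset_Icc_self hs)
    rw [Real.norm_of_nonneg (sc_nonneg ν (hk k).1 (hk k).2 hs')]
    exact sc_le h0 h1 (hk k).1 (hk k).2 hs'
  · refine Continuous.intervalIntegrable ?_ _ _
    exact continuous_const.mul (Continuous.rpow_const (by fun_prop) fun s => Or.inr h0.le)
  · refine Eventually.of_forall fun s hs => ?_
    rw [uIoc_of_le hu] at hs
    exact sc_tendsto h0 h1 (hx s (Ioc_subset_Icc_self hs))

lemma MDerivOn_continuousOn {n m : ℕ} {F F' : ℝ → Matrix (Fin n) (Fin m) ℂ} {s : Set ℝ}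
    (h : MDerivOn F F' s) : ContinuousOn F s :=
  fun x hx => continuousWithinAt_pi.2 fun i => continuousWithinAt_pi.2 fun j =>
    (h x hx i j).continuousWithinAt

/-- the remainder density -/
noncomputable def DD {n : ℕ} (ν : ℝ) (t : Fin n → ℝ) (F Wa : Matrix (Fin n) (Fin n) ℂ) : ℝ :=
  hs2 (dg t * F - F * dg t) +
          hs2 (((ν / (1 + ν) : ℝ) : ℂ) • Wa - (dg t - F * F)) /
            (1 + (ν / (1 + ν)) * rtr Wa)

lemma DD_cont {n : ℕ} {ν : ℝ} (h0 : 0 < ν) (t : Fin n → ℝ)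
    {F Wa : ℝ → Matrix (Fin n) (Fin n) ℂ} {s : Set ℝ} (hF : ContinuousOn F s)
    (hW : ContinuousOn Wa s) (hWp : ∀ x ∈ s, (Wa x).PosSemidef) :
    ContinuousOn (fun x => DD ν t (F x) (Wa x)) s := by
  unfold DD
  have hden : ∀ x ∈ s, 1 + (ν / (1 + ν)) * rtr (Wa x) ≠ 0 := by
    intro x hx
    have := rtr_nonneg (hWp x hx)
    positivity
  have c1 : ContinuousOn (fun x => dg t * F x - F x * dg t) s :=
    (continuousOn_const.mul hF).sub (hF.mul continuousOn_const)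
  have c2 : ContinuousOn (fun x => dg t - F x * F x) s := continuousOn_const.sub (hF.mul hF)
  have c3 : ContinuousOn (fun x => ((ν / (1 + ν) : ℝ) : ℂ) • Wa x) s :=
    fun x hx => (hW x hx).const_smul (((ν / (1 + ν) : ℝ) : ℂ))
  have c4 : ContinuousOn (fun x => rtr (Wa x)) s := continuous_rtr.comp_continuousOn hW
  have c5 : ContinuousOn (fun x => hs2 (dg t * F x - F x * dg t)) s :=
    continuous_hs2.comp_continuousOn c1
  have c6 : ContinuousOn (fun x =>
      hs2 (((ν / (1 + ν) : ℝ) : ℂ) • Wa x - (dg t - F x * F x))) s :=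
    continuous_hs2.comp_continuousOn (c3.sub c2)
  exact c5.add (c6.div (continuousOn_const.add (continuousOn_const.mul c4)) hden)

lemma inner_cont {n : ℕ} (ν : ℝ) {t : Fin n → ℝ} (ht : ∀ i, 0 ≤ t i)
    {F F' : ℝ → Matrix (Fin n) (Fin n) ℂ} {a b : ℝ} (hF : ContinuousOn F (Icc a b))
    (hF' : ContinuousOn F' (Icc a b)) (hbtw : ∀ x ∈ Icc a b, Btw (fun i => √(t i)) (F x))
    {ε R : ℝ} (hε : 0 < ε) (hR : ε ≤ R) :
    ContinuousOn (fun x => ∫ τ in ε..R, τ ^ (2 * ν - 1) *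
        (rtr (F' x) - τ * psi (at' t τ) (F x) (F' x))) (Icc a b) := by
  rw [continuousOn_iff_continuous_domRestrict]
  refine cont_param (G := fun (x : Icc a b) τ => τ ^ (2 * ν - 1) *
      (rtr (F' x.1) - τ * psi (at' t τ) (F x.1) (F' x.1))) hR ?_
  have hFr : Continuous (fun x : Icc a b => F x.1) := hF.domRestrict
  have hF'r : Continuous (fun x : Icc a b => F' x.1) := hF'.domRestrict
  have hps : ContinuousOn (fun p : Icc a b × ℝ => psi (at' t p.2) (F p.1.1) (F' p.1.1))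
      {p | p.2 ∈ Icc ε R} := by
    have hc : Continuous (fun p : Icc a b × ℝ => (p.2, F p.1.1, F' p.1.1)) :=
      continuous_snd.prodMk ((hFr.comp continuous_fst).prodMk (hF'r.comp continuous_fst))
    exact ContinuousOn.comp
      (g := fun p : ℝ × Matrix (Fin n) (Fin n) ℂ × Matrix (Fin n) (Fin n) ℂ =>
        psi (at' t p.1) p.2.1 p.2.2)
      (f := fun p : Icc a b × ℝ => (p.2, F p.1.1, F' p.1.1))
      (t := {p | 0 < p.1 ∧ Btw (fun i => √(t i)) p.2.1})
      (continuousOn_psi t ht) hc.continuousOn fun p hp => ⟨hε.trans_le hp.1, hbtw p.1.1 p.1.2⟩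
  have h1 : ContinuousOn (fun p : Icc a b × ℝ => p.2 ^ (2 * ν - 1)) {p | p.2 ∈ Icc ε R} := by
    intro p hp
    exact (ContinuousAt.rpow_const continuousAt_snd
      (Or.inl (hε.trans_le hp.1).ne')).continuousWithinAt
  have h2 : Continuous (fun p : Icc a b × ℝ => rtr (F' p.1.1)) :=
    continuous_rtr.comp (hF'r.comp continuous_fst)
  exact h1.mul (h2.continuousOn.sub (continuousOn_snd.mul hps))

end HJ_aux

open HJ_aux

theorem hj_path {ν : ℝ} (h0 : 0 < ν) (h1 : ν < 1) {Λ : ℝ} (hΛ : 0 < Λ) :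
    ∃ c : ℝ, 0 < c ∧ ∀ {n : ℕ} (t : Fin n → ℝ) (a b η : ℝ)
      (F Wa e : ℝ → Matrix (Fin n) (Fin n) ℂ),
      (∀ i, 0 < t i ∧ t i ≤ Λ) → a ≤ b → 0 ≤ η →
      ContinuousOn Wa (Icc a b) → ContinuousOn e (Icc a b) →
      (∀ x ∈ Icc a b, (Wa x).PosSemidef) → (∀ x ∈ Icc a b, (e x).PosSemidef) →
      MDerivOn F (fun x => dg t - F x * F x - Wa x - e x) (Icc a b) →
      (∀ x ∈ Icc a b, Btw (fun i => √(t i)) (F x)) →
      F a = dg (fun i => √(t i)) → F b = dg (fun i => -√(t i) + η) →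
      ν * (∑ j, ∫ s in (-√(t j) + η)..(√(t j)), (t j - s ^ 2) ^ ν) +
        c * (∫ x in a..b, (hs2 (dg t * F x - F x * dg t) +
          hs2 (((ν / (1 + ν) : ℝ) : ℂ) • Wa x - (dg t - F x * F x)) /
            (1 + (ν / (1 + ν)) * rtr (Wa x)))) ≤
        (ν / (1 + ν)) ^ (1 + ν) * (∫ x in a..b, tracePow (Wa x) (1 + ν)) +
        ν * Λ ^ ν * (∫ x in a..b, rtr (e x)) := by
  obtain ⟨c0, hc0, hpt⟩ := hj_pointwise h0 h1 hΛ
  have hkap := kap_pos h0 h1
  refine ⟨c0 / kap ν, by positivity, ?_⟩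
  intro n t a b η F Wa e ht hab hη hWc hec hWp hep hder hbtw hFa hFb
  have htp : ∀ i, 0 < t i := fun i => (ht i).1
  have hFc : ContinuousOn F (Icc a b) := MDerivOn_continuousOn hder
  set F' : ℝ → Matrix (Fin n) (Fin n) ℂ := fun x => dg t - F x * F x - Wa x - e x with hF'
  have hF'c : ContinuousOn F' (Icc a b) :=
    ((continuousOn_const.sub (hFc.mul hFc)).sub hWc).sub hec
  -- the end point condition
  have hη2 : ∀ j, -√(t j) + η ≤ √(t j) := by
    intro j
    have h2 := (hbtw b (right_mem_Icc.2 hab)).1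
    rw [hFb] at h2
    have h3 : dg (fun i => √(t i)) - dg (fun i => -√(t i) + η) =
        dg (fun i => √(t i) - (-√(t i) + η)) := by
      unfold dg
      rw [Matrix.diagonal_sub]
      congr 1
      funext i
      push_cast
      rfl
    rw [h3] at h2
    have h4 := (Matrix.posSemidef_diagonal_iff.1 h2) j
    have h5 : 0 ≤ √(t j) - (-√(t j) + η) := by exact_mod_cast h4
    linarith
  -- continuity of the pieces
  have hDc : ContinuousOn (fun x => DD ν t (F x) (Wa x)) (Icc a b) := DD_cont h0 t hFc hWc hWp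
  change _ + c0 / kap ν * (∫ x in a..b, DD ν t (F x) (Wa x)) ≤ _
  set D : ℝ → ℝ := fun x => DD ν t (F x) (Wa x) with hD
  have hTc : ContinuousOn (fun x => tracePow (Wa x) (1 + ν)) (Icc a b) :=
    (continuousOn_tracePow (by linarith : 0 < 1 + ν)).comp hWc fun x hx => hWp x hx
  have hEc : ContinuousOn (fun x => rtr (e x)) (Icc a b) := continuous_rtr.comp_continuousOn hec
  have hIc : ∀ ε R : ℝ, 0 < ε → ε ≤ R → ContinuousOn (fun x => ∫ τ in ε..R, τ ^ (2 * ν - 1) *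
        (rtr (F' x) - τ * psi (at' t τ) (F x) (F' x))) (Icc a b) := by
    intro ε R hε hR
    exact inner_cont ν (fun i => (htp i).le) hFc hF'c hbtw hε hR
  -- the integrated inequality
  have hint : ∀ ε R : ℝ, 0 < ε → ε ≤ 1 → 2 ≤ R →
      c0 * (∫ x in a..b, D x) ≤
        kap ν * (ν / (1 + ν)) ^ (1 + ν) * (∫ x in a..b, tracePow (Wa x) (1 + ν)) +
        ν * kap ν * Λ ^ ν * (∫ x in a..b, rtr (e x)) +
        (b - a) * (ε ^ (2 * ν) * ((∑ i, t i) / 2 + n * ε ^ 2)) -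
        ν * ∑ j, ∫ s in (-√(t j) + η)..(√(t j)), sc ν ε R (t j - s ^ 2) := by
    intro ε R hε hε1 hR
    have hεR : ε ≤ R := by linarith
    have hpi := path_int (ν := ν) t htp hab F F' hder hF'c hbtw hFa hFb hε hεR
    have i1 : IntervalIntegrable D volume a b := hDc.intervalIntegrable_of_Icc hab
    have i2 : IntervalIntegrable (fun x => tracePow (Wa x) (1 + ν)) volume a b :=
      hTc.intervalIntegrable_of_Icc hab
    have i3 : IntervalIntegrable (fun x => rtr (e x)) volume a b :=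
      hEc.intervalIntegrable_of_Icc hab
    have i4 : IntervalIntegrable (fun x => ∫ τ in ε..R, τ ^ (2 * ν - 1) *
        (rtr (F' x) - τ * psi (at' t τ) (F x) (F' x))) volume a b :=
      (hIc ε R hε hεR).intervalIntegrable_of_Icc hab
    have hpt' : ∀ x ∈ Icc a b, c0 * D x ≤
        kap ν * (ν / (1 + ν)) ^ (1 + ν) * tracePow (Wa x) (1 + ν) +
        ν * kap ν * Λ ^ ν * rtr (e x) +
        ε ^ (2 * ν) * ((∑ i, t i) / 2 + n * ε ^ 2) +
        ν * ∫ τ in ε..R, τ ^ (2 * ν - 1) *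
          (rtr (F' x) - τ * psi (at' t τ) (F x) (F' x)) := fun x hx =>
      hpt t (F x) (Wa x) (e x) ε R ht (hbtw x hx) (hWp x hx) (hep x hx) hε hε1 hR
    clear_value D F'
    generalize ε ^ (2 * ν) * ((∑ i, t i) / 2 + n * ε ^ 2) = E at hpt' ⊢
    have i5 : IntervalIntegrable (fun _ : ℝ => E) volume a b := intervalIntegrable_const
    have hm := intervalIntegral.integral_mono_on (μ := volume) hab (i1.const_mul c0)
      ((((i2.const_mul (kap ν * (ν / (1 + ν)) ^ (1 + ν))).add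
        (i3.const_mul (ν * kap ν * Λ ^ ν))).add i5).add (i4.const_mul ν)) hpt'
    rw [intervalIntegral.integral_add
      (((i2.const_mul _).add (i3.const_mul _)).add i5) (i4.const_mul ν),
      intervalIntegral.integral_add ((i2.const_mul _).add (i3.const_mul _)) i5,
      intervalIntegral.integral_add (i2.const_mul _) (i3.const_mul _),
      intervalIntegral.integral_const_mul, intervalIntegral.integral_const_mul,
      intervalIntegral.integral_const_mul, intervalIntegral.integral_const_mul,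
      intervalIntegral.integral_const, hpi] at hm
    unfold sc
    simp only [smul_eq_mul] at hm
    linarith
  -- pass to the limit
  have hlim : Tendsto (fun k : ℕ =>
      kap ν * (ν / (1 + ν)) ^ (1 + ν) * (∫ x in a..b, tracePow (Wa x) (1 + ν)) +
        ν * kap ν * Λ ^ ν * (∫ x in a..b, rtr (e x)) +
        (b - a) * ((1 / ((k : ℝ) + 1)) ^ (2 * ν) *
          ((∑ i, t i) / 2 + n * (1 / ((k : ℝ) + 1)) ^ 2)) -
        ν * ∑ j, ∫ s in (-√(t j) + η)..(√(t j)),
          sc ν (1 / ((k : ℝ) + 1)) ((k : ℝ) + 2) (t j - s ^ 2)) atTop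
      (𝓝 (kap ν * (ν / (1 + ν)) ^ (1 + ν) * (∫ x in a..b, tracePow (Wa x) (1 + ν)) +
        ν * kap ν * Λ ^ ν * (∫ x in a..b, rtr (e x)) +
        (b - a) * (0 * ((∑ i, t i) / 2 + n * 0 ^ 2)) -
        ν * ∑ j, kap ν * ∫ s in (-√(t j) + η)..(√(t j)), (t j - s ^ 2) ^ ν)) := by
    have hε : Tendsto (fun k : ℕ => 1 / ((k : ℝ) + 1)) atTop (𝓝 0) :=
      tendsto_one_div_add_atTop_nhds_zero_nat
    have hε2 : Tendsto (fun k : ℕ => (1 / ((k : ℝ) + 1)) ^ (2 * ν)) atTop (𝓝 0) := by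
      have := hε.rpow_const (p := 2 * ν) (Or.inr (by positivity))
      rwa [Real.zero_rpow (by positivity)] at this
    refine ((tendsto_const_nhds.add tendsto_const_nhds).add (Tendsto.mul tendsto_const_nhds
      (hε2.mul (tendsto_const_nhds.add (tendsto_const_nhds.mul (hε.pow 2)))))).sub
      (Tendsto.mul tendsto_const_nhds (tendsto_finsetSum _ fun j _ => ?_))
    exact int_tendsto h0 h1 (hη2 j) (by linarith) (htp j)
  have hfin := ge_of_tendsto' hlim fun k => hint (1 / ((k : ℝ) + 1)) ((k : ℝ) + 2)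
    (by positivity)
    (by rw [div_le_one (by positivity)]; linarith [(Nat.cast_nonneg k : (0:ℝ) ≤ k)])
    (by linarith [(Nat.cast_nonneg k : (0:ℝ) ≤ k)])
  rw [← Finset.mul_sum] at hfin
  -- divide by `kap ν`
  have h2 : kap ν * (ν * (∑ j, ∫ s in (-√(t j) + η)..(√(t j)), (t j - s ^ 2) ^ ν) +
        c0 / kap ν * (∫ x in a..b, D x)) ≤
      kap ν * ((ν / (1 + ν)) ^ (1 + ν) * (∫ x in a..b, tracePow (Wa x) (1 + ν)) +
        ν * Λ ^ ν * (∫ x in a..b, rtr (e x))) := by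
    have e1 : kap ν * (c0 / kap ν * (∫ x in a..b, D x)) = c0 * (∫ x in a..b, D x) := by
      field_simp
    rw [mul_add, e1]
    linarith
  exact le_of_mul_le_mul_left h2 hkap

/-- normalised form: `C ∫ tr Wa^p + K ∫ tr e ≥ Σ t_j^γ - err`, with remainder.
`C = sharpConst (ν+1/2)`, `K, c` depend only on `ν, Λ`;
`err = M Σ_j ∫_{-√t_j}^{-√t_j+η} (t_j - s²)^ν ds`, `M = C (1+ν)^(1+ν)/ν^ν`. -/
theorem hj_norm {ν : ℝ} (h0 : 0 < ν) (h1 : ν < 1) {Λ : ℝ} (hΛ : 0 < Λ) :
    ∃ c K : ℝ, 0 < c ∧ 0 < K ∧ ∀ {n : ℕ} (t : Fin n → ℝ) (a b η : ℝ)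
      (F Wa e : ℝ → Matrix (Fin n) (Fin n) ℂ),
      (∀ i, 0 < t i ∧ t i ≤ Λ) → a ≤ b → 0 ≤ η →
      ContinuousOn Wa (Icc a b) → ContinuousOn e (Icc a b) →
      (∀ x ∈ Icc a b, (Wa x).PosSemidef) → (∀ x ∈ Icc a b, (e x).PosSemidef) →
      MDerivOn F (fun x => dg t - F x * F x - Wa x - e x) (Icc a b) →
      (∀ x ∈ Icc a b, Btw (fun i => √(t i)) (F x)) →
      F a = dg (fun i => √(t i)) → F b = dg (fun i => -√(t i) + η) →
      (∑ j, (t j) ^ (ν + 1 / 2)) +
        c * (∫ x in a..b, (hs2 (dg t * F x - F x * dg t) +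
          hs2 (((ν / (1 + ν) : ℝ) : ℂ) • Wa x - (dg t - F x * F x)) /
            (1 + (ν / (1 + ν)) * rtr (Wa x)))) ≤
        sharpConst (ν + 1 / 2) * (∫ x in a..b, tracePow (Wa x) (1 + ν)) +
        K * (∫ x in a..b, rtr (e x)) +
        sharpConst (ν + 1 / 2) * ((1 + ν) ^ (1 + ν) / ν ^ ν) *
          (∑ j, ∫ s in (-√(t j))..(-√(t j) + η), (t j - s ^ 2) ^ ν) := by
  obtain ⟨c, hc, hpath⟩ := hj_path h0 h1 hΛ
  have hC := sharpConst_pos h0
  set C := sharpConst (ν + 1 / 2) with hCdef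
  set M := C * ((1 + ν) ^ (1 + ν) / ν ^ ν) with hM
  have hM0 : 0 < M := by positivity
  refine ⟨M / ν * c, M * Λ ^ ν, by positivity, by positivity, ?_⟩
  intro n t a b η F Wa e ht hab hη hWc hec hWp hep hder hbtw hFa hFb
  have h2 := hpath t a b η F Wa e ht hab hη hWc hec hWp hep hder hbtw hFa hFb
  have h3 := mul_le_mul_of_nonneg_left h2 (by positivity : 0 ≤ M / ν)
  have hMC : M / ν * (ν / (1 + ν)) ^ (1 + ν) = C := by
    have hp : (0:ℝ) < 1 + ν := by linarith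
    rw [Real.div_rpow h0.le hp.le, Real.rpow_add h0, Real.rpow_one, hM]
    have q1 : (0:ℝ) < (1 + ν) ^ (1 + ν) := by positivity
    have q2 : (0:ℝ) < ν ^ ν := by positivity
    field_simp
  have hcont : ∀ j, Continuous (fun s : ℝ => (t j - s ^ 2) ^ ν) := fun j =>
    Continuous.rpow_const (by fun_prop) fun s => Or.inr h0.le
  have hsplit : (∑ j, (t j) ^ (ν + 1 / 2)) =
      M * (∑ j, ∫ s in (-√(t j))..(-√(t j) + η), (t j - s ^ 2) ^ ν) +
      M * (∑ j, ∫ s in (-√(t j) + η)..(√(t j)), (t j - s ^ 2) ^ ν) := by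
    rw [← mul_add, ← Finset.sum_add_distrib, Finset.mul_sum]
    refine Finset.sum_congr rfl fun j _ => ?_
    rw [intervalIntegral.integral_add_adjacent_intervals ((hcont j).intervalIntegrable _ _)
      ((hcont j).intervalIntegrable _ _)]
    have h4 := beta_sharp h0 h1 (Real.sqrt_nonneg (t j))
    rw [Real.sq_sqrt (ht j).1.le] at h4
    rw [hM, hCdef, h4, Real.sqrt_eq_rpow, ← Real.rpow_mul (ht j).1.le]
    congr 1
    ring
  rw [hsplit]
  rw [mul_add, mul_add, ← mul_assoc, ← mul_assoc, ← mul_assoc, hMC] at h3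
  have e1 : M / ν * ν = M := by field_simp
  have e2 : M / ν * (ν * Λ ^ ν * ∫ x in a..b, rtr (e x)) =
      M * Λ ^ ν * ∫ x in a..b, rtr (e x) := by
    field_simp
  rw [e1, e2] at h3
  linarith

end Crest.Agent.R332
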