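import Crest.Agent.R332.MT

/-!
# R332 piece HL: linear algebra of corners (fixed `x`, finite dimensional)

`ι : Fin K → Fin N` injective; the corner of `A` is `A.submatrix ι ι`, the corner rows of
`U : N × m` are `U.submatrix ι id`. "off" = `(F F)_{ιι} - F_{ιι} F_{ιι}` equals
`F_{ι,rest} F_{rest,ι} ≥ 0`.
* `off_bound`: `tr off = Σ_{i, l ∉ range ι} |F_{ι i,l}|²` and `[T,F]_{il} = (t_i - t_l) F_{il}`.
* `off_mul`: Cauchy-Schwarz, `(FU)_ι - F_{ιι} U_ι = F_{ι,rest} U_rest`,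
  `hs2 U_rest = tr(U*U - U_ι* U_ι)`.
* `rest_small`: with `Q` the projection on the complementary coordinates,
  `Q P Q = ((1+ν)/ν) Q (T - F² + dft) Q ≤ ((1+ν)/ν)(α + √hs2 dft)`, `P = Z Z*`,
  `Z = √lam U (U*U)^((r-1)/2)` (`N × m`); and for `A = QZ(QZ)*  ≤ c`: `tr A² ≤ c tr A`,
  `(tr A)² = (tr (QZ)*(QZ))² ≤ m tr A²` so `tr A ≤ m c`.
* `rho_small`: compactness in dimension `m`: a cluster point `ρ` of `ρ_k` satisfies
  `0 ≤ ρ ≤ R`, `tr(R^s ρ) = 0`, so `R^(s/2) ρ R^(s/2) = 0`, `ρ` vanishes on the range of `R`, and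
  `ρ ≤ R` makes it vanish on the kernel.
-/

set_option autoImplicit false
open MeasureTheory Set Matrix Filter Topology
open scoped ComplexOrder
open Crest.MathPhysics.LiebThirring

namespace Crest.Agent.R332

variable {N K m : ℕ}

noncomputable def off (ι : Fin K → Fin N) (F : Matrix (Fin N) (Fin N) ℂ) :
    Matrix (Fin K) (Fin K) ℂ :=
  (F * F).submatrix ι ι - F.submatrix ι ι * F.submatrix ι ι

namespace HL_aux

/-- the selection matrix -/
def sel (ι : Fin K → Fin N) : Matrix (Fin N) (Fin K) ℂ :=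
  (1 : Matrix (Fin N) (Fin N) ℂ).submatrix id ι

theorem mul_sel {k : ℕ} (ι : Fin K → Fin N) (A : Matrix (Fin k) (Fin N) ℂ) :
    A * sel ι = A.submatrix id ι := by
  ext i j
  simp [sel, Matrix.mul_apply, Matrix.one_apply]

theorem sel_mul {k : ℕ} (ι : Fin K → Fin N) (A : Matrix (Fin N) (Fin k) ℂ) :
    (sel ι)ᴴ * A = A.submatrix ι id := by
  ext i j
  simp [sel, Matrix.mul_apply, Matrix.one_apply]

theorem corner_eq (ι : Fin K → Fin N) (A : Matrix (Fin N) (Fin N) ℂ) :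
    A.submatrix ι ι = (sel ι)ᴴ * A * sel ι := by
  rw [Matrix.mul_assoc, mul_sel, sel_mul]
  rfl

theorem sel_sel {ι : Fin K → Fin N} (hι : Function.Injective ι) : (sel ι)ᴴ * sel ι = 1 := by
  rw [sel_mul]
  ext i j
  simp [sel, Matrix.one_apply, hι.eq_iff]

/-- complementary projection -/
noncomputable def QQ (ι : Fin K → Fin N) : Matrix (Fin N) (Fin N) ℂ := 1 - sel ι * (sel ι)ᴴ

open Classical in
/-- indicator of the complement of the range -/
noncomputable def qi (ι : Fin K → Fin N) (j : Fin N) : ℝ := if j ∈ Set.range ι then 0 else 1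

theorem qi_nonneg (ι : Fin K → Fin N) (j : Fin N) : 0 ≤ qi ι j := by
  unfold qi; split_ifs <;> norm_num

theorem qi_sq (ι : Fin K → Fin N) (j : Fin N) : qi ι j * qi ι j = qi ι j := by
  unfold qi; split_ifs <;> norm_num

theorem QQ_eq {ι : Fin K → Fin N} (hι : Function.Injective ι) : QQ ι = dg (qi ι) := by
  classical
  have h : sel ι * (sel ι)ᴴ = dg (fun j => if j ∈ Set.range ι then 1 else 0) := by
    unfold dg
    ext i j
    rw [Matrix.mul_apply, Matrix.diagonal_apply]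
    simp only [sel, Matrix.submatrix_apply, Matrix.conjTranspose_apply, id, Matrix.one_apply]
    by_cases hij : i = j
    · subst hij
      rw [if_pos rfl]
      by_cases hr : i ∈ Set.range ι
      · obtain ⟨k, rfl⟩ := hr
        rw [Finset.sum_eq_single k]
        · simp
        · intro l _ hl
          have : ι k ≠ ι l := fun h => hl (hι h).symm
          simp [this]
        · simp
      · rw [if_neg hr, Finset.sum_eq_zero]
        · simp
        · intro l _
          have : i ≠ ι l := fun h => hr ⟨l, h.symm⟩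
          simp [this]
    · rw [if_neg hij]
      refine Finset.sum_eq_zero fun l _ => ?_
      by_cases h1 : i = ι l
      · have : j ≠ ι l := fun h => hij (h1.trans h.symm)
        simp [this]
      · simp [h1]
  unfold QQ
  rw [h]
  unfold dg qi
  rw [← Matrix.diagonal_one, Matrix.diagonal_sub]
  congr 1
  funext j
  by_cases hj : j ∈ Set.range ι
  · show (1 : ℂ) - (((if j ∈ Set.range ι then 1 else 0 : ℝ)) : ℂ) =
      (((if j ∈ Set.range ι then 0 else 1 : ℝ)) : ℂ)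
    rw [if_pos hj, if_pos hj]; simp
  · show (1 : ℂ) - (((if j ∈ Set.range ι then 1 else 0 : ℝ)) : ℂ) =
      (((if j ∈ Set.range ι then 0 else 1 : ℝ)) : ℂ)
    rw [if_neg hj, if_neg hj]; simp

theorem QQ_psd {ι : Fin K → Fin N} (hι : Function.Injective ι) : (QQ ι).PosSemidef := by
  rw [QQ_eq hι]
  exact dg_posSemidef (qi_nonneg ι)

theorem QQ_herm {ι : Fin K → Fin N} (hι : Function.Injective ι) : (QQ ι)ᴴ = QQ ι :=
  (QQ_psd hι).isHermitian

theorem QQ_mul {ι : Fin K → Fin N} (hι : Function.Injective ι) : QQ ι * QQ ι = QQ ι := by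
  rw [QQ_eq hι, dg_mul]
  congr 1
  funext j
  exact qi_sq ι j

theorem off_eq {ι : Fin K → Fin N} (F : Matrix (Fin N) (Fin N) ℂ) :
    off ι F = (sel ι)ᴴ * F * QQ ι * F * sel ι := by
  unfold off QQ
  rw [corner_eq, corner_eq]
  simp only [Matrix.mul_sub, Matrix.sub_mul, Matrix.mul_one, Matrix.mul_assoc]

theorem off_eq' {ι : Fin K → Fin N} (hι : Function.Injective ι) {F : Matrix (Fin N) (Fin N) ℂ}
    (hF : F.IsHermitian) :
    off ι F = (QQ ι * F * sel ι)ᴴ * (QQ ι * F * sel ι) := by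
  rw [off_eq]
  simp only [Matrix.conjTranspose_mul, QQ_herm hι, hF.eq]
  calc (sel ι)ᴴ * F * QQ ι * F * sel ι = (sel ι)ᴴ * F * (QQ ι * QQ ι) * F * sel ι := by
        rw [QQ_mul hι]
    _ = _ := by simp only [Matrix.mul_assoc]

theorem rtr_off {ι : Fin K → Fin N} (hι : Function.Injective ι) {F : Matrix (Fin N) (Fin N) ℂ}
    (hF : F.IsHermitian) : rtr (off ι F) = hs2 (QQ ι * F * sel ι) := by
  rw [off_eq' hι hF, hs2_eq_rtr]

theorem sum_comp_le {ι : Fin K → Fin N} (hι : Function.Injective ι) (f : Fin N → ℝ)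
    (hf : ∀ j, 0 ≤ f j) : ∑ i, f (ι i) ≤ ∑ j, f j := by
  have : ∑ i, f (ι i) = ∑ j ∈ Finset.univ.map ⟨ι, hι⟩, f j := by
    rw [Finset.sum_map]; rfl
  rw [this]
  exact Finset.sum_le_univ_sum_of_nonneg hf

theorem rows_eq (ι : Fin K → Fin N) (U : Matrix (Fin N) (Fin m) ℂ) :
    Uᴴ * U - (U.submatrix ι id)ᴴ * U.submatrix ι id = Uᴴ * QQ ι * U := by
  rw [← sel_mul, Matrix.conjTranspose_mul, Matrix.conjTranspose_conjTranspose]
  unfold QQ
  simp only [Matrix.mul_sub, Matrix.sub_mul, Matrix.mul_one, Matrix.mul_assoc]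

theorem dg_entry_mul (a : Fin N → ℝ) (A : Matrix (Fin N) (Fin m) ℂ) (i : Fin N) (j : Fin m) :
    (dg a * A) i j = (a i : ℂ) * A i j := by
  unfold dg; rw [Matrix.diagonal_mul]

theorem mul_dg_entry (a : Fin N → ℝ) (A : Matrix (Fin m) (Fin N) ℂ) (i : Fin m) (j : Fin N) :
    (A * dg a) i j = A i j * (a j : ℂ) := by
  unfold dg; rw [Matrix.mul_diagonal]

theorem smul_one_eq_conj {n : ℕ} {u : Matrix (Fin n) (Fin n) ℂ} (hu' : u * uᴴ = 1) (c : ℝ) :
    (c : ℂ) • (1 : Matrix (Fin n) (Fin n) ℂ) = u * dg (fun _ => c) * uᴴ := by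
  have : dg (fun _ : Fin n => c) = (c : ℂ) • (1 : Matrix (Fin n) (Fin n) ℂ) := by
    unfold dg
    ext i j
    by_cases h : i = j <;> simp [h]
  rw [this, Matrix.mul_smul, Matrix.smul_mul, Matrix.mul_one, hu']

theorem conj_dg_sub {n : ℕ} (u : Matrix (Fin n) (Fin n) ℂ) (a b : Fin n → ℝ) :
    u * dg a * uᴴ - u * dg b * uᴴ = u * dg (fun i => a i - b i) * uᴴ := by
  rw [← Matrix.sub_mul, ← Matrix.mul_sub]
  congr 2
  unfold dg
  rw [Matrix.diagonal_sub]
  congr 1
  funext i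
  push_cast
  rfl

theorem hs2_diag {n : ℕ} {u : Matrix (Fin n) (Fin n) ℂ} {a : Fin n → ℝ} (hu : uᴴ * u = 1) :
    hs2 (u * dg a * uᴴ) = ∑ i, a i ^ 2 := by
  have hh : (u * dg a * uᴴ)ᴴ = u * dg a * uᴴ := by
    rw [Matrix.conjTranspose_mul, Matrix.conjTranspose_mul, Matrix.conjTranspose_conjTranspose,
      (dg_isHermitian a).eq, Matrix.mul_assoc]
  rw [hs2_eq_rtr, hh, conj_dg_mul hu, rtr_conj hu, rtr_dg]
  exact Finset.sum_congr rfl fun i _ => (sq (a i)).symm

/-- a Hermitian matrix is at most its Hilbert-Schmidt norm -/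
theorem le_hs {n : ℕ} {D : Matrix (Fin n) (Fin n) ℂ} (hD : D.IsHermitian) :
    (((√(hs2 D) : ℝ) : ℂ) • (1 : Matrix (Fin n) (Fin n) ℂ) - D).PosSemidef := by
  obtain ⟨u, d, hu, hu', hd⟩ := exists_diag hD
  have h1 : hs2 D = ∑ i, d i ^ 2 := by rw [hd, hs2_diag hu]
  obtain ⟨h, hh⟩ : ∃ h, h = √(hs2 D) := ⟨_, rfl⟩
  rw [← hh, smul_one_eq_conj hu', hd, conj_dg_sub]
  refine conj_dg_posSemidef fun i => ?_
  rw [hh, h1, sub_nonneg]
  refine Real.le_sqrt_of_sq_le ?_
  exact Finset.single_le_sum (f := fun i => d i ^ 2) (fun j _ => sq_nonneg _) (Finset.mem_univ i)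

theorem rtr_sq_le {n : ℕ} {A : Matrix (Fin n) (Fin n) ℂ} (hA : A.PosSemidef) {c : ℝ}
    (h : ((c : ℂ) • (1 : Matrix (Fin n) (Fin n) ℂ) - A).PosSemidef) :
    rtr (A * A) ≤ c * rtr A := by
  have h1 := rtr_mul_nonneg hA h
  rw [Matrix.mul_sub, rtr_sub, Matrix.mul_smul, rtr_smul, Matrix.mul_one] at h1
  linarith

theorem sq_rtr_le {n : ℕ} (B : Matrix (Fin n) (Fin n) ℂ) : rtr B ^ 2 ≤ n * hs2 B := by
  have h1 : rtr B = ∑ i, (B i i).re := by
    unfold rtr Matrix.trace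
    simp
  rw [h1]
  have h2 := sq_sum_le_card_mul_sum_sq (s := (Finset.univ : Finset (Fin n)))
    (f := fun i => (B i i).re)
  simp only [Finset.card_univ, Fintype.card_fin] at h2
  refine h2.trans ?_
  refine mul_le_mul_of_nonneg_left ?_ (Nat.cast_nonneg n)
  unfold hs2
  refine Finset.sum_le_sum fun i _ => ?_
  have h3 : (B i i).re ^ 2 ≤ ‖B i i‖ ^ 2 := by
    rw [← sq_abs]
    exact pow_le_pow_left₀ (abs_nonneg _) (Complex.abs_re_le_norm _) 2
  exact h3.trans (Finset.single_le_sum (f := fun j => ‖B i j‖ ^ 2)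
    (fun j _ => by positivity) (Finset.mem_univ i))

end HL_aux

open HL_aux

theorem off_posSemidef {ι : Fin K → Fin N} (hι : Function.Injective ι)
    {F : Matrix (Fin N) (Fin N) ℂ} (hF : F.IsHermitian) : (off ι F).PosSemidef := by
  rw [off_eq' hι hF]
  exact Matrix.posSemidef_conjTranspose_mul_self _

theorem off_bound {ι : Fin K → Fin N} (hι : Function.Injective ι)
    {F : Matrix (Fin N) (Fin N) ℂ} (hF : F.IsHermitian) (t : Fin N → ℝ) {α β : ℝ}
    (hαβ : α < β) (hlow : ∀ i, β ≤ t (ι i)) (hup : ∀ j, j ∉ Set.range ι → t j ≤ α) :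
    rtr (off ι F) ≤ hs2 (dg t * F - F * dg t) / (β - α) ^ 2 := by
  have hpos : 0 < (β - α) ^ 2 := by have : 0 < β - α := sub_pos.2 hαβ; positivity
  rw [le_div_iff₀ hpos, rtr_off hι hF]
  unfold hs2
  rw [Finset.sum_mul]
  refine Finset.sum_le_sum fun j _ => ?_
  rw [Finset.sum_mul]
  refine le_trans ?_ (sum_comp_le hι (fun l => ‖(dg t * F - F * dg t) j l‖ ^ 2)
    (fun l => by positivity))
  refine Finset.sum_le_sum fun i _ => ?_
  have e1 : (QQ ι * F * sel ι) j i = (qi ι j : ℂ) * F j (ι i) := by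
    rw [mul_sel, Matrix.submatrix_apply, QQ_eq hι, dg_entry_mul]; rfl
  have e2 : (dg t * F - F * dg t) j (ι i) = ((t j - t (ι i) : ℝ) : ℂ) * F j (ι i) := by
    rw [Matrix.sub_apply, dg_entry_mul, mul_dg_entry]
    push_cast
    ring
  rw [e1, e2, norm_mul, norm_mul, mul_pow, mul_pow, Complex.norm_real, Complex.norm_real,
    Real.norm_eq_abs, Real.norm_eq_abs, sq_abs, sq_abs]
  by_cases hj : j ∈ Set.range ι
  · have : qi ι j = 0 := by unfold qi; rw [if_pos hj]
    rw [this]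
    have : 0 ≤ (t j - t (ι i)) ^ 2 * ‖F j (ι i)‖ ^ 2 := by positivity
    simpa using this
  · have : qi ι j = 1 := by unfold qi; rw [if_neg hj]
    rw [this]
    have h1 := hup j hj
    have h2 := hlow i
    have h3 : (β - α) ^ 2 ≤ (t j - t (ι i)) ^ 2 := by nlinarith
    nlinarith [sq_nonneg ‖F j (ι i)‖, mul_le_mul_of_nonneg_right h3 (sq_nonneg ‖F j (ι i)‖)]

theorem rows_le {ι : Fin K → Fin N} (hι : Function.Injective ι)
    (U : Matrix (Fin N) (Fin m) ℂ) :
    (Uᴴ * U - (U.submatrix ι id)ᴴ * U.submatrix ι id).PosSemidef := by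
  rw [rows_eq]
  exact (QQ_psd hι).conjTranspose_mul_mul_same U

theorem off_mul {ι : Fin K → Fin N} (hι : Function.Injective ι)
    {F : Matrix (Fin N) (Fin N) ℂ} (hF : F.IsHermitian) (U : Matrix (Fin N) (Fin m) ℂ) :
    hs2 ((F * U).submatrix ι id - F.submatrix ι ι * U.submatrix ι id) ≤
      rtr (off ι F) * rtr (Uᴴ * U - (U.submatrix ι id)ᴴ * U.submatrix ι id) := by
  have e1 : (F * U).submatrix ι id - F.submatrix ι ι * U.submatrix ι id =
      ((sel ι)ᴴ * F * QQ ι) * (QQ ι * U) := by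
    rw [← sel_mul, corner_eq, ← sel_mul]
    have : ((sel ι)ᴴ * F * QQ ι) * (QQ ι * U) = (sel ι)ᴴ * F * (QQ ι * QQ ι) * U := by
      simp only [Matrix.mul_assoc]
    rw [this, QQ_mul hι]
    unfold QQ
    simp only [Matrix.mul_sub, Matrix.sub_mul, Matrix.mul_one, Matrix.mul_assoc]
  have e2 : hs2 ((sel ι)ᴴ * F * QQ ι) = rtr (off ι F) := by
    rw [hs2_eq_rtr', off_eq' hι hF]
    congr 1
    simp only [Matrix.conjTranspose_mul, QQ_herm hι, hF.eq, Matrix.conjTranspose_conjTranspose,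
      Matrix.mul_assoc]
  have e3 : hs2 (QQ ι * U) = rtr (Uᴴ * U - (U.submatrix ι id)ᴴ * U.submatrix ι id) := by
    rw [hs2_eq_rtr, rows_eq]
    congr 1
    rw [Matrix.conjTranspose_mul, QQ_herm hι]
    calc Uᴴ * QQ ι * (QQ ι * U) = Uᴴ * (QQ ι * QQ ι) * U := by simp only [Matrix.mul_assoc]
      _ = _ := by rw [QQ_mul hι]
  rw [e1, ← e2, ← e3]
  exact hs2_mul_le _ _

theorem hs2_submatrix_le {ι : Fin K → Fin N} (hι : Function.Injective ι)
    (A : Matrix (Fin N) (Fin N) ℂ) : hs2 (A.submatrix ι ι) ≤ hs2 A := by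
  unfold hs2
  calc ∑ i, ∑ j, ‖A.submatrix ι ι i j‖ ^ 2 = ∑ i, ∑ j, ‖A (ι i) (ι j)‖ ^ 2 := rfl
    _ ≤ ∑ i, ∑ j, ‖A (ι i) j‖ ^ 2 := Finset.sum_le_sum fun i _ =>
        sum_comp_le hι (fun j => ‖A (ι i) j‖ ^ 2) fun j => by positivity
    _ ≤ ∑ i, ∑ j, ‖A i j‖ ^ 2 := sum_comp_le hι (fun i => ∑ j, ‖A i j‖ ^ 2)
        fun i => Finset.sum_nonneg fun j _ => by positivity

theorem hs2_rows_le {ι : Fin K → Fin N} (hι : Function.Injective ι)
    (A : Matrix (Fin N) (Fin m) ℂ) : hs2 (A.submatrix ι id) ≤ hs2 A := by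
  unfold hs2
  exact sum_comp_le hι (fun i => ∑ j, ‖A i j‖ ^ 2)
        fun i => Finset.sum_nonneg fun j _ => by positivity

namespace HL_aux

/-- rows of an isometry have norm at most one -/
theorem isom_row_le {V : Matrix (Fin N) (Fin K) ℂ} (hV : Vᴴ * V = 1) (j : Fin N) :
    ∑ i, ‖V j i‖ ^ 2 ≤ 1 := by
  set P := V * Vᴴ with hP
  have hPP : P * P = P := by
    rw [hP]
    calc V * Vᴴ * (V * Vᴴ) = V * (Vᴴ * V) * Vᴴ := by simp only [Matrix.mul_assoc]
      _ = _ := by rw [hV, Matrix.mul_one]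
  have hPh : Pᴴ = P := by rw [hP, Matrix.conjTranspose_mul, Matrix.conjTranspose_conjTranspose]
  have h1 : P j j = ((∑ i, ‖V j i‖ ^ 2 : ℝ) : ℂ) := by
    rw [hP, Matrix.mul_apply]
    push_cast
    refine Finset.sum_congr rfl fun i _ => ?_
    rw [Matrix.conjTranspose_apply]
    have := Complex.mul_conj' (V j i)
    simpa using this
  have h2 : P j j = ((∑ l, ‖P j l‖ ^ 2 : ℝ) : ℂ) := by
    conv_lhs => rw [← hPP, Matrix.mul_apply]
    push_cast
    refine Finset.sum_congr rfl fun l _ => ?_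
    have h3 : P l j = star (P j l) := by
      conv_lhs => rw [← hPh, Matrix.conjTranspose_apply]
    rw [h3]
    have := Complex.mul_conj' (P j l)
    simpa using this
  set p := ∑ i, ‖V j i‖ ^ 2 with hp
  have h4 : p = ∑ l, ‖P j l‖ ^ 2 := by
    have := h1.symm.trans h2
    exact_mod_cast this
  have h5 : ‖P j j‖ ^ 2 ≤ ∑ l, ‖P j l‖ ^ 2 :=
    Finset.single_le_sum (f := fun l => ‖P j l‖ ^ 2) (fun l _ => by positivity)
      (Finset.mem_univ j)
  have hp0 : 0 ≤ p := Finset.sum_nonneg fun i _ => by positivity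
  rw [h1, Complex.norm_real, Real.norm_eq_abs, sq_abs, ← h4] at h5
  nlinarith

/-- Peierls' inequality -/
theorem tracePow_isom_le {V : Matrix (Fin N) (Fin K) ℂ} (hV : Vᴴ * V = 1)
    {A : Matrix (Fin N) (Fin N) ℂ} (hA : A.PosSemidef) {p : ℝ} (hp : 1 ≤ p) :
    tracePow (Vᴴ * A * V) p ≤ tracePow A p := by
  obtain ⟨u, a, hu, hu', hAd⟩ := exists_diag hA.isHermitian
  have ha := diag_nonneg hu hAd hA
  have hC : (Vᴴ * A * V).PosSemidef := hA.conjTranspose_mul_mul_same V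
  obtain ⟨w, c, hw, hw', hCd⟩ := exists_diag hC.isHermitian
  have hc := diag_nonneg hw hCd hC
  set X := uᴴ * V * w with hX
  have hXX : Xᴴ * X = 1 := by
    rw [hX, Matrix.conjTranspose_mul, Matrix.conjTranspose_mul,
      Matrix.conjTranspose_conjTranspose]
    calc wᴴ * (Vᴴ * u) * (uᴴ * V * w) = wᴴ * (Vᴴ * (u * uᴴ) * V) * w := by
          simp only [Matrix.mul_assoc]
      _ = 1 := by rw [hu', Matrix.mul_one, hV, Matrix.mul_one, hw]
  have hXc : Xᴴ * dg a * X = dg c := by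
    have h1 : wᴴ * (Vᴴ * A * V) * w = dg c := by
      rw [hCd]
      calc wᴴ * (w * dg c * wᴴ) * w = (wᴴ * w) * dg c * (wᴴ * w) := by
            simp only [Matrix.mul_assoc]
        _ = dg c := by rw [hw, Matrix.one_mul, Matrix.mul_one]
    rw [← h1, hX, hAd, Matrix.conjTranspose_mul, Matrix.conjTranspose_mul,
      Matrix.conjTranspose_conjTranspose]
    simp only [Matrix.mul_assoc]
  have hcol : ∀ i, ∑ j, ‖X j i‖ ^ 2 = 1 := by
    intro i
    have h1 := congrFun (congrFun hXX i) i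
    rw [Matrix.mul_apply, Matrix.one_apply_eq] at h1
    have h2 : ((∑ j, ‖X j i‖ ^ 2 : ℝ) : ℂ) = 1 := by
      rw [← h1]
      push_cast
      refine Finset.sum_congr rfl fun j _ => ?_
      rw [Matrix.conjTranspose_apply]
      have := Complex.conj_mul' (X j i)
      simpa using this.symm
    exact_mod_cast h2
  have hci : ∀ i, c i = ∑ j, ‖X j i‖ ^ 2 * a j := by
    intro i
    have h1 := congrFun (congrFun hXc i) i
    rw [Matrix.mul_apply] at h1
    have h3 : dg c i i = (c i : ℂ) := by unfold dg; rw [Matrix.diagonal_apply_eq]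
    rw [h3] at h1
    have h2 : ((∑ j, ‖X j i‖ ^ 2 * a j : ℝ) : ℂ) = (c i : ℂ) := by
      rw [← h1]
      push_cast
      refine Finset.sum_congr rfl fun j _ => ?_
      rw [mul_dg_entry, Matrix.conjTranspose_apply]
      have := Complex.conj_mul' (X j i)
      have h4 : star (X j i) * X j i = (‖X j i‖ : ℂ) ^ 2 := by simpa using this
      rw [← h4]
      ring
    exact_mod_cast h2.symm
  have hA1 : tracePow A p = ∑ j, a j ^ p := by rw [hAd]; exact tracePow_diag hu hu' p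
  have hC1 : tracePow (Vᴴ * A * V) p = ∑ i, c i ^ p := by
    rw [hCd]; exact tracePow_diag hw hw' p
  rw [hA1, hC1]
  have hJ : ∀ i, c i ^ p ≤ ∑ j, ‖X j i‖ ^ 2 * a j ^ p := by
    intro i
    rw [hci i]
    have := (convexOn_rpow hp).map_sum_le (t := Finset.univ) (w := fun j => ‖X j i‖ ^ 2)
      (p := a) (fun j _ => by positivity) (hcol i) (fun j _ => ha j)
    simpa [smul_eq_mul] using this
  calc ∑ i, c i ^ p ≤ ∑ i, ∑ j, ‖X j i‖ ^ 2 * a j ^ p := Finset.sum_le_sum fun i _ => hJ i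
    _ = ∑ j, (∑ i, ‖X j i‖ ^ 2) * a j ^ p := by
        rw [Finset.sum_comm]
        exact Finset.sum_congr rfl fun j _ => (Finset.sum_mul _ _ _).symm
    _ ≤ ∑ j, 1 * a j ^ p := by
        refine Finset.sum_le_sum fun j _ => ?_
        exact mul_le_mul_of_nonneg_right (isom_row_le hXX j) (Real.rpow_nonneg (ha j) p)
    _ = ∑ j, a j ^ p := by simp

end HL_aux

/-- compression decreases `tr A^p` -/
theorem tracePow_submatrix_le {ι : Fin K → Fin N} (hι : Function.Injective ι)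
    {A : Matrix (Fin N) (Fin N) ℂ} (hA : A.PosSemidef) {p : ℝ} (hp : 1 ≤ p) :
    tracePow (A.submatrix ι ι) p ≤ tracePow A p := by
  rw [corner_eq]
  exact tracePow_isom_le (sel_sel hι) hA hp

theorem btw_submatrix {ι : Fin K → Fin N} (hι : Function.Injective ι)
    {d : Fin N → ℝ} {F : Matrix (Fin N) (Fin N) ℂ} (h : Btw d F) :
    Btw (fun i => d (ι i)) (F.submatrix ι ι) := by
  have h0 : dg (fun i => d (ι i)) = (dg d).submatrix ι ι := by
    unfold dg
    ext i j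
    rw [Matrix.submatrix_apply, Matrix.diagonal_apply, Matrix.diagonal_apply]
    simp [hι.eq_iff]
  refine ⟨?_, ?_⟩
  · have := h.1.submatrix ι
    rw [h0]
    exact this
  · have := h.2.submatrix ι
    rw [h0]
    exact this

theorem pot_corner {lam r : ℝ} (ι : Fin K → Fin N) (U : Matrix (Fin N) (Fin m) ℂ) :
    (pot lam r U).submatrix ι ι =
      (lam : ℂ) • (U.submatrix ι id * mpow (Uᴴ * U) (r - 1) * (U.submatrix ι id)ᴴ) := by
  rw [corner_eq, ← sel_mul, Matrix.conjTranspose_mul, Matrix.conjTranspose_conjTranspose]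
  unfold pot
  simp only [Matrix.mul_smul, Matrix.smul_mul, Matrix.mul_assoc]

theorem det_pot_corner {lam r : ℝ} (hK : m < K) (ι : Fin K → Fin N)
    (U : Matrix (Fin N) (Fin m) ℂ) : ((pot lam r U).submatrix ι ι).det = 0 := by
  rw [pot_corner]
  by_contra hne
  set V := U.submatrix ι id with hV
  set B := (lam : ℂ) • (V * mpow (Uᴴ * U) (r - 1) * Vᴴ) with hB
  have h1 : IsUnit B := by
    rw [Matrix.isUnit_iff_isUnit_det]
    exact isUnit_iff_ne_zero.2 hne
  have h2 : B.rank = K := by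
    rw [Matrix.rank_of_isUnit B h1, Fintype.card_fin]
  have h3 : B = V * ((lam : ℂ) • (mpow (Uᴴ * U) (r - 1) * Vᴴ)) := by
    rw [hB, Matrix.mul_smul, Matrix.mul_assoc]
  have h4 : B.rank ≤ m := by
    rw [h3]
    refine (Matrix.rank_mul_le_left _ _).trans ?_
    exact V.rank_le_width
  omega

theorem rest_trace {lam r : ℝ} (ι : Fin K → Fin N) (U : Matrix (Fin N) (Fin m) ℂ) :
    rtr (pot lam r U) - rtr ((pot lam r U).submatrix ι ι) =
      lam * rtr (mpow (Uᴴ * U) (r - 1) *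
        (Uᴴ * U - (U.submatrix ι id)ᴴ * U.submatrix ι id)) := by
  rw [pot_corner]
  unfold pot
  rw [rtr_smul, rtr_smul, Matrix.mul_sub, rtr_sub, ← mul_sub]
  have key : ∀ {k : ℕ} (V : Matrix (Fin k) (Fin m) ℂ) (M : Matrix (Fin m) (Fin m) ℂ),
      rtr (V * M * Vᴴ) = rtr (M * (Vᴴ * V)) := by
    intro k V M
    rw [Matrix.mul_assoc, rtr_mul_comm, Matrix.mul_assoc]
  rw [key, key]

theorem rest_small {ν lam r : ℝ} (hν : 0 < ν) (hl : 0 < lam) (hr : 1 < r)
    {ι : Fin K → Fin N} (hι : Function.Injective ι)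
    {F : Matrix (Fin N) (Fin N) ℂ} (hF : F.IsHermitian) (t : Fin N → ℝ) {α : ℝ} (hα : 0 ≤ α)
    (hup : ∀ j, j ∉ Set.range ι → t j ≤ α) (U : Matrix (Fin N) (Fin m) ℂ) :
    rtr (pot lam r U) - rtr ((pot lam r U).submatrix ι ι) ≤
      m * (((1 + ν) / ν) * (α +
        √(hs2 (((ν / (1 + ν) : ℝ) : ℂ) • pot lam r U - (dg t - F * F))))) := by
  set P := pot lam r U with hPdef
  set D := ((ν / (1 + ν) : ℝ) : ℂ) • P - (dg t - F * F) with hD
  set c := ((1 + ν) / ν) * (α + √(hs2 D)) with hc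
  have hc0 : 0 ≤ c := by positivity
  have hPpsd : P.PosSemidef := pot_posSemidef hl.le U
  have hFF : (F * F).PosSemidef := by
    have := Matrix.posSemidef_conjTranspose_mul_self F
    rwa [hF.eq] at this
  have hDh : D.IsHermitian := by
    have h1 : (((ν / (1 + ν) : ℝ) : ℂ) • P).IsHermitian :=
      (hPpsd.smul (by exact_mod_cast (by positivity : 0 ≤ ν / (1 + ν)))).isHermitian
    exact h1.sub ((dg_isHermitian t).sub hFF.isHermitian)
  -- `A = Q P Q ≤ c`
  set A := QQ ι * P * QQ ι with hA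
  have hApsd : A.PosSemidef := by
    have := hPpsd.mul_mul_conjTranspose_same (QQ ι)
    rwa [QQ_herm hι] at this
  have hAle : ((c : ℂ) • (1 : Matrix (Fin N) (Fin N) ℂ) - A).PosSemidef := by
    have h1 := (le_hs hDh).mul_mul_conjTranspose_same (QQ ι)
    have h2 := hFF.mul_mul_conjTranspose_same (QQ ι)
    rw [QQ_herm hι] at h1 h2
    have h3 : (dg (fun j => (α - t j) * qi ι j)).PosSemidef := by
      refine dg_posSemidef fun j => ?_
      by_cases hj : j ∈ Set.range ι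
      · have : qi ι j = 0 := by unfold qi; rw [if_pos hj]
        rw [this, mul_zero]
      · exact mul_nonneg (sub_nonneg.2 (hup j hj)) (qi_nonneg ι j)
    have h4 : (dg (fun j => c * (1 - qi ι j))).PosSemidef := by
      refine dg_posSemidef fun j => ?_
      have : 0 ≤ 1 - qi ι j := by unfold qi; split_ifs <;> norm_num
      positivity
    have h5 := ((h1.add h2).add h3).smul (a := (((1 + ν) / ν : ℝ) : ℂ))
      (by exact_mod_cast (by positivity : 0 ≤ (1 + ν) / ν))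
    have h6 := h5.add h4
    convert h6 using 1
    have hQ2 : QQ ι * ((√(hs2 D) : ℝ) : ℂ) • (1 : Matrix (Fin N) (Fin N) ℂ) * QQ ι =
        ((√(hs2 D) : ℝ) : ℂ) • QQ ι := by
      rw [Matrix.mul_smul, Matrix.smul_mul, Matrix.mul_one, QQ_mul hι]
    have hQt : QQ ι * dg t * QQ ι = dg (fun j => t j * qi ι j) := by
      rw [QQ_eq hι, dg_mul, dg_mul]
      congr 1
      funext j
      have h7 := qi_sq ι j
      calc qi ι j * t j * qi ι j = (qi ι j * qi ι j) * t j := by ring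
        _ = t j * qi ι j := by rw [h7]; ring
    have hDe : QQ ι * D * QQ ι = ((ν / (1 + ν) : ℝ) : ℂ) • A - dg (fun j => t j * qi ι j) +
        QQ ι * (F * F) * QQ ι := by
      rw [hD, hA, ← hQt]
      simp only [Matrix.mul_sub, Matrix.sub_mul, Matrix.mul_smul, Matrix.smul_mul]
      abel
    rw [Matrix.mul_sub, Matrix.sub_mul, hQ2, hDe, QQ_eq hι]
    have hνne : ν ≠ 0 := hν.ne'
    have hν1 : 1 + ν ≠ 0 := by positivity
    ext i j
    simp only [Matrix.sub_apply, Matrix.add_apply, Matrix.smul_apply, smul_eq_mul]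
    unfold dg
    simp only [Matrix.diagonal_apply, Matrix.one_apply]
    have hcc : (c : ℂ) = (((1 + ν) / ν : ℝ) : ℂ) * ((α : ℂ) + ((√(hs2 D) : ℝ) : ℂ)) := by
      rw [hc]; push_cast; ring
    have hνc : (((1 + ν) / ν : ℝ) : ℂ) * ((ν / (1 + ν) : ℝ) : ℂ) = 1 := by
      rw [← Complex.ofReal_mul, ← Complex.ofReal_one]
      congr 1
      field_simp
    by_cases hij : i = j
    · rw [if_pos hij, if_pos hij, if_pos hij, if_pos hij, if_pos hij]
      simp only [Complex.ofReal_mul, Complex.ofReal_sub, Complex.ofReal_one]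
      rw [hcc]
      linear_combination (A i j) * hνc
    · rw [if_neg hij, if_neg hij, if_neg hij, if_neg hij, if_neg hij]
      linear_combination (A i j) * hνc
  -- the trace identity
  have hcorner : rtr P - rtr (P.submatrix ι ι) = rtr A := by
    have h1 : rtr (P.submatrix ι ι) = rtr (P * (sel ι * (sel ι)ᴴ)) := by
      rw [corner_eq, rtr_mul_comm, ← Matrix.mul_assoc, rtr_mul_comm]
    have h2 : rtr A = rtr (P * QQ ι) := by
      rw [hA, rtr_mul_comm, ← Matrix.mul_assoc, QQ_mul hι, rtr_mul_comm]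
    rw [h1, h2, ← rtr_sub]
    unfold QQ
    rw [Matrix.mul_sub, Matrix.mul_one]
  -- factorisation
  have hB0 := Matrix.posSemidef_conjTranspose_mul_self U
  have hr2 : 0 < (r - 1) / 2 := by linarith
  set M := mpow (Uᴴ * U) ((r - 1) / 2) with hM
  have hMh : Mᴴ = M := (mpow_posSemidef hB0 _).isHermitian
  have hMM : M * M = mpow (Uᴴ * U) (r - 1) := by
    rw [hM, mpow_mul' hB0 hr2 hr2]; congr 1; ring
  set Z : Matrix (Fin N) (Fin m) ℂ := ((√lam : ℝ) : ℂ) • (QQ ι * U * M) with hZ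
  have hZh : Zᴴ = ((√lam : ℝ) : ℂ) • (M * Uᴴ * QQ ι) := by
    rw [hZ, Matrix.conjTranspose_smul, Matrix.conjTranspose_mul, Matrix.conjTranspose_mul, hMh,
      QQ_herm hι]
    simp [Matrix.mul_assoc]
  have hZZ : Z * Zᴴ = A := by
    rw [hZh, hZ, Matrix.smul_mul, Matrix.mul_smul, smul_smul, hA, hPdef]
    unfold pot
    rw [← hMM, Matrix.mul_smul, Matrix.smul_mul, ← Complex.ofReal_mul, Real.mul_self_sqrt hl.le]
    simp only [Matrix.mul_assoc]
  set B := Zᴴ * Z with hB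
  have hAB : rtr A = rtr B := by rw [← hZZ, rtr_mul_comm]
  have hAB2 : rtr (A * A) = hs2 B := by
    have hBh : Bᴴ = B := by rw [hB, Matrix.conjTranspose_mul, Matrix.conjTranspose_conjTranspose]
    rw [hs2_eq_rtr, hBh, ← hZZ, hB]
    have : Z * Zᴴ * (Z * Zᴴ) = Z * (Zᴴ * Z * Zᴴ) := by simp only [Matrix.mul_assoc]
    rw [this, rtr_mul_comm]
    simp only [Matrix.mul_assoc]
  have h1 := rtr_sq_le hApsd hAle
  have h2 := sq_rtr_le B
  have h3 := rtr_nonneg hApsd
  rw [hcorner]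
  rw [hAB2] at h1
  rw [← hAB] at h2
  rcases eq_or_lt_of_le h3 with h0 | h0
  · rw [← h0]
    exact mul_nonneg (Nat.cast_nonneg m) hc0
  · have h4 : rtr A ^ 2 ≤ m * (c * rtr A) :=
      h2.trans (mul_le_mul_of_nonneg_left h1 (Nat.cast_nonneg m))
    have h5 : rtr A * rtr A ≤ (m * c) * rtr A := by nlinarith
    exact le_of_mul_le_mul_right h5 h0

namespace HL_aux

theorem rho_bound {s δ : ℝ} (hδ : 0 < δ) (hs : 0 < s) {A ρ : Matrix (Fin m) (Fin m) ℂ}
    (hA : A.PosSemidef) (hρ : ρ.PosSemidef) (hle : (A - ρ).PosSemidef) :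
    rtr ρ ≤ m * δ + (δ ^ s)⁻¹ * rtr (mpow A s * ρ) := by
  obtain ⟨u, a, hu, hu', hAd⟩ := exists_diag hA.isHermitian
  have ha := diag_nonneg hu hAd hA
  set ρ' := uᴴ * ρ * u with hρ'
  have hρ'psd : ρ'.PosSemidef := hρ.conjTranspose_mul_mul_same u
  have hdiag : ∀ i, 0 ≤ (ρ' i i).re := fun i => (Complex.le_def.1 (hρ'psd.diag_nonneg (i := i))).1
  have hle' : (dg a - ρ').PosSemidef := by
    have h1 := hle.conjTranspose_mul_mul_same u
    have h2 : uᴴ * (A - ρ) * u = dg a - ρ' := by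
      rw [Matrix.mul_sub, Matrix.sub_mul, ← hρ', hAd]
      congr 1
      calc uᴴ * (u * dg a * uᴴ) * u = (uᴴ * u) * dg a * (uᴴ * u) := by
            simp only [Matrix.mul_assoc]
        _ = dg a := by rw [hu, Matrix.one_mul, Matrix.mul_one]
    rwa [h2] at h1
  have hup : ∀ i, (ρ' i i).re ≤ a i := by
    intro i
    have h1 := (Complex.le_def.1 (hle'.diag_nonneg (i := i))).1
    have h2 : dg a i i = (a i : ℂ) := by unfold dg; rw [Matrix.diagonal_apply_eq]
    rw [Matrix.sub_apply, h2, Complex.sub_re, Complex.ofReal_re, Complex.zero_re] at h1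
    linarith
  have htr : rtr ρ = ∑ i, (ρ' i i).re := by
    have h1 : rtr ρ' = rtr ρ := by
      rw [hρ', rtr_mul_comm, ← Matrix.mul_assoc, hu', Matrix.one_mul]
    rw [← h1]
    unfold rtr Matrix.trace
    simp
  have htr2 : rtr (mpow A s * ρ) = ∑ i, a i ^ s * (ρ' i i).re := by
    have h1 : rtr (mpow A s * ρ) = rtr (dg (fun i => a i ^ s) * ρ') := by
      rw [hAd, mpow_diag hu hu', hρ']
      rw [Matrix.mul_assoc, Matrix.mul_assoc, rtr_mul_comm]
      simp only [Matrix.mul_assoc]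
    rw [h1]
    unfold rtr Matrix.trace
    rw [Complex.re_sum]
    refine Finset.sum_congr rfl fun i _ => ?_
    rw [Matrix.diag_apply, dg_entry_mul, Complex.re_ofReal_mul]
  rw [htr, htr2, Finset.mul_sum]
  have h1 : (m : ℝ) * δ = ∑ _i : Fin m, δ := by simp
  rw [h1, ← Finset.sum_add_distrib]
  refine Finset.sum_le_sum fun i _ => ?_
  have hδs : 0 < δ ^ s := Real.rpow_pos_of_pos hδ s
  have h0 := hdiag i
  have has := Real.rpow_nonneg (ha i) s
  by_cases hai : a i ≤ δ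
  · have : 0 ≤ (δ ^ s)⁻¹ * (a i ^ s * (ρ' i i).re) := by positivity
    linarith [hup i]
  · push Not at hai
    have h2 : δ ^ s ≤ a i ^ s := Real.rpow_le_rpow hδ.le hai.le hs.le
    have h3 : 1 ≤ (δ ^ s)⁻¹ * a i ^ s := by
      rw [inv_mul_eq_div, le_div_iff₀ hδs]; linarith
    have h4 : (ρ' i i).re ≤ (δ ^ s)⁻¹ * (a i ^ s * (ρ' i i).re) := by
      rw [← mul_assoc]
      nlinarith
    linarith

theorem hs2_le_sq_rtr {ρ : Matrix (Fin m) (Fin m) ℂ} (hρ : ρ.PosSemidef) :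
    hs2 ρ ≤ rtr ρ ^ 2 := by
  obtain ⟨u, a, hu, hu', hAd⟩ := exists_diag hρ.isHermitian
  have ha := diag_nonneg hu hAd hρ
  have h1 : hs2 ρ = ∑ i, a i ^ 2 := by rw [hAd]; exact hs2_diag hu
  have h2 : rtr ρ = ∑ i, a i := by rw [hAd, rtr_conj hu, rtr_dg]
  rw [h1, h2]
  rw [sq (∑ i, a i), Finset.sum_mul]
  refine Finset.sum_le_sum fun i _ => ?_
  rw [sq]
  exact mul_le_mul_of_nonneg_left
    (Finset.single_le_sum (fun j _ => ha j) (Finset.mem_univ i)) (ha i)

theorem entry_le (A : Matrix (Fin m) (Fin m) ℂ) (i j : Fin m) : ‖A i j‖ ≤ √(hs2 A) := by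
  refine Real.le_sqrt_of_sq_le ?_
  unfold hs2
  refine (Finset.single_le_sum (f := fun j => ‖A i j‖ ^ 2) (fun j _ => by positivity)
    (Finset.mem_univ j)).trans ?_
  exact Finset.single_le_sum (f := fun i => ∑ j, ‖A i j‖ ^ 2)
    (fun i _ => Finset.sum_nonneg fun j _ => by positivity) (Finset.mem_univ i)

end HL_aux

theorem rho_small {s : ℝ} (hs : 0 < s) (A ρ : ℕ → Matrix (Fin m) (Fin m) ℂ)
    (R : Matrix (Fin m) (Fin m) ℂ) (hA : ∀ k, (A k).PosSemidef) (hρ : ∀ k, (ρ k).PosSemidef)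
    (hle : ∀ k, (A k - ρ k).PosSemidef) (hlim : Tendsto A atTop (𝓝 R))
    (htr : Tendsto (fun k => rtr (mpow (A k) s * ρ k)) atTop (𝓝 0)) :
    Tendsto ρ atTop (𝓝 0) := by
  have h1 : Tendsto (fun k => rtr (ρ k)) atTop (𝓝 0) := by
    rw [Metric.tendsto_atTop]
    intro ε hε
    set δ : ℝ := ε / (2 * (m + 1)) with hδd
    have hm : (0 : ℝ) < m + 1 := by positivity
    have hδ : 0 < δ := by positivity
    have hδs : 0 < δ ^ s := Real.rpow_pos_of_pos hδ s
    obtain ⟨k₀, hk₀⟩ := (Metric.tendsto_atTop.1 htr) (δ ^ s * (ε / 2)) (by positivity)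
    refine ⟨k₀, fun k hk => ?_⟩
    have h2 := hk₀ k hk
    rw [Real.dist_eq, sub_zero] at h2 ⊢
    have h3 := rho_bound hδ hs (hA k) (hρ k) (hle k)
    have h4 := rtr_nonneg (hρ k)
    rw [abs_of_nonneg h4]
    have h5 : (δ ^ s)⁻¹ * rtr (mpow (A k) s * ρ k) < ε / 2 := by
      rw [inv_mul_eq_div, div_lt_iff₀ hδs]
      have := (le_abs_self _).trans_lt h2
      linarith
    have h6 : (m : ℝ) * δ ≤ ε / 2 := by
      rw [hδd, mul_div_assoc', div_le_iff₀ (by positivity)]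
      nlinarith
    linarith
  refine tendsto_pi_nhds.2 fun i => tendsto_pi_nhds.2 fun j => ?_
  show Tendsto (fun k => ρ k i j) atTop (𝓝 0)
  refine squeeze_zero_norm (fun k => ?_) h1
  refine (entry_le (ρ k) i j).trans ?_
  rw [Real.sqrt_le_left (rtr_nonneg (hρ k))]
  exact hs2_le_sq_rtr (hρ k)

end Crest.Agent.R332
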