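import Crest.Agent.R332.API

/-!
# R332 piece M1: diagonalise the trial family, keep the negative part

The energy matrix `E` (of size `n`) is Hermitian (`W x` Hermitian, `inner` sesquilinear):
`E = u dg(e) uᴴ`. Let `J = {j : e_j < 0}`, `N = |J|`, and let `Φ x` be the `m × N` matrix with
columns `Σ_k u_kj φ_k(x)`, `j ∈ J` (reindexed by `Fin N`); `d_j = -e_j`. Then
`∫ Φ*Φ = 1`, `∫ Φ'*Φ' - ∫ Φ*WΦ = -diag d`, `negMoment E γ = Σ_j d_j^γ` (the other eigenvalues
contribute `0^γ = 0`, `γ > 0`).
Integrability of `x ↦ ⟨φ_k, W φ_l⟩`: `|W_ij| ≤ tr W ≤ m + tr W^p`-type bounds on compacts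
(`(W x).PosSemidef`, `t ≤ 1 + t^p` for `p ≥ 1`), `φ` bounded with compact support.
`DΦ` is the entrywise derivative. `L₀` is any bound for the supports.
-/

set_option autoImplicit false
open MeasureTheory Set Matrix
open scoped ComplexOrder ContDiff
open Crest.MathPhysics.LiebThirring

namespace Crest.Agent.R332

namespace M1_aux

/-- entries of a psd matrix are bounded by the trace -/
theorem entry_le {m : ℕ} {A : Matrix (Fin m) (Fin m) ℂ} (hA : A.PosSemidef) (i j : Fin m)
    {p : ℝ} (hp : 1 ≤ p) : ‖A i j‖ ≤ m + tracePow A p := by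
  obtain ⟨u, a, hu, hu', hA'⟩ := exists_diag hA.isHermitian
  have ha := diag_nonneg hu hA' hA
  have htr : tracePow A p = ∑ k, (a k) ^ p := by
    rw [hA', tracePow_diag hu hu']
  have hent : ∀ i k, ‖u i k‖ ≤ 1 := by
    intro i k
    have h1 : (uᴴ * u) k k = 1 := by rw [hu]; simp
    rw [Matrix.mul_apply] at h1
    have h2 : ∑ l, ‖u l k‖ ^ 2 = 1 := by
      have h3 : ∑ l, ((‖u l k‖ ^ 2 : ℝ) : ℂ) = 1 := by
        rw [← h1]
        refine Finset.sum_congr rfl fun l _ => ?_
        rw [Matrix.conjTranspose_apply]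
        rw [← Complex.normSq_eq_norm_sq, Complex.normSq_eq_conj_mul_self]
        rfl
      exact_mod_cast h3
    have h4 : ‖u i k‖ ^ 2 ≤ 1 := by
      rw [← h2]
      exact Finset.single_le_sum (f := fun l => ‖u l k‖ ^ 2) (fun _ _ => by positivity)
        (Finset.mem_univ i)
    have h5 := norm_nonneg (u i k)
    nlinarith
  have hAij : A i j = ∑ k, u i k * (a k : ℂ) * star (u j k) := by
    rw [hA', Matrix.mul_apply]
    refine Finset.sum_congr rfl fun k _ => ?_
    unfold dg
    rw [Matrix.mul_diagonal, Matrix.conjTranspose_apply]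
  have h6 : ‖A i j‖ ≤ ∑ k, a k := by
    rw [hAij]
    refine (norm_sum_le _ _).trans (Finset.sum_le_sum fun k _ => ?_)
    rw [norm_mul, norm_mul, norm_star, Complex.norm_real, Real.norm_of_nonneg (ha k)]
    have h7 := hent i k
    have h8 := hent j k
    have h9 := norm_nonneg (u i k)
    have h10 := norm_nonneg (u j k)
    have h11 := ha k
    calc ‖u i k‖ * a k * ‖u j k‖ ≤ 1 * a k * 1 := by gcongr
      _ = a k := by ring
  refine h6.trans ?_
  rw [htr]
  calc ∑ k, a k ≤ ∑ k, (1 + (a k) ^ p) := by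
        refine Finset.sum_le_sum fun k _ => ?_
        rcases le_total (a k) 1 with h | h
        · have := Real.rpow_nonneg (ha k) p
          linarith
        · have : a k ≤ (a k) ^ p := by
            calc a k = (a k) ^ (1:ℝ) := (Real.rpow_one _).symm
              _ ≤ (a k) ^ p := Real.rpow_le_rpow_of_exponent_le h hp
          linarith
    _ = m + ∑ k, (a k) ^ p := by
        rw [Finset.sum_add_distrib]
        simp

end M1_aux

/-- entries of a PSD matrix function with integrable `tr W^p`, `p ≥ 1`, are locally integrable -/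
theorem locallyIntegrable_entries {m : ℕ} {p : ℝ} (hp : 1 ≤ p)
    (W : ℝ → Matrix (Fin m) (Fin m) ℂ) (hW : ∀ i j, Measurable fun x => W x i j)
    (hWp : ∀ x, (W x).PosSemidef) (hWi : Integrable fun x => tracePow (W x) p) (i j : Fin m) :
    LocallyIntegrable (fun x => W x i j) := by
  have h1 : LocallyIntegrable (fun x => (m : ℝ) + tracePow (W x) p) :=
    (locallyIntegrable_const (m : ℝ)).add hWi.locallyIntegrable
  refine h1.mono (hW i j).aestronglyMeasurable (Filter.Eventually.of_forall fun x => ?_)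
  have h2 := M1_aux.entry_le (hWp x) i j hp
  refine h2.trans ?_
  rw [Real.norm_of_nonneg]
  have := tracePow_nonneg (hWp x) p
  positivity

namespace M1_aux

/-- the matrix with columns the vectors of the family -/
noncomputable def PM {m n : ℕ} (φ : Fin n → ℝ → Vec m) (x : ℝ) : Matrix (Fin m) (Fin n) ℂ :=
  Matrix.of fun i k => φ k x i

theorem PM_inner {m n : ℕ} (φ ψ : Fin n → ℝ → Vec m) (x : ℝ) (k l : Fin n) :
    inner ℂ (φ k x) (ψ l x) = ((PM φ x)ᴴ * PM ψ x) k l := by
  rw [Matrix.mul_apply, PiLp.inner_apply]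
  refine Finset.sum_congr rfl fun i _ => ?_
  rw [Matrix.conjTranspose_apply]
  unfold PM
  simp [Matrix.of_apply, mul_comm]

theorem PM_inner_W {m n : ℕ} (φ : Fin n → ℝ → Vec m) (W : Matrix (Fin m) (Fin m) ℂ)
    (x : ℝ) (k l : Fin n) :
    inner ℂ (φ k x) (Matrix.toEuclideanLin W (φ l x)) = ((PM φ x)ᴴ * W * PM φ x) k l := by
  rw [Matrix.mul_assoc, Matrix.mul_apply, PiLp.inner_apply]
  refine Finset.sum_congr rfl fun i _ => ?_
  rw [Matrix.conjTranspose_apply, Matrix.mul_apply, Matrix.ofLp_toLpLin]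
  unfold PM
  simp only [Matrix.of_apply, Matrix.toLin'_apply, Matrix.mulVec, dotProduct,
    RCLike.inner_apply]
  rw [mul_comm]
  rfl

/-- conjugating an integral -/
theorem int_conj {n N : ℕ} (G : ℝ → Matrix (Fin n) (Fin n) ℂ)
    (hG : ∀ i j, Integrable fun x => G x i j) (v : Matrix (Fin n) (Fin N) ℂ) (k l : Fin N) :
    Integrable (fun x => (vᴴ * G x * v) k l) ∧
    ∫ x, (vᴴ * G x * v) k l = (vᴴ * (Matrix.of fun i j => ∫ x, G x i j) * v) k l := by
  have h1 : ∀ H : Matrix (Fin n) (Fin n) ℂ, (vᴴ * H * v) k l =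
      ∑ j, ∑ i, (vᴴ k i * v j l) * H i j := by
    intro H
    rw [Matrix.mul_apply]
    refine Finset.sum_congr rfl fun j _ => ?_
    rw [Matrix.mul_apply, Finset.sum_mul]
    refine Finset.sum_congr rfl fun i _ => ?_
    ring
  have h2 : ∀ j, Integrable (fun x => ∑ i, (vᴴ k i * v j l) * G x i j) := by
    intro j
    exact integrable_finsetSum _ fun i _ => (hG i j).const_mul _
  simp only [h1]
  refine ⟨integrable_finsetSum _ fun j _ => h2 j, ?_⟩
  rw [integral_finsetSum _ fun j _ => h2 j]
  refine Finset.sum_congr rfl fun j _ => ?_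
  rw [integral_finsetSum _ fun i _ => (hG i j).const_mul _]
  refine Finset.sum_congr rfl fun i _ => ?_
  rw [integral_const_mul]
  rfl

end M1_aux

open M1_aux

theorem diag_family {m : ℕ} {γ p : ℝ} (hγ : 0 < γ) (hp : 1 ≤ p)
    (W : ℝ → Matrix (Fin m) (Fin m) ℂ) (hW : ∀ i j, Measurable fun x => W x i j)
    (hWp : ∀ x, (W x).PosSemidef) (hWi : Integrable fun x => tracePow (W x) p)
    {n : ℕ} (φ : Fin n → ℝ → Vec m) (hφ : IsTrialFamily φ) :
    ∃ (N : ℕ) (Φ DΦ : ℝ → Matrix (Fin m) (Fin N) ℂ) (d : Fin N → ℝ) (L₀ : ℝ),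
      0 < L₀ ∧ (∀ j, 0 < d j) ∧ Continuous Φ ∧ Continuous DΦ ∧
      (∀ x i j, HasDerivAt (fun y => Φ y i j) (DΦ x i j) x) ∧
      (∀ x, L₀ ≤ |x| → Φ x = 0) ∧
      (∀ k l, ∫ x, ((Φ x)ᴴ * Φ x) k l = if k = l then 1 else 0) ∧
      (∀ k l, Integrable (fun x => ((Φ x)ᴴ * W x * Φ x) k l)) ∧
      (∀ k l, (∫ x, ((DΦ x)ᴴ * DΦ x) k l) - (∫ x, ((Φ x)ᴴ * W x * Φ x) k l) =
        if k = l then -((d k : ℝ) : ℂ) else 0) ∧
      negMoment (energyMatrix W φ) γ = ∑ j, (d j) ^ γ := by
  classical
  obtain ⟨hsm, hcs, hon⟩ := hφ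
  set φ' : Fin n → ℝ → Vec m := fun k => deriv (φ k) with hφ'
  have hcont : ∀ k, Continuous (φ k) := fun k => (hsm k).continuous
  have hcont' : ∀ k, Continuous (φ' k) := fun k => (hsm k).continuous_deriv (by simp)
  have hcs' : ∀ k, HasCompactSupport (φ' k) := fun k => (hcs k).deriv
  have hder : ∀ k x, HasDerivAt (φ k) (φ' k x) x := fun k x =>
    ((hsm k).differentiable (by simp) x).hasDerivAt
  have hPc : ∀ i k, Continuous fun x => PM φ x i k := fun i k =>
    (EuclideanSpace.proj (𝕜 := ℂ) i).continuous.comp (hcont k)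
  have hPc' : ∀ i k, Continuous fun x => PM φ' x i k := fun i k =>
    (EuclideanSpace.proj (𝕜 := ℂ) i).continuous.comp (hcont' k)
  have hPs : ∀ i k, HasCompactSupport fun x => PM φ x i k := fun i k =>
    (hcs k).comp_left (g := fun v : Vec m => v i) (by simp)
  have hPs' : ∀ i k, HasCompactSupport fun x => PM φ' x i k := fun i k =>
    (hcs' k).comp_left (g := fun v : Vec m => v i) (by simp)
  -- integrability
  have hI1 : ∀ k l, Integrable fun x => ((PM φ x)ᴴ * PM φ x) k l := by
    intro k l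
    simp only [Matrix.mul_apply, Matrix.conjTranspose_apply]
    refine integrable_finsetSum _ fun i _ => ?_
    exact ((continuous_star.comp (hPc i k)).mul (hPc i l)).integrable_of_hasCompactSupport
      ((hPs i l).mul_left)
  have hI2 : ∀ k l, Integrable fun x => ((PM φ' x)ᴴ * PM φ' x) k l := by
    intro k l
    simp only [Matrix.mul_apply, Matrix.conjTranspose_apply]
    refine integrable_finsetSum _ fun i _ => ?_
    exact ((continuous_star.comp (hPc' i k)).mul (hPc' i l)).integrable_of_hasCompactSupport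
      ((hPs' i l).mul_left)
  have hI3 : ∀ k l, Integrable fun x => ((PM φ x)ᴴ * W x * PM φ x) k l := by
    intro k l
    have h1 : (fun x => ((PM φ x)ᴴ * W x * PM φ x) k l) = fun x =>
        ∑ j, ∑ i, (star (PM φ x i k) * PM φ x j l) • W x i j := by
      funext x
      rw [Matrix.mul_apply]
      refine Finset.sum_congr rfl fun j _ => ?_
      rw [Matrix.mul_apply, Finset.sum_mul]
      refine Finset.sum_congr rfl fun i _ => ?_
      rw [Matrix.conjTranspose_apply, smul_eq_mul]
      ring
    rw [h1]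
    refine integrable_finsetSum _ fun j _ => integrable_finsetSum _ fun i _ => ?_
    exact (locallyIntegrable_entries hp W hW hWp hWi i j).integrable_smul_left_of_hasCompactSupport
      ((continuous_star.comp (hPc i k)).mul (hPc j l)) ((hPs j l).mul_left)
  -- the energy matrix
  set E := energyMatrix W φ with hE
  have hE1 : ∀ k l, E k l = (∫ x, ((PM φ' x)ᴴ * PM φ' x) k l) -
      ∫ x, ((PM φ x)ᴴ * W x * PM φ x) k l := by
    intro k l
    rw [← integral_sub (hI2 k l) (hI3 k l), hE]
    unfold energyMatrix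
    rw [Matrix.of_apply]
    refine integral_congr_ae (Filter.Eventually.of_forall fun x => ?_)
    show inner ℂ (φ' k x) (φ' l x) - inner ℂ (φ k x) (Matrix.toEuclideanLin (W x) (φ l x)) = _
    rw [PM_inner, PM_inner_W]
  have hEH : E.IsHermitian := by
    ext k l
    rw [Matrix.conjTranspose_apply, hE1, hE1, star_sub]
    congr 1
    · show (starRingEnd ℂ) _ = _
      rw [← integral_conj]
      refine integral_congr_ae (Filter.Eventually.of_forall fun x => ?_)
      have : (((PM φ' x)ᴴ * PM φ' x)ᴴ) k l = ((PM φ' x)ᴴ * PM φ' x) k l := by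
        rw [Matrix.conjTranspose_mul, Matrix.conjTranspose_conjTranspose]
      exact this
    · show (starRingEnd ℂ) _ = _
      rw [← integral_conj]
      refine integral_congr_ae (Filter.Eventually.of_forall fun x => ?_)
      have : (((PM φ x)ᴴ * W x * PM φ x)ᴴ) k l = ((PM φ x)ᴴ * W x * PM φ x) k l := by
        rw [Matrix.conjTranspose_mul, Matrix.conjTranspose_mul,
          Matrix.conjTranspose_conjTranspose, (hWp x).isHermitian.eq, Matrix.mul_assoc]
      exact this
  obtain ⟨u, e, hu, hu', hEd⟩ := exists_diag hEH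
  have hdiag : uᴴ * E * u = dg e := by
    rw [hEd]
    calc uᴴ * (u * dg e * uᴴ) * u = (uᴴ * u) * dg e * (uᴴ * u) := by simp only [Matrix.mul_assoc]
      _ = dg e := by rw [hu, Matrix.one_mul, Matrix.mul_one]
  set J : Finset (Fin n) := Finset.univ.filter fun j => e j < 0 with hJ
  set σ : Fin J.card ↪o Fin n := J.orderEmbOfFin rfl with hσ
  have hσJ : ∀ k, e (σ k) < 0 := by
    intro k
    have := J.orderEmbOfFin_mem rfl k
    exact (Finset.mem_filter.mp this).2
  set v : Matrix (Fin n) (Fin J.card) ℂ := u.submatrix id σ with hv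
  have hvv : vᴴ * v = 1 := by
    ext k l
    have h1 : (vᴴ * v) k l = (uᴴ * u) (σ k) (σ l) := by
      simp only [Matrix.mul_apply, Matrix.submatrix_apply, hv, Matrix.conjTranspose_apply, id]
    rw [h1, hu, Matrix.one_apply, Matrix.one_apply]
    simp only [σ.injective.eq_iff]
  have hvEv : vᴴ * E * v = (dg e).submatrix σ σ := by
    rw [← hdiag]
    ext k l
    simp only [Matrix.mul_apply, Matrix.submatrix_apply, hv, Matrix.conjTranspose_apply, id]
  choose R hR0 hR using fun k => (hcs k).exists_pos_le_norm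
  refine ⟨J.card, fun x => PM φ x * v, fun x => PM φ' x * v, fun k => - e (σ k),
    1 + ∑ k, R k, ?_, ?_, ?_, ?_, ?_, ?_, ?_, ?_, ?_, ?_⟩
  · have : 0 ≤ ∑ k, R k := Finset.sum_nonneg fun k _ => (hR0 k).le
    linarith
  · intro j
    have := hσJ j
    linarith
  · exact Continuous.matrix_mul (continuous_matrix hPc) continuous_const
  · exact Continuous.matrix_mul (continuous_matrix hPc') continuous_const
  · intro x i j
    simp only [Matrix.mul_apply]
    refine HasDerivAt.fun_sum fun k _ => ?_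
    refine HasDerivAt.mul_const ?_ _
    have h1 := ((EuclideanSpace.proj (𝕜 := ℂ) i : Vec m →L[ℂ] ℂ).restrictScalars
      ℝ).hasFDerivAt.comp_hasDerivAt x (hder k x)
    exact h1
  · intro x hx
    have h1 : PM φ x = 0 := by
      ext i k
      have h2 : φ k x = 0 := by
        apply hR k x
        rw [Real.norm_eq_abs]
        have h3 : R k ≤ ∑ k, R k := Finset.single_le_sum (f := R) (fun k _ => (hR0 k).le)
          (Finset.mem_univ k)
        linarith
      show φ k x i = 0
      rw [h2]
      rfl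
    simp only [h1, Matrix.zero_mul]
  · intro k l
    have h1 : ∀ x, ((PM φ x * v)ᴴ * (PM φ x * v)) = vᴴ * ((PM φ x)ᴴ * PM φ x) * v := by
      intro x
      rw [Matrix.conjTranspose_mul]
      simp only [Matrix.mul_assoc]
    simp only [h1]
    rw [(int_conj _ hI1 v k l).2]
    have h2 : (Matrix.of fun i j => ∫ x, ((PM φ x)ᴴ * PM φ x) i j) = 1 := by
      ext i j
      rw [Matrix.of_apply]
      have h3 := hon i j
      simp only [PM_inner] at h3
      rw [h3, Matrix.one_apply]
    rw [h2, Matrix.mul_one, hvv, Matrix.one_apply]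
  · intro k l
    have h1 : ∀ x, ((PM φ x * v)ᴴ * W x * (PM φ x * v)) = vᴴ * ((PM φ x)ᴴ * W x * PM φ x) * v := by
      intro x
      rw [Matrix.conjTranspose_mul]
      simp only [Matrix.mul_assoc]
    simp only [h1]
    exact (int_conj _ hI3 v k l).1
  · intro k l
    have h1 : ∀ x, ((PM φ x * v)ᴴ * W x * (PM φ x * v)) = vᴴ * ((PM φ x)ᴴ * W x * PM φ x) * v := by
      intro x
      rw [Matrix.conjTranspose_mul]
      simp only [Matrix.mul_assoc]
    have h2 : ∀ x, ((PM φ' x * v)ᴴ * (PM φ' x * v)) = vᴴ * ((PM φ' x)ᴴ * PM φ' x) * v := by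
      intro x
      rw [Matrix.conjTranspose_mul]
      simp only [Matrix.mul_assoc]
    simp only [h1, h2]
    rw [(int_conj _ hI3 v k l).2, (int_conj _ hI2 v k l).2, ← Matrix.sub_apply,
      ← Matrix.sub_mul, ← Matrix.mul_sub]
    have h3 : (Matrix.of fun i j => ∫ x, ((PM φ' x)ᴴ * PM φ' x) i j) -
        (Matrix.of fun i j => ∫ x, ((PM φ x)ᴴ * W x * PM φ x) i j) = E := by
      ext i j
      rw [Matrix.sub_apply, Matrix.of_apply, Matrix.of_apply, hE1]
    rw [h3, hvEv, Matrix.submatrix_apply]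
    unfold dg
    rw [Matrix.diagonal_apply]
    by_cases hkl : k = l
    · subst hkl
      simp
    · rw [if_neg hkl, if_neg (fun h => hkl (σ.injective h))]
  · show rtr (cfc (fun t : ℝ => (max (-t) 0) ^ γ) E) = _
    rw [hEd, cfc_diag hu hu', rtr_conj hu, rtr_dg]
    have h1 : ∑ i, (max (-e i) 0) ^ γ = ∑ i ∈ J, (- e i) ^ γ := by
      rw [hJ, Finset.sum_filter]
      refine Finset.sum_congr rfl fun i _ => ?_
      split_ifs with h
      · rw [max_eq_left (by linarith)]
      · rw [max_eq_right (by linarith), Real.zero_rpow hγ.ne']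
    rw [h1]
    conv_lhs => rw [← J.image_orderEmbOfFin_univ rfl]
    rw [Finset.sum_image fun a _ b _ h => σ.injective h]

end Crest.Agent.R332
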