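import Crest.Agent.R332.API

/-!
# R332 piece MT: the potentials `pot` and `potm`

`pot lam r U = lam U (U*U)^(r-1) U*` (`N × N`), `potm lam r U = lam (U*U)^r` (`m × m`), `r > 1`,
`lam > 0`. With `Z = √lam U (U*U)^((r-1)/2)`: `pot = Z Z*`, `potm = Z* Z`. The nonzero eigenvalues
of `Z Z*` and `Z* Z` agree (with multiplicity), so `tr (ZZ*)^s = tr (Z*Z)^s` for `s > 0`
(e.g. `Matrix.charpoly_mul_comm`-type results for rectangular matrices, or: equality for
polynomials without constant term by cyclicity, then choose a polynomial interpolating `t^s` at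
the finitely many eigenvalues of both matrices and `0 ↦ 0` — Lagrange interpolation).
-/

set_option autoImplicit false
open MeasureTheory Set Matrix
open scoped ComplexOrder
open Crest.MathPhysics.LiebThirring

namespace Crest.Agent.R332

variable {N m : ℕ}

namespace MT_aux

theorem rtr_zero {n : ℕ} : rtr (0 : Matrix (Fin n) (Fin n) ℂ) = 0 := by simp [rtr]

theorem rtr_sum {n : ℕ} {ι : Type*} (s : Finset ι) (f : ι → Matrix (Fin n) (Fin n) ℂ) :
    rtr (∑ i ∈ s, f i) = ∑ i ∈ s, rtr (f i) := by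
  classical
  induction s using Finset.induction_on with
  | empty => simp [rtr_zero]
  | insert a s ha ih => rw [Finset.sum_insert ha, Finset.sum_insert ha, rtr_add, ih]

theorem pow_succ_comm (Z : Matrix (Fin N) (Fin m) ℂ) (k : ℕ) :
    (Z * Zᴴ) ^ (k + 1) = Z * (Zᴴ * Z) ^ k * Zᴴ := by
  induction k with
  | zero => simp
  | succ k ih =>
    rw [pow_succ, ih, pow_succ]
    simp only [Matrix.mul_assoc]

theorem rtr_pow_comm (Z : Matrix (Fin N) (Fin m) ℂ) (k : ℕ) :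
    rtr ((Z * Zᴴ) ^ (k + 1)) = rtr ((Zᴴ * Z) ^ (k + 1)) := by
  rw [pow_succ_comm, Matrix.mul_assoc, rtr_mul_comm, Matrix.mul_assoc, ← pow_succ]

theorem rtr_aeval_comm (Z : Matrix (Fin N) (Fin m) ℂ) (q : Polynomial ℝ) (hq : q.eval 0 = 0) :
    rtr (Polynomial.aeval (Z * Zᴴ) q) = rtr (Polynomial.aeval (Zᴴ * Z) q) := by
  have h0 : q.coeff 0 = 0 := by rw [Polynomial.coeff_zero_eq_eval_zero, hq]
  have hs : ∀ {n : ℕ} (c : ℝ) (A : Matrix (Fin n) (Fin n) ℂ), rtr (c • A) = c * rtr A := by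
    intro n c A
    have : c • A = (c : ℂ) • A := by
      ext i j; simp
    rw [this, rtr_smul]
  rw [Polynomial.aeval_eq_sum_range, Polynomial.aeval_eq_sum_range, rtr_sum, rtr_sum]
  refine Finset.sum_congr rfl fun i _ => ?_
  rw [hs, hs]
  cases i with
  | zero => rw [h0]; simp
  | succ k => rw [rtr_pow_comm]

theorem star_mul_psd (Z : Matrix (Fin N) (Fin m) ℂ) : (Zᴴ * Z).PosSemidef :=
  Matrix.posSemidef_conjTranspose_mul_self Z

theorem mul_star_psd (Z : Matrix (Fin N) (Fin m) ℂ) : (Z * Zᴴ).PosSemidef :=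
  Matrix.posSemidef_self_mul_conjTranspose Z

/-- `A^s ≤ (tr A)^s` -/
theorem sub_mpow_psd {n : ℕ} {A : Matrix (Fin n) (Fin n) ℂ} (hA : A.PosSemidef) {s : ℝ}
    (hs : 0 ≤ s) :
    ((((rtr A) ^ s : ℝ) : ℂ) • (1 : Matrix (Fin n) (Fin n) ℂ) - mpow A s).PosSemidef := by
  obtain ⟨u, a, hu, hu', hA'⟩ := exists_diag hA.isHermitian
  have ha := diag_nonneg hu hA' hA
  have htr : rtr A = ∑ i, a i := by rw [hA', rtr_conj hu, rtr_dg]
  have h1 : (((rtr A) ^ s : ℝ) : ℂ) • (1 : Matrix (Fin n) (Fin n) ℂ) =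
      u * dg (fun _ => (rtr A) ^ s) * uᴴ := by
    have : dg (fun _ : Fin n => (rtr A) ^ s) =
        (((rtr A) ^ s : ℝ) : ℂ) • (1 : Matrix (Fin n) (Fin n) ℂ) := by
      unfold dg
      ext i j
      by_cases h : i = j <;> simp [h]
    rw [this, Matrix.mul_smul, Matrix.smul_mul, Matrix.mul_one, hu']
  have h2 : mpow A s = u * dg (fun i => (a i) ^ s) * uᴴ := by
    conv_lhs => rw [hA']
    exact mpow_diag hu hu' s
  rw [h1, h2, ← Matrix.sub_mul, ← Matrix.mul_sub]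
  have h3 : dg (fun _ : Fin n => (rtr A) ^ s) - dg (fun i => (a i) ^ s) =
      dg (fun i => (rtr A) ^ s - (a i) ^ s) := by
    unfold dg
    rw [Matrix.diagonal_sub]
    congr 1
    funext i
    push_cast
    rfl
  rw [h3]
  refine conj_dg_posSemidef fun i => sub_nonneg.2 ?_
  refine Real.rpow_le_rpow (ha i) ?_ hs
  rw [htr]
  exact Finset.single_le_sum (fun j _ => ha j) (Finset.mem_univ i)

end MT_aux

open MT_aux

theorem tracePow_mul_comm (Z : Matrix (Fin N) (Fin m) ℂ) {s : ℝ} (hs : 0 < s) :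
    tracePow (Z * Zᴴ) s = tracePow (Zᴴ * Z) s := by
  classical
  have hA : IsSelfAdjoint (Z * Zᴴ) := (mul_star_psd Z).isHermitian
  have hB : IsSelfAdjoint (Zᴴ * Z) := (star_mul_psd Z).isHermitian
  have hfA : (spectrum ℝ (Z * Zᴴ)).Finite := Matrix.finite_real_spectrum
  have hfB : (spectrum ℝ (Zᴴ * Z)).Finite := Matrix.finite_real_spectrum
  let S : Finset ℝ := insert 0 (hfA.toFinset ∪ hfB.toFinset)
  let f : ℝ → ℝ := fun t => t ^ s
  let q : Polynomial ℝ := Lagrange.interpolate S id f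
  have hq : ∀ x ∈ S, q.eval x = f x := fun x hx =>
    Lagrange.eval_interpolate_at_node (v := id) f (Set.injOn_id _) hx
  have hq0 : q.eval 0 = 0 := by
    rw [hq 0 (Finset.mem_insert_self _ _)]
    exact Real.zero_rpow hs.ne'
  have h1 : mpow (Z * Zᴴ) s = Polynomial.aeval (Z * Zᴴ) q := by
    rw [← cfc_polynomial q _ hA]
    refine cfc_congr fun x hx => ?_
    exact (hq x (Finset.mem_insert_of_mem (Finset.mem_union_left _ (hfA.mem_toFinset.2 hx)))).symm
  have h2 : mpow (Zᴴ * Z) s = Polynomial.aeval (Zᴴ * Z) q := by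
    rw [← cfc_polynomial q _ hB]
    refine cfc_congr fun x hx => ?_
    exact (hq x (Finset.mem_insert_of_mem (Finset.mem_union_right _ (hfB.mem_toFinset.2 hx)))).symm
  rw [tracePow_eq, tracePow_eq, h1, h2, rtr_aeval_comm Z q hq0]

theorem pot_posSemidef {lam r : ℝ} (hl : 0 ≤ lam) (U : Matrix (Fin N) (Fin m) ℂ) :
    (pot lam r U).PosSemidef := by
  unfold pot
  exact ((mpow_posSemidef (star_mul_psd U) (r - 1)).mul_mul_conjTranspose_same U).smul
    (by exact_mod_cast hl)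

theorem potm_posSemidef {lam r : ℝ} (hl : 0 ≤ lam) (U : Matrix (Fin N) (Fin m) ℂ) :
    (potm lam r U).PosSemidef := by
  unfold potm
  exact (mpow_posSemidef (star_mul_psd U) r).smul (by exact_mod_cast hl)

theorem tracePow_potm {lam r s : ℝ} (hl : 0 < lam) (hr : 1 < r) (hs : 0 < s)
    (U : Matrix (Fin N) (Fin m) ℂ) :
    tracePow (potm lam r U) s = lam ^ s * tracePow (Uᴴ * U) (r * s) := by
  unfold potm
  rw [tracePow_smul (mpow_posSemidef (star_mul_psd U) r) hl.le, tracePow_eq,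
    mpow_mpow (star_mul_psd U), ← tracePow_eq]

theorem tracePow_pot {lam r s : ℝ} (hl : 0 < lam) (hr : 1 < r) (hs : 0 < s)
    (U : Matrix (Fin N) (Fin m) ℂ) :
    tracePow (pot lam r U) s = lam ^ s * tracePow (Uᴴ * U) (r * s) := by
  have hB := star_mul_psd U
  have hr2 : 0 < (r - 1) / 2 := by linarith
  set M := mpow (Uᴴ * U) ((r - 1) / 2) with hM
  have hMh : Mᴴ = M := (mpow_posSemidef hB _).isHermitian
  have hMM : M * M = mpow (Uᴴ * U) (r - 1) := by
    rw [hM, mpow_mul' hB hr2 hr2]; congr 1; ring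
  set Y := U * M with hY
  have hYs : Yᴴ = M * Uᴴ := by rw [hY, Matrix.conjTranspose_mul, hMh]
  have h1 : Y * Yᴴ = U * mpow (Uᴴ * U) (r - 1) * Uᴴ := by
    rw [hYs, hY, ← hMM]; simp only [Matrix.mul_assoc]
  have h2 : Yᴴ * Y = mpow (Uᴴ * U) r := by
    rw [hYs, hY]
    calc M * Uᴴ * (U * M) = M * (Uᴴ * U) * M := by simp only [Matrix.mul_assoc]
      _ = M * mpow (Uᴴ * U) 1 * M := by rw [mpow_one hB]
      _ = mpow (Uᴴ * U) r := by
        rw [hM, mpow_mul' hB hr2 one_pos, mpow_mul' hB (by linarith) hr2]; congr 1; ring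
  have h3 : pot lam r U = (lam : ℂ) • (Y * Yᴴ) := by rw [h1]; rfl
  rw [h3, tracePow_smul (mul_star_psd Y) hl.le, tracePow_mul_comm Y hs, h2, tracePow_eq,
    mpow_mpow hB, ← tracePow_eq]

/-- `tr (pot · U U*) = lam tr (U*U)^(r+1)` -/
theorem rtr_pot_mul {lam r : ℝ} (hr : 1 < r) (U : Matrix (Fin N) (Fin m) ℂ) :
    rtr (pot lam r U * (U * Uᴴ)) = lam * tracePow (Uᴴ * U) (r + 1) := by
  have hB := star_mul_psd U
  unfold pot
  rw [Matrix.smul_mul, rtr_smul, tracePow_eq]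
  congr 1
  have e : U * mpow (Uᴴ * U) (r - 1) * Uᴴ * (U * Uᴴ) =
      U * (mpow (Uᴴ * U) (r - 1) * (Uᴴ * U) * Uᴴ) := by simp only [Matrix.mul_assoc]
  rw [e, rtr_mul_comm]
  have e2 : mpow (Uᴴ * U) (r - 1) * (Uᴴ * U) * Uᴴ * U =
      mpow (Uᴴ * U) (r - 1) * (Uᴴ * U) * (Uᴴ * U) := by simp only [Matrix.mul_assoc]
  rw [e2]
  have h1 : mpow (Uᴴ * U) (r - 1) * mpow (Uᴴ * U) 1 * mpow (Uᴴ * U) 1 = mpow (Uᴴ * U) (r + 1) := by
    rw [mpow_mul' hB (by linarith) one_pos, mpow_mul' hB (by linarith) one_pos]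
    congr 1; ring
  rw [mpow_one hB] at h1
  rw [h1]

/-- `potm^(1/r) = lam^(1/r) U*U` -/
theorem mpow_potm {lam r : ℝ} (hl : 0 < lam) (hr : 1 < r) (U : Matrix (Fin N) (Fin m) ℂ) :
    mpow (potm lam r U) r⁻¹ = ((lam ^ r⁻¹ : ℝ) : ℂ) • (Uᴴ * U) := by
  have hB := star_mul_psd U
  unfold potm
  rw [mpow_smul (mpow_posSemidef hB r) hl.le, mpow_mpow hB, mul_inv_cancel₀ (by linarith),
    mpow_one hB]

theorem pot_conj {lam r : ℝ} {u : Matrix (Fin N) (Fin N) ℂ} (hu : uᴴ * u = 1)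
    (U : Matrix (Fin N) (Fin m) ℂ) : pot lam r (u * U) = u * pot lam r U * uᴴ := by
  have h1 : (u * U)ᴴ * (u * U) = Uᴴ * U := by
    rw [Matrix.conjTranspose_mul, Matrix.mul_assoc, ← Matrix.mul_assoc uᴴ, hu, Matrix.one_mul]
  unfold pot
  rw [h1, Matrix.conjTranspose_mul, Matrix.mul_smul, Matrix.smul_mul]
  simp only [Matrix.mul_assoc]

theorem potm_conj {lam r : ℝ} {u : Matrix (Fin N) (Fin N) ℂ} (hu : uᴴ * u = 1)
    (U : Matrix (Fin N) (Fin m) ℂ) : potm lam r (u * U) = potm lam r U := by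
  have h1 : (u * U)ᴴ * (u * U) = Uᴴ * U := by
    rw [Matrix.conjTranspose_mul, Matrix.mul_assoc, ← Matrix.mul_assoc uᴴ, hu, Matrix.one_mul]
  unfold potm
  rw [h1]

/-- `pot lam r U ≤ lam (hs2 U)^r` -/
theorem pot_le {lam r : ℝ} (hl : 0 < lam) (hr : 1 < r) (U : Matrix (Fin N) (Fin m) ℂ) :
    (((lam * (hs2 U) ^ r : ℝ) : ℂ) • (1 : Matrix (Fin N) (Fin N) ℂ) - pot lam r U).PosSemidef := by
  have hB := star_mul_psd U
  have hh := hs2_nonneg U
  have h1 := sub_mpow_psd hB (s := r - 1) (by linarith)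
  rw [← hs2_eq_rtr] at h1
  have h2 := sub_mpow_psd (mul_star_psd U) (s := 1) zero_le_one
  rw [← hs2_eq_rtr', Real.rpow_one, mpow_one (mul_star_psd U)] at h2
  have h3 := (h1.mul_mul_conjTranspose_same U).smul (a := (lam : ℂ)) (by exact_mod_cast hl.le)
  have h4 := h2.smul (a := ((lam * (hs2 U) ^ (r - 1) : ℝ) : ℂ)) (by
    exact_mod_cast (by positivity : 0 ≤ lam * (hs2 U) ^ (r - 1)))
  have h5 := h3.add h4
  have e : (hs2 U) ^ r = (hs2 U) ^ (r - 1) * hs2 U := by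
    rcases eq_or_lt_of_le hh with h0 | h0
    · rw [← h0, mul_zero, Real.zero_rpow (by linarith)]
    · rw [← Real.rpow_add_one h0.ne']; congr 1; ring
  convert h5 using 1
  unfold pot
  rw [e, Matrix.mul_sub, Matrix.sub_mul, Matrix.mul_smul, Matrix.smul_mul, Matrix.mul_one,
    smul_sub, smul_sub, smul_smul, smul_smul]
  have e2 : ((lam * (hs2 U ^ (r - 1) * hs2 U) : ℝ) : ℂ) =
      ((lam * hs2 U ^ (r - 1) : ℝ) : ℂ) * ((hs2 U : ℝ) : ℂ) := by
    rw [← mul_assoc, Complex.ofReal_mul]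
  have e3 : ((lam : ℝ) : ℂ) * ((hs2 U ^ (r - 1) : ℝ) : ℂ) = ((lam * hs2 U ^ (r - 1) : ℝ) : ℂ) := by
    rw [Complex.ofReal_mul]
  rw [e2, e3]
  abel

theorem continuous_star_mul : Continuous (fun U : Matrix (Fin N) (Fin m) ℂ => Uᴴ * U) :=
  (continuous_id.matrix_conjTranspose).matrix_mul continuous_id

theorem continuous_pot {lam r : ℝ} (hr : 1 < r) :
    Continuous (fun U : Matrix (Fin N) (Fin m) ℂ => pot lam r U) := by
  have h1 : Continuous (fun U : Matrix (Fin N) (Fin m) ℂ => mpow (Uᴴ * U) (r - 1)) :=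
    (continuousOn_mpow (by linarith)).comp_continuous continuous_star_mul star_mul_psd
  unfold pot
  exact (((continuous_id.matrix_mul h1).matrix_mul
    continuous_id.matrix_conjTranspose)).const_smul (lam : ℂ)

theorem continuous_potm {lam r : ℝ} (hr : 1 < r) :
    Continuous (fun U : Matrix (Fin N) (Fin m) ℂ => potm lam r U) := by
  have h1 : Continuous (fun U : Matrix (Fin N) (Fin m) ℂ => mpow (Uᴴ * U) r) :=
    (continuousOn_mpow (by linarith)).comp_continuous continuous_star_mul star_mul_psd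
  unfold potm
  exact h1.const_smul (lam : ℂ)

end Crest.Agent.R332
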