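import Crest.Agent.R332.M3
import Crest.Agent.R332.MT
import Crest.Agent.R332.A2

/-!
# R332 piece M2: the master identity

`p = 1+ν`, `γ = ν+1/2`, `r = 1/ν`, `C = sharpConst γ`, `lam = lamc ν` so that `p lam^ν C = γ`.
`U(x) = Cc Φ(x)*` (`N × m`), `DU = Cc DΦ*`, `R = U U*`, `∫ R = Cc²`.
(a) `breg p W (potm U) = tr W^p + (p-1) tr potm^p - p lam^ν tr(W U*U)` (`mpow_potm`, `r⁻¹ = ν`),
    so `C ∫ tr W^p = C ∫ breg - C(p-1) ∫ tr pot^p + γ ∫ tr(W U*U)` (`tr potm^p = tr pot^p`).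
(b) `∫ tr(W U*U) = tr(Cc² ∫Φ*WΦ) = tr(Cc² diag d) + ∫ hs2 DU`.
(c) on `[-L,L]`: `hs2(DU - F U) = hs2 DU - tr(F R') + tr(F² R)`; integrate by parts
    (`U(±L) = 0`): `-∫ tr(F R') = ∫ tr(F' R) = ∫ tr((T - F² - pot)R)`, so
    `∫ hs2(DU-FU) = ∫ hs2 DU + tr(T Cc²) - ∫ tr(pot R)`, `tr(pot R) = lam tr(U*U)^(r+1)`,
    `tr pot^p = lam^p tr (U*U)^(r+1)` (`r p = r+1`), and `γ lam = p lam^p C`.
Sum: the claimed identity. Outside `[-L,L]` all functions built from `Φ` vanish.
-/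

set_option autoImplicit false
open MeasureTheory Set Matrix
open scoped ComplexOrder
open Crest.MathPhysics.LiebThirring

namespace Crest.Agent.R332

/-- `lam` with `(1+ν) lam^ν C = ν + 1/2` -/
noncomputable def lamc (ν : ℝ) : ℝ := ((ν + 1 / 2) / ((1 + ν) * sharpConst (ν + 1 / 2))) ^ ν⁻¹

theorem lamc_pos {ν : ℝ} (h0 : 0 < ν) : 0 < lamc ν := by
  have h1 := sharpConst_pos h0
  unfold lamc
  positivity

theorem lamc_eq {ν : ℝ} (h0 : 0 < ν) :
    (1 + ν) * (lamc ν) ^ ν * sharpConst (ν + 1 / 2) = ν + 1 / 2 := by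
  have h1 := sharpConst_pos h0
  unfold lamc
  rw [← Real.rpow_mul (by positivity), inv_mul_cancel₀ h0.ne', Real.rpow_one]
  generalize sharpConst (ν + 1 / 2) = Cs at h1
  field_simp

namespace M2_aux

/-- entrywise derivative at a point within a set -/
def HD {a b : ℕ} (F : ℝ → Matrix (Fin a) (Fin b) ℂ) (F' : Matrix (Fin a) (Fin b) ℂ) (s : Set ℝ)
    (x : ℝ) : Prop :=
  ∀ i j, HasDerivWithinAt (fun y => F y i j) (F' i j) s x

variable {a b c : ℕ} {s : Set ℝ} {x : ℝ}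

lemma HD.mul {F : ℝ → Matrix (Fin a) (Fin b) ℂ} {F' : Matrix (Fin a) (Fin b) ℂ}
    {G : ℝ → Matrix (Fin b) (Fin c) ℂ} {G' : Matrix (Fin b) (Fin c) ℂ}
    (hF : HD F F' s x) (hG : HD G G' s x) : HD (fun y => F y * G y) (F' * G x + F x * G') s x := by
  intro i j
  have h1 : HasDerivWithinAt (fun y => ∑ k, F y i k * G y k j)
      (∑ k, (F' i k * G x k j + F x i k * G' k j)) s x :=
    HasDerivWithinAt.fun_sum fun k _ => (hF i k).mul (hG k j)
  have h2 : (F' * G x + F x * G') i j = ∑ k, (F' i k * G x k j + F x i k * G' k j) := by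
    rw [Matrix.add_apply, Matrix.mul_apply, Matrix.mul_apply, Finset.sum_add_distrib]
  rw [h2]
  exact h1

lemma HD.conjTranspose {F : ℝ → Matrix (Fin a) (Fin b) ℂ} {F' : Matrix (Fin a) (Fin b) ℂ}
    (hF : HD F F' s x) : HD (fun y => (F y)ᴴ) F'ᴴ s x := by
  intro i j
  exact (hF j i).star

lemma HD.const {A : Matrix (Fin a) (Fin b) ℂ} : HD (fun _ => A) 0 s x := by
  intro i j
  exact hasDerivWithinAt_const _ _ _

lemma HD.const_mul {F : ℝ → Matrix (Fin b) (Fin c) ℂ} {F' : Matrix (Fin b) (Fin c) ℂ}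
    (hF : HD F F' s x) (A : Matrix (Fin a) (Fin b) ℂ) : HD (fun y => A * F y) (A * F') s x := by
  have h := (HD.const (A := A) (s := s) (x := x)).mul hF
  rwa [Matrix.zero_mul, zero_add] at h

lemma HD.rtr {F : ℝ → Matrix (Fin a) (Fin a) ℂ} {F' : Matrix (Fin a) (Fin a) ℂ}
    (hF : HD F F' s x) : HasDerivWithinAt (fun y => rtr (F y)) (rtr F') s x := by
  have h1 : HasDerivWithinAt (fun y => ∑ i, F y i i) (∑ i, F' i i) s x :=
    HasDerivWithinAt.fun_sum fun i _ => hF i i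
  have h2 := (Complex.reCLM.hasFDerivAt (x := ∑ i, F x i i)).comp_hasDerivWithinAt x h1
  exact h2

lemma int_trace {μ : Measure ℝ} (A : Matrix (Fin a) (Fin b) ℂ) (G : ℝ → Matrix (Fin b) (Fin a) ℂ)
    (hG : ∀ k l, Integrable (fun x => G x k l) μ) :
    Integrable (fun x => rtr (A * G x)) μ ∧
    ∫ x, rtr (A * G x) ∂μ = rtr (A * Matrix.of fun k l => ∫ x, G x k l ∂μ) := by
  have h1 : ∀ i, Integrable (fun x => ∑ k, A i k * G x k i) μ := fun i =>
    integrable_finsetSum _ fun k _ => (hG k i).const_mul _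
  have h2 : Integrable (fun x => ∑ i, ∑ k, A i k * G x k i) μ :=
    integrable_finsetSum _ fun i _ => h1 i
  have h3 : ∀ x, rtr (A * G x) = Complex.reCLM (∑ i, ∑ k, A i k * G x k i) := by
    intro x
    unfold rtr Matrix.trace
    simp only [Matrix.diag_apply, Matrix.mul_apply]
    rfl
  simp only [h3]
  refine ⟨Complex.reCLM.integrable_comp h2, ?_⟩
  rw [Complex.reCLM.integral_comp_comm h2, integral_finsetSum _ fun i _ => h1 i]
  unfold rtr Matrix.trace
  simp only [Matrix.diag_apply, Matrix.mul_apply, Matrix.of_apply]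
  show Complex.re _ = Complex.re _
  congr 1
  refine Finset.sum_congr rfl fun i _ => ?_
  rw [integral_finsetSum _ fun k _ => (hG k i).const_mul _]
  refine Finset.sum_congr rfl fun k _ => ?_
  rw [integral_const_mul]

lemma integral_eq_interval {f : ℝ → ℝ} {L : ℝ} (hL : 0 < L) (hf : ∀ x, L ≤ |x| → f x = 0) :
    ∫ x, f x = ∫ x in (-L)..L, f x := by
  rw [intervalIntegral.integral_of_le (by linarith)]
  refine (setIntegral_eq_integral_of_forall_compl_eq_zero fun x hx => hf x ?_).symm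
  rw [Set.mem_Ioc, not_and_or, not_lt, not_le] at hx
  rcases hx with hx | hx
  · rw [le_abs]; right; linarith
  · rw [le_abs]; left; exact hx.le

lemma integrable_of_supp {E : Type*} [NormedAddCommGroup E] {f : ℝ → E} {L : ℝ}
    (hc : Continuous f) (hf : ∀ x, L ≤ |x| → f x = 0) : Integrable f := by
  refine hc.integrable_of_hasCompactSupport ?_
  refine HasCompactSupport.of_support_subset_isCompact (isCompact_Icc (a := -L) (b := L)) ?_
  intro x hx
  rw [Function.mem_support] at hx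
  by_contra hx'
  apply hx
  apply hf
  rw [Set.mem_Icc, not_and_or, not_le, not_le] at hx'
  rcases hx' with h | h
  · rw [le_abs]; right; linarith
  · rw [le_abs]; left; exact h.le

lemma deriv_zero {f : ℝ → ℂ} {f' : ℂ} {L x : ℝ} (hf : ∀ x, L ≤ |x| → f x = 0)
    (hd : HasDerivAt f f' x) (hx : L ≤ |x|) : f' = 0 := by
  rcases le_abs.1 hx with h | h
  · have h1 : HasDerivWithinAt f f' (Set.Ici x) x := hd.hasDerivWithinAt
    have h2 : HasDerivWithinAt f 0 (Set.Ici x) x := by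
      refine (hasDerivWithinAt_const x (Set.Ici x) (0 : ℂ)).congr (fun y hy => ?_) (hf x hx)
      exact hf y (le_abs.2 (Or.inl (h.trans hy)))
    exact (uniqueDiffWithinAt_Ici x).eq_deriv _ h1 h2
  · have h1 : HasDerivWithinAt f f' (Set.Iic x) x := hd.hasDerivWithinAt
    have h2 : HasDerivWithinAt f 0 (Set.Iic x) x := by
      refine (hasDerivWithinAt_const x (Set.Iic x) (0 : ℂ)).congr (fun y hy => ?_) (hf x hx)
      have hy' : y ≤ x := hy
      exact hf y (le_abs.2 (Or.inr (by linarith)))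
    exact (uniqueDiffWithinAt_Iic x).eq_deriv _ h1 h2

lemma continuousOn_mul {a b c : ℕ} {s : Set ℝ} {F : ℝ → Matrix (Fin a) (Fin b) ℂ}
    {G : ℝ → Matrix (Fin b) (Fin c) ℂ} (hF : ContinuousOn F s) (hG : ContinuousOn G s) :
    ContinuousOn (fun x => F x * G x) s := by
  have h1 : Continuous fun p : Matrix (Fin a) (Fin b) ℂ × Matrix (Fin b) (Fin c) ℂ => p.1 * p.2 :=
    continuous_fst.matrix_mul continuous_snd
  exact h1.comp_continuousOn (hF.prodMk hG)

lemma hs2_expand {n m : ℕ} (F : Matrix (Fin n) (Fin n) ℂ) (hF : F.IsHermitian)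
    (U DU : Matrix (Fin n) (Fin m) ℂ) :
    hs2 (DU - F * U) = hs2 DU - rtr (F * (DU * Uᴴ + U * DUᴴ)) + rtr (F * F * (U * Uᴴ)) := by
  have h1 : (DU - F * U)ᴴ = DUᴴ - Uᴴ * F := by
    rw [Matrix.conjTranspose_sub, Matrix.conjTranspose_mul, hF.eq]
  rw [hs2_eq_rtr', hs2_eq_rtr', h1]
  have h2 : (DU - F * U) * (DUᴴ - Uᴴ * F) =
      DU * DUᴴ - (DU * Uᴴ) * F - F * (U * DUᴴ) + F * (U * Uᴴ) * F := by
    simp only [Matrix.sub_mul, Matrix.mul_sub, Matrix.mul_assoc]
    abel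
  rw [h2, rtr_add, rtr_sub, rtr_sub, Matrix.mul_add, rtr_add, rtr_mul_comm (DU * Uᴴ) F,
    rtr_mul_comm (F * (U * Uᴴ)) F, ← Matrix.mul_assoc F F]
  ring

end M2_aux

open M2_aux in
theorem master_identity {ν : ℝ} (h0 : 0 < ν) (h1 : ν < 1) {m N : ℕ}
    (W : ℝ → Matrix (Fin m) (Fin m) ℂ) (hW : ∀ i j, Measurable fun x => W x i j)
    (hWp : ∀ x, (W x).PosSemidef) (hWi : Integrable fun x => tracePow (W x) (1 + ν))
    (Φ DΦ : ℝ → Matrix (Fin m) (Fin N) ℂ) (d : Fin N → ℝ) {L : ℝ} (hL : 0 < L)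
    (hΦc : Continuous Φ) (hDΦc : Continuous DΦ)
    (hΦd : ∀ x i j, HasDerivAt (fun y => Φ y i j) (DΦ x i j) x)
    (hsupp : ∀ x, L ≤ |x| → Φ x = 0)
    (honb : ∀ k l, ∫ x, ((Φ x)ᴴ * Φ x) k l = if k = l then 1 else 0)
    (hint : ∀ k l, Integrable (fun x => ((Φ x)ᴴ * W x * Φ x) k l))
    (hen : ∀ k l, (∫ x, ((DΦ x)ᴴ * DΦ x) k l) - (∫ x, ((Φ x)ᴴ * W x * Φ x) k l) =
        if k = l then -((d k : ℝ) : ℂ) else 0)
    (C T : Matrix (Fin N) (Fin N) ℂ) (hC : C.IsHermitian) (hT : T.IsHermitian)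
    (F : ℝ → Matrix (Fin N) (Fin N) ℂ) (hF : ∀ x ∈ Icc (-L) L, (F x).IsHermitian)
    (hFd : MDerivOn F (fun x => T - F x * F x - pot (lamc ν) ν⁻¹ (C * (Φ x)ᴴ))
      (Icc (-L) L)) :
    Integrable (fun x => breg (1 + ν) (W x) (potm (lamc ν) ν⁻¹ (C * (Φ x)ᴴ))) ∧
    sharpConst (ν + 1 / 2) * (∫ x, tracePow (W x) (1 + ν)) =
      (ν + 1 / 2) * rtr (C * C * (dg d - T)) +
      (ν + 1 / 2) * (∫ x in (-L)..L, hs2 (C * (DΦ x)ᴴ - F x * (C * (Φ x)ᴴ))) +
      sharpConst (ν + 1 / 2) *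
        (∫ x in (-L)..L, tracePow (pot (lamc ν) ν⁻¹ (C * (Φ x)ᴴ)) (1 + ν)) +
      sharpConst (ν + 1 / 2) *
        (∫ x, breg (1 + ν) (W x) (potm (lamc ν) ν⁻¹ (C * (Φ x)ᴴ))) := by
  have hLL : -L ≤ L := by linarith
  have hlam := lamc_pos h0
  have hr : 1 < ν⁻¹ := (one_lt_inv₀ h0).2 h1
  set lam := lamc ν with hlamdef
  set r := ν⁻¹ with hrdef
  have hri : r⁻¹ = ν := by rw [hrdef, inv_inv]
  have hrp : r * (1 + ν) = r + 1 := by
    rw [hrdef]; field_simp
  have hp0 : (0 : ℝ) < 1 + ν := by linarith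
  set U : ℝ → Matrix (Fin N) (Fin m) ℂ := fun x => C * (Φ x)ᴴ with hU
  set DU : ℝ → Matrix (Fin N) (Fin m) ℂ := fun x => C * (DΦ x)ᴴ with hDU
  have hUc : Continuous U := continuous_const.matrix_mul hΦc.matrix_conjTranspose
  have hDUc : Continuous DU := continuous_const.matrix_mul hDΦc.matrix_conjTranspose
  have hUH : ∀ x, (U x)ᴴ = Φ x * C := fun x => by
    rw [hU]
    simp only
    rw [Matrix.conjTranspose_mul, Matrix.conjTranspose_conjTranspose, hC.eq]
  have hDUH : ∀ x, (DU x)ᴴ = DΦ x * C := fun x => by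
    rw [hDU]
    simp only
    rw [Matrix.conjTranspose_mul, Matrix.conjTranspose_conjTranspose, hC.eq]
  have hU0 : ∀ x, L ≤ |x| → U x = 0 := fun x hx => by
    simp only [hU, hsupp x hx, Matrix.conjTranspose_zero, Matrix.mul_zero]
  have hDΦ0 : ∀ x, L ≤ |x| → DΦ x = 0 := fun x hx => by
    ext i j
    refine deriv_zero (f := fun y => Φ y i j) (L := L) (fun y hy => ?_) (hΦd x i j) hx
    rw [hsupp y hy]; rfl
  have hDU0 : ∀ x, L ≤ |x| → DU x = 0 := fun x hx => by
    simp only [hDU, hDΦ0 x hx, Matrix.conjTranspose_zero, Matrix.mul_zero]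
  -- the density
  have hpot0 : ∀ x, L ≤ |x| → pot lam r (U x) = 0 := fun x hx => by
    rw [hU0 x hx]; unfold pot; simp
  have hpotc : Continuous fun x => pot lam r (U x) := (continuous_pot hr).comp hUc
  set q : ℝ → ℝ := fun x => rtr (pot lam r (U x) * (U x * (U x)ᴴ)) with hq
  have hqc : Continuous q :=
    continuous_rtr.comp (hpotc.matrix_mul (hUc.matrix_mul hUc.matrix_conjTranspose))
  have hq0 : ∀ x, L ≤ |x| → q x = 0 := fun x hx => by
    simp only [hq, hpot0 x hx, Matrix.zero_mul]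
    simp [rtr]
  have hqi : Integrable q := integrable_of_supp hqc hq0
  have htp : ∀ x, tracePow (pot lam r (U x)) (1 + ν) = lam ^ ν * q x := fun x => by
    rw [tracePow_pot hlam hr hp0, hrp]
    simp only [hq]
    rw [rtr_pot_mul hr, ← mul_assoc, Real.rpow_add hlam, Real.rpow_one]
    ring
  have htpm : ∀ x, tracePow (potm lam r (U x)) (1 + ν) = lam ^ ν * q x := fun x => by
    rw [← htp, tracePow_potm hlam hr hp0, tracePow_pot hlam hr hp0]
  -- (a)
  have hWU : ∀ x, rtr (W x * ((U x)ᴴ * U x)) = rtr (C * C * ((Φ x)ᴴ * W x * Φ x)) := fun x => by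
    rw [hUH]
    simp only [hU]
    have e1 : W x * (Φ x * C * (C * (Φ x)ᴴ)) = (W x * Φ x) * (C * C * (Φ x)ᴴ) := by
      simp only [Matrix.mul_assoc]
    rw [e1, rtr_mul_comm]
    simp only [Matrix.mul_assoc]
  obtain ⟨hA1, hA2⟩ := int_trace (μ := volume) (C * C) (fun x => (Φ x)ᴴ * W x * Φ x) hint
  have hbreg : ∀ x, breg (1 + ν) (W x) (potm lam r (U x)) =
      tracePow (W x) (1 + ν) + ν * (lam ^ ν * q x) -
        (1 + ν) * (lam ^ ν * rtr (C * C * ((Φ x)ᴴ * W x * Φ x))) := fun x => by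
    unfold breg
    have e1 : (1 + ν : ℝ) - 1 = r⁻¹ := by rw [hri]; ring
    rw [htpm, e1, mpow_potm hlam hr, Matrix.mul_smul, rtr_smul, hWU, hri]
  have hbi : Integrable (fun x => breg (1 + ν) (W x) (potm lam r (U x))) := by
    simp only [hbreg]
    exact (hWi.add ((hqi.const_mul _).const_mul _)).sub ((hA1.const_mul _).const_mul _)
  have hI2 : Integrable (fun x => ν * (lam ^ ν * q x)) := (hqi.const_mul _).const_mul _
  have hI1 : Integrable (fun x => tracePow (W x) (1 + ν) + ν * (lam ^ ν * q x)) := hWi.add hI2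
  have hI3 : Integrable (fun x => (1 + ν) * (lam ^ ν * rtr (C * C * ((Φ x)ᴴ * W x * Φ x)))) :=
    (hA1.const_mul _).const_mul _
  have hbI : ∫ x, breg (1 + ν) (W x) (potm lam r (U x)) =
      (∫ x, tracePow (W x) (1 + ν)) + ν * (lam ^ ν * ∫ x, q x) -
        (1 + ν) * (lam ^ ν * ∫ x, rtr (C * C * ((Φ x)ᴴ * W x * Φ x))) := by
    simp only [hbreg]
    rw [integral_sub hI1 hI3, integral_add hWi hI2, integral_const_mul, integral_const_mul,
      integral_const_mul, integral_const_mul]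
  -- (b)
  have hDi : ∀ k l, Integrable (fun x => ((DΦ x)ᴴ * DΦ x) k l) := fun k l => by
    refine integrable_of_supp (L := L) ?_ fun x hx => ?_
    · exact (hDΦc.matrix_conjTranspose.matrix_mul hDΦc).matrix_elem k l
    · rw [hDΦ0 x hx]; simp
  have hPi : ∀ k l, Integrable (fun x => ((Φ x)ᴴ * Φ x) k l) := fun k l => by
    refine integrable_of_supp (L := L) ?_ fun x hx => ?_
    · exact (hΦc.matrix_conjTranspose.matrix_mul hΦc).matrix_elem k l
    · rw [hsupp x hx]; simp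
  have hDUs : ∀ x, hs2 (DU x) = rtr (C * C * ((DΦ x)ᴴ * DΦ x)) := fun x => by
    rw [hs2_eq_rtr', hDUH]
    simp only [hDU]
    have e1 : C * (DΦ x)ᴴ * (DΦ x * C) = (C * ((DΦ x)ᴴ * DΦ x)) * C := by
      simp only [Matrix.mul_assoc]
    rw [e1, rtr_mul_comm, Matrix.mul_assoc]
  obtain ⟨hB1, hB2⟩ := int_trace (μ := volume) (C * C) (fun x => (DΦ x)ᴴ * DΦ x) hDi
  have hb : ∫ x, rtr (C * C * ((Φ x)ᴴ * W x * Φ x)) = (∫ x, hs2 (DU x)) + rtr (C * C * dg d) := by
    simp only [hDUs]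
    rw [hA2, hB2, ← rtr_add, ← Matrix.mul_add]
    congr 2
    ext k l
    rw [Matrix.add_apply, Matrix.of_apply, Matrix.of_apply]
    have := hen k l
    have e1 : dg d k l = if k = l then ((d k : ℝ) : ℂ) else 0 := by
      unfold dg
      rw [Matrix.diagonal_apply]
    rw [e1]
    split_ifs at this ⊢
    · linear_combination -this
    · linear_combination -this
  -- (c)
  have hRint : ∫ x, rtr (T * (U x * (U x)ᴴ)) = rtr (C * C * T) := by
    have e1 : ∀ x, rtr (T * (U x * (U x)ᴴ)) = rtr (C * T * C * ((Φ x)ᴴ * Φ x)) := fun x => by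
      rw [hUH]
      simp only [hU]
      have e2 : T * (C * (Φ x)ᴴ * (Φ x * C)) = (T * C * ((Φ x)ᴴ * Φ x)) * C := by
        simp only [Matrix.mul_assoc]
      rw [e2, rtr_mul_comm]
      simp only [Matrix.mul_assoc]
    simp only [e1]
    rw [(int_trace (μ := volume) (C * T * C) (fun x => (Φ x)ᴴ * Φ x) hPi).2]
    have e2 : (Matrix.of fun k l => ∫ x, ((Φ x)ᴴ * Φ x) k l) = (1 : Matrix (Fin N) (Fin N) ℂ) := by
      ext k l
      rw [Matrix.of_apply, honb, Matrix.one_apply]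
    rw [e2, Matrix.mul_one, rtr_mul_comm, ← Matrix.mul_assoc]
  have hFc : ContinuousOn F (Icc (-L) L) :=
    continuousOn_pi.2 fun i => continuousOn_pi.2 fun j => fun x hx =>
      (hFd x hx i j).continuousWithinAt
  set F' : ℝ → Matrix (Fin N) (Fin N) ℂ := fun x => T - F x * F x - pot lam r (U x) with hF'
  set g : ℝ → ℝ := fun x => rtr (F x * (U x * (U x)ᴴ)) with hg
  set g' : ℝ → ℝ := fun x => rtr (F' x * (U x * (U x)ᴴ) +
    F x * (DU x * (U x)ᴴ + U x * (DU x)ᴴ)) with hg'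
  have hUd : ∀ x ∈ Icc (-L) L, HD U (DU x) (Icc (-L) L) x := fun x _ => by
    have e1 : HD Φ (DΦ x) (Icc (-L) L) x := fun i j => (hΦd x i j).hasDerivWithinAt
    exact e1.conjTranspose.const_mul C
  have hgd : ∀ x ∈ Icc (-L) L, HasDerivWithinAt g (g' x) (Icc (-L) L) x := fun x hx => by
    have e1 : HD F (F' x) (Icc (-L) L) x := hFd x hx
    have e2 := (hUd x hx).mul (hUd x hx).conjTranspose
    exact (e1.mul e2).rtr
  have hRc : Continuous fun x => U x * (U x)ᴴ := hUc.matrix_mul hUc.matrix_conjTranspose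
  have hF'c : ContinuousOn F' (Icc (-L) L) :=
    (continuousOn_const.sub (continuousOn_mul hFc hFc)).sub hpotc.continuousOn
  have hR'c : Continuous fun x => DU x * (U x)ᴴ + U x * (DU x)ᴴ :=
    (hDUc.matrix_mul hUc.matrix_conjTranspose).add (hUc.matrix_mul hDUc.matrix_conjTranspose)
  have hg'c : ContinuousOn g' (Icc (-L) L) :=
    continuous_rtr.comp_continuousOn
      ((continuousOn_mul hF'c hRc.continuousOn).add (continuousOn_mul hFc hR'c.continuousOn))
  have hg'i : IntervalIntegrable g' volume (-L) L := by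
    apply ContinuousOn.intervalIntegrable
    rwa [uIcc_of_le hLL]
  have hgI : ∫ x in (-L)..L, g' x = 0 := by
    rw [intervalIntegral.integral_eq_sub_of_hasDeriv_right_of_le hLL
      (fun x hx => (hgd x hx).continuousWithinAt) (fun x hx => ?_) hg'i]
    · have e1 : ∀ x, L ≤ |x| → g x = 0 := fun x hx => by
        simp only [hg, hU0 x hx, Matrix.zero_mul, Matrix.mul_zero]
        simp [rtr]
      rw [e1 L (le_abs_self _), e1 (-L) (by rw [abs_neg]; exact le_abs_self _), sub_zero]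
    · exact ((hgd x (Ioo_subset_Icc_self hx)).hasDerivAt (Icc_mem_nhds hx.1 hx.2)).hasDerivWithinAt
  have hpt : ∀ x ∈ Icc (-L) L, hs2 (DU x - F x * U x) =
      hs2 (DU x) + rtr (T * (U x * (U x)ᴴ)) - q x - g' x := fun x hx => by
    rw [hs2_expand (F x) (hF x hx)]
    simp only [hg', hF', hq]
    rw [rtr_add, Matrix.sub_mul, Matrix.sub_mul, rtr_sub, rtr_sub]
    ring
  have hci : IntervalIntegrable (fun x => hs2 (DU x)) volume (-L) L :=
    (continuous_hs2.comp hDUc).intervalIntegrable _ _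
  have hTc : Continuous fun x => rtr (T * (U x * (U x)ᴴ)) :=
    continuous_rtr.comp (continuous_const.matrix_mul hRc)
  have hTi : IntervalIntegrable (fun x => rtr (T * (U x * (U x)ᴴ))) volume (-L) L :=
    hTc.intervalIntegrable _ _
  have hqii : IntervalIntegrable q volume (-L) L := hqc.intervalIntegrable _ _
  have hc : ∫ x in (-L)..L, hs2 (DU x - F x * U x) =
      (∫ x in (-L)..L, hs2 (DU x)) + (∫ x in (-L)..L, rtr (T * (U x * (U x)ᴴ))) -
        (∫ x in (-L)..L, q x) := by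
    have e1 : ∫ x in (-L)..L, hs2 (DU x - F x * U x) =
        ∫ x in (-L)..L, (hs2 (DU x) + rtr (T * (U x * (U x)ᴴ)) - q x - g' x) := by
      refine intervalIntegral.integral_congr fun x hx => ?_
      rw [uIcc_of_le hLL] at hx
      exact hpt x hx
    rw [e1, intervalIntegral.integral_sub ((hci.add hTi).sub hqii) hg'i,
      intervalIntegral.integral_sub (hci.add hTi) hqii, intervalIntegral.integral_add hci hTi, hgI,
      sub_zero]
  refine ⟨hbi, ?_⟩
  -- assembly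
  have i1 : ∫ x, hs2 (DU x) = ∫ x in (-L)..L, hs2 (DU x) :=
    integral_eq_interval hL fun x hx => by rw [hDU0 x hx]; simp [hs2]
  have i2 : ∫ x, rtr (T * (U x * (U x)ᴴ)) = ∫ x in (-L)..L, rtr (T * (U x * (U x)ᴴ)) :=
    integral_eq_interval hL fun x hx => by rw [hU0 x hx]; simp [rtr]
  have i3 : ∫ x, q x = ∫ x in (-L)..L, q x := integral_eq_interval hL hq0
  have i4 : ∫ x in (-L)..L, tracePow (pot lam r (U x)) (1 + ν) = lam ^ ν * ∫ x, q x := by
    simp only [htp]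
    rw [intervalIntegral.integral_const_mul, i3]
  have i5 : rtr (C * C * (dg d - T)) = rtr (C * C * dg d) - rtr (C * C * T) := by
    rw [Matrix.mul_sub, rtr_sub]
  have hle : (1 + ν) * lam ^ ν * sharpConst (ν + 1 / 2) = ν + 1 / 2 := lamc_eq h0
  rw [i4, hbI, i5, hc, ← i1, ← i2, ← i3, hRint, hb]
  generalize sharpConst (ν + 1 / 2) = Cs at *
  generalize (∫ x, hs2 (DU x)) = I1 at *
  generalize (∫ x, q x) = I2 at *
  generalize (∫ x, tracePow (W x) (1 + ν)) = I3 at *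
  linear_combination (rtr (C * C * dg d) + I1 - I2) * hle
end Crest.Agent.R332
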