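import Crest.Agent.R332.API

/-!
# R332 piece M3: Klein's trace inequalities for powers

Double spectral expansion: `A = Σ a_i u_i u_i*`, `B = Σ b_j v_j v_j*`, `w_ij = |⟨u_i,v_j⟩|²`,
`Σ_i w_ij = Σ_j w_ij = 1`:
`tr A^p + (p-1) tr B^p - p tr(A B^(p-1)) = Σ_ij w_ij [a_i^p + (p-1) b_j^p - p a_i b_j^(p-1)]`
and the scalar bracket is `≥ 0` for `a, b ≥ 0`, `p ≥ 1` (Young), with equality iff `a = b` when
`p > 1`. Similarly the concave version for `0 < γ ≤ 1`, `b > 0`.
`breg_lower`: apply `breg_nonneg` to `(2W, V)`: `p tr(W V^(p-1)) ≤ 2^(p-1) tr W^p + ((p-1)/2) tr V^p`.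
-/

set_option autoImplicit false
open MeasureTheory Set Matrix
open scoped ComplexOrder
open Crest.MathPhysics.LiebThirring

namespace Crest.Agent.R332

variable {n : ℕ}

namespace M3_aux

lemma young {p : ℝ} (hp : 1 ≤ p) {a b : ℝ} (ha : 0 ≤ a) (hb : 0 ≤ b) :
    0 ≤ a ^ p + (p - 1) * b ^ p - p * (a * b ^ (p - 1)) := by
  rcases eq_or_lt_of_le hb with h0 | h0
  · subst h0
    rcases eq_or_lt_of_le hp with h1 | h1
    · subst h1; simp
    · rw [Real.zero_rpow (by linarith), Real.zero_rpow (by linarith)]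
      have := Real.rpow_nonneg ha p
      simpa using this
  · have h1 := one_add_mul_self_le_rpow_one_add (s := a / b - 1) (p := p)
      (by have := div_nonneg ha hb; linarith) hp
    rw [add_sub_cancel, Real.div_rpow ha hb] at h1
    have hbp : 0 < b ^ p := Real.rpow_pos_of_pos h0 p
    rw [le_div_iff₀ hbp] at h1
    have h2 : b ^ p = b ^ (p - 1) * b := by
      rw [← Real.rpow_add_one h0.ne']; congr 1; ring
    have h3 : (1 + p * (a / b - 1)) * b ^ p = p * (a * b ^ (p - 1)) - (p - 1) * b ^ p := by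
      rw [h2]
      field_simp
      ring
    linarith

lemma young_eq {p : ℝ} (hp : 1 < p) {a b : ℝ} (ha : 0 ≤ a) (hb : 0 ≤ b)
    (h : a ^ p + (p - 1) * b ^ p - p * (a * b ^ (p - 1)) = 0) : a = b := by
  rcases eq_or_lt_of_le hb with h0 | h0
  · subst h0
    rw [Real.zero_rpow (by linarith), Real.zero_rpow (by linarith)] at h
    have h1 : a ^ p = 0 := by simpa using h
    rw [Real.rpow_eq_zero ha (by linarith)] at h1
    exact h1
  · by_contra hab
    have h1 := one_add_mul_self_lt_rpow_one_add (s := a / b - 1) (p := p)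
      (by have := div_nonneg ha hb; linarith)
      (by
        intro h2
        apply hab
        have : a / b = 1 := by linarith
        rwa [div_eq_one_iff_eq h0.ne'] at this) hp
    rw [add_sub_cancel, Real.div_rpow ha hb] at h1
    have hbp : 0 < b ^ p := Real.rpow_pos_of_pos h0 p
    rw [lt_div_iff₀ hbp] at h1
    have h2 : b ^ p = b ^ (p - 1) * b := by
      rw [← Real.rpow_add_one h0.ne']; congr 1; ring
    have h3 : (1 + p * (a / b - 1)) * b ^ p = p * (a * b ^ (p - 1)) - (p - 1) * b ^ p := by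
      rw [h2]
      field_simp
      ring
    linarith

lemma young_concave {γ : ℝ} (h0 : 0 < γ) (h1 : γ ≤ 1) {a b : ℝ} (ha : 0 ≤ a) (hb : 0 < b) :
    a ^ γ ≤ (1 - γ) * b ^ γ + γ * (a * b ^ (γ - 1)) := by
  have h2 := rpow_one_add_le_one_add_mul_self (s := a / b - 1) (p := γ)
      (by have := div_nonneg ha hb.le; linarith) h0.le h1
  rw [add_sub_cancel, Real.div_rpow ha hb.le] at h2
  have hbp : 0 < b ^ γ := Real.rpow_pos_of_pos hb γ
  rw [div_le_iff₀ hbp] at h2
  have h4 : b ^ γ = b ^ (γ - 1) * b := by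
    rw [← Real.rpow_add_one hb.ne']; congr 1; ring
  have h3 : (1 + γ * (a / b - 1)) * b ^ γ = γ * (a * b ^ (γ - 1)) + (1 - γ) * b ^ γ := by
    rw [h4]
    field_simp
    ring
  linarith

/-- double spectral expansion -/
lemma double {A B : Matrix (Fin n) (Fin n) ℂ} (hA : A.IsHermitian) (hB : B.IsHermitian) :
    ∃ (a b : Fin n → ℝ) (w : Fin n → Fin n → ℝ), (∀ i j, 0 ≤ w i j) ∧ (∀ i, ∑ j, w i j = 1) ∧
      (∀ j, ∑ i, w i j = 1) ∧ (∀ s, tracePow A s = ∑ i, a i ^ s) ∧
      (∀ s, tracePow B s = ∑ j, b j ^ s) ∧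
      (∀ s, rtr (A * mpow B s) = ∑ i, ∑ j, w i j * (a i * b j ^ s)) ∧
      (A.PosSemidef → ∀ i, 0 ≤ a i) ∧ (B.PosSemidef → ∀ j, 0 ≤ b j) ∧
      (B.PosDef → ∀ j, 0 < b j) ∧ ((∀ i j, w i j = 0 ∨ a i = b j) → A = B) := by
  obtain ⟨u, a, hu, hu', hAe⟩ := exists_diag hA
  obtain ⟨v, b, hv, hv', hBe⟩ := exists_diag hB
  set q : Matrix (Fin n) (Fin n) ℂ := uᴴ * v with hq
  have hq1 : q * qᴴ = 1 := by
    rw [hq, Matrix.conjTranspose_mul, Matrix.conjTranspose_conjTranspose]
    calc uᴴ * v * (vᴴ * u) = uᴴ * (v * vᴴ) * u := by simp only [Matrix.mul_assoc]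
      _ = 1 := by rw [hv', Matrix.mul_one, hu]
  have hq2 : qᴴ * q = 1 := by
    rw [hq, Matrix.conjTranspose_mul, Matrix.conjTranspose_conjTranspose]
    calc vᴴ * u * (uᴴ * v) = vᴴ * (u * uᴴ) * v := by simp only [Matrix.mul_assoc]
      _ = 1 := by rw [hu', Matrix.mul_one, hv]
  have hw : ∀ i j, ((‖q i j‖ ^ 2 : ℝ) : ℂ) = q i j * star (q i j) := fun i j => by
    rw [Complex.star_def, Complex.mul_conj, Complex.normSq_eq_norm_sq]
  refine ⟨a, b, fun i j => ‖q i j‖ ^ 2, fun i j => by positivity, fun i => ?_, fun j => ?_,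
    fun s => ?_, fun s => ?_, fun s => ?_, fun h => diag_nonneg hu hAe h,
    fun h => diag_nonneg hv hBe h, fun h => diag_pos hv hBe h, fun h => ?_⟩
  · have h1 : (q * qᴴ) i i = 1 := by rw [hq1, Matrix.one_apply_eq]
    rw [Matrix.mul_apply] at h1
    have h2 : ((∑ j, ‖q i j‖ ^ 2 : ℝ) : ℂ) = 1 := by
      rw [← h1]
      push_cast
      refine Finset.sum_congr rfl fun j _ => ?_
      rw [Matrix.conjTranspose_apply, ← hw]
      push_cast
      rfl
    exact_mod_cast h2
  · have h1 : (qᴴ * q) j j = 1 := by rw [hq2, Matrix.one_apply_eq]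
    rw [Matrix.mul_apply] at h1
    have h2 : ((∑ i, ‖q i j‖ ^ 2 : ℝ) : ℂ) = 1 := by
      rw [← h1]
      push_cast
      refine Finset.sum_congr rfl fun i _ => ?_
      rw [Matrix.conjTranspose_apply, mul_comm, ← hw]
      push_cast
      rfl
    exact_mod_cast h2
  · rw [hAe]; exact tracePow_diag hu hu' s
  · rw [hBe]; exact tracePow_diag hv hv' s
  · rw [hBe, mpow_diag hv hv', hAe]
    have e1 : rtr (u * dg a * uᴴ * (v * dg (fun i => b i ^ s) * vᴴ)) =
        rtr (dg a * (q * dg (fun i => b i ^ s) * qᴴ)) := by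
      have e2 : u * dg a * uᴴ * (v * dg (fun i => b i ^ s) * vᴴ) =
          u * (dg a * (q * dg (fun i => b i ^ s)) * vᴴ) := by
        simp only [hq, Matrix.mul_assoc]
      have e3 : dg a * (q * dg (fun i => b i ^ s) * qᴴ) =
          (dg a * (q * dg (fun i => b i ^ s)) * vᴴ) * u := by
        simp only [hq, Matrix.mul_assoc, Matrix.conjTranspose_mul,
          Matrix.conjTranspose_conjTranspose]
      rw [e2, e3, rtr_mul_comm]
    rw [e1, rtr, Matrix.trace, Complex.re_sum]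
    refine Finset.sum_congr rfl fun i _ => ?_
    have e4 : (dg a * (q * dg (fun i => b i ^ s) * qᴴ)).diag i =
        ((∑ j, ‖q i j‖ ^ 2 * (a i * b j ^ s) : ℝ) : ℂ) := by
      rw [Matrix.diag_apply]
      simp only [dg]
      rw [Matrix.diagonal_mul, Matrix.mul_apply, Finset.mul_sum]
      push_cast
      refine Finset.sum_congr rfl fun j _ => ?_
      rw [Matrix.mul_diagonal, Matrix.conjTranspose_apply]
      have := hw i j
      push_cast at this
      rw [this]
      ring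
    rw [e4, Complex.ofReal_re]
  · have h1 : dg a * q = q * dg b := by
      ext i j
      simp only [dg]
      rw [Matrix.diagonal_mul, Matrix.mul_diagonal]
      rcases h i j with h2 | h2
      · have h3 : q i j = 0 := by
          have : ‖q i j‖ = 0 := by simpa using h2
          simpa using this
        rw [h3]; simp
      · rw [h2]; ring
    have h2 : A = u * (dg a * q) * vᴴ := by
      rw [hAe, hq]
      calc u * dg a * uᴴ = u * dg a * uᴴ * (v * vᴴ) := by rw [hv', Matrix.mul_one]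
        _ = _ := by simp only [Matrix.mul_assoc]
    rw [h2, h1, hBe, hq]
    calc u * (uᴴ * v * dg b) * vᴴ = (u * uᴴ) * (v * dg b * vᴴ) := by simp only [Matrix.mul_assoc]
      _ = _ := by rw [hu', Matrix.one_mul]

/-- comparison of sums with doubly stochastic weights. -/
lemma ds_sum {w : Fin n → Fin n → ℝ} (h1 : ∀ i, ∑ j, w i j = 1) (h2 : ∀ j, ∑ i, w i j = 1)
    (x y : Fin n → ℝ) : ∑ i, x i = ∑ i, ∑ j, w i j * x i ∧
      ∑ j, y j = ∑ i, ∑ j, w i j * y j := by
  constructor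
  · refine Finset.sum_congr rfl fun i _ => ?_
    rw [← Finset.sum_mul, h1, one_mul]
  · rw [Finset.sum_comm]
    refine Finset.sum_congr rfl fun j _ => ?_
    rw [← Finset.sum_mul, h2, one_mul]

end M3_aux

open M3_aux

theorem breg_nonneg {p : ℝ} (hp : 1 ≤ p) {A B : Matrix (Fin n) (Fin n) ℂ}
    (hA : A.PosSemidef) (hB : B.PosSemidef) : 0 ≤ breg p A B := by
  obtain ⟨a, b, w, w0, w1, w2, tA, tB, tAB, pa, pb, -, -⟩ := double hA.1 hB.1
  rw [breg, tA, tB, tAB, (ds_sum w1 w2 (fun i => a i ^ p) (fun j => b j ^ p)).1,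
    (ds_sum w1 w2 (fun i => a i ^ p) (fun j => b j ^ p)).2]
  simp_rw [Finset.mul_sum, ← Finset.sum_add_distrib, ← Finset.sum_sub_distrib]
  refine Finset.sum_nonneg fun i _ => Finset.sum_nonneg fun j _ => ?_
  have := mul_nonneg (w0 i j) (young hp (pa hA i) (pb hB j))
  linarith

theorem breg_eq_zero {p : ℝ} (hp : 1 < p) {A B : Matrix (Fin n) (Fin n) ℂ}
    (hA : A.PosSemidef) (hB : B.PosSemidef) (h : breg p A B = 0) : A = B := by
  obtain ⟨a, b, w, w0, w1, w2, tA, tB, tAB, pa, pb, -, he⟩ := double hA.1 hB.1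
  rw [breg, tA, tB, tAB, (ds_sum w1 w2 (fun i => a i ^ p) (fun j => b j ^ p)).1,
    (ds_sum w1 w2 (fun i => a i ^ p) (fun j => b j ^ p)).2] at h
  simp_rw [Finset.mul_sum, ← Finset.sum_add_distrib, ← Finset.sum_sub_distrib] at h
  have e : ∀ i j, w i j * a i ^ p + (p - 1) * (w i j * b j ^ p) -
      p * (w i j * (a i * b j ^ (p - 1))) =
      w i j * (a i ^ p + (p - 1) * b j ^ p - p * (a i * b j ^ (p - 1))) := fun i j => by ring
  simp_rw [e] at h
  apply he
  intro i j
  have hnn : ∀ i j, 0 ≤ w i j * (a i ^ p + (p - 1) * b j ^ p - p * (a i * b j ^ (p - 1))) :=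
    fun i j => mul_nonneg (w0 i j) (young hp.le (pa hA i) (pb hB j))
  have h1 := (Finset.sum_eq_zero_iff_of_nonneg
    (fun i _ => Finset.sum_nonneg fun j _ => hnn i j)).1 h i (Finset.mem_univ i)
  have h2 := (Finset.sum_eq_zero_iff_of_nonneg (fun j _ => hnn i j)).1 h1 j (Finset.mem_univ j)
  rcases mul_eq_zero.1 h2 with h3 | h3
  · exact Or.inl h3
  · exact Or.inr (young_eq hp (pa hA i) (pb hB j) h3)

theorem breg_lower {p : ℝ} (hp : 1 < p) {A B : Matrix (Fin n) (Fin n) ℂ}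
    (hA : A.PosSemidef) (hB : B.PosSemidef) :
    (p - 1) / 2 * tracePow B p ≤ breg p A B + 2 ^ (p - 1) * tracePow A p := by
  obtain ⟨a, b, w, w0, w1, w2, tA, tB, tAB, pa, pb, -, he⟩ := double hA.1 hB.1
  rw [breg, tA, tB, tAB, (ds_sum w1 w2 (fun i => a i ^ p) (fun j => b j ^ p)).1,
    (ds_sum w1 w2 (fun i => a i ^ p) (fun j => b j ^ p)).2]
  simp_rw [Finset.mul_sum, ← Finset.sum_add_distrib, ← Finset.sum_sub_distrib,
    ← Finset.sum_add_distrib]
  refine Finset.sum_le_sum fun i _ => Finset.sum_le_sum fun j _ => ?_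
  have h1 := young hp.le (mul_nonneg (by norm_num : (0:ℝ) ≤ 2) (pa hA i)) (pb hB j)
  have h2 : (2 * a i) ^ p = 2 * (2 ^ (p - 1) * a i ^ p) := by
    rw [Real.mul_rpow (by norm_num) (pa hA i)]
    have : (2:ℝ) ^ p = 2 ^ (p - 1) * 2 := by
      rw [← Real.rpow_add_one (by norm_num)]; congr 1; ring
    rw [this]; ring
  rw [h2] at h1
  have h3 : 0 ≤ a i ^ p := Real.rpow_nonneg (pa hA i) p
  have h4 : (p - 1) / 2 * b j ^ p ≤ a i ^ p + (p - 1) * b j ^ p - p * (a i * b j ^ (p - 1)) +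
      2 ^ (p - 1) * a i ^ p := by linarith
  have h5 := mul_le_mul_of_nonneg_left h4 (w0 i j)
  linarith

theorem klein_concave {γ : ℝ} (h0 : 0 < γ) (h1 : γ ≤ 1) {A B : Matrix (Fin n) (Fin n) ℂ}
    (hA : A.PosSemidef) (hB : B.PosDef) :
    tracePow A γ ≤ (1 - γ) * tracePow B γ + γ * rtr (A * mpow B (γ - 1)) := by
  obtain ⟨a, b, w, w0, w1, w2, tA, tB, tAB, pa, -, pb, he⟩ := double hA.1 hB.1
  rw [tA, tB, tAB, (ds_sum w1 w2 (fun i => a i ^ γ) (fun j => b j ^ γ)).1,
    (ds_sum w1 w2 (fun i => a i ^ γ) (fun j => b j ^ γ)).2]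
  simp_rw [Finset.mul_sum, ← Finset.sum_add_distrib]
  refine Finset.sum_le_sum fun i _ => Finset.sum_le_sum fun j _ => ?_
  have := mul_le_mul_of_nonneg_left (young_concave h0 h1 (pa hA i) (pb hB j)) (w0 i j)
  linarith

/-- the trace Young inequality in the form used for integrability -/
theorem rtr_mul_mpow_le {p : ℝ} (hp : 1 ≤ p) {A B : Matrix (Fin n) (Fin n) ℂ}
    (hA : A.PosSemidef) (hB : B.PosSemidef) :
    p * rtr (A * mpow B (p - 1)) ≤ tracePow A p + (p - 1) * tracePow B p := by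
  have := breg_nonneg hp hA hB
  rw [breg] at this
  linarith

end Crest.Agent.R332
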