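import Crest.Agent.R332.M3
import Crest.Agent.R332.MT
import Crest.Agent.R332.D3Defs

/-!
# R332 piece M4: the weight `Cc` and its properties

`Cc ν d T` is `diag(d)^((γ-1)/2)` if `γ = ν + 1/2 ≥ 1` and `T^((γ-1)/2)` if `γ < 1`.
`klein_T`: for `γ ≥ 1` use `breg_nonneg` with `p = γ`, `A = T`, `B = diag d`
(`Cc² = diag d^(γ-1)`); for `γ < 1` use `klein_concave` with `A = diag d`, `B = T`
(`Cc² = T^(γ-1)`).
`betac ν d ε`: a bound for `Cc²` on `T ≥ ε`: `Σ d_i^(ν-1/2)` (or `ε^(ν-1/2)` if `ν < 1/2`).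
-/

set_option autoImplicit false
open MeasureTheory Set Matrix
open scoped ComplexOrder
open Crest.MathPhysics.LiebThirring

namespace Crest.Agent.R332

variable {N m : ℕ}

open Classical in
noncomputable def Cc (ν : ℝ) (d : Fin N → ℝ) (T : Matrix (Fin N) (Fin N) ℂ) :
    Matrix (Fin N) (Fin N) ℂ :=
  if 1 / 2 ≤ ν then dg (fun i => (d i) ^ ((ν - 1 / 2) / 2)) else mpow T ((ν - 1 / 2) / 2)

open Classical in
noncomputable def betac (ν : ℝ) (d : Fin N → ℝ) (ε : ℝ) : ℝ :=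
  if 1 / 2 ≤ ν then ∑ i, (d i) ^ (ν - 1 / 2) else ε ^ (ν - 1 / 2)

theorem Cc_isHermitian (ν : ℝ) (d : Fin N → ℝ) {T : Matrix (Fin N) (Fin N) ℂ}
    (hT : T.PosDef) : (Cc ν d T).IsHermitian := by
  unfold Cc
  split_ifs
  · exact dg_isHermitian _
  · exact (mpow_posDef hT _).isHermitian

namespace M4_aux

theorem Cc_sq {ν : ℝ} {d : Fin N → ℝ} (hd : ∀ i, 0 < d i) {T : Matrix (Fin N) (Fin N) ℂ}
    (hT : T.PosDef) :
    (1 / 2 ≤ ν → Cc ν d T * Cc ν d T = mpow (dg d) (ν - 1 / 2)) ∧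
    (¬ 1 / 2 ≤ ν → Cc ν d T * Cc ν d T = mpow T (ν - 1 / 2)) := by
  constructor
  · intro h
    unfold Cc
    rw [if_pos h, mpow_dg, dg_mul]
    congr 1
    funext i
    rw [← Real.rpow_add (hd i)]
    congr 1
    ring
  · intro h
    unfold Cc
    rw [if_neg h, mpow_mul hT]
    congr 1
    ring

theorem KI_posDef {ε : ℝ} (hε : 0 < ε) {T : Matrix (Fin N) (Fin N) ℂ} (hT : T ∈ KI N ε) :
    T.PosDef := by
  have h1 : (T - ((ε : ℝ) : ℂ) • (1 : Matrix (Fin N) (Fin N) ℂ)).PosSemidef := hT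
  have h2 : (((ε : ℝ) : ℂ) • (1 : Matrix (Fin N) (Fin N) ℂ)).PosDef := by
    have : ((ε : ℝ) : ℂ) • (1 : Matrix (Fin N) (Fin N) ℂ) = dg (fun _ => ε) := by
      unfold dg
      ext i j
      by_cases h : i = j <;> simp [h]
    rw [this]
    exact dg_posDef fun _ => hε
  have h3 := h2.add_posSemidef h1
  rwa [add_sub_cancel] at h3

theorem smul_one_eq_dg (c : ℝ) :
    ((c : ℝ) : ℂ) • (1 : Matrix (Fin N) (Fin N) ℂ) = dg (fun _ => c) := by
  unfold dg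
  ext i j
  by_cases h : i = j <;> simp [h]

/-- `Cc² ≤ betac` on `T ≥ ε` -/
theorem Cc_sq_le {ν : ℝ} {d : Fin N → ℝ} (hd : ∀ i, 0 < d i) {ε : ℝ} (hε : 0 < ε)
    {T : Matrix (Fin N) (Fin N) ℂ} (hT : T ∈ KI N ε) :
    (((betac ν d ε : ℝ) : ℂ) • (1 : Matrix (Fin N) (Fin N) ℂ) -
      Cc ν d T * Cc ν d T).PosSemidef := by
  have hTp := KI_posDef hε hT
  by_cases h : 1 / 2 ≤ ν
  · rw [(Cc_sq hd hTp).1 h, mpow_dg, smul_one_eq_dg]
    unfold betac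
    rw [if_pos h]
    have : (dg (fun _ => ∑ i, (d i) ^ (ν - 1 / 2)) : Matrix (Fin N) (Fin N) ℂ) -
        dg (fun i => (d i) ^ (ν - 1 / 2)) =
        dg (fun j => (∑ i, (d i) ^ (ν - 1 / 2)) - (d j) ^ (ν - 1 / 2)) := by
      unfold dg
      rw [Matrix.diagonal_sub]
      congr 1
      funext i
      push_cast
      rfl
    rw [this]
    refine dg_posSemidef fun j => ?_
    rw [sub_nonneg]
    exact Finset.single_le_sum (f := fun i => (d i) ^ (ν - 1 / 2))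
      (fun i _ => Real.rpow_nonneg (hd i).le _) (Finset.mem_univ j)
  · rw [(Cc_sq hd hTp).2 h, smul_one_eq_dg]
    unfold betac
    rw [if_neg h]
    obtain ⟨u, a, hu, hu', hA'⟩ := exists_diag hTp.isHermitian
    have h1 : (T - ((ε : ℝ) : ℂ) • (1 : Matrix (Fin N) (Fin N) ℂ)).PosSemidef := hT
    have e1 : T - ((ε : ℝ) : ℂ) • (1 : Matrix (Fin N) (Fin N) ℂ) =
        u * dg (fun i => a i - ε) * uᴴ := by
      have : (dg (fun i => a i - ε) : Matrix (Fin N) (Fin N) ℂ) = dg a - dg (fun _ => ε) := by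
        unfold dg
        rw [Matrix.diagonal_sub]
        congr 1
        funext i
        push_cast
        rfl
      rw [this, Matrix.mul_sub, Matrix.sub_mul, ← hA', ← smul_one_eq_dg, Matrix.mul_smul,
        Matrix.smul_mul, Matrix.mul_one, hu']
    have ha : ∀ i, ε ≤ a i := fun i => by
      have := diag_nonneg hu e1 h1 i
      linarith
    have e2 : (dg (fun _ => ε ^ (ν - 1 / 2)) : Matrix (Fin N) (Fin N) ℂ) -
        mpow T (ν - 1 / 2) = u * dg (fun i => ε ^ (ν - 1 / 2) - (a i) ^ (ν - 1 / 2)) * uᴴ := by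
      have : (dg (fun i => ε ^ (ν - 1 / 2) - (a i) ^ (ν - 1 / 2)) : Matrix (Fin N) (Fin N) ℂ) =
          dg (fun _ => ε ^ (ν - 1 / 2)) - dg (fun i => (a i) ^ (ν - 1 / 2)) := by
        unfold dg
        rw [Matrix.diagonal_sub]
        congr 1
        funext i
        push_cast
        rfl
      rw [this, Matrix.mul_sub, Matrix.sub_mul, hA', mpow_diag hu hu', ← smul_one_eq_dg,
        Matrix.mul_smul, Matrix.smul_mul, Matrix.mul_one, hu']
    rw [e2]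
    refine conj_dg_posSemidef fun i => ?_
    rw [sub_nonneg]
    exact Real.rpow_le_rpow_of_nonpos hε (ha i) (by linarith [not_le.1 h])

theorem hs2_mul_le' {C : Matrix (Fin N) (Fin N) ℂ} (hC : C.IsHermitian) {β : ℝ}
    (h : (((β : ℝ) : ℂ) • (1 : Matrix (Fin N) (Fin N) ℂ) - C * C).PosSemidef)
    (Ψ : Matrix (Fin N) (Fin m) ℂ) : hs2 (C * Ψ) ≤ β * hs2 Ψ := by
  have h1 := rtr_nonneg (h.conjTranspose_mul_mul_same Ψ)
  have h2 : Ψᴴ * (((β : ℝ) : ℂ) • (1 : Matrix (Fin N) (Fin N) ℂ) - C * C) * Ψ =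
      ((β : ℝ) : ℂ) • (Ψᴴ * Ψ) - (C * Ψ)ᴴ * (C * Ψ) := by
    rw [Matrix.mul_sub, Matrix.sub_mul, Matrix.mul_smul, Matrix.mul_one, Matrix.smul_mul,
      Matrix.conjTranspose_mul, hC.eq]
    simp only [Matrix.mul_assoc]
  rw [h2, rtr_sub, rtr_smul, ← hs2_eq_rtr, ← hs2_eq_rtr] at h1
  linarith

end M4_aux


theorem klein_T {ν : ℝ} (h0 : 0 < ν) (h1 : ν < 1) {d : Fin N → ℝ} (hd : ∀ i, 0 < d i)
    {T : Matrix (Fin N) (Fin N) ℂ} (hT : T.PosDef) :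
    (∑ i, (d i) ^ (ν + 1 / 2)) ≤ tracePow T (ν + 1 / 2) +
      (ν + 1 / 2) * rtr (Cc ν d T * Cc ν d T * (dg d - T)) := by
  have hD := tracePow_diag (n := N) (u := 1) (a := d) (by simp) (by simp) (ν + 1 / 2)
  rw [Matrix.one_mul, Matrix.conjTranspose_one, Matrix.mul_one] at hD
  by_cases h : 1 / 2 ≤ ν
  · rw [(M4_aux.Cc_sq hd hT).1 h, Matrix.mul_sub, rtr_sub]
    have h2 := breg_nonneg (p := ν + 1 / 2) (by linarith) hT.posSemidef
      (dg_posSemidef (fun i => (hd i).le))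
    unfold breg at h2
    have e1 : ν + 1 / 2 - 1 = ν - 1 / 2 := by ring
    rw [e1, hD] at h2
    have e2 : rtr (mpow (dg d) (ν - 1 / 2) * dg d) = ∑ i, (d i) ^ (ν + 1 / 2) := by
      rw [mpow_dg, dg_mul, rtr_dg]
      refine Finset.sum_congr rfl fun i _ => ?_
      rw [← Real.rpow_add_one (hd i).ne']
      congr 1
      ring
    rw [e2, rtr_mul_comm _ T]
    linarith
  · rw [(M4_aux.Cc_sq hd hT).2 h, Matrix.mul_sub, rtr_sub]
    have h2 := klein_concave (γ := ν + 1 / 2) (by linarith) (by linarith [not_le.1 h])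
      (dg_posSemidef (fun i => (hd i).le)) hT
    have e1 : ν + 1 / 2 - 1 = ν - 1 / 2 := by ring
    rw [e1, hD] at h2
    have e2 : rtr (mpow T (ν - 1 / 2) * T) = tracePow T (ν + 1 / 2) := by
      rw [tracePow_eq]
      congr 1
      have := mpow_mul hT (ν - 1 / 2) 1
      rw [mpow_one hT.posSemidef] at this
      rw [this]
      congr 1
      ring
    rw [e2, rtr_mul_comm _ (dg d)]
    linarith

/-- `0 ≤ pot lam r (Cc(T) Ψ) ≤ lam (betac · hs2 Ψ)^r` for `T ≥ ε` -/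
theorem potCc_bounds {ν : ℝ} (h0 : 0 < ν) (h1 : ν < 1) {d : Fin N → ℝ} (hd : ∀ i, 0 < d i)
    {lam : ℝ} (hl : 0 < lam) {ε : ℝ} (hε : 0 < ε) {T : Matrix (Fin N) (Fin N) ℂ}
    (hT : T ∈ KI N ε) (Ψ : Matrix (Fin N) (Fin m) ℂ) :
    (pot lam ν⁻¹ (Cc ν d T * Ψ)).PosSemidef ∧
    (((lam * (betac ν d ε * hs2 Ψ) ^ ν⁻¹ : ℝ) : ℂ) • (1 : Matrix (Fin N) (Fin N) ℂ) -
      pot lam ν⁻¹ (Cc ν d T * Ψ)).PosSemidef := by
  refine ⟨pot_posSemidef hl.le _, ?_⟩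
  have hTp := M4_aux.KI_posDef hε hT
  have hr : 1 < ν⁻¹ := (one_lt_inv₀ h0).2 h1
  have h2 := pot_le hl hr (Cc ν d T * Ψ)
  have h3 := M4_aux.hs2_mul_le' (Cc_isHermitian ν d hTp) (M4_aux.Cc_sq_le hd hε hT) Ψ
  have h4 : lam * (hs2 (Cc ν d T * Ψ)) ^ ν⁻¹ ≤ lam * (betac ν d ε * hs2 Ψ) ^ ν⁻¹ :=
    mul_le_mul_of_nonneg_left (Real.rpow_le_rpow (hs2_nonneg _) h3 (by positivity)) hl.le
  have h5 : (((lam * (betac ν d ε * hs2 Ψ) ^ ν⁻¹ - lam * (hs2 (Cc ν d T * Ψ)) ^ ν⁻¹ : ℝ) : ℂ) •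
      (1 : Matrix (Fin N) (Fin N) ℂ)).PosSemidef := by
    rw [M4_aux.smul_one_eq_dg]
    exact dg_posSemidef fun _ => by linarith
  have h6 := h5.add h2
  convert h6 using 1
  rw [Complex.ofReal_sub, sub_smul]
  abel

theorem potCc_continuousOn {ν : ℝ} (h0 : 0 < ν) (h1 : ν < 1) {d : Fin N → ℝ}
    (hd : ∀ i, 0 < d i) {lam : ℝ} (hl : 0 < lam) {ε : ℝ} (hε : 0 < ε)
    (Ψ : ℝ → Matrix (Fin N) (Fin m) ℂ) (hΨ : Continuous Ψ) (s : Set ℝ) :
    ContinuousOn (fun q : Matrix (Fin N) (Fin N) ℂ × ℝ => pot lam ν⁻¹ (Cc ν d q.1 * Ψ q.2))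
      (KI N ε ×ˢ s) := by
  have hr : 1 < ν⁻¹ := (one_lt_inv₀ h0).2 h1
  refine (continuous_pot (lam := lam) hr).comp_continuousOn ?_
  have hC : ContinuousOn (fun T : Matrix (Fin N) (Fin N) ℂ => Cc ν d T) (KI N ε) := by
    unfold Cc
    by_cases h : 1 / 2 ≤ ν
    · simp only [if_pos h]
      exact continuousOn_const
    · simp only [if_neg h]
      exact (continuousOn_mpow_posDef _).mono fun T hT => M4_aux.KI_posDef hε hT
  have h2 : ContinuousOn (fun q : Matrix (Fin N) (Fin N) ℂ × ℝ => Cc ν d q.1) (KI N ε ×ˢ s) :=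
    hC.comp continuousOn_fst fun q hq => hq.1
  have h3 : ContinuousOn (fun q : Matrix (Fin N) (Fin N) ℂ × ℝ => Ψ q.2) (KI N ε ×ˢ s) :=
    (hΨ.comp continuous_snd).continuousOn
  rw [continuousOn_iff_continuous_domRestrict] at h2 h3 ⊢
  exact h2.matrix_mul h3

theorem betac_nonneg (ν : ℝ) {d : Fin N → ℝ} (hd : ∀ i, 0 < d i) {ε : ℝ} (hε : 0 < ε) :
    0 ≤ betac ν d ε := by
  unfold betac
  split_ifs
  · exact Finset.sum_nonneg fun i _ => Real.rpow_nonneg (hd i).le _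
  · exact Real.rpow_nonneg hε.le _

/-- error bound: with `ε = η²/5` and `w₁ = c₀ betac^r`, `n η (2 (w₁+η) η)^ν → 0` as `η → 0`
(`w₁^ν = c₀^ν betac`, exponent `1+ν+2(ν-1/2) = 3ν > 0` when `ν < 1/2`). -/
theorem err_small {ν : ℝ} (h0 : 0 < ν) (h1 : ν < 1) {d : Fin N → ℝ} (hd : ∀ i, 0 < d i)
    {c₀ : ℝ} (hc₀ : 0 ≤ c₀) {ε' : ℝ} (hε' : 0 < ε') :
    ∃ η : ℝ, 0 < η ∧ η ≤ 1 ∧
      N * (η * (2 * (c₀ * (betac ν d (η ^ 2 / 5)) ^ ν⁻¹ + η) * η) ^ ν) ≤ ε' := by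
  by_cases h : 1 / 2 ≤ ν
  · -- `betac` is constant
    set B : ℝ := ∑ i, (d i) ^ (ν - 1 / 2) with hB
    have hB0 : 0 ≤ B := Finset.sum_nonneg fun i _ => Real.rpow_nonneg (hd i).le _
    set M : ℝ := (2 * (c₀ * B ^ ν⁻¹ + 1)) ^ ν with hM
    have hBr : 0 ≤ B ^ ν⁻¹ := Real.rpow_nonneg hB0 _
    have hM0 : 0 ≤ M := Real.rpow_nonneg (by positivity) _
    have hden : 0 < N * M + 1 := by positivity
    set η : ℝ := min 1 (ε' / (N * M + 1)) with hη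
    have hη0 : 0 < η := lt_min one_pos (div_pos hε' hden)
    have hη1 : η ≤ 1 := min_le_left _ _
    refine ⟨η, hη0, hη1, ?_⟩
    have hb : betac ν d (η ^ 2 / 5) = B := by unfold betac; rw [if_pos h]
    rw [hb]
    have h2 : (2 * (c₀ * B ^ ν⁻¹ + η) * η) ^ ν ≤ M := by
      refine Real.rpow_le_rpow (by positivity) ?_ h0.le
      have h3 : 0 ≤ c₀ * B ^ ν⁻¹ := by positivity
      nlinarith
    have h4 : η * (N * M + 1) ≤ ε' := by
      have := min_le_right 1 (ε' / (N * M + 1))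
      rwa [← hη, le_div_iff₀ hden] at this
    calc (N : ℝ) * (η * (2 * (c₀ * B ^ ν⁻¹ + η) * η) ^ ν) ≤ N * (η * M) := by gcongr
      _ ≤ η * (N * M + 1) := by nlinarith
      _ ≤ ε' := h4
  · have hν : ν < 1 / 2 := not_le.1 h
    set C : ℝ := N * ((2 * (c₀ + 1)) ^ ν * 5 ^ (1 / 2 - ν)) with hC
    have hC0 : 0 ≤ C := by positivity
    set δ : ℝ := (ε' / (C + 1)) ^ (1 / (3 * ν)) with hδ
    have hq : 0 < ε' / (C + 1) := by positivity
    have hδ0 : 0 < δ := Real.rpow_pos_of_pos hq _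
    set η : ℝ := min 1 δ with hη
    have hη0 : 0 < η := lt_min one_pos hδ0
    have hη1 : η ≤ 1 := min_le_left _ _
    refine ⟨η, hη0, hη1, ?_⟩
    have hb : betac ν d (η ^ 2 / 5) = (η ^ 2 / 5) ^ (ν - 1 / 2) := by
      unfold betac; rw [if_neg h]
    rw [hb]
    have hx0 : 0 < η ^ 2 / 5 := by positivity
    have hx1 : η ^ 2 / 5 ≤ 1 := by nlinarith
    set x : ℝ := η ^ 2 / 5 with hx
    set β : ℝ := x ^ (ν - 1 / 2) with hβ
    have hβ1 : 1 ≤ β := Real.one_le_rpow_of_pos_of_le_one_of_nonpos hx0 hx1 (by linarith)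
    have hβr : 1 ≤ β ^ ν⁻¹ := Real.one_le_rpow hβ1 (by positivity)
    have h2 : (2 * (c₀ * β ^ ν⁻¹ + η) * η) ^ ν ≤ (2 * (c₀ + 1)) ^ ν * (β * η ^ ν) := by
      have e1 : (2 * (c₀ + 1)) ^ ν * (β * η ^ ν) = (2 * ((c₀ + 1) * β ^ ν⁻¹) * η) ^ ν := by
        have hβ0 : 0 ≤ β := by linarith
        have q : (β ^ ν⁻¹) ^ ν = β := by
          rw [← Real.rpow_mul hβ0, inv_mul_cancel₀ h0.ne', Real.rpow_one]
        have q0 : 0 ≤ β ^ ν⁻¹ := by linarith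
        have q1 : 0 ≤ 2 * (c₀ + 1) := by positivity
        rw [← mul_assoc 2, Real.mul_rpow (mul_nonneg q1 q0) hη0.le, Real.mul_rpow q1 q0, q]
        ring
      rw [e1]
      refine Real.rpow_le_rpow (by positivity) ?_ h0.le
      have : c₀ * β ^ ν⁻¹ + η ≤ (c₀ + 1) * β ^ ν⁻¹ := by nlinarith
      gcongr
    have h3 : η * (β * η ^ ν) = 5 ^ (1 / 2 - ν) * η ^ (3 * ν) := by
      have e1 : β = η ^ (2 * (ν - 1 / 2)) * 5 ^ (1 / 2 - ν) := by
        rw [hβ, hx, Real.div_rpow (by positivity) (by norm_num), ← Real.rpow_natCast η 2,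
          ← Real.rpow_mul hη0.le, div_eq_mul_inv, ← Real.rpow_neg (by norm_num)]
        norm_num
      have e2 : η ^ (3 * ν) = η * (η ^ (2 * (ν - 1 / 2)) * η ^ ν) := by
        rw [← Real.rpow_add hη0]
        nth_rewrite 2 [← Real.rpow_one η]
        rw [← Real.rpow_add hη0]
        congr 1
        ring
      rw [e2, e1]
      ring
    have h4 : η ^ (3 * ν) ≤ ε' / (C + 1) := by
      have : η ^ (3 * ν) ≤ δ ^ (3 * ν) :=
        Real.rpow_le_rpow hη0.le (min_le_right _ _) (by positivity)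
      refine this.trans ?_
      rw [hδ, ← Real.rpow_mul hq.le]
      have : 1 / (3 * ν) * (3 * ν) = 1 := by field_simp
      rw [this, Real.rpow_one]
    calc (N : ℝ) * (η * (2 * (c₀ * β ^ ν⁻¹ + η) * η) ^ ν)
        ≤ N * (η * ((2 * (c₀ + 1)) ^ ν * (β * η ^ ν))) := by gcongr
      _ = N * ((2 * (c₀ + 1)) ^ ν * (η * (β * η ^ ν))) := by ring
      _ = C * η ^ (3 * ν) := by rw [h3, hC]; ring
      _ ≤ C * (ε' / (C + 1)) := by gcongr
      _ ≤ ε' := by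
        rw [← mul_div_assoc, div_le_iff₀ (by positivity)]
        nlinarith

end Crest.Agent.R332
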